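import Crest.Agent.R51.Growth0

/-! The additive structure of a dense set with three small projections. -/

namespace Crest.Agent.R51

open Finset
open scoped Classical Pointwise

theorem addMain0_aux {S A' T : Finset ℤ} {R : ℕ} (hR : 1 ≤ R)
    (hT : ∀ a ∈ A', ∀ b ∈ S + S, |b| ≤ (R : ℤ) → a + b ∈ T) :
    #(A'.image fun a => a / (R : ℤ)) * bb S R ≤ 3 * #T := by
  have hR0 : (0 : ℤ) < R := by exact_mod_cast hR
  have hch : ∀ n ∈ A'.image fun a => a / (R : ℤ), ∃ a ∈ A', a / (R : ℤ) = n := fun n hn =>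
    mem_image.1 hn
  choose! rep hrep hrep' using hch
  unfold bb
  rw [← card_product]
  refine card_le_mul_card_image_of_maps_to (f := fun γ : ℤ × ℤ => rep γ.1 + γ.2) ?_ 3 ?_
  · intro γ hγ
    obtain ⟨h1, h2⟩ := mem_product.1 hγ
    exact hT _ (hrep _ h1) _ (mem_filter.1 h2).1 (mem_filter.1 h2).2
  · intro z _
    have : #(Icc (z / (R : ℤ) - 1) (z / (R : ℤ) + 1)) = 3 := by
      rw [Int.card_Icc]; omega
    rw [← this]
    refine card_le_card_of_injOn Prod.fst ?_ ?_
    · intro γ hγ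
      obtain ⟨hγ, hz⟩ := mem_filter.1 (mem_coe.1 hγ)
      obtain ⟨h1, h2⟩ := mem_product.1 hγ
      have h3 := abs_le.1 (mem_filter.1 h2).2
      have e1 : (z + (-1) * R) / (R : ℤ) = z / R + (-1) := Int.add_mul_ediv_right _ _ hR0.ne'
      have e2 : (z + 1 * R) / (R : ℤ) = z / R + 1 := Int.add_mul_ediv_right _ _ hR0.ne'
      have e3 : (z + (-1) * R) / (R : ℤ) ≤ rep γ.1 / R := Int.ediv_le_ediv hR0 (by linarith)
      have e4 : rep γ.1 / R ≤ (z + 1 * R) / (R : ℤ) := Int.ediv_le_ediv hR0 (by linarith)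
      rw [hrep' _ h1] at e3 e4
      exact mem_coe.2 (mem_Icc.2 ⟨by linarith, by linarith⟩)
    · intro γ hγ γ' hγ' h
      have h1 := (mem_filter.1 (mem_coe.1 hγ)).2
      have h2 := (mem_filter.1 (mem_coe.1 hγ')).2
      refine Prod.ext h ?_
      rw [h] at h1
      linarith

/-- The number of intervals of length `R` that meet a set `A' ⊆ A` contained in an interval of length `ρ ≥ R`.  Choose one element `a` of `A'`
in each occupied interval `⌊a / R⌋ = n`, with `n` in a fixed residue class mod `4`; the sets `a + (S + S) ∩ [-R, R]` are disjoint subsets of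
`F + S` in an interval of length `3 ρ`, which contains at most `3 #F · bb S ρ` elements (`card_cover_le`, three intervals). -/
theorem card_image_div_le {S A F : Finset ℤ} (hS : ∀ s ∈ S, -s ∈ S) (hF : A + (S + S) ⊆ F + S)
    {R ρ : ℕ} (hR : 1 ≤ R) (hρ : R ≤ ρ) {A' : Finset ℤ} (hA' : A' ⊆ A) (u : ℤ)
    (hu : ∀ a ∈ A', u ≤ a ∧ a ≤ u + ρ) :
    #(A'.image fun a => a / (R : ℤ)) * bb S R ≤ 12 * #F * bb S ρ := by
  have hρ' : (R : ℤ) ≤ ρ := by exact_mod_cast hρ
  have h := addMain0_aux (S := S) (A' := A') (R := R)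
    (T := ((F + S).filter fun a => u - ρ ≤ a ∧ a ≤ u - ρ + ρ) ∪
      ((F + S).filter fun a => u ≤ a ∧ a ≤ u + ρ) ∪
      ((F + S).filter fun a => u + ρ ≤ a ∧ a ≤ u + ρ + ρ)) hR (by
    intro a ha b hb hb'
    have h1 : a + b ∈ F + S := hF (add_mem_add (hA' ha) hb)
    have h2 := hu a ha
    have h3 := abs_le.1 hb'
    simp only [mem_union, mem_filter, h1, true_and]
    omega)
  have c1 := card_cover_le hS (subset_refl (F + S)) (u - ρ) ρ
  have c2 := card_cover_le hS (subset_refl (F + S)) u ρ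
  have c3 := card_cover_le hS (subset_refl (F + S)) (u + ρ) ρ
  have c4 := (card_union_le _ _).trans (Nat.add_le_add ((card_union_le _ _).trans
    (Nat.add_le_add c1 c2)) c3)
  refine h.trans ?_
  rw [mul_assoc 12]
  omega

/-- The same without the restriction to an interval. -/
theorem card_image_div_le' {S A F : Finset ℤ} (hF : A + (S + S) ⊆ F + S) {R : ℕ} (hR : 1 ≤ R) :
    #(A.image fun a => a / (R : ℤ)) * bb S R ≤ 4 * #F * #S := by
  have h := addMain0_aux (S := S) (A' := A) (R := R) (T := F + S) hR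
    fun a ha b hb _ => hF (add_mem_add ha hb)
  have c : #(F + S) ≤ #F * #S := card_add_le
  refine h.trans ?_
  rw [mul_assoc 4]
  omega

end Crest.Agent.R51
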