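import Crest.Agent.R51.Defs

/-! Approximate groups of integers grow at least linearly at all but boundedly many scales. -/

namespace Crest.Agent.R51

open Finset
open scoped Classical Pointwise

variable {S X : Finset ℤ}

theorem bb_mono (S : Finset ℤ) : Monotone (bb S) := by
  intro r r' h
  unfold bb
  refine card_le_card fun z hz => ?_
  rw [mem_filter] at hz ⊢
  exact ⟨hz.1, hz.2.trans (by exact_mod_cast h)⟩

theorem bb_le (S : Finset ℤ) (r : ℕ) : bb S r ≤ 2 * r + 1 := by
  unfold bb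
  have : ((S + S).filter fun x : ℤ => |x| ≤ (r : ℤ)) ⊆ Icc (-(r : ℤ)) r := fun z hz =>
    mem_Icc.2 (abs_le.1 (mem_filter.1 hz).2)
  refine (card_le_card this).trans ?_
  rw [Int.card_Icc]
  omega

theorem bb_succ_le (S : Finset ℤ) (r : ℕ) : bb S (r + 1) ≤ bb S r + 2 := by
  unfold bb
  have : ((S + S).filter fun x : ℤ => |x| ≤ ((r + 1 : ℕ) : ℤ)) ⊆
      ((S + S).filter fun x : ℤ => |x| ≤ (r : ℤ)) ∪ {(r : ℤ) + 1, -((r : ℤ) + 1)} := by
    intro z hz
    rw [mem_filter, abs_le] at hz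
    simp only [mem_union, mem_filter, mem_insert, mem_singleton, abs_le]
    by_cases h : -(r : ℤ) ≤ z ∧ z ≤ r
    · exact Or.inl ⟨hz.1, h⟩
    · right; push_cast at hz; omega
  refine (card_le_card this).trans ((card_union_le _ _).trans ?_)
  exact Nat.add_le_add_left card_le_two _

/-- If `bb` jumps at `r + 1` then `r + 1 ∈ S + S` (symmetry). -/
theorem mem_of_bb_lt (hS : ∀ s ∈ S, -s ∈ S) {r : ℕ} (h : bb S r < bb S (r + 1)) :
    ((r + 1 : ℕ) : ℤ) ∈ S + S := by
  by_contra hn
  refine absurd h (not_lt.2 ?_)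
  unfold bb
  refine card_le_card fun z hz => ?_
  rw [mem_filter, abs_le] at hz ⊢
  refine ⟨hz.1, ?_⟩
  have h1 : z ≠ ((r + 1 : ℕ) : ℤ) := fun e => hn (e ▸ hz.1)
  have h2 : z ≠ -((r + 1 : ℕ) : ℤ) := by
    intro e
    obtain ⟨a, ha, b, hb, hab⟩ := mem_add.1 hz.1
    exact hn (mem_add.2 ⟨-a, hS a ha, -b, hS b hb, by linarith⟩)
  push_cast at hz h1 h2
  omega

/-- A translate of `S` has at most `bb S r` elements in an interval of length `r` (differences to a fixed one). -/
theorem card_transl_le (hS : ∀ s ∈ S, -s ∈ S) (t u : ℤ) (r : ℕ) :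
    #(S.filter fun s => u ≤ t + s ∧ t + s ≤ u + r) ≤ bb S r := by
  rcases (S.filter fun s => u ≤ t + s ∧ t + s ≤ u + r).eq_empty_or_nonempty with h | ⟨s₀, hs₀⟩
  · rw [h]; simp
  unfold bb
  rw [mem_filter] at hs₀
  refine card_le_card_of_injOn (fun s => s + -s₀) ?_ ?_
  · intro s hs
    have hs' := mem_filter.1 (mem_coe.1 hs)
    refine mem_coe.2 (mem_filter.2 ⟨add_mem_add hs'.1 (hS _ hs₀.1), abs_le.2 ⟨?_, ?_⟩⟩)
    · linarith [hs'.2.1, hs₀.2.2]
    · linarith [hs'.2.2, hs₀.2.1]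
  · intro a _ b _ h
    simpa using h

/-- A set covered by translates of `S` has few elements in an interval. -/
theorem card_cover_le (hS : ∀ s ∈ S, -s ∈ S) {A F : Finset ℤ} (hA : A ⊆ F + S) (u : ℤ) (r : ℕ) :
    #(A.filter fun a => u ≤ a ∧ a ≤ u + r) ≤ #F * bb S r := by
  have : (A.filter fun a => u ≤ a ∧ a ≤ u + r) ⊆
      F.biUnion fun t => (S.filter fun s => u ≤ t + s ∧ t + s ≤ u + r).image fun s => t + s := by
    intro a ha
    rw [mem_filter] at ha
    obtain ⟨t, ht, s, hs, rfl⟩ := mem_add.1 (hA ha.1)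
    exact mem_biUnion.2 ⟨t, ht, mem_image.2 ⟨s, mem_filter.2 ⟨hs, ha.2⟩, rfl⟩⟩
  refine (card_le_card this).trans (card_biUnion_le_card_mul _ _ _ fun t _ => ?_)
  exact card_image_le.trans (card_transl_le hS t u r)

theorem growth0_card_nsmul (X : Finset ℤ) (n : ℕ) : #(n • X) ≤ (n + 1) ^ #X := by
  have h : ∀ n : ℕ, n • X ⊆ (Fintype.piFinset fun _ : X => range (n + 1)).image
      fun c => ∑ x : X, (c x : ℤ) * (x : ℤ) := by
    intro n
    induction n with
    | zero =>
      intro z hz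
      rw [zero_nsmul, mem_zero] at hz
      exact mem_image.2 ⟨fun _ => 0, by simp, by simp [hz]⟩
    | succ n ih =>
      intro z hz
      rw [succ_nsmul] at hz
      obtain ⟨y, hy, x, hx, rfl⟩ := mem_add.1 hz
      obtain ⟨c, hc, rfl⟩ := mem_image.1 (ih hy)
      refine mem_image.2 ⟨fun t => c t + if t = ⟨x, hx⟩ then 1 else 0, ?_, ?_⟩
      · rw [Fintype.mem_piFinset] at hc ⊢
        intro t
        have := mem_range.1 (hc t)
        rw [mem_range]
        split_ifs <;> omega
      · simp only [Nat.cast_add, Nat.cast_ite, Nat.cast_one, Nat.cast_zero, add_mul, ite_mul,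
          one_mul, zero_mul, sum_add_distrib, sum_ite_eq', mem_univ, if_true]
  refine (card_le_card (h n)).trans (card_image_le.trans ?_)
  simp

/-- `n • S ⊆ (n - 1) • X + S`, and `#(n • X) ≤ (n + 1) ^ #X` (an element of `n • X` is `∑ x ∈ X, c x * x` with `c x ≤ n`; or use
induction on `X`). -/
theorem card_nsmul_le (hX : S + S ⊆ X + S) (n : ℕ) : #((n + 1) • S) ≤ (n + 1) ^ #X * #S := by
  have h1 : ∀ n : ℕ, (n + 1) • S ⊆ n • X + S := by
    intro n
    induction n with
    | zero => simp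
    | succ n ih =>
      calc (n + 1 + 1) • S = (n + 1) • S + S := succ_nsmul _ _
        _ ⊆ n • X + S + S := add_subset_add_right ih
        _ = n • X + (S + S) := add_assoc _ _ _
        _ ⊆ n • X + (X + S) := add_subset_add_left hX
        _ = (n + 1) • X + S := by rw [succ_nsmul, add_assoc]
  exact (card_le_card (h1 n)).trans (card_add_le.trans
    (Nat.mul_le_mul_right _ (growth0_card_nsmul X n)))

/-- A separated subset: the intervals `[n ρ, (n + 1) ρ)` contain at most `#X · bb S ρ` elements of `S + S` each (`card_cover_le`);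
choose one element of `A` in each occupied interval with `n` in the best residue class mod `3`. -/
theorem exists_separated (hS : ∀ s ∈ S, -s ∈ S) (hX : S + S ⊆ X + S) {A : Finset ℤ}
    (hA : A ⊆ S + S) {ρ : ℕ} (hρ : 1 ≤ ρ) : ∃ V ⊆ A, #A ≤ 3 * #X * bb S ρ * #V ∧
      ∀ v ∈ V, ∀ v' ∈ V, v < v' → v + 2 * ρ < v' := by
  have hρ' : (0 : ℤ) < ρ := by exact_mod_cast hρ
  have hb : ∀ a : ℤ, a / (ρ : ℤ) * ρ ≤ a ∧ a < a / (ρ : ℤ) * ρ + ρ := by
    intro a
    have h1 := Int.emod_add_mul_ediv a ρ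
    have h2 := Int.emod_nonneg a hρ'.ne'
    have h3 := Int.emod_lt_of_pos a hρ'
    constructor <;> nlinarith
  set I := A.image fun a => a / (ρ : ℤ) with hI
  have h1 : #A ≤ #X * bb S ρ * #I := by
    refine card_le_mul_card_image _ _ fun q _ => ?_
    refine le_trans (card_le_card ?_) (card_cover_le hS (hA.trans hX) (q * ρ) ρ)
    intro a ha
    rw [mem_filter] at ha ⊢
    have := hb a
    rw [ha.2] at this
    exact ⟨ha.1, this.1, this.2.le⟩
  obtain ⟨j, -, hj⟩ := exists_max_image (range 3) (fun j : ℕ => #(I.filter fun q => (q % 3).toNat = j))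
    ⟨0, by simp⟩
  have h2 : #I ≤ #(I.filter fun q => (q % 3).toNat = j) * 3 := by
    have := card_le_mul_card_image_of_maps_to (s := I) (t := range 3) (f := fun q : ℤ => (q % 3).toNat)
      (fun q _ => by rw [mem_range]; omega) _ hj
    simpa using this
  have hch : ∀ q ∈ I, ∃ a ∈ A, a / (ρ : ℤ) = q := fun q hq => mem_image.1 hq
  choose! f hfA hfq using hch
  set I' := I.filter fun q => (q % 3).toNat = j with hI'
  have hI'I : ∀ q ∈ I', q ∈ I := fun q hq => (mem_filter.1 hq).1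
  refine ⟨I'.image f, ?_, ?_, ?_⟩
  · intro v hv
    obtain ⟨q, hq, rfl⟩ := mem_image.1 hv
    exact hfA q (hI'I q hq)
  · rw [card_image_of_injOn]
    · calc #A ≤ #X * bb S ρ * #I := h1
        _ ≤ #X * bb S ρ * (#I' * 3) := Nat.mul_le_mul_left _ h2
        _ = _ := by ring
    · intro q hq q' hq' h
      rw [← hfq q (hI'I q hq), ← hfq q' (hI'I q' hq'), h]
  · intro v hv v' hv' hlt
    obtain ⟨q, hq, rfl⟩ := mem_image.1 hv
    obtain ⟨q', hq', rfl⟩ := mem_image.1 hv'
    have e1 := hb (f q)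
    have e2 := hb (f q')
    rw [hfq q (hI'I q hq)] at e1
    rw [hfq q' (hI'I q' hq')] at e2
    have hne : q ≠ q' := fun e => by rw [e] at hlt; exact lt_irrefl _ hlt
    have hle : q ≤ q' := by
      by_contra hc
      have : q' + 1 ≤ q := by omega
      nlinarith [e1.1, e2.2]
    have m1 := (mem_filter.1 hq).2
    have m2 := (mem_filter.1 hq').2
    have h3 : q + 3 ≤ q' := by omega
    nlinarith [e1.2, e2.1]

end Crest.Agent.R51
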