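import Crest.Agent.R51.Defs
import Crest.Agent.R51.Growth0

/-! Approximate groups of integers grow at least linearly at all but boundedly many scales. -/

namespace Crest.Agent.R51

open Finset
open scoped Classical Pointwise

variable {S X : Finset ℤ}

theorem growth_direct {D V : Finset ℤ} {ρ : ℕ} (hD : ∀ d ∈ D, |d| ≤ ρ)
    (hV : ∀ v ∈ V, ∀ v' ∈ V, v < v' → v + 2 * ρ < v') : #(D + V) = #D * #V := by
  rw [card_add_iff]
  rintro ⟨d, v⟩ h ⟨d', v'⟩ h' e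
  simp only [Set.mem_prod, mem_coe] at h h' e
  have h1 := abs_le.1 (hD d h.1)
  have h2 := abs_le.1 (hD d' h'.1)
  have : v = v' := by
    rcases lt_trichotomy v v' with hv | hv | hv
    · have := hV v h.2 v' h'.2 hv
      omega
    · exact hv
    · have := hV v' h'.2 v h.2 hv
      omega
  subst this
  rw [add_right_cancel e]

theorem growth_bb_pos (h0 : 0 ∈ S) (r : ℕ) : 1 ≤ bb S r :=
  card_pos.2 ⟨0, mem_filter.2 ⟨by simpa using add_mem_add h0 h0, by simp⟩⟩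

theorem growth_J (h0 : 0 ∈ S) {x J r : ℕ} (hx : 1 ≤ x) (h : 60 * x * bb S (J * r) ≤ J * bb S r) :
    60 ≤ J := by
  have h1 := growth_bb_pos h0 (J * r)
  have h2 := growth_bb_pos h0 r
  have hJ : 1 ≤ J := by
    rcases Nat.eq_zero_or_pos J with rfl | hJ
    · have : 60 * 1 * 1 ≤ 60 * x * bb S (0 * r) := by gcongr
      omega
    · exact hJ
  have h3 : bb S r ≤ bb S (J * r) := bb_mono S (Nat.le_mul_of_pos_left r hJ)
  have h4 : 60 * 1 * bb S r ≤ 60 * x * bb S (J * r) := by gcongr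
  exact Nat.le_of_mul_le_mul_right (by omega) h2

theorem growth_mul_mem (h0 : 0 ∈ S) {r : ℤ} (hr : r ∈ S + S) {i n : ℕ} (h : 2 * i ≤ n) :
    (i : ℤ) * r ∈ n • S := by
  have h1 : i • r ∈ i • (S + S) := nsmul_mem_nsmul hr
  rw [← two_nsmul, ← mul_nsmul, nsmul_eq_mul] at h1
  exact nsmul_subset_nsmul_right h0 h h1

theorem growth_ind {x : ℕ} (hx : 1 ≤ x) (J : ℕ) (h0 : 0 ∈ S) (hS : ∀ s ∈ S, -s ∈ S) (hX : #X ≤ x)
    (hSX : S + S ⊆ X + S) (Rs : Finset ℕ)
    (h1 : ∀ r ∈ Rs, 1 ≤ r ∧ (r : ℤ) ∈ S + S ∧ 60 * x * bb S (J * r) ≤ J * bb S r)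
    (h2 : ∀ r ∈ Rs, ∀ r' ∈ Rs, r < r' → J * r ≤ r') :
    ∃ (D : Finset ℤ) (ρ : ℕ), 1 ≤ ρ ∧ D ⊆ (2 + #Rs * (10 * J + 2)) • S ∧ (∀ d ∈ D, |d| ≤ ρ) ∧
      2 ^ #Rs * bb S ρ ≤ #D ∧ ∀ r', 1 ≤ r' → (∀ r ∈ Rs, J * r ≤ r') → ρ ≤ r' := by
  induction Rs using Finset.induction_on_max with
  | empty =>
    refine ⟨(S + S).filter fun x : ℤ => |x| ≤ ((1 : ℕ) : ℤ), 1, le_rfl, ?_,
      fun d hd => (mem_filter.1 hd).2, by simp [bb], fun r' h _ => h⟩
    rw [card_empty, zero_mul, add_zero, two_nsmul]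
    exact filter_subset _ _
  | insert r Rs hr ih =>
    obtain ⟨D, ρ, hρ, hD, hDρ, hc, hm⟩ := ih (fun r h => h1 r (mem_insert_of_mem h))
      fun r h r' h' => h2 r (mem_insert_of_mem h) r' (mem_insert_of_mem h')
    obtain ⟨hr1, hrS, hrb⟩ := h1 r (mem_insert_self _ _)
    have hρr : ρ ≤ r := hm r hr1 fun r' h' =>
      h2 r' (mem_insert_of_mem h') r (mem_insert_self _ _) (hr r' h')
    have hJ := growth_J h0 hx hrb
    obtain ⟨V, hV, hVc, hVs⟩ := exists_separated hS hSX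
      (filter_subset (fun x : ℤ => |x| ≤ (r : ℤ)) (S + S)) hρ
    set ν := (J + 3) / 5 with hν
    set P : Finset ℤ := (range ν).image fun i : ℕ => ((5 * i : ℕ) : ℤ) * r with hP
    have hr0 : (0 : ℤ) < r := by exact_mod_cast hr1
    have hPc : #P = ν := by
      rw [hP, card_image_of_injective, card_range]
      intro i j e
      have := mul_right_cancel₀ hr0.ne' e
      omega
    have hDV : ∀ e ∈ D + V, |e| ≤ ((2 * r : ℕ) : ℤ) := by
      intro e he
      obtain ⟨d, hd, v, hv, rfl⟩ := mem_add.1 he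
      have a1 := hDρ d hd
      have a2 := (mem_filter.1 (hV hv)).2
      have a3 := abs_add_le d v
      omega
    have hcard : #(D + V + P) = #D * #V * ν := by
      rw [growth_direct hDV, growth_direct hDρ hVs, hPc]
      intro v hv v' hv' hlt
      obtain ⟨i, -, rfl⟩ := mem_image.1 hv
      obtain ⟨j, -, rfl⟩ := mem_image.1 hv'
      have hij : 5 * i + 5 ≤ 5 * j := by
        have := lt_of_mul_lt_mul_right hlt hr0.le
        omega
      have : ((5 * i + 5 : ℕ) : ℤ) * r ≤ ((5 * j : ℕ) : ℤ) * r := by gcongr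
      push_cast at this ⊢
      linarith
    have hcI : #(insert r Rs) = #Rs + 1 := card_insert_of_notMem fun h => lt_irrefl _ (hr r h)
    refine ⟨D + V + P, J * r, Nat.mul_pos (by omega) hr1, ?_, ?_, ?_,
      fun r' _ h => h r (mem_insert_self _ _)⟩
    · rw [hcI, show 2 + (#Rs + 1) * (10 * J + 2) = 2 + #Rs * (10 * J + 2) + 2 + 10 * J by ring,
        add_nsmul, add_nsmul _ _ 2, two_nsmul]
      refine add_subset_add (add_subset_add hD (hV.trans (filter_subset _ _))) fun v hv => ?_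
      obtain ⟨i, hi, rfl⟩ := mem_image.1 hv
      have := mem_range.1 hi
      exact growth_mul_mem h0 hrS (by omega)
    · intro e he
      obtain ⟨d, hd, v, hv, rfl⟩ := mem_add.1 he
      obtain ⟨i, hi, rfl⟩ := mem_image.1 hv
      have a1 := abs_le.1 (hDV d hd)
      have a2 : 5 * i + 2 ≤ J := by
        have := mem_range.1 hi
        omega
      have a3 : ((5 * i + 2 : ℕ) : ℤ) * r ≤ (J : ℤ) * r := by gcongr
      have a4 : (0 : ℤ) ≤ ((5 * i : ℕ) : ℤ) * r := by positivity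
      rw [abs_le]
      push_cast at a1 a3 a4 ⊢
      constructor <;> linarith [a1.1, a1.2]
    · rw [hcard, hcI]
      have a1 : bb S r ≤ 3 * x * bb S ρ * #V := le_trans hVc (by gcongr)
      have a2 : J ≤ 10 * ν := by omega
      have a3 : 30 * x * (2 * bb S (J * r)) ≤ 30 * x * (bb S ρ * #V * ν) := by
        calc 30 * x * (2 * bb S (J * r)) = 60 * x * bb S (J * r) := by ring
          _ ≤ J * bb S r := hrb
          _ ≤ 10 * ν * (3 * x * bb S ρ * #V) := by gcongr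
          _ = _ := by ring
      have a4 := Nat.le_of_mul_le_mul_left a3 (by omega)
      calc 2 ^ (#Rs + 1) * bb S (J * r) = 2 ^ #Rs * (2 * bb S (J * r)) := by ring
        _ ≤ 2 ^ #Rs * (bb S ρ * #V * ν) := by gcongr
        _ = 2 ^ #Rs * bb S ρ * #V * ν := by ring
        _ ≤ _ := by gcongr

theorem growth_exp (a c x : ℕ) (ha : 1 ≤ a) :
    ∃ s₀ : ℕ, ∀ t, 2 ^ t ≤ a * (t * c + 4) ^ x → t ≤ s₀ := by
  have h := tendsto_pow_const_div_const_pow_of_one_lt x (r := 2) one_lt_two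
  have hpos : (0 : ℝ) < 1 / (a * (c + 4) ^ x) := by positivity
  obtain ⟨N, hN⟩ := Filter.eventually_atTop.1 (h.eventually (gt_mem_nhds hpos))
  refine ⟨N + 1, fun t ht => ?_⟩
  by_contra hlt
  have h1 := hN t (by omega)
  have h2 : 2 ^ t ≤ t ^ x * (a * (c + 4) ^ x) := by
    refine ht.trans ?_
    rw [mul_left_comm, ← mul_pow]
    gcongr
    have : 4 * 1 ≤ 4 * t := by omega
    nlinarith
  rw [div_lt_div_iff₀ (by positivity) (by positivity), one_mul] at h1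
  have h3 : (2 : ℝ) ^ t ≤ t ^ x * (a * (c + 4) ^ x) := by exact_mod_cast h2
  linarith

/-- The growth lemma, with `φ = 60 x`.  Note `J ≥ φ` if `Rs` is nonempty.  Let `r₁ < … < r_s` be the elements of `Rs`.  By induction there
is `D_t ⊆ (t (10 J + 12)) • S` with `D_t ⊆ [-J r_t, J r_t]` and `#D_t ≥ 2 ^ t · bb (J r_t)`: with `ρ = J r_{t-1} ≤ r_t` (for `t = 1` take
`D₀ = (S + S) ∩ [-1, 1]`, `ρ = 1`), let `V ⊆ (S + S) ∩ [-r_t, r_t]` be separated (`exists_separated`); the sum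
`D_{t-1} + V + {0, 5 r_t, …, 5 (ν - 1) r_t}`, `ν = (J + 3) / 5 ≥ J / 10`, is direct and has at least
`2 ^ (t-1) · bb r_t / (3 x) · J / 10 ≥ 2 ^ t · bb (J r_t)` elements (`0 ∈ S` makes `n • S` monotone in `n`).  Finally add a separated subset of
`S + S`: `2 ^ s #S ≤ 3 x · #(j • S) ≤ 3 x j ^ x #S` with `j = s (10 J + 12) + 4`, which bounds `s`.  (Induct on the finset with
`Finset.induction_on_max`.) -/
theorem growth (x : ℕ) (hx : 1 ≤ x) (J : ℕ) : ∃ s₀ : ℕ, ∀ (S X : Finset ℤ), 0 ∈ S →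
    (∀ s ∈ S, -s ∈ S) → #X ≤ x → S + S ⊆ X + S → ∀ Rs : Finset ℕ,
      (∀ r ∈ Rs, 1 ≤ r ∧ (r : ℤ) ∈ S + S ∧ 60 * x * bb S (J * r) ≤ J * bb S r) →
      (∀ r ∈ Rs, ∀ r' ∈ Rs, r < r' → J * r ≤ r') → #Rs ≤ s₀ := by
  obtain ⟨s₀, hs₀⟩ := growth_exp (3 * x) (10 * J + 2) x (by omega)
  refine ⟨s₀, fun S X h0 hS hX hSX Rs h1 h2 => hs₀ _ ?_⟩
  obtain ⟨D, ρ, hρ, hD, hDρ, hc, -⟩ := growth_ind hx J h0 hS hX hSX Rs h1 h2
  obtain ⟨V, hV, hVc, hVs⟩ := exists_separated hS hSX (Subset.refl (S + S)) hρ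
  have a1 : D + V ⊆ (#Rs * (10 * J + 2) + 3 + 1) • S := by
    rw [show #Rs * (10 * J + 2) + 3 + 1 = 2 + #Rs * (10 * J + 2) + 2 by ring, add_nsmul _ _ 2,
      two_nsmul]
    exact add_subset_add hD hV
  have a2 := (card_le_card a1).trans (card_nsmul_le hSX _)
  rw [growth_direct hDρ hVs] at a2
  have a3 : #S ≤ #(S + S) := card_le_card_add_left ⟨0, h0⟩
  refine Nat.le_of_mul_le_mul_right ?_ (card_pos.2 ⟨0, h0⟩)
  calc 2 ^ #Rs * #S ≤ 2 ^ #Rs * (3 * x * bb S ρ * #V) := by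
        gcongr
        exact a3.trans (hVc.trans (by gcongr))
    _ = 3 * x * (2 ^ #Rs * bb S ρ * #V) := by ring
    _ ≤ 3 * x * (#D * #V) := by gcongr
    _ ≤ 3 * x * ((#Rs * (10 * J + 2) + 4) ^ x * #S) := by
        refine Nat.mul_le_mul_left _ (a2.trans ?_)
        gcongr
        omega
    _ = _ := by ring

/-- The growth lemma on mass scales.  For a level `k` let `r k` be the least `r` with `T / Y ^ k ≤ bb S r` (it exists as
`T ≤ #S ≤ #(S + S)`); `r k ≥ 2` by `bb_le`, `bb (r k) ≤ T / Y ^ k + 2 ≤ 2 T / Y ^ k` by `bb_succ_le`, `r k ∈ S + S`.  A level is bad if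
`60 x · bb (J r k) ≤ J · bb (r k)`.  If `k < k'` and `k'` is bad then `bb (J r k') ≤ 2 J T / (60 x Y ^ k') < T / Y ^ k`, so `J r k' < r k`; hence `r` is
injective on the bad levels and `growth` applies. -/
theorem growth_levels (x : ℕ) (hx : 1 ≤ x) (J : ℕ) : ∃ s₀ : ℕ, ∀ (S X : Finset ℤ), 0 ∈ S →
    (∀ s ∈ S, -s ∈ S) → #X ≤ x → S + S ⊆ X + S → ∀ (Y T : ℝ) (Lv : ℕ), (J : ℝ) ≤ Y → 1 ≤ Y →
      4 * Y ^ Lv ≤ T → T ≤ #S → ∃ Bad : Finset ℕ, #Bad ≤ s₀ ∧ ∀ k, 1 ≤ k → k ≤ Lv → k ∉ Bad →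
        ∃ r : ℕ, 2 ≤ r ∧ T / Y ^ k ≤ bb S r ∧ (bb S r : ℝ) ≤ 2 * T / Y ^ k ∧
          J * bb S r ≤ 60 * x * bb S (J * r) := by
  obtain ⟨s₀, hs₀⟩ := growth x hx J
  refine ⟨s₀, fun S X h0 hS hX hSX Y T Lv hJY hY hT hTS => ?_⟩
  have hY0 : 0 < Y := by linarith
  have hT0 : 0 < T := lt_of_lt_of_le (by positivity) hT
  have hex : ∀ k : ℕ, ∃ r : ℕ, T / Y ^ k ≤ bb S r := fun k => by
    refine ⟨(S + S).sup Int.natAbs, (div_le_self hT0.le (one_le_pow₀ hY)).trans (hTS.trans ?_)⟩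
    have e : bb S ((S + S).sup Int.natAbs) = #(S + S) := by
      rw [bb, filter_true_of_mem]
      intro z hz
      rw [Int.abs_eq_natAbs]
      exact_mod_cast le_sup (f := Int.natAbs) hz
    rw [e]
    exact_mod_cast card_le_card_add_left ⟨0, h0⟩
  set r : ℕ → ℕ := fun k => Nat.find (hex k) with hr
  have h1 : ∀ k, T / Y ^ k ≤ bb S (r k) := fun k => Nat.find_spec (hex k)
  have h2 : ∀ k ≤ Lv, 2 ≤ r k ∧ (bb S (r k) : ℝ) ≤ 2 * T / Y ^ k ∧ (r k : ℤ) ∈ S + S := by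
    intro k hk
    have h4 : 4 ≤ T / Y ^ k := by
      rw [le_div_iff₀ (by positivity)]
      exact le_trans (by gcongr) hT
    have h5 : 2 ≤ r k := by
      have a1 : (4 : ℝ) ≤ bb S (r k) := h4.trans (h1 k)
      have a2 : 4 ≤ bb S (r k) := by exact_mod_cast a1
      have := bb_le S (r k)
      omega
    obtain ⟨q, hq⟩ : ∃ q, r k = q + 1 := ⟨r k - 1, by omega⟩
    have h6 : (bb S q : ℝ) < T / Y ^ k := not_le.1 (Nat.find_min (hex k) (by
      change q < r k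
      omega))
    refine ⟨h5, ?_, ?_⟩
    · have a1 : (bb S (q + 1) : ℝ) ≤ bb S q + 2 := by exact_mod_cast bb_succ_le S q
      rw [hq, mul_div_assoc]
      linarith
    · rw [hq]
      refine mem_of_bb_lt hS ?_
      have := h6.trans_le (h1 k)
      rw [hq] at this
      exact_mod_cast this
  set Bad := (Icc 1 Lv).filter fun k => 60 * x * bb S (J * r k) ≤ J * bb S (r k) with hBad
  have h3 : ∀ k, ∀ k' ∈ Bad, k < k' → J * r k' < r k ∧ r k' < r k := by
    intro k k' hk' hlt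
    obtain ⟨a1, a2⟩ := mem_filter.1 hk'
    have hJ := growth_J h0 hx a2
    have a3 : J * r k' < r k := by
      by_contra hle
      have b1 : (bb S (r k) : ℝ) ≤ bb S (J * r k') := by
        exact_mod_cast bb_mono S (not_lt.1 hle)
      have b2 : (60 * x * bb S (J * r k') : ℝ) ≤ J * bb S (r k') := by exact_mod_cast a2
      have b3 := (h2 k' (mem_Icc.1 a1).2).2.1
      have b4 : Y * (2 * T / Y ^ k') ≤ 2 * (T / Y ^ k) := by
        have : Y ^ (k + 1) ≤ Y ^ k' := pow_le_pow_right₀ hY hlt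
        calc Y * (2 * T / Y ^ k') ≤ Y * (2 * T / Y ^ (k + 1)) := by gcongr
          _ = _ := by rw [pow_succ]; field_simp
      have b5 : (J : ℝ) * bb S (r k') ≤ Y * (2 * T / Y ^ k') := by gcongr
      have b6 : (1 : ℝ) ≤ x := by exact_mod_cast hx
      have b7 : (60 : ℝ) * 1 * (T / Y ^ k) ≤ 60 * x * bb S (J * r k') := by
        gcongr
        exact (h1 k).trans b1
      have b8 : 0 < T / Y ^ k := by positivity
      linarith
    exact ⟨a3, lt_of_le_of_lt (Nat.le_mul_of_pos_left _ (by omega)) a3⟩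
  refine ⟨Bad, ?_, fun k hk1 hk hkB => ⟨r k, (h2 k hk).1, h1 k, (h2 k hk).2.1, ?_⟩⟩
  · rw [← card_image_of_injOn (f := r) fun k hk k' hk' e => by
      rcases lt_trichotomy k k' with h | h | h
      · exact absurd e (h3 k k' hk' h).2.ne'
      · exact h
      · exact absurd e (h3 k' k hk h).2.ne]
    refine hs₀ S X h0 hS hX hSX _ (fun q hq => ?_) fun q hq q' hq' hlt => ?_
    · obtain ⟨k, hk, rfl⟩ := mem_image.1 hq
      obtain ⟨a1, a2⟩ := mem_filter.1 hk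
      have := h2 k (mem_Icc.1 a1).2
      exact ⟨by omega, this.2.2, a2⟩
    · obtain ⟨k, hk, rfl⟩ := mem_image.1 hq
      obtain ⟨k', hk', rfl⟩ := mem_image.1 hq'
      rcases lt_trichotomy k k' with h | h | h
      · exact absurd hlt (h3 k k' hk' h).2.not_gt
      · rw [h] at hlt; exact absurd hlt (lt_irrefl _)
      · exact (h3 k' k hk h).1.le
  · by_contra hlt
    exact hkB (mem_filter.2 ⟨mem_Icc.2 ⟨hk1, hk⟩, (not_le.1 hlt).le⟩)

end Crest.Agent.R51
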