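import Crest.Agent.R51.BSG
import Crest.Agent.R51.Growth
import Crest.Agent.R51.AddMain0

/-! The additive structure of a dense set with three small projections. -/

namespace Crest.Agent.R51

open Finset
open scoped Classical Pointwise

theorem addMain_cover {A X : Finset ℤ} {a₀ : ℤ} (ha₀ : a₀ ∈ A)
    (hX : (A - A) + (A - A) ⊆ X + (A - A)) :
    ∃ F : Finset ℤ, #F ≤ #X ^ 2 ∧ A + ((A - A) + (A - A)) ⊆ F + (A - A) := by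
  refine ⟨(X + X).image fun z => a₀ + z, ?_, ?_⟩
  · refine card_image_le.trans ?_
    rw [sq]; exact card_add_le
  · intro z hz
    obtain ⟨a, ha, s, hs, rfl⟩ := mem_add.1 hz
    obtain ⟨x₁, hx₁, s₁, hs₁, rfl⟩ := mem_add.1 (hX hs)
    have h2 : (a - a₀) + s₁ ∈ (A - A) + (A - A) := add_mem_add (sub_mem_sub ha ha₀) hs₁
    obtain ⟨x₂, hx₂, s₂, hs₂, h⟩ := mem_add.1 (hX h2)
    refine mem_add.2 ⟨a₀ + (x₁ + x₂), mem_image.2 ⟨x₁ + x₂, add_mem_add hx₁ hx₂, rfl⟩, s₂, hs₂, ?_⟩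
    linarith

theorem addMain_div_bounds {a q : ℤ} {ρ : ℕ} (hρ : 1 ≤ ρ) (h : a / (ρ : ℤ) = q) :
    q * ρ ≤ a ∧ a ≤ q * ρ + ρ := by
  have hρ' : (0 : ℤ) < ρ := by exact_mod_cast hρ
  have h1 := Int.emod_add_mul_ediv a ρ
  have h2 := Int.emod_nonneg a hρ'.ne'
  have h3 := Int.emod_lt_of_pos a hρ'
  rw [h] at h1
  constructor <;> nlinarith

theorem addMain_div_close {a b : ℤ} {ρ : ℕ} (hρ : 1 ≤ ρ) (h : a / (ρ : ℤ) = b / (ρ : ℤ)) :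
    |a - b| ≤ (ρ : ℤ) := by
  have h1 := addMain_div_bounds hρ h
  have h2 := addMain_div_bounds hρ (rfl : b / (ρ : ℤ) = _)
  rw [abs_le]; constructor <;> linarith [h1.1, h1.2, h2.1, h2.2]

theorem addMain_pigeon {α β : Type*} [DecidableEq β] (G : Finset α) (B : Finset β) (hB : B.Nonempty)
    (f : α → β) (hf : ∀ g ∈ G, f g ∈ B) : ∃ b, #G ≤ #(G.filter fun g => f g = b) * #B := by
  obtain ⟨b, -, hb⟩ := exists_max_image B (fun b => #(G.filter fun g => f g = b)) hB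
  exact ⟨b, card_le_mul_card_image_of_maps_to hf _ hb⟩

theorem addMain_cs {α β : Type*} [DecidableEq β] (G : Finset α) (f : α → β) :
    #G ^ 2 ≤ #(G.image f) * #((G ×ˢ G).filter fun γ => f γ.2 = f γ.1) := by
  have h1 : #G = ∑ b ∈ G.image f, #(G.filter fun g => f g = b) :=
    card_eq_sum_card_fiberwise fun g hg => mem_image_of_mem f hg
  have h2 : #((G ×ˢ G).filter fun γ => f γ.2 = f γ.1)
      = ∑ b ∈ G.image f, #(G.filter fun g => f g = b) ^ 2 := by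
    rw [card_eq_sum_card_fiberwise (f := fun γ : α × α => f γ.1) (t := G.image f)]
    · refine sum_congr rfl fun b _ => ?_
      rw [sq, ← card_product]
      congr 1
      ext ⟨g, g'⟩
      simp only [mem_filter, mem_product]
      constructor
      · rintro ⟨⟨⟨h1, h2⟩, h3⟩, h4⟩
        exact ⟨⟨h1, h4⟩, h2, h3.trans h4⟩
      · rintro ⟨⟨h1, h4⟩, h2, h3⟩
        exact ⟨⟨⟨h1, h2⟩, h3.trans h4.symm⟩, h4⟩
    · intro γ hγ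
      exact mem_image_of_mem f (mem_product.1 (mem_filter.1 hγ).1).1
  rw [h2]
  conv_lhs => rw [h1]
  exact sq_sum_le_card_mul_sum_sq

theorem addMain_sub_mem {A : Finset ℤ} {a b : ℤ} (ha : a ∈ A) (hb : b ∈ A) :
    a - b ∈ (A - A) + (A - A) :=
  mem_add.2 ⟨a - b, sub_mem_sub ha hb, b - b, sub_mem_sub hb hb, by ring⟩

theorem addMain_near1 {A B : Finset ℤ} {H : Finset (ℤ × ℤ)} (hA : ∀ g ∈ H, g.1 ∈ A)
    (hB : ∀ g ∈ H, g.2 ∈ B) {g : ℤ × ℤ} (hg : g ∈ H) (r : ℕ) :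
    #(H.filter fun g' => |g'.1 - g.1| ≤ (r : ℤ)) ≤ bb (A - A) r * #B := by
  unfold bb
  rw [← card_product]
  refine card_le_card_of_injOn (fun g' => (g'.1 - g.1, g'.2)) ?_ ?_
  · intro g' hg'
    have hg'' := mem_filter.1 (mem_coe.1 hg')
    exact mem_coe.2 (mem_product.2 ⟨mem_filter.2 ⟨addMain_sub_mem (hA _ hg''.1) (hA _ hg), hg''.2⟩,
      hB g' hg''.1⟩)
  · intro g₁ _ g₂ _ h
    simp only [Prod.mk.injEq] at h
    exact Prod.ext (by linarith [h.1]) h.2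

theorem addMain_near2 {A : Finset ℤ} {σ : ℤ} {H : Finset (ℤ × ℤ)}
    (hA : ∀ g ∈ H, g.1 ∈ A ∧ σ - g.2 ∈ A) (r r' : ℕ) :
    #((H ×ˢ H).filter fun γ => |γ.2.1 - γ.1.1| ≤ (r : ℤ) ∧ |γ.2.2 - γ.1.2| ≤ (r' : ℤ))
      ≤ #H * (bb (A - A) r * bb (A - A) r') := by
  unfold bb
  rw [← card_product, ← card_product]
  refine card_le_card_of_injOn (fun γ => (γ.1, (γ.2.1 - γ.1.1, γ.2.2 - γ.1.2))) ?_ ?_
  · intro γ hγ
    have h := mem_filter.1 (mem_coe.1 hγ)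
    have h' := mem_product.1 h.1
    refine mem_coe.2 (mem_product.2 ⟨h'.1, mem_product.2 ⟨mem_filter.2
      ⟨addMain_sub_mem (hA _ h'.2).1 (hA _ h'.1).1, h.2.1⟩, mem_filter.2 ⟨?_, h.2.2⟩⟩⟩)
    have := addMain_sub_mem (hA _ h'.1).2 (hA _ h'.2).2
    have e : σ - γ.1.2 - (σ - γ.2.2) = γ.2.2 - γ.1.2 := by ring
    rwa [e] at this
  · intro γ₁ _ γ₂ _ h
    simp only [Prod.mk.injEq] at h
    obtain ⟨h1, h2, h3⟩ := h
    refine Prod.ext h1 (Prod.ext ?_ ?_)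
    · rw [h1] at h2; linarith
    · rw [h1] at h3; linarith

/-- The far pairs. -/
theorem addMain_far {A F : Finset ℤ} {σ u : ℤ} {H : Finset (ℤ × ℤ)} {x c₃ c : ℝ} {Φ : ℝ}
    {R ρ ρ₀ : ℕ} (hF : A + ((A - A) + (A - A)) ⊆ F + (A - A)) (hFx : (#F : ℝ) ≤ x ^ 2)
    (hx : 0 < x) (hA : ∀ g ∈ H, g.1 ∈ A ∧ σ - g.2 ∈ A) (hu : ∀ g ∈ H, u ≤ g.1 ∧ g.1 ≤ u + ρ)
    (hR : 1 ≤ R) (hρ : R ≤ ρ) (hc₃ : 0 < c₃) (hH : c₃ * (bb (A - A) ρ : ℝ) ^ 2 ≤ #H)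
    (hΦ : 24 * x ^ 2 ≤ c₃ * Φ) (hΦb : Φ * bb (A - A) ρ₀ ≤ bb (A - A) ρ)
    (hb : 0 < (bb (A - A) ρ : ℝ)) (hc : c * ρ ≤ ρ₀) :
    c₃ ^ 2 * (bb (A - A) ρ : ℝ) ^ 3 * bb (A - A) R / (24 * x ^ 2)
      ≤ (#((H ×ˢ H).filter fun γ => |γ.2.1 - γ.1.1| ≤ (R : ℤ) ∧
        c * ρ ≤ ((|γ.2.2 - γ.1.2| : ℤ) : ℝ)) : ℝ) := by
  set S := A - A with hS
  have hsymm : ∀ s ∈ S, -s ∈ S := by
    intro s hs
    obtain ⟨a, ha, b, hb, rfl⟩ := mem_sub.1 hs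
    rw [neg_sub]; exact sub_mem_sub hb ha
  have hM := card_image_div_le hsymm hF hR hρ (A' := H.image Prod.fst)
    (fun a ha => by obtain ⟨g, hg, rfl⟩ := mem_image.1 ha; exact (hA g hg).1) u
    (fun a ha => by obtain ⟨g, hg, rfl⟩ := mem_image.1 ha; exact hu g hg)
  rw [image_image] at hM
  have hCS := addMain_cs H ((fun a : ℤ => a / (R : ℤ)) ∘ Prod.fst)
  have hN := addMain_near2 hA R ρ₀
  set P := (H ×ˢ H).filter fun γ => ((fun a : ℤ => a / (R : ℤ)) ∘ Prod.fst) γ.2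
    = ((fun a : ℤ => a / (R : ℤ)) ∘ Prod.fst) γ.1 with hP
  set N := (H ×ˢ H).filter fun γ => |γ.2.1 - γ.1.1| ≤ (R : ℤ) ∧ |γ.2.2 - γ.1.2| ≤ (ρ₀ : ℤ) with hNd
  set Q := (H ×ˢ H).filter fun γ => |γ.2.1 - γ.1.1| ≤ (R : ℤ) ∧
        c * ρ ≤ ((|γ.2.2 - γ.1.2| : ℤ) : ℝ) with hQ
  have hsub : P ⊆ Q ∪ N := by
    intro γ hγ
    have h := mem_filter.1 hγ
    have h1 : |γ.2.1 - γ.1.1| ≤ (R : ℤ) := addMain_div_close hR h.2
    by_cases h2 : |γ.2.2 - γ.1.2| ≤ (ρ₀ : ℤ)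
    · exact mem_union_right _ (mem_filter.2 ⟨h.1, h1, h2⟩)
    · refine mem_union_left _ (mem_filter.2 ⟨h.1, h1, hc.trans ?_⟩)
      have : ((ρ₀ : ℤ) : ℝ) ≤ ((|γ.2.2 - γ.1.2| : ℤ) : ℝ) := Int.cast_le.2 (le_of_not_ge h2)
      simpa using this
  have hPQ : (#P : ℝ) ≤ #Q + #N := by
    exact_mod_cast (card_le_card hsub).trans (card_union_le _ _)
  set M : ℕ := #(H.image ((fun a : ℤ => a / (R : ℤ)) ∘ Prod.fst)) with hMd
  have hM' : (M : ℝ) * bb S R ≤ 12 * x ^ 2 * bb S ρ := by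
    have : (M : ℝ) * bb S R ≤ 12 * #F * bb S ρ := by exact_mod_cast hM
    refine this.trans ?_
    gcongr
  have hCS' : (#H : ℝ) ^ 2 ≤ M * #P := by exact_mod_cast hCS
  have hN' : (#N : ℝ) ≤ #H * (bb S R * bb S ρ₀) := by exact_mod_cast hN
  set b : ℝ := (bb S ρ : ℝ) with hbd
  set b₀ : ℝ := (bb S ρ₀ : ℝ) with hb₀d
  set β : ℝ := (bb S R : ℝ) with hβd
  set h : ℝ := (#H : ℝ) with hhd
  have hβ : 0 ≤ β := Nat.cast_nonneg _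
  have hb₀ : 0 ≤ b₀ := Nat.cast_nonneg _
  have hP0 : (0 : ℝ) ≤ #P := Nat.cast_nonneg _
  have hh : 0 < h := lt_of_lt_of_le (by positivity) hH
  -- `h ^ 2 β ≤ 12 x ^ 2 b #P`
  have e1 : h ^ 2 * β ≤ 12 * x ^ 2 * b * #P := by
    calc h ^ 2 * β ≤ M * #P * β := by gcongr
      _ = M * β * #P := by ring
      _ ≤ 12 * x ^ 2 * b * #P := by gcongr
  -- `24 x ^ 2 b b₀ ≤ h`
  have e2 : 24 * x ^ 2 * b * b₀ ≤ h := by
    calc 24 * x ^ 2 * b * b₀ ≤ c₃ * Φ * b * b₀ := by gcongr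
      _ = c₃ * b * (Φ * b₀) := by ring
      _ ≤ c₃ * b * b := by gcongr
      _ = c₃ * b ^ 2 := by ring
      _ ≤ h := hH
  have e3 : 24 * x ^ 2 * b * #N ≤ h ^ 2 * β := by
    calc 24 * x ^ 2 * b * #N ≤ 24 * x ^ 2 * b * (h * (β * b₀)) := by gcongr
      _ = (24 * x ^ 2 * b * b₀) * (h * β) := by ring
      _ ≤ h * (h * β) := by gcongr
      _ = h ^ 2 * β := by ring
  have e4 : h ^ 2 * β ≤ 24 * x ^ 2 * b * #Q := by
    have : 24 * x ^ 2 * b * #P ≤ 24 * x ^ 2 * b * (#Q + #N) := by gcongr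
    nlinarith
  have e5 : (c₃ * b ^ 2) ^ 2 * β ≤ 24 * x ^ 2 * b * #Q := by
    refine le_trans ?_ e4
    gcongr
  rw [div_le_iff₀ (by positivity)]
  have : b * (c₃ ^ 2 * b ^ 3 * β) ≤ b * (#Q * (24 * x ^ 2)) := by nlinarith
  exact le_of_mul_le_mul_left this hb

/-- Take `A`, `σ`, `G'`, `c₀`, `K` from `bsg'`, `S = A - A` (`c₀ T ≤ #S ≤ K T`), `X`, `x` from `exists_cover (K / c₀)`; for `a₀ ∈ A`,
`A + (S + S) ⊆ a₀ + 3 S ⊆ F + S` with `F = a₀ + X + X`, `#F ≤ x ^ 2`.  Let `c₃ = c₀ / (4 x ^ 2 K) ^ 2`, `Φ ≥ 72 x ^ 2 / c₃` a natural number, `J₁ = 60 x Φ`.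
* `growth_levels x J₁` with `Y = J₁`, `T' = c₀ T`, `Lv = s₁ + 1` gives `ρ₀` with `bb ρ₀ ≥ c₂ T`, `c₂ = c₀ / J₁ ^ (s₁ + 1)`, and `Φ bb ρ₀ ≤ bb ρ` for `ρ = J₁ ρ₀`.
* By `card_image_div_le'` (for `g.1` and `σ - g.2`) some box `(g.1 / ρ, (σ - g.2) / ρ) = const` contains a set `G''` of at least `c₃ (bb ρ) ^ 2`
  elements of `G'`.
* `growth_levels x J` with `T' = c₀ T` gives `Bad` and `r`.  First claim: at most `bb r` first coordinates (differences in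
  `S ⊆ S + S`) and `C T` second coordinates.  Second claim, for `R = J r ≤ ρ`: by Cauchy–Schwarz and `card_image_div_le` at least
  `#G'' ^ 2 · bb R / (12 x ^ 2 bb ρ)` pairs have the same `g.1 / R`; at most `#G'' · bb R · bb ρ₀ ≤ #G'' · bb R · bb ρ / Φ` pairs have `|Δ.1| ≤ R` and
  `|Δ.2| ≤ ρ₀`; the rest is at least `#G'' ^ 2 bb R / (24 x ^ 2 bb ρ) ≥ c₃ ^ 2 c₂ ^ 3 T ^ 3 / (24 x ^ 2) · J c₀ T / (60 x Y ^ k)`.
* `c T ≤ ρ` by `bb_le`. -/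
theorem add_main {C : ℝ} (hC : 1 ≤ C) : ∃ c : ℝ, 0 < c ∧ ∀ J : ℕ, ∃ s₀ : ℕ, ∀ (Y : ℝ) (Lv : ℕ),
    (J : ℝ) ≤ Y → 1 ≤ Y → ∃ T₀ : ℝ, ∀ (T : ℝ) (G : Finset (ℤ × ℤ)), T₀ ≤ T → 0 < T →
      T ^ 2 / C ≤ #G → (#(G.image Prod.fst) : ℝ) ≤ C * T → (#(G.image Prod.snd) : ℝ) ≤ C * T →
      (#(G.image fun g => g.1 + g.2) : ℝ) ≤ C * T →
      ∃ G'' ⊆ G, ∃ (ρ : ℕ) (Bad : Finset ℕ), c * T ^ 2 ≤ #G'' ∧ c * T ≤ ρ ∧ #Bad ≤ s₀ ∧
        (∀ g ∈ G'', ∀ g' ∈ G'', |g'.1 - g.1| ≤ (ρ : ℤ) ∧ |g'.2 - g.2| ≤ (ρ : ℤ)) ∧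
        ∀ k, 1 ≤ k → k ≤ Lv → k ∉ Bad → ∃ r : ℕ, 2 ≤ r ∧
          (∀ g ∈ G'', (#(G''.filter fun g' => |g'.1 - g.1| ≤ (r : ℤ)) : ℝ) ≤ T ^ 2 / (c * Y ^ k)) ∧
          (ρ ≤ J * r ∨ c * J * T ^ 4 / Y ^ k ≤ (#((G'' ×ˢ G'').filter fun γ =>
            |γ.2.1 - γ.1.1| ≤ (J : ℤ) * (r : ℤ) ∧ c * ρ ≤ ((|γ.2.2 - γ.1.2| : ℤ) : ℝ)) : ℝ)) := by
  obtain ⟨c₀, K, hc₀, hK, hbsg⟩ := bsg' hC
  obtain ⟨x, hx, hcov⟩ := exists_cover (K := K / c₀) (div_pos hK hc₀)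
  have hx0 : (0 : ℝ) < x := by exact_mod_cast hx
  have hC0 : 0 < C := by linarith
  set c₃ : ℝ := c₀ / (4 * x ^ 2 * K) ^ 2 with hc₃d
  have hc₃ : 0 < c₃ := by positivity
  obtain ⟨Φ, hΦ⟩ := exists_nat_ge (24 * (x : ℝ) ^ 2 / c₃)
  have hΦ' : 24 * (x : ℝ) ^ 2 ≤ c₃ * Φ := by rw [div_le_iff₀ hc₃] at hΦ; linarith
  have hΦ0 : (0 : ℝ) < Φ := lt_of_lt_of_le (by positivity) hΦ
  have hΦ1 : 1 ≤ Φ := by exact_mod_cast hΦ0
  set J₁ : ℕ := 60 * x * Φ with hJ₁d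
  have hJ₁ : 1 ≤ J₁ := Nat.mul_pos (Nat.mul_pos (by norm_num) hx) hΦ1
  have hJ₁' : (1 : ℝ) ≤ J₁ := by exact_mod_cast hJ₁
  obtain ⟨s₁, hs₁⟩ := growth_levels x hx J₁
  set c₂ : ℝ := c₀ / (J₁ : ℝ) ^ (s₁ + 1) with hc₂d
  have hc₂ : 0 < c₂ := by positivity
  set c : ℝ := min (min (c₃ * c₂ ^ 2) (c₂ / 3)) (min (min (1 / (2 * c₀ * C)) (1 / J₁))
    (c₃ ^ 2 * c₂ ^ 3 * c₀ / (24 * x ^ 2 * (60 * x)))) with hcd
  have hc : 0 < c := by positivity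
  have hcA : c ≤ c₃ * c₂ ^ 2 := (min_le_left _ _).trans (min_le_left _ _)
  have hcB : c ≤ c₂ / 3 := (min_le_left _ _).trans (min_le_right _ _)
  have hcC : c ≤ 1 / (2 * c₀ * C) :=
    (min_le_right _ _).trans ((min_le_left _ _).trans (min_le_left _ _))
  have hcD : c ≤ 1 / J₁ := (min_le_right _ _).trans ((min_le_left _ _).trans (min_le_right _ _))
  have hcE : c ≤ c₃ ^ 2 * c₂ ^ 3 * c₀ / (24 * x ^ 2 * (60 * x)) :=
    (min_le_right _ _).trans (min_le_right _ _)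
  clear_value c
  refine ⟨c, hc, fun J => ?_⟩
  obtain ⟨s₀, hs₀⟩ := growth_levels x hx J
  refine ⟨s₀, fun Y Lv hJY hY => ⟨max (4 * (J₁ : ℝ) ^ (s₁ + 1) / c₀) (4 * Y ^ Lv / c₀), ?_⟩⟩
  intro T G hT₀ hT hG h1 h2 h3
  have hT1 : 4 * (J₁ : ℝ) ^ (s₁ + 1) ≤ c₀ * T := by
    have := (le_max_left _ _).trans hT₀
    rw [div_le_iff₀ hc₀] at this; linarith
  have hT2 : 4 * Y ^ Lv ≤ c₀ * T := by
    have := (le_max_right _ _).trans hT₀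
    rw [div_le_iff₀ hc₀] at this; linarith
  obtain ⟨A, σ, G', hG'G, hG', hA, hAA, hAG⟩ := hbsg T G hT hG h1 h2 h3
  have hAne : A.Nonempty := by
    rw [← card_pos]
    have : (0 : ℝ) < #A := lt_of_lt_of_le (by positivity) hA
    exact_mod_cast this
  obtain ⟨X, hXx, hX⟩ := hcov A hAne (by
    calc (#(A - A) : ℝ) ≤ K * T := hAA
      _ = K / c₀ * (c₀ * T) := by field_simp
      _ ≤ K / c₀ * #A := by gcongr)
  obtain ⟨a₀, ha₀⟩ := hAne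
  obtain ⟨F, hFx, hF⟩ := addMain_cover ha₀ hX
  have hFx' : (#F : ℝ) ≤ (x : ℝ) ^ 2 := by
    exact_mod_cast hFx.trans (Nat.pow_le_pow_left hXx 2)
  have h0S : (0 : ℤ) ∈ A - A := mem_sub.2 ⟨a₀, ha₀, a₀, ha₀, sub_self _⟩
  have hsymm : ∀ s ∈ A - A, -s ∈ A - A := by
    intro s hs
    obtain ⟨a, ha, b, hb, rfl⟩ := mem_sub.1 hs
    rw [neg_sub]; exact sub_mem_sub hb ha
  have hAS : c₀ * T ≤ #(A - A) := by
    refine hA.trans ?_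
    exact_mod_cast card_le_card_sub_right ⟨a₀, ha₀⟩
  -- the scale `ρ`
  obtain ⟨Bad₁, hBad₁, hk₁⟩ := hs₁ (A - A) X h0S hsymm hXx hX J₁ (c₀ * T) (s₁ + 1) le_rfl hJ₁' hT1 hAS
  obtain ⟨k₁, hk₁m, hk₁b⟩ : ∃ k ∈ Icc 1 (s₁ + 1), k ∉ Bad₁ := by
    by_contra hcon
    push Not at hcon
    have := card_le_card (show Icc 1 (s₁ + 1) ⊆ Bad₁ from hcon)
    rw [Nat.card_Icc] at this
    omega
  obtain ⟨ρ₀, hρ₀, hρ₀1, -, hρ₀2⟩ := hk₁ k₁ (mem_Icc.1 hk₁m).1 (mem_Icc.1 hk₁m).2 hk₁b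
  set ρ : ℕ := J₁ * ρ₀ with hρd
  have hρ1 : 1 ≤ ρ := Nat.mul_pos hJ₁ (by omega)
  have hΦb : Φ * bb (A - A) ρ₀ ≤ bb (A - A) ρ := by
    have : 60 * x * (Φ * bb (A - A) ρ₀) ≤ 60 * x * bb (A - A) ρ := by
      calc 60 * x * (Φ * bb (A - A) ρ₀) = J₁ * bb (A - A) ρ₀ := by rw [hJ₁d]; ring
        _ ≤ _ := hρ₀2
    exact Nat.le_of_mul_le_mul_left this (by omega)
  have hΦb' : (Φ : ℝ) * bb (A - A) ρ₀ ≤ bb (A - A) ρ := by exact_mod_cast hΦb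
  have hb₀ : c₂ * T ≤ bb (A - A) ρ₀ := by
    refine le_trans ?_ hρ₀1
    rw [hc₂d, div_mul_eq_mul_div]
    gcongr
    exact (mem_Icc.1 hk₁m).2
  have hb : c₂ * T ≤ bb (A - A) ρ := by
    refine hb₀.trans ?_
    have : bb (A - A) ρ₀ ≤ bb (A - A) ρ := le_trans (Nat.le_mul_of_pos_left _ hΦ1) hΦb
    exact_mod_cast this
  have hbpos : (0 : ℝ) < bb (A - A) ρ := lt_of_lt_of_le (by positivity) hb
  -- the box
  set I := A.image fun a => a / (ρ : ℤ) with hId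
  have hI : (#I : ℝ) * bb (A - A) ρ ≤ 4 * x ^ 2 * K * T := by
    have : (#I : ℝ) * bb (A - A) ρ ≤ 4 * #F * #(A - A) := by
      exact_mod_cast card_image_div_le' hF hρ1
    calc (#I : ℝ) * bb (A - A) ρ ≤ 4 * #F * #(A - A) := this
      _ ≤ 4 * x ^ 2 * (K * T) := by gcongr
      _ = _ := by ring
  have hIne : I.Nonempty := ⟨_, mem_image_of_mem _ ha₀⟩
  obtain ⟨q, hq⟩ := addMain_pigeon G' (I ×ˢ I) (hIne.product hIne)
    (fun g => (g.1 / (ρ : ℤ), (σ - g.2) / (ρ : ℤ)))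
    (fun g hg => mem_product.2 ⟨mem_image_of_mem _ (hAG g hg).1, mem_image_of_mem _ (hAG g hg).2⟩)
  set H := G'.filter fun g => (g.1 / (ρ : ℤ), (σ - g.2) / (ρ : ℤ)) = q with hHd
  have hHG' : H ⊆ G' := filter_subset _ _
  have hHq : ∀ g ∈ H, g.1 / (ρ : ℤ) = q.1 ∧ (σ - g.2) / (ρ : ℤ) = q.2 := by
    intro g hg
    have := (mem_filter.1 hg).2
    rw [← this]; exact ⟨rfl, rfl⟩
  have hH : c₃ * (bb (A - A) ρ : ℝ) ^ 2 ≤ #H := by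
    have hq' : (#G' : ℝ) ≤ #H * (#I * #I) := by
      rw [card_product] at hq; exact_mod_cast hq
    have hH0 : (0 : ℝ) ≤ #H := Nat.cast_nonneg _
    have e : c₀ * T ^ 2 * (bb (A - A) ρ : ℝ) ^ 2 ≤ #H * (4 * x ^ 2 * K * T) ^ 2 := by
      calc c₀ * T ^ 2 * (bb (A - A) ρ : ℝ) ^ 2 ≤ #H * (#I * #I) * (bb (A - A) ρ : ℝ) ^ 2 :=
            mul_le_mul_of_nonneg_right (hG'.trans hq') (by positivity)
        _ = #H * ((#I : ℝ) * bb (A - A) ρ) ^ 2 := by ring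
        _ ≤ _ := by gcongr
    rw [hc₃d, div_mul_eq_mul_div, div_le_iff₀ (by positivity)]
    have hT2 : 0 < T ^ 2 := by positivity
    have : T ^ 2 * (c₀ * (bb (A - A) ρ : ℝ) ^ 2) ≤ T ^ 2 * (#H * (4 * x ^ 2 * K) ^ 2) := by
      nlinarith
    exact le_of_mul_le_mul_left this hT2
  obtain ⟨Bad, hBad, hk⟩ := hs₀ (A - A) X h0S hsymm hXx hX Y (c₀ * T) Lv hJY hY hT2 hAS
  refine ⟨H, hHG'.trans hG'G, ρ, Bad, ?_, ?_, hBad, ?_, ?_⟩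
  · calc c * T ^ 2 ≤ c₃ * c₂ ^ 2 * T ^ 2 := by gcongr
      _ = c₃ * (c₂ * T) ^ 2 := by ring
      _ ≤ c₃ * (bb (A - A) ρ : ℝ) ^ 2 := by gcongr
      _ ≤ _ := hH
  · have h4 : (bb (A - A) ρ : ℝ) ≤ 3 * ρ := by
      have : bb (A - A) ρ ≤ 3 * ρ := (bb_le _ _).trans (by omega)
      exact_mod_cast this
    have : c * T ≤ c₂ / 3 * T := by gcongr
    linarith
  · intro g hg g' hg'
    refine ⟨addMain_div_close hρ1 ((hHq g' hg').1.trans (hHq g hg).1.symm), ?_⟩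
    have := addMain_div_close hρ1 ((hHq g hg).2.trans (hHq g' hg').2.symm)
    have e : σ - g.2 - (σ - g'.2) = g'.2 - g.2 := by ring
    rwa [e] at this
  · intro k hk1 hk2 hkb
    obtain ⟨r, hr2, hr1, hr3, hr4⟩ := hk k hk1 hk2 hkb
    have hYk : 0 < Y ^ k := by positivity
    refine ⟨r, hr2, ?_, ?_⟩
    · intro g hg
      have h5 := addMain_near1 (A := A) (B := G.image Prod.snd) (H := H)
        (fun g hg => (hAG g (hHG' hg)).1) (fun g hg => mem_image_of_mem _ (hG'G (hHG' hg))) hg r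
      have h6 : (#(H.filter fun g' => |g'.1 - g.1| ≤ (r : ℤ)) : ℝ)
          ≤ bb (A - A) r * #(G.image Prod.snd) := by exact_mod_cast h5
      refine h6.trans ?_
      have h7 : c * (2 * c₀ * C) ≤ 1 := by rwa [le_div_iff₀ (by positivity)] at hcC
      calc (bb (A - A) r : ℝ) * #(G.image Prod.snd) ≤ 2 * (c₀ * T) / Y ^ k * (C * T) := by gcongr
        _ = c * (2 * c₀ * C) * (T ^ 2 / (c * Y ^ k)) := by field_simp
        _ ≤ 1 * (T ^ 2 / (c * Y ^ k)) := by gcongr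
        _ = _ := one_mul _
    · by_cases hρr : ρ ≤ J * r
      · exact Or.inl hρr
      right
      rcases Nat.eq_zero_or_pos J with rfl | hJ
      · simp
      have hR : 1 ≤ J * r := Nat.mul_pos hJ (by omega)
      have hcρ : c * ρ ≤ ρ₀ := by
        have : c * J₁ ≤ 1 := by rwa [le_div_iff₀ (by positivity)] at hcD
        calc c * ρ = c * J₁ * ρ₀ := by rw [hρd]; push_cast; ring
          _ ≤ 1 * ρ₀ := by gcongr
          _ = _ := one_mul _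
      have hfar := addMain_far (σ := σ) (u := q.1 * ρ) (H := H) (c := c) hF hFx' hx0
        (fun g hg => hAG g (hHG' hg)) (fun g hg => addMain_div_bounds hρ1 (hHq g hg).1) hR
        (le_of_not_ge hρr) hc₃ hH hΦ' hΦb' hbpos hcρ
      simp only [Nat.cast_mul] at hfar
      refine le_trans ?_ hfar
      have hr4' : (J : ℝ) * bb (A - A) r ≤ 60 * x * bb (A - A) (J * r) := by exact_mod_cast hr4
      have h8 : J * (c₀ * T / Y ^ k) / (60 * x) ≤ bb (A - A) (J * r) := by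
        rw [div_le_iff₀ (by positivity)]
        calc J * (c₀ * T / Y ^ k) ≤ (J : ℝ) * bb (A - A) r := by gcongr
          _ ≤ _ := by linarith
      calc c * J * T ^ 4 / Y ^ k
          ≤ c₃ ^ 2 * c₂ ^ 3 * c₀ / (24 * x ^ 2 * (60 * x)) * J * T ^ 4 / Y ^ k := by gcongr
        _ = c₃ ^ 2 * (c₂ * T) ^ 3 * (J * (c₀ * T / Y ^ k) / (60 * x)) / (24 * x ^ 2) := by
          field_simp
        _ ≤ _ := by gcongr

end Crest.Agent.R51
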