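import Crest.Agent.R51.Defs

/-! A Balog–Szemerédi–Gowers type lemma for dense graphs, and approximate groups. -/

namespace Crest.Agent.R51

open Finset
open scoped Classical Pointwise

/-- quadruple count for one difference -/
lemma BSG0_quad (G : Finset (ℤ × ℤ)) (N : ℤ → Finset ℤ) (hN : ∀ a b, b ∈ N a → (a, b) ∈ G)
    (a a' : ℤ) (P : Finset ℤ) {r : ℝ} (hr : 0 ≤ r) (h1 : ∀ p ∈ P, r ≤ #(N a ∩ N p))
    (h2 : ∀ p ∈ P, r ≤ #(N a' ∩ N p)) :
    (#P : ℝ) * r ^ 2 ≤ #((((G.image fun g => g.1 + g.2) ×ˢ (G.image fun g => g.1 + g.2)) ×ˢ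
      ((G.image fun g => g.1 + g.2) ×ˢ (G.image fun g => g.1 + g.2))).filter
        fun q => q.1.1 - q.1.2 + q.2.1 - q.2.2 = a - a') := by
  set S := G.image fun g => g.1 + g.2 with hS
  have hmem : ∀ a b, b ∈ N a → a + b ∈ S := fun a b h => mem_image.2 ⟨(a, b), hN a b h, rfl⟩
  set X := P.sigma fun p => (N a ∩ N p) ×ˢ (N a' ∩ N p) with hX
  have hc : (#P : ℝ) * r ^ 2 ≤ #X := by
    rw [hX, card_sigma]
    push_cast
    rw [← nsmul_eq_mul, ← sum_const]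
    refine sum_le_sum fun p hp => ?_
    rw [card_product]
    push_cast
    rw [sq]
    exact mul_le_mul (h1 p hp) (h2 p hp) hr (by positivity)
  refine hc.trans ?_
  have : #X ≤ #(((S ×ˢ S) ×ˢ (S ×ˢ S)).filter fun q => q.1.1 - q.1.2 + q.2.1 - q.2.2 = a - a') := by
    refine card_le_card_of_injOn
      (fun t => ((a + t.2.1, t.1 + t.2.1), (t.1 + t.2.2, a' + t.2.2))) ?_ ?_
    · rintro ⟨p, x, y⟩ ht
      simp only [hX, coe_sigma, Set.mem_sigma_iff, mem_coe, mem_product, mem_inter] at ht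
      simp only [coe_filter, mem_product, Set.mem_ofPred_eq]
      exact ⟨⟨⟨hmem _ _ ht.2.1.1, hmem _ _ ht.2.1.2⟩, hmem _ _ ht.2.2.2, hmem _ _ ht.2.2.1⟩, by ring⟩
    · rintro ⟨p, x, y⟩ - ⟨p', x', y'⟩ - h
      simp only [Prod.mk.injEq] at h
      obtain ⟨⟨e1, e2⟩, e3, e4⟩ := h
      have hx : x = x' := by linarith
      have hy : y = y' := by linarith
      have hp : p = p' := by linarith
      subst hx hy hp
      rfl
  exact_mod_cast this

/-- popular vertices carry half of the edges -/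
lemma BSG0_pop {C T : ℝ} (hC0 : 0 < C) (hT : 0 < T) (A₁ : Finset ℤ) (n : ℤ → ℝ)
    (h1 : (#A₁ : ℝ) ≤ C * T) (hG : T ^ 2 / C ≤ ∑ a ∈ A₁, n a) :
    T ^ 2 / (2 * C) ≤ ∑ a ∈ A₁.filter (fun a => T / (2 * C ^ 2) ≤ n a), n a := by
  have e := sum_filter_add_sum_filter_not A₁ (fun a => T / (2 * C ^ 2) ≤ n a) n
  have e2 : ∑ a ∈ A₁.filter (fun a => ¬ T / (2 * C ^ 2) ≤ n a), n a ≤
      C * T * (T / (2 * C ^ 2)) := by
    refine (sum_le_card_nsmul _ _ (T / (2 * C ^ 2)) fun a ha =>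
      (not_le.1 (mem_filter.1 ha).2).le).trans ?_
    rw [nsmul_eq_mul]
    exact mul_le_mul_of_nonneg_right (le_trans (by exact_mod_cast card_filter_le _ _) h1)
      (by positivity)
  have e3 : C * T * (T / (2 * C ^ 2)) = T ^ 2 / (2 * C) := by field_simp
  have e4 : T ^ 2 / C = 2 * (T ^ 2 / (2 * C)) := by field_simp
  linarith

/-- counting bad pairs -/
lemma BSG0_bad (A' A₂ : Finset ℤ) (R : ℤ → ℤ → Prop) {r L : ℝ} (hr : 0 ≤ r)
    (hA' : (#A' : ℝ) ≤ L) :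
    ∑ b ∈ A₂, (#(((A'.filter fun a => R a b) ×ˢ (A'.filter fun a => R a b)).filter
      fun q => (#((A₂.filter fun b => R q.1 b) ∩ (A₂.filter fun b => R q.2 b)) : ℝ) < r) : ℝ) ≤
      L ^ 2 * r := by
  have e : ∀ b ∈ A₂, (#(((A'.filter fun a => R a b) ×ˢ (A'.filter fun a => R a b)).filter
      fun q => (#((A₂.filter fun b => R q.1 b) ∩ (A₂.filter fun b => R q.2 b)) : ℝ) < r) : ℝ) =
      ∑ q ∈ (A' ×ˢ A').filter (fun q =>
        (#((A₂.filter fun b => R q.1 b) ∩ (A₂.filter fun b => R q.2 b)) : ℝ) < r),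
      if R q.1 b ∧ R q.2 b then (1 : ℝ) else 0 := by
    intro b _
    rw [← sum_filter, sum_const, nsmul_eq_mul, mul_one]
    congr 2
    ext q
    simp only [mem_filter, mem_product]
    exact ⟨fun h => ⟨⟨⟨h.1.1.1, h.1.2.1⟩, h.2⟩, h.1.1.2, h.1.2.2⟩,
      fun h => ⟨⟨⟨h.1.1.1, h.2.1⟩, h.1.1.2, h.2.2⟩, h.1.2⟩⟩
  rw [sum_congr rfl e, sum_comm]
  refine (sum_le_card_nsmul _ _ r fun q hq => ?_).trans ?_
  · rw [← sum_filter, sum_const, nsmul_eq_mul, mul_one]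
    refine le_trans (le_of_eq ?_) (mem_filter.1 hq).2.le
    congr 2
    ext b
    simp only [mem_filter, mem_inter]
    exact ⟨fun h => ⟨⟨h.1, h.2.1⟩, h.1, h.2.2⟩, fun h => ⟨h.1.1, h.1.2, h.2.2⟩⟩
  · rw [nsmul_eq_mul]
    refine mul_le_mul_of_nonneg_right ?_ hr
    refine le_trans (Nat.cast_le.2 (card_filter_le _ _)) ?_
    rw [card_product]
    push_cast
    rw [sq]
    exact mul_self_le_mul_self (by positivity) hA'

/-- choice of the good right vertex -/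
lemma BSG0_choose {C T : ℝ} (hC0 : 0 < C) (hT : 0 < T) (A₂ : Finset ℤ) (m β : ℤ → ℝ)
    (h2 : (#A₂ : ℝ) ≤ C * T) (hm : T ^ 2 / (2 * C) ≤ ∑ b ∈ A₂, m b)
    (hβ : ∑ b ∈ A₂, β b ≤ (C * T) ^ 2 * (1 / (128 * C ^ 5) * T)) :
    ∃ b ∈ A₂, T ^ 2 / (16 * C ^ 4) ≤ m b ^ 2 - 16 * β b := by
  have hsq : T ^ 3 / (4 * C ^ 3) ≤ ∑ b ∈ A₂, m b ^ 2 := by
    have e1 := sq_sum_le_card_mul_sum_sq (s := A₂) (f := m)
    have e2 : (T ^ 2 / (2 * C)) ^ 2 ≤ (∑ b ∈ A₂, m b) ^ 2 :=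
      pow_le_pow_left₀ (by positivity) hm 2
    have e3 : (#A₂ : ℝ) * ∑ b ∈ A₂, m b ^ 2 ≤ C * T * ∑ b ∈ A₂, m b ^ 2 :=
      mul_le_mul_of_nonneg_right h2 (by positivity)
    have e4 : C * T * (T ^ 3 / (4 * C ^ 3)) = (T ^ 2 / (2 * C)) ^ 2 := by field_simp; ring
    refine le_of_mul_le_mul_left ?_ (show 0 < C * T by positivity)
    linarith
  by_contra hcon
  push Not at hcon
  have e1 := sum_le_card_nsmul A₂ _ _ fun b hb => (hcon b hb).le
  rw [nsmul_eq_mul, sum_sub_distrib, ← mul_sum] at e1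
  have e2 : (#A₂ : ℝ) * (T ^ 2 / (16 * C ^ 4)) ≤ C * T * (T ^ 2 / (16 * C ^ 4)) :=
    mul_le_mul_of_nonneg_right h2 (by positivity)
  have e3 : C * T * (T ^ 2 / (16 * C ^ 4)) = T ^ 3 / (4 * C ^ 3) / 4 := by field_simp; ring
  have e4 : (C * T) ^ 2 * (1 / (128 * C ^ 5) * T) = T ^ 3 / (4 * C ^ 3) / 32 := by
    field_simp; ring
  have e5 : 0 < T ^ 3 / (4 * C ^ 3) := by positivity
  linarith

/-- most points of `M` have few bad partners -/
lemma BSG0_good (M : Finset ℤ) (bad : ℤ → ℤ → Prop) (hpos : (0 : ℝ) < #M)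
    (h : 16 * (#((M ×ˢ M).filter fun q => bad q.1 q.2) : ℝ) ≤ (#M : ℝ) ^ 2) :
    3 * (#M : ℝ) / 4 ≤ #(M.filter fun a => (#(M.filter (bad a)) : ℝ) ≤ #M / 4) := by
  have e1 : (#((M ×ˢ M).filter fun q => bad q.1 q.2) : ℝ) = ∑ a ∈ M, (#(M.filter (bad a)) : ℝ) := by
    simp only [card_filter]
    push_cast
    rw [sum_product]
  have e2 := card_filter_add_card_filter_not (s := M)
    (fun a => (#(M.filter (bad a)) : ℝ) ≤ #M / 4)
  have e2' : (#(M.filter fun a => (#(M.filter (bad a)) : ℝ) ≤ #M / 4) : ℝ) +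
      #(M.filter fun a => ¬ (#(M.filter (bad a)) : ℝ) ≤ #M / 4) = #M := by
    exact_mod_cast e2
  have e3 : (#(M.filter fun a => ¬ (#(M.filter (bad a)) : ℝ) ≤ #M / 4) : ℝ) * (#M / 4) ≤
      #((M ×ˢ M).filter fun q => bad q.1 q.2) := by
    rw [e1, ← nsmul_eq_mul]
    refine (card_nsmul_le_sum _ _ _ fun a ha => (not_le.1 (mem_filter.1 ha).2).le).trans ?_
    exact sum_le_sum_of_subset_of_nonneg (filter_subset _ _) fun _ _ _ => by positivity
  have e4 : (#(M.filter fun a => ¬ (#(M.filter (bad a)) : ℝ) ≤ #M / 4) : ℝ) ≤ #M / 4 := by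
    refine le_of_mul_le_mul_right ?_ (show (0 : ℝ) < #M / 4 by positivity)
    have : (#M : ℝ) / 4 * (#M / 4) = (#M : ℝ) ^ 2 / 16 := by ring
    linarith
  linarith

/-- common good partners -/
lemma BSG0_common (M : Finset ℤ) (p q : ℤ → Prop) (hp : (#(M.filter p) : ℝ) ≤ #M / 4)
    (hq : (#(M.filter q) : ℝ) ≤ #M / 4) : (#M : ℝ) / 2 ≤ #(M.filter fun x => ¬ p x ∧ ¬ q x) := by
  have e1 : M ⊆ (M.filter fun x => ¬ p x ∧ ¬ q x) ∪ (M.filter p ∪ M.filter q) := by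
    intro x hx
    simp only [mem_union, mem_filter]
    by_cases h1 : p x
    · exact Or.inr (Or.inl ⟨hx, h1⟩)
    by_cases h2 : q x
    · exact Or.inr (Or.inr ⟨hx, h2⟩)
    exact Or.inl ⟨hx, h1, h2⟩
  have e2 := (card_le_card e1).trans ((card_union_le _ _).trans
    (Nat.add_le_add_left (card_union_le _ _) _))
  have e3 : (#M : ℝ) ≤ #(M.filter fun x => ¬ p x ∧ ¬ q x) +
      ((#(M.filter p) : ℝ) + #(M.filter q)) := by exact_mod_cast e2
  linarith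

/-- fibre counting -/
lemma BSG0_fib {α : Type*} (S : Finset α) (f : α → ℤ) (D : Finset ℤ) {r : ℝ}
    (h : ∀ d ∈ D, r ≤ #(S.filter fun q => f q = d)) : (#D : ℝ) * r ≤ #S := by
  have e1 := card_nsmul_le_sum _ _ _ h
  rw [nsmul_eq_mul] at e1
  have h' := (sum_card_fiberwise_eq_card_filter S D f).le.trans (card_filter_le _ _)
  exact e1.trans (by exact_mod_cast h')

/-- Let `A₁`, `A₂`, `Σ` be the three images, `N a = {b | (a, b) ∈ G}`.  Remove the `a` with `#(N a) < T / (2 C ^ 2)`; the remaining graph `G₁`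
has at least `T ^ 2 / (2 C)` edges.  Call `(a, a')` bad if `#(N a ∩ N a') < γ T`.  For `b ∈ A₂` let `M b = {a | (a, b) ∈ G₁}`.
`∑ b, #(M b) ^ 2 ≥ (T ^ 2 / (2 C)) ^ 2 / (C T)` (Cauchy–Schwarz) and `∑ b, #(bad pairs in M b ×ˢ M b) ≤ (C T) ^ 2 γ T`; with `γ = 1 / (128 C ^ 5)` some `b`
has `#(M b) ^ 2 - 16 #bad ≥ T ^ 2 / (8 C ^ 4)`.  Let `A` be the set of `a ∈ M b` that form a bad pair with at most `#(M b) / 4` elements:
`#A ≥ 3 #(M b) / 4`.  For `a, a' ∈ A` there are at least `#(M b) / 2` elements `a''` good for both, and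
`a - a' = (a + x) - (a'' + x) + (a'' + y) - (a' + y)` for `x ∈ N a ∩ N a''`, `y ∈ N a'' ∩ N a'`; the quadruple of sums in `Σ ^ 4` determines `(a'', x, y)` and
`a - a'`.  So `#(A - A) · (#(M b) / 2) (γ T) ^ 2 ≤ (C T) ^ 4`. -/
theorem bsg {C : ℝ} (hC : 1 ≤ C) : ∃ c K : ℝ, 0 < c ∧ 0 < K ∧ ∀ (T : ℝ) (G : Finset (ℤ × ℤ)),
    0 < T → T ^ 2 / C ≤ #G → (#(G.image Prod.fst) : ℝ) ≤ C * T →
    (#(G.image Prod.snd) : ℝ) ≤ C * T → (#(G.image fun g => g.1 + g.2) : ℝ) ≤ C * T →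
    ∃ A : Finset ℤ, c * T ≤ #A ∧ (#(A - A) : ℝ) ≤ K * T ∧
      ∀ a ∈ A, c * T ≤ (#(G.filter fun g => g.1 = a) : ℝ) := by
  have hC0 : 0 < C := by linarith
  obtain ⟨γ, hγ⟩ : ∃ γ : ℝ, γ = 1 / (128 * C ^ 5) := ⟨_, rfl⟩
  have hγ0 : 0 < γ := by rw [hγ]; positivity
  refine ⟨3 / (16 * C ^ 2), 8 * C ^ 6 / γ ^ 2, by positivity, by positivity, ?_⟩
  intro T G hT hG h1 h2 h3
  obtain ⟨N, hN⟩ : ∃ N : ℤ → Finset ℤ,
      ∀ a, N a = (G.image Prod.snd).filter fun b => (a, b) ∈ G := ⟨_, fun _ => rfl⟩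
  have hNG : ∀ a b, b ∈ N a → (a, b) ∈ G := fun a b h => by
    rw [hN] at h; exact (mem_filter.1 h).2
  have hNc : ∀ a, #(G.filter fun g => g.1 = a) = #(N a) := by
    intro a
    refine card_bij (fun g _ => g.2) ?_ ?_ ?_
    · rintro ⟨x, y⟩ hg
      have k1 := (mem_filter.1 hg).1
      have k2 : x = a := (mem_filter.1 hg).2
      rw [hN, ← k2]
      exact mem_filter.2 ⟨mem_image_of_mem _ k1, k1⟩
    · rintro ⟨x, y⟩ hg ⟨x', y'⟩ hg' h
      have e1 : x = a := (mem_filter.1 hg).2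
      have e2 : x' = a := (mem_filter.1 hg').2
      have e3 : y = y' := h
      rw [e1, e2, e3]
    · intro b hb
      exact ⟨(a, b), mem_filter.2 ⟨hNG a b hb, rfl⟩, rfl⟩
  have hsum : (#G : ℝ) = ∑ a ∈ G.image Prod.fst, (#(N a) : ℝ) := by
    rw [card_eq_sum_card_fiberwise (f := Prod.fst) (t := G.image Prod.fst)
      fun g hg => mem_image_of_mem _ hg]
    push_cast
    exact sum_congr rfl fun a _ => by rw [hNc]
  have hsum' := BSG0_pop hC0 hT (G.image Prod.fst) (fun a => (#(N a) : ℝ)) h1 (hsum ▸ hG)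
  obtain ⟨A', hA'⟩ : ∃ A' : Finset ℤ,
      A' = (G.image Prod.fst).filter fun a => T / (2 * C ^ 2) ≤ (#(N a) : ℝ) := ⟨_, rfl⟩
  rw [← hA'] at hsum'
  have hA'c : (#A' : ℝ) ≤ C * T := by
    rw [hA']; exact le_trans (Nat.cast_le.2 (card_filter_le _ _)) h1
  have hA'p : ∀ a ∈ A', T / (2 * C ^ 2) ≤ (#(N a) : ℝ) := fun a ha => by
    rw [hA'] at ha; exact (mem_filter.1 ha).2
  have hMsum : ∑ b ∈ G.image Prod.snd, (#(A'.filter fun a => (a, b) ∈ G) : ℝ) =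
      ∑ a ∈ A', (#(N a) : ℝ) := by
    simp only [hN, card_filter]
    push_cast
    exact sum_comm
  have hBsum := BSG0_bad A' (G.image Prod.snd) (fun a b => (a, b) ∈ G) (r := γ * T)
    (by positivity) hA'c
  obtain ⟨b, -, hb⟩ := BSG0_choose hC0 hT (G.image Prod.snd)
    (fun b => (#(A'.filter fun a => (a, b) ∈ G) : ℝ))
    (fun b => (#(((A'.filter fun a => (a, b) ∈ G) ×ˢ (A'.filter fun a => (a, b) ∈ G)).filter
      fun q => (#(N q.1 ∩ N q.2) : ℝ) < γ * T) : ℝ)) h2 (hMsum ▸ hsum') (by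
        rw [← hγ]
        simp only [hN]
        convert hBsum)
  obtain ⟨M, hM⟩ : ∃ M : Finset ℤ, M = A'.filter fun a => (a, b) ∈ G := ⟨_, rfl⟩
  simp only [← hM] at hb
  have hMA : M ⊆ A' := by rw [hM]; exact filter_subset _ _
  have hB0 : (0 : ℝ) ≤ #((M ×ˢ M).filter fun q => (#(N q.1 ∩ N q.2) : ℝ) < γ * T) :=
    Nat.cast_nonneg _
  have hmT : T / (4 * C ^ 2) ≤ #M := by
    refine le_of_sq_le_sq ?_ (Nat.cast_nonneg _)
    have : (T / (4 * C ^ 2)) ^ 2 = T ^ 2 / (16 * C ^ 4) := by field_simp; ring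
    linarith
  have hmpos : (0 : ℝ) < #M := lt_of_lt_of_le (by positivity) hmT
  have hAc := BSG0_good M (fun a a' => (#(N a ∩ N a') : ℝ) < γ * T) hmpos (by
    have : 0 ≤ T ^ 2 / (16 * C ^ 4) := by positivity
    have e : 16 * (#((M ×ˢ M).filter fun q => (#(N q.1 ∩ N q.2) : ℝ) < γ * T) : ℝ) ≤
        (#M : ℝ) ^ 2 := by linarith
    convert e)
  refine ⟨_, le_trans ?_ hAc, ?_, fun a ha => ?_⟩
  · have : 3 / (16 * C ^ 2) * T = 3 * (T / (4 * C ^ 2)) / 4 := by field_simp; ring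
    linarith
  · refine le_of_mul_le_mul_right ?_ (show 0 < T / (4 * C ^ 2) / 2 * (γ * T) ^ 2 by positivity)
    have e5 : 8 * C ^ 6 / γ ^ 2 * T * (T / (4 * C ^ 2) / 2 * (γ * T) ^ 2) = (C * T) ^ 4 := by
      field_simp; ring
    rw [e5]
    refine (BSG0_fib (((G.image fun g => g.1 + g.2) ×ˢ (G.image fun g => g.1 + g.2)) ×ˢ
      ((G.image fun g => g.1 + g.2) ×ˢ (G.image fun g => g.1 + g.2)))
      (fun q => q.1.1 - q.1.2 + q.2.1 - q.2.2) _ fun d hd => ?_).trans ?_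
    · obtain ⟨a, ha, a', ha', rfl⟩ := mem_sub.1 hd
      have hPc := BSG0_common M _ _ (mem_filter.1 ha).2 (mem_filter.1 ha').2
      have hq := BSG0_quad G N hNG a a'
        (M.filter fun x => ¬ (#(N a ∩ N x) : ℝ) < γ * T ∧ ¬ (#(N a' ∩ N x) : ℝ) < γ * T)
        (r := γ * T) (by positivity)
        (fun p hp => not_lt.1 (mem_filter.1 hp).2.1) (fun p hp => not_lt.1 (mem_filter.1 hp).2.2)
      refine le_trans (mul_le_mul_of_nonneg_right (le_trans ?_ hPc) (by positivity)) ?_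
      · linarith
      · convert hq
    · rw [card_product, card_product]
      push_cast
      refine le_trans (le_of_eq (by ring)) (pow_le_pow_left₀ (Nat.cast_nonneg _) h3 4)
  · rw [hNc]
    refine le_trans ?_ (hA'p a (hMA (mem_filter.1 ha).1))
    have e : T / (2 * C ^ 2) = 3 / (16 * C ^ 2) * T + 5 / (16 * C ^ 2) * T := by
      field_simp; ring
    have : 0 ≤ 5 / (16 * C ^ 2) * T := by positivity
    linarith

end Crest.Agent.R51
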