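import Crest.Agent.R51.Defs
import Crest.Agent.R51.BSG0

/-! A Balog–Szemerédi–Gowers type lemma for dense graphs, and approximate groups. -/

namespace Crest.Agent.R51

open Finset
open scoped Classical Pointwise

theorem bsg_pigeon {α β : Type*} [DecidableEq β] (G : Finset α) (B : Finset β) (hB : B.Nonempty)
    (f : α → β) (hf : ∀ g ∈ G, f g ∈ B) : ∃ b, #G ≤ #(G.filter fun g => f g = b) * #B := by
  obtain ⟨b, -, hb⟩ := exists_max_image B (fun b => #(G.filter fun g => f g = b)) hB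
  exact ⟨b, card_le_mul_card_image_of_maps_to hf _ hb⟩

theorem bsg_cs {α β : Type*} [DecidableEq β] (G : Finset α) (f : α → β) :
    #G ^ 2 ≤ #(G.image f) * #((G ×ˢ G).filter fun γ => f γ.2 = f γ.1) := by
  have h1 : #G = ∑ b ∈ G.image f, #(G.filter fun g => f g = b) :=
    card_eq_sum_card_fiberwise fun g hg => mem_image_of_mem f hg
  have h2 : #((G ×ˢ G).filter fun γ => f γ.2 = f γ.1)
      = ∑ b ∈ G.image f, #(G.filter fun g => f g = b) ^ 2 := by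
    rw [card_eq_sum_card_fiberwise (f := fun γ : α × α => f γ.1) (t := G.image f)]
    · refine sum_congr rfl fun b _ => ?_
      rw [sq, ← card_product]
      congr 1
      ext ⟨g, g'⟩
      simp only [mem_filter, mem_product]
      constructor
      · rintro ⟨⟨⟨h1, h2⟩, h3⟩, h4⟩
        exact ⟨⟨h1, h4⟩, h2, h3.trans h4⟩
      · rintro ⟨⟨h1, h4⟩, h2, h3⟩
        exact ⟨⟨⟨h1, h2⟩, h3.trans h4.symm⟩, h4⟩
    · intro γ hγ
      exact mem_image_of_mem f (mem_product.1 (mem_filter.1 hγ).1).1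
  rw [h2]
  conv_lhs => rw [h1]
  exact sq_sum_le_card_mul_sum_sq

/-- Both coordinates in one set of small doubling.  Take `A` from `bsg`, `G₁ = G.filter (·.1 ∈ A)` (at least `c ^ 2 T ^ 2` elements),
`d b = #{a | (a, b) ∈ G₁}`.  For `σ ∈ Σ` let `B σ = {b | (σ - b, b) ∈ G₁}`; `∑ σ, ∑ b ∈ B σ, d b = ∑ b, (d b) ^ 2 ≥ (c ^ 2 T ^ 2) ^ 2 / (C T)`, so for
some `σ` the graph `G' = G₁.filter (·.2 ∈ B σ)` has at least `c ^ 4 T ^ 2 / C ^ 2` elements. -/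
theorem bsg' {C : ℝ} (hC : 1 ≤ C) : ∃ c K : ℝ, 0 < c ∧ 0 < K ∧ ∀ (T : ℝ) (G : Finset (ℤ × ℤ)),
    0 < T → T ^ 2 / C ≤ #G → (#(G.image Prod.fst) : ℝ) ≤ C * T →
    (#(G.image Prod.snd) : ℝ) ≤ C * T → (#(G.image fun g => g.1 + g.2) : ℝ) ≤ C * T →
    ∃ (A : Finset ℤ) (σ : ℤ) (G' : Finset (ℤ × ℤ)), G' ⊆ G ∧ c * T ^ 2 ≤ #G' ∧ c * T ≤ #A ∧
      (#(A - A) : ℝ) ≤ K * T ∧ ∀ g ∈ G', g.1 ∈ A ∧ σ - g.2 ∈ A := by
  obtain ⟨c, K, hc, hK, h⟩ := bsg hC
  have hC0 : 0 < C := by linarith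
  refine ⟨min c (c ^ 4 / C ^ 2), K, by positivity, hK, ?_⟩
  intro T G hT hG h1 h2 h3
  obtain ⟨A, hA, hAA, hAd⟩ := h T G hT hG h1 h2 h3
  set G₁ := G.filter fun g => g.1 ∈ A with hG₁
  have hG₁G : G₁ ⊆ G := filter_subset _ _
  have e1 : (c * T) ^ 2 ≤ #G₁ := by
    have : #G₁ = ∑ a ∈ A, #(G₁.filter fun g => g.1 = a) :=
      card_eq_sum_card_fiberwise fun g hg => (mem_filter.1 hg).2
    have h4 : (#G₁ : ℝ) = ∑ a ∈ A, (#(G₁.filter fun g => g.1 = a) : ℝ) := by exact_mod_cast this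
    rw [h4]
    calc (c * T) ^ 2 = c * T * (c * T) := sq _
      _ ≤ #A * (c * T) := by gcongr
      _ = ∑ a ∈ A, c * T := by simp
      _ ≤ _ := by
        refine sum_le_sum fun a ha => (hAd a ha).trans ?_
        refine Nat.cast_le.2 (card_le_card fun g hg => ?_)
        rw [mem_filter] at hg ⊢
        exact ⟨mem_filter.2 ⟨hg.1, hg.2 ▸ ha⟩, hg.2⟩
  have hGne : G.Nonempty := by
    rw [← card_pos]
    have : (0 : ℝ) < #G := lt_of_lt_of_le (by positivity) hG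
    exact_mod_cast this
  have e2 := bsg_cs G₁ Prod.snd
  set W := (G₁ ×ˢ G₁).filter fun γ => γ.2.2 = γ.1.2 with hW
  obtain ⟨σ, hσ⟩ := bsg_pigeon W (G.image fun g => g.1 + g.2) (hGne.image _)
    (fun γ => γ.2.1 + γ.2.2)
    (fun γ hγ => mem_image_of_mem _ (hG₁G (mem_product.1 (mem_filter.1 hγ).1).2))
  set G' := G₁.filter fun g => σ - g.2 ∈ A with hG'
  have e3 : #(W.filter fun γ => γ.2.1 + γ.2.2 = σ) ≤ #G' := by
    refine card_le_card_of_injOn (fun γ => γ.1) ?_ ?_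
    · intro γ hγ
      have a1 := mem_filter.1 (mem_coe.1 hγ)
      have a2 := mem_filter.1 a1.1
      have a3 := mem_product.1 a2.1
      refine mem_coe.2 (mem_filter.2 ⟨a3.1, ?_⟩)
      have : σ - γ.1.2 = γ.2.1 := by linarith [a1.2, a2.2]
      rw [this]
      exact (mem_filter.1 a3.2).2
    · intro γ hγ γ' hγ' e
      have a1 := mem_filter.1 (mem_coe.1 hγ)
      have a2 := mem_filter.1 a1.1
      have b1 := mem_filter.1 (mem_coe.1 hγ')
      have b2 := mem_filter.1 b1.1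
      have e' : γ.1 = γ'.1 := e
      have e4 : γ.2.2 = γ'.2.2 := by rw [a2.2, b2.2, e']
      refine Prod.ext e' (Prod.ext ?_ e4)
      linarith [a1.2, b1.2]
  refine ⟨A, σ, G', (filter_subset _ _).trans hG₁G, ?_, ?_, hAA, ?_⟩
  · have a1 : (#G₁ : ℝ) ^ 2 ≤ #(G₁.image Prod.snd) * #W := by exact_mod_cast e2
    have a2 : (#(G₁.image Prod.snd) : ℝ) ≤ C * T :=
      le_trans (Nat.cast_le.2 (card_le_card (image_subset_image hG₁G))) h2
    have a3 : (#W : ℝ) ≤ #G' * #(G.image fun g => g.1 + g.2) := by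
      exact_mod_cast hσ.trans (Nat.mul_le_mul_right _ e3)
    have a4 : ((c * T) ^ 2) ^ 2 ≤ C * T * (#G' * (C * T)) := by
      calc ((c * T) ^ 2) ^ 2 ≤ (#G₁ : ℝ) ^ 2 := by gcongr
        _ ≤ (#(G₁.image Prod.snd) : ℝ) * #W := a1
        _ ≤ C * T * (#G' * #(G.image fun g => g.1 + g.2)) := by gcongr
        _ ≤ _ := by gcongr
    calc min c (c ^ 4 / C ^ 2) * T ^ 2 ≤ c ^ 4 / C ^ 2 * T ^ 2 := by
          gcongr; exact min_le_right _ _
      _ ≤ (#G' : ℝ) := by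
          rw [div_mul_eq_mul_div, div_le_iff₀ (by positivity)]
          have hT2 : 0 < T ^ 2 := by positivity
          refine le_of_mul_le_mul_left ?_ hT2
          nlinarith
  · refine le_trans ?_ hA
    gcongr; exact min_le_left _ _
  · intro g hg
    exact ⟨(mem_filter.1 (mem_filter.1 hg).1).2, (mem_filter.1 hg).2⟩

/-- `A - A` is an approximate group: `Finset.pluennecke_ruzsa_inequality_nsmul_sub_nsmul_sub` bounds
`#((A - A + (A - A)) + A) ≤ K ^ 5 #A`, and `Finset.ruzsa_covering_add` covers `A - A + (A - A)` by translates of `A - A`. -/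
theorem exists_cover {K : ℝ} (hK : 0 < K) : ∃ x : ℕ, 1 ≤ x ∧ ∀ A : Finset ℤ, A.Nonempty →
    (#(A - A) : ℝ) ≤ K * #A → ∃ X : Finset ℤ, #X ≤ x ∧ (A - A) + (A - A) ⊆ X + (A - A) := by
  refine ⟨⌈K ^ 5⌉₊ + 1, by omega, fun A hA hAK => ?_⟩
  have hA0 : (0 : ℝ) < #A := by exact_mod_cast card_pos.2 hA
  have h1 := pluennecke_ruzsa_inequality_nsmul_sub_nsmul_sub hA A 3 2
  have h2 : (#(3 • A - 2 • A) : ℝ) ≤ ((#(A - A) : ℝ) / #A) ^ 5 * #A := by
    have := NNRat.cast_mono (K := ℝ) h1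
    simpa using this
  have h3 : (A - A) + (A - A) + A ⊆ 3 • A - 2 • A := by
    intro z hz
    obtain ⟨y, hy, a, ha, rfl⟩ := mem_add.1 hz
    obtain ⟨s, hs, t, ht, rfl⟩ := mem_add.1 hy
    obtain ⟨a₁, ha₁, a₂, ha₂, rfl⟩ := mem_sub.1 hs
    obtain ⟨a₃, ha₃, a₄, ha₄, rfl⟩ := mem_sub.1 ht
    refine mem_sub.2 ⟨a₁ + a₃ + a, ?_, a₂ + a₄, ?_, by ring⟩
    · rw [three_nsmul]
      rw [add_assoc]
      exact add_mem_add ha₁ (add_mem_add ha₃ ha)
    · rw [two_nsmul]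
      exact add_mem_add ha₂ ha₄
  have h4 : (#((A - A) + (A - A) + A) : ℝ) ≤ K ^ 5 * #A := by
    calc (#((A - A) + (A - A) + A) : ℝ) ≤ #(3 • A - 2 • A) := Nat.cast_le.2 (card_le_card h3)
      _ ≤ ((#(A - A) : ℝ) / #A) ^ 5 * #A := h2
      _ ≤ K ^ 5 * #A := by
        gcongr
        rwa [div_le_iff₀ hA0]
  obtain ⟨F, -, hF, hAF⟩ := ruzsa_covering_add hA h4
  refine ⟨F, ?_, hAF⟩
  have : (#F : ℝ) ≤ ⌈K ^ 5⌉₊ := hF.trans (Nat.le_ceil _)
  have : #F ≤ ⌈K ^ 5⌉₊ := by exact_mod_cast this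
  omega

end Crest.Agent.R51
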