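import Crest.Agent.R51.Defs

/-! Elementary facts about `f`, `sl`, `pairs`, `tm`, degrees and windows. -/

namespace Crest.Agent.R51

open Finset
open scoped Classical

theorem mem_pairs {P : Finset Pt} {e : Ed} : e ∈ pairs P ↔ e.1 ∈ P ∧ e.2 ∈ P ∧ e.1.1 < e.2.1 := by
  simp [pairs, and_assoc]

theorem mem_tm {E : Finset Ed} {a b : ℝ} {e : Ed} : e ∈ tm E a b ↔ e ∈ E ∧ a < sl e ∧ sl e ≤ b := by
  simp [tm]

theorem mem_band {P : Finset Pt} {j : ℤ} {i : ℕ} {e : Ed} :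
    e ∈ band P j i ↔ e ∈ pairs P ∧ j ≤ (elev P e : ℤ) ∧ (elev P e : ℤ) < j + i := by
  simp [band]

theorem mem_inc {E : Finset Ed} {Y : Finset Pt} {e : Ed} :
    e ∈ inc E Y ↔ e ∈ E ∧ (e.1 ∈ Y ∨ e.2 ∈ Y) := by
  simp [inc]

theorem mem_ins {E : Finset Ed} {Y : Finset Pt} {e : Ed} :
    e ∈ ins E Y ↔ e ∈ E ∧ e.1 ∈ Y ∧ e.2 ∈ Y := by
  simp [ins]

theorem mem_btw {E : Finset Ed} {Y₁ Y₂ : Finset Pt} {e : Ed} :
    e ∈ btw E Y₁ Y₂ ↔ e ∈ E ∧ ((e.1 ∈ Y₁ ∧ e.2 ∈ Y₂) ∨ (e.1 ∈ Y₂ ∧ e.2 ∈ Y₁)) := by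
  simp [btw]

theorem f_sub (e : Ed) (h : e.1.1 < e.2.1) (θ : ℝ) :
    f θ e.2 - f θ e.1 = (e.2.1 - e.1.1) * (sl e - θ) := by
  have : e.2.1 - e.1.1 ≠ 0 := by linarith
  unfold f sl
  field_simp
  ring

theorem f_sl (e : Ed) (h : e.1.1 < e.2.1) : f (sl e) e.2 = f (sl e) e.1 := by
  have := f_sub e h (sl e)
  rw [sub_self, mul_zero] at this
  linarith

theorem f_lt_iff (e : Ed) (h : e.1.1 < e.2.1) (θ : ℝ) : f θ e.1 < f θ e.2 ↔ θ < sl e := by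
  have h1 := f_sub e h θ
  have h2 : 0 < e.2.1 - e.1.1 := by linarith
  constructor
  · intro h3
    by_contra h4
    have : (e.2.1 - e.1.1) * (sl e - θ) ≤ 0 := mul_nonpos_of_nonneg_of_nonpos h2.le (by linarith)
    linarith
  · intro h3
    have : 0 < (e.2.1 - e.1.1) * (sl e - θ) := mul_pos h2 (by linarith)
    linarith

theorem f_gt_iff (e : Ed) (h : e.1.1 < e.2.1) (θ : ℝ) : f θ e.2 < f θ e.1 ↔ sl e < θ := by
  have h1 := f_sub e h θ
  have h2 : 0 < e.2.1 - e.1.1 := by linarith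
  constructor
  · intro h3
    by_contra h4
    have : 0 ≤ (e.2.1 - e.1.1) * (sl e - θ) := mul_nonneg h2.le (by linarith)
    linarith
  · intro h3
    have : (e.2.1 - e.1.1) * (sl e - θ) < 0 := mul_neg_of_pos_of_neg h2 (by linarith)
    linarith

theorem f_le_iff (e : Ed) (h : e.1.1 < e.2.1) (θ : ℝ) : f θ e.1 ≤ f θ e.2 ↔ θ ≤ sl e := by
  rw [← not_lt, f_gt_iff e h, not_lt]

theorem f_ge_iff (e : Ed) (h : e.1.1 < e.2.1) (θ : ℝ) : f θ e.2 ≤ f θ e.1 ↔ sl e ≤ θ := by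
  rw [← not_lt, f_lt_iff e h, not_lt]

theorem pairs_mono {P Z : Finset Pt} (h : Z ⊆ P) : pairs Z ⊆ pairs P := by
  intro e he
  rw [mem_pairs] at he ⊢
  exact ⟨h he.1, h he.2.1, he.2.2⟩

theorem GP.mono {P Z : Finset Pt} (hP : GP P) (h : Z ⊆ P) : GP Z :=
  ⟨fun p hp q hq => hP.xinj p (h hp) q (h hq),
    fun e he e' he' => hP.slinj e (pairs_mono h he) e' (pairs_mono h he')⟩

theorem tm_subset (E : Finset Ed) (a b : ℝ) : tm E a b ⊆ E := filter_subset _ _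

theorem tm_mono {E E' : Finset Ed} (h : E ⊆ E') {a b a' b' : ℝ} (ha : a' ≤ a) (hb : b ≤ b') :
    tm E a b ⊆ tm E' a' b' := by
  intro e he
  rw [mem_tm] at he ⊢
  exact ⟨h he.1, by linarith [he.2.1], by linarith [he.2.2]⟩

theorem tm_tm (E : Finset Ed) {a b a' b' : ℝ} (ha : a ≤ a') (hb : b' ≤ b) :
    tm (tm E a b) a' b' = tm E a' b' := by
  ext e
  simp only [mem_tm]
  constructor
  · rintro ⟨⟨h1, -, -⟩, h2⟩
    exact ⟨h1, h2⟩
  · rintro ⟨h1, h2, h3⟩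
    exact ⟨⟨h1, by linarith, by linarith⟩, h2, h3⟩

theorem band_subset (P : Finset Pt) (j : ℤ) (i : ℕ) : band P j i ⊆ pairs P := filter_subset _ _

theorem inc_subset (E : Finset Ed) (Y : Finset Pt) : inc E Y ⊆ E := filter_subset _ _

theorem inc_mono {E E' : Finset Ed} {Y Y' : Finset Pt} (h : E ⊆ E') (h' : Y ⊆ Y') :
    inc E Y ⊆ inc E' Y' := by
  intro e he
  rw [mem_inc] at he ⊢
  exact ⟨h he.1, he.2.imp (fun x => h' x) fun x => h' x⟩

theorem deg_mono {E E' : Finset Ed} (h : E ⊆ E') (p : Pt) : deg E p ≤ deg E' p :=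
  card_le_card (filter_subset_filter _ h)

theorem nr_mono {ι : Type} {E E' : Finset Ed} (h : E ⊆ E') (id : Ed → ι) : nr E id ≤ nr E' id :=
  card_le_card (image_subset_image h)

/-- `nr` with any decidable equality on the labels (use it to avoid instance mismatches). -/
theorem nr_eq {ι : Type} [inst : DecidableEq ι] (E : Finset Ed) (id : Ed → ι) :
    nr E id = #(@Finset.image _ _ inst id E) := by
  unfold nr
  congr
  exact Subsingleton.elim _ _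

theorem card_pairs_le (P : Finset Pt) : #(pairs P) ≤ #P ^ 2 := by
  calc #(pairs P) ≤ #(P ×ˢ P) := card_le_card (filter_subset _ _)
    _ = #P ^ 2 := by rw [card_product, sq]

theorem card_inc_le_sum_deg (E : Finset Ed) (Y : Finset Pt) : #(inc E Y) ≤ ∑ p ∈ Y, deg E p := by
  calc #(inc E Y) ≤ #(Y.biUnion fun p => E.filter (Inc p)) := by
        apply card_le_card
        intro e he
        rw [mem_inc] at he
        rw [mem_biUnion]
        rcases he.2 with h | h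
        · exact ⟨e.1, h, mem_filter.2 ⟨he.1, Or.inl rfl⟩⟩
        · exact ⟨e.2, h, mem_filter.2 ⟨he.1, Or.inr rfl⟩⟩
    _ ≤ ∑ p ∈ Y, deg E p := card_biUnion_le

theorem sum_deg_le (E : Finset Ed) (Y : Finset Pt) : ∑ p ∈ Y, deg E p ≤ 2 * #(inc E Y) := by
  have h1 : ∀ p ∈ Y, deg E p ≤ #((inc E Y).filter fun e => e.1 = p) +
      #((inc E Y).filter fun e => e.2 = p) := by
    intro p hp
    refine le_trans (card_le_card ?_) (card_union_le _ _)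
    intro e he
    rw [mem_filter] at he
    rw [mem_union, mem_filter, mem_filter, mem_inc]
    rcases he.2 with h | h
    · exact Or.inl ⟨⟨he.1, Or.inl (h ▸ hp)⟩, h⟩
    · exact Or.inr ⟨⟨he.1, Or.inr (h ▸ hp)⟩, h⟩
  have h2 : ∑ p ∈ Y, #((inc E Y).filter fun e => e.1 = p) ≤ #(inc E Y) := by
    rw [← card_biUnion]
    · exact card_le_card (biUnion_subset.2 fun p _ => filter_subset _ _)
    · intro p _ q _ hpq
      rw [Function.onFun, disjoint_filter]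
      intro e _ h1 h2
      exact hpq (h1.symm.trans h2)
  have h3 : ∑ p ∈ Y, #((inc E Y).filter fun e => e.2 = p) ≤ #(inc E Y) := by
    rw [← card_biUnion]
    · exact card_le_card (biUnion_subset.2 fun p _ => filter_subset _ _)
    · intro p _ q _ hpq
      rw [Function.onFun, disjoint_filter]
      intro e _ h1 h2
      exact hpq (h1.symm.trans h2)
  calc ∑ p ∈ Y, deg E p ≤ ∑ p ∈ Y, (#((inc E Y).filter fun e => e.1 = p) +
        #((inc E Y).filter fun e => e.2 = p)) := sum_le_sum h1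
    _ ≤ 2 * #(inc E Y) := by rw [sum_add_distrib]; omega

/-- Disjoint windows. -/
theorem sum_card_tm_le (E : Finset Ed) (lo hi : ℕ → ℝ) (Ks : Finset ℕ)
    (h : ∀ k ∈ Ks, ∀ k' ∈ Ks, k < k' → hi k ≤ lo k') :
    ∑ k ∈ Ks, #(tm E (lo k) (hi k)) ≤ #E := by
  rw [← card_biUnion]
  · exact card_le_card (biUnion_subset.2 fun k _ => tm_subset _ _ _)
  · intro k hk k' hk' hne
    rw [Function.onFun, disjoint_left]
    intro e he he'
    rw [mem_tm] at he he'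
    rcases lt_or_gt_of_ne hne with h1 | h1
    · linarith [h k hk k' hk' h1, he.2.2, he'.2.1]
    · linarith [h k' hk' k hk h1, he.2.1, he'.2.2]

theorem exists_win {B : ℕ → ℝ} {s t : ℕ} (hst : s ≤ t) {x : ℝ} (h1 : B s < x) (h2 : x ≤ B t) :
    ∃ k, s ≤ k ∧ k < t ∧ B k < x ∧ x ≤ B (k + 1) := by
  induction t, hst using Nat.le_induction with
  | base => linarith
  | succ t hst ih =>
    by_cases h : x ≤ B t
    · obtain ⟨k, hk1, hk2, hk3⟩ := ih h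
      exact ⟨k, hk1, by omega, hk3⟩
    · exact ⟨t, hst, by omega, not_le.1 h, h2⟩

theorem win_unique {B : ℕ → ℝ} (hB : Monotone B) {k k' : ℕ} {x : ℝ} (h1 : B k < x)
    (h2 : x ≤ B (k + 1)) (h1' : B k' < x) (h2' : x ≤ B (k' + 1)) : k = k' := by
  by_contra hne
  rcases lt_or_gt_of_ne hne with h | h
  · linarith [hB (show k + 1 ≤ k' by omega)]
  · linarith [hB (show k' + 1 ≤ k by omega)]

theorem card_tm_eq_sum (E : Finset Ed) {B : ℕ → ℝ} (hB : Monotone B) {s t : ℕ} (hst : s ≤ t) :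
    #(tm E (B s) (B t)) = ∑ k ∈ Finset.Ico s t, #(tm E (B k) (B (k + 1))) := by
  rw [← card_biUnion]
  · congr 1
    ext e
    rw [mem_biUnion, mem_tm]
    constructor
    · rintro ⟨h1, h2, h3⟩
      obtain ⟨k, hk1, hk2, hk3⟩ := exists_win hst h2 h3
      exact ⟨k, mem_Ico.2 ⟨hk1, hk2⟩, mem_tm.2 ⟨h1, hk3⟩⟩
    · rintro ⟨k, hk, he⟩
      rw [mem_tm] at he
      rw [mem_Ico] at hk
      exact ⟨he.1, by linarith [hB hk.1, he.2.1], by linarith [hB (show k + 1 ≤ t by omega), he.2.2]⟩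
  · intro k _ k' _ hne
    rw [Function.onFun, disjoint_left]
    intro e he he'
    rw [mem_tm] at he he'
    exact hne (win_unique hB he.2.1 he.2.2 he'.2.1 he'.2.2)

namespace Loc

variable (L : Loc)

theorem gp : GP L.P := L.sys.gp

theorem gpZ : GP L.Z := L.gp.mono L.ZP

theorem E_sub : L.E ⊆ pairs L.Z := by
  intro e he
  rw [mem_pairs]
  exact ⟨(L.inZ e he).1, (L.inZ e he).2, (mem_pairs.1 (L.sys.sub he)).2.2⟩

theorem cardZ' : (#L.Z : ℝ) ≤ L.N := L.cardZ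

theorem mem_W {E : Finset Ed} {m k : ℕ} {e : Ed} :
    e ∈ L.W E m k ↔ e ∈ E ∧ L.lo m k < sl e ∧ sl e ≤ L.hi m k := mem_tm

theorem mem_sel {E : Finset Ed} {m : ℕ} {S : ℕ → Prop} {e : Ed} :
    e ∈ L.sel E m S ↔ e ∈ E ∧ ∃ k, S k ∧ L.lo m k < sl e ∧ sl e ≤ L.hi m k := by
  simp [sel]

theorem W_subset (E : Finset Ed) (m k : ℕ) : L.W E m k ⊆ E := tm_subset _ _ _

theorem sel_subset (E : Finset Ed) (m : ℕ) (S : ℕ → Prop) : L.sel E m S ⊆ E := filter_subset _ _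

theorem W_mono {E E' : Finset Ed} (h : E ⊆ E') (m k : ℕ) : L.W E m k ⊆ L.W E' m k :=
  tm_mono h le_rfl le_rfl

theorem hi_eq (m k : ℕ) : L.hi m k = L.lo m (k + 1) := rfl

theorem lo_mono (m : ℕ) : Monotone (L.lo m) := fun _ _ h =>
  L.mono (Nat.mul_le_mul_right _ h)

theorem lo_le_hi (m k : ℕ) : L.lo m k ≤ L.hi m k := L.lo_mono m (Nat.le_succ k)

theorem hi_le_lo (m : ℕ) {k k' : ℕ} (h : k < k') : L.hi m k ≤ L.lo m k' := L.lo_mono m h

theorem lo_zero (m : ℕ) : L.lo m 0 = L.b 0 := by simp [lo]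

theorem lo_top {m : ℕ} (hm : m ∣ L.q) : L.lo m (m ^ 4) = L.b (L.q ^ 4) := by
  unfold lo
  rw [← mul_pow, Nat.mul_div_cancel' hm]

theorem lo_q (w : ℕ) : L.lo L.q w = L.b w := by
  unfold lo
  rw [Nat.div_self L.q_pos]
  simp

theorem hi_q (w : ℕ) : L.hi L.q w = L.b (w + 1) := L.lo_q (w + 1)

theorem win_unique {m k k' : ℕ} {x : ℝ} (h1 : L.lo m k < x) (h2 : x ≤ L.hi m k)
    (h1' : L.lo m k' < x) (h2' : x ≤ L.hi m k') : k = k' :=
  Crest.Agent.R51.win_unique (L.lo_mono m) h1 h2 h1' h2'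

theorem exists_win {m : ℕ} (hm : m ∣ L.q) {e : Ed} (he : e ∈ L.E) :
    ∃ k < m ^ 4, L.lo m k < sl e ∧ sl e ≤ L.hi m k := by
  have h := L.range e he
  rw [← L.lo_zero m, ← L.lo_top hm] at h
  obtain ⟨k, -, hk2, hk3⟩ := Crest.Agent.R51.exists_win (Nat.zero_le _) h.1 h.2
  exact ⟨k, hk2, hk3⟩

theorem lt_of_mem_W {m : ℕ} (hm : m ∣ L.q) {E₀ : Finset Ed} (hE : E₀ ⊆ L.E) {k : ℕ} {e : Ed}
    (he : e ∈ L.W E₀ m k) : k < m ^ 4 := by
  rw [mem_W] at he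
  obtain ⟨k', hk1, hk2⟩ := L.exists_win hm (hE he.1)
  rw [L.win_unique he.2.1 he.2.2 hk2.1 hk2.2]
  exact hk1

theorem card_eq_sum_W {m : ℕ} (hm : m ∣ L.q) {E₀ : Finset Ed} (hE : E₀ ⊆ L.E) :
    #E₀ = ∑ k ∈ Finset.range (m ^ 4), #(L.W E₀ m k) := by
  have h := card_tm_eq_sum E₀ (L.lo_mono m) (Nat.zero_le (m ^ 4))
  rw [← range_eq_Ico] at h
  have h2 : tm E₀ (L.lo m 0) (L.lo m (m ^ 4)) = E₀ := by
    apply Subset.antisymm (tm_subset _ _ _)
    intro e he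
    rw [mem_tm, L.lo_zero, L.lo_top hm]
    exact ⟨he, L.range e (hE he)⟩
  rw [h2] at h
  exact h

theorem sum_card_W_le (E : Finset Ed) (m : ℕ) (Ks : Finset ℕ) : ∑ k ∈ Ks, #(L.W E m k) ≤ #E :=
  sum_card_tm_le E (L.lo m) (L.hi m) Ks fun _ _ _ _ h => L.hi_le_lo m h

/-- The ends of windows of a coarser scale are ends of windows of a finer scale. -/
theorem lo_scale {m m' : ℕ} (h : m ∣ m') (h' : m' ∣ L.q) (k : ℕ) :
    L.lo m k = L.lo m' (k * (m' / m) ^ 4) := by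
  obtain ⟨s, rfl⟩ := h
  obtain ⟨t, ht⟩ := h'
  have hq := L.q_pos
  have hm : 0 < m := by
    rcases Nat.eq_zero_or_pos m with h0 | h0
    · subst h0; simp at ht; omega
    · exact h0
  have hs : 0 < s := by
    rcases Nat.eq_zero_or_pos s with h0 | h0
    · subst h0; simp at ht; omega
    · exact h0
  unfold lo
  rw [ht, Nat.mul_div_cancel_left s hm, Nat.mul_div_cancel_left t (Nat.mul_pos hm hs),
    mul_assoc m s t, Nat.mul_div_cancel_left _ hm, mul_pow, mul_assoc]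

/-- A window lies in its parent. -/
theorem parent {m m' : ℕ} (h : m ∣ m') (h' : m' ∣ L.q) (k' : ℕ) :
    L.lo m (k' / (m' / m) ^ 4) ≤ L.lo m' k' ∧ L.hi m' k' ≤ L.hi m (k' / (m' / m) ^ 4) := by
  have hq := L.q_pos
  have hm' : 0 < m' := Nat.pos_of_dvd_of_pos h' hq
  have hm : 0 < m := Nat.pos_of_dvd_of_pos h hm'
  have hs : 0 < (m' / m) ^ 4 := pow_pos (Nat.div_pos (Nat.le_of_dvd hm' h) hm) 4
  rw [hi_eq, hi_eq, L.lo_scale h h', L.lo_scale h h']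
  refine ⟨L.lo_mono m' (Nat.div_mul_le_self _ _), L.lo_mono m' ?_⟩
  have := Nat.lt_div_mul_add (a := k') hs
  rw [add_mul, one_mul]
  omega

theorem W_sub_parent {m m' : ℕ} (h : m ∣ m') (h' : m' ∣ L.q) (E : Finset Ed) (k' : ℕ) :
    L.W E m' k' ⊆ L.W E m (k' / (m' / m) ^ 4) :=
  tm_mono Subset.rfl (L.parent h h' k').1 (L.parent h h' k').2

theorem N_mul_d : L.N * L.d = L.M := by
  unfold N d M
  ring

theorem q_posR : (0 : ℝ) < L.q := by exact_mod_cast L.q_pos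

theorem i_posR : (1 : ℝ) ≤ L.i := by exact_mod_cast L.i_pos

theorem i_mul_N : L.i * L.N * L.q = L.U := by
  have := L.q_posR
  unfold N U
  field_simp

theorem U_mul : L.U * (L.κ / L.q) = L.M := by
  have := L.q_posR
  unfold M U
  field_simp

theorem N_sq (hκ : 0 < L.κ) : L.N ^ 2 / (L.κ / L.q) ^ 2 = L.M := by
  have := L.q_posR
  unfold M N
  field_simp

theorem Big.mono {L : Loc} {Q Q' : ℕ} (h : L.Big Q) (hQ : Q' ≤ Q) : L.Big Q' := by
  refine ⟨hQ.trans h.1, le_trans ?_ h.2⟩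
  exact mul_le_mul_of_nonneg_right (by exact_mod_cast hQ) L.q_posR.le

theorem Big.q_le {L : Loc} {Q : ℕ} (h : L.Big Q) (hQ : 1 ≤ Q) : (L.q : ℝ) ≤ L.κ := by
  have h1 : (1 : ℝ) ≤ Q := by exact_mod_cast hQ
  nlinarith [h.2, L.q_posR]

theorem Big.κ_pos {L : Loc} {Q : ℕ} (h : L.Big Q) (hQ : 1 ≤ Q) : 0 < L.κ :=
  lt_of_lt_of_le L.q_posR (h.q_le hQ)

theorem Big.le_κq {L : Loc} {Q : ℕ} (h : L.Big Q) : (Q : ℝ) ≤ L.κ / L.q := by
  rw [le_div_iff₀ L.q_posR]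
  exact h.2

theorem Big.κ_le_N {L : Loc} {Q : ℕ} (h : L.Big Q) (hQ : 1 ≤ Q) : L.κ ≤ L.N := by
  have h1 := h.q_le hQ
  have h2 := h.κ_pos hQ
  have h3 := L.q_posR
  have h4 := L.i_posR
  unfold N
  rw [le_div_iff₀ (by positivity)]
  have h5 : (L.q : ℝ) ^ 2 ≤ L.κ ^ 2 := by gcongr
  calc L.κ * (L.q : ℝ) ^ 2 ≤ L.κ * L.κ ^ 2 := by gcongr
    _ = 1 * L.κ ^ 3 := by ring
    _ ≤ L.i * L.κ ^ 3 := by gcongr

theorem Big.κ_le_d {L : Loc} {Q : ℕ} (h : L.Big Q) (hQ : 1 ≤ Q) : L.κ ≤ L.d := by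
  have h2 := h.κ_pos hQ
  have h4 := L.i_posR
  unfold d
  nlinarith

theorem Big.Q_le_κ {L : Loc} {Q : ℕ} (h : L.Big Q) : (Q : ℝ) ≤ L.κ := by
  have h1 : (1 : ℝ) ≤ L.q := by exact_mod_cast L.q_pos
  have h2 : (0 : ℝ) ≤ Q := Nat.cast_nonneg _
  nlinarith [h.2]

theorem Big.N_pos {L : Loc} {Q : ℕ} (h : L.Big Q) (hQ : 1 ≤ Q) : 0 < L.N :=
  lt_of_lt_of_le (h.κ_pos hQ) (h.κ_le_N hQ)

theorem Big.d_pos {L : Loc} {Q : ℕ} (h : L.Big Q) (hQ : 1 ≤ Q) : 0 < L.d :=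
  lt_of_lt_of_le (h.κ_pos hQ) (h.κ_le_d hQ)

theorem Big.M_pos {L : Loc} {Q : ℕ} (h : L.Big Q) (hQ : 1 ≤ Q) : 0 < L.M := by
  rw [← L.N_mul_d]
  exact mul_pos (h.N_pos hQ) (h.d_pos hQ)

theorem Big.U_pos {L : Loc} {Q : ℕ} (h : L.Big Q) (hQ : 1 ≤ Q) : 0 < L.U := by
  have := h.κ_pos hQ
  have := L.q_posR
  have := L.i_posR
  unfold U
  positivity

theorem Reg.mono {L : Loc} {Ω : ℕ → Finset Pt} {C : ℝ} {m : ℕ} {E₀ E₁ : Finset Ed}
    (h : L.Reg Ω C m E₀) (h1 : E₁ ⊆ E₀) : L.Reg Ω C m E₁ where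
  sub := h1.trans h.sub
  cov w hw := h.cov w (hw.mono (L.W_mono h1 _ _))
  rel := by
    refine le_trans ?_ h.rel
    have : ((Finset.range (m ^ 4)).filter fun k => (L.W E₁ m k).Nonempty) ⊆
        ((Finset.range (m ^ 4)).filter fun k => (L.W E₀ m k).Nonempty) := by
      intro k hk
      rw [mem_filter] at hk ⊢
      exact ⟨hk.1, hk.2.mono (L.W_mono h1 _ _)⟩
    exact_mod_cast card_le_card this
  deg_le k e he := h.deg_le k e (L.W_mono h1 _ _ he)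
  nr_le k hk := h.nr_le k (hk.mono (L.W_mono h1 _ _))
  act_le k e he := h.act_le k e (L.W_mono h1 _ _ he)

end Loc

end Crest.Agent.R51
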