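import Crest.Agent.R51.Basic

/-! Basic properties of systems of runs. -/

namespace Crest.Agent.R51

open Finset
open scoped Classical

variable {ι : Type} {P : Finset Pt} {E : Finset Ed} {id : Ed → ι} {i : ℕ}

theorem Sys.sys_lt (h : Sys P E id i) {e : Ed} (he : e ∈ E) : e.1.1 < e.2.1 :=
  (mem_pairs.1 (h.sub he)).2.2

theorem Sys.sys_eq (h : Sys P E id i) {e e' : Ed} (he : e ∈ E) (he' : e' ∈ E)
    (hsl : sl e = sl e') : e = e' :=
  h.gp.slinj e (h.sub he) e' (h.sub he') hsl

theorem Sys.sys_mem (h : Sys P E id i) {e : Ed} (he : e ∈ E) {u : Pt} (hu : Inc u e) : u ∈ P := by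
  rcases hu with rfl | rfl
  · exact (mem_pairs.1 (h.sub he)).1
  · exact (mem_pairs.1 (h.sub he)).2.1

/-- A function that is monotone along every edge is monotone along a run.
Proof: strong induction on the number of edges `x ∈ E` with `sl e < sl x ∧ sl x < sl e'` (or on the
number with `sl e < sl x`): `link` gives `e''` with `e''.1 = e.2`; if `sl e'' = sl e'` then `e'' = e'`
by `gp.slinj`, otherwise `φ e.2 = φ e''.1 ≤ φ e''.2 ≤ φ e'.1` by induction. -/
theorem Sys.mono_run (h : Sys P E id i) (φ : Pt → ℝ) {e e' : Ed} (he : e ∈ E) (he' : e' ∈ E)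
    (hid : id e = id e') (hsl : sl e < sl e')
    (hφ : ∀ x ∈ E, id x = id e → sl e < sl x → sl x < sl e' → φ x.1 ≤ φ x.2) :
    φ e.2 ≤ φ e'.1 := by
  generalize hn : #(E.filter fun x => sl e < sl x) = n
  induction n using Nat.strong_induction_on generalizing e with
  | _ n ih =>
    obtain ⟨x, hx, h1, h2, h3, h4⟩ := h.link e he e' he' hid hsl
    rcases h4.eq_or_lt with h5 | h5
    · rw [← h2, h.sys_eq hx he' h5]
    · have h6 : #(E.filter fun y => sl x < sl y) < n := by
        rw [← hn]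
        refine card_lt_card ⟨fun y hy => ?_, fun hs => ?_⟩
        · rw [mem_filter] at hy ⊢
          exact ⟨hy.1, h3.trans hy.2⟩
        · exact lt_irrefl _ (mem_filter.1 (hs (mem_filter.2 ⟨hx, h3⟩))).2
      rw [← h2]
      exact (hφ x hx h1 h3 h5).trans (ih _ h6 hx (h1.trans hid) h5
        (fun y hy k1 k2 k3 => hφ y hy (k1.trans h1) (h3.trans k2) k3) rfl)

/-- Runs go from left to right (`mono_run` for the abscissa). -/
theorem Sys.x_le (h : Sys P E id i) {e e' : Ed} (he : e ∈ E) (he' : e' ∈ E)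
    (hid : id e = id e') (hsl : sl e < sl e') : e.2.1 ≤ e'.1.1 := by
  exact h.mono_run (fun p => p.1) he he' hid hsl fun x hx _ _ _ => (h.sys_lt hx).le

/-- Two edges of a run with the same left end are equal (`x_le`, `gp.slinj`). -/
theorem Sys.eq_of_fst (h : Sys P E id i) {e e' : Ed} (he : e ∈ E) (he' : e' ∈ E)
    (hid : id e = id e') (h1 : e.1 = e'.1) : e = e' := by
  rcases lt_trichotomy (sl e) (sl e') with h2 | h2 | h2
  · have h3 := h.x_le he he' hid h2
    have h4 := h.sys_lt he
    rw [← h1] at h3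
    linarith
  · exact h.sys_eq he he' h2
  · have h3 := h.x_le he' he hid.symm h2
    have h4 := h.sys_lt he'
    rw [h1] at h3
    linarith

/-- Two edges of a run with the same right end are equal. -/
theorem Sys.eq_of_snd (h : Sys P E id i) {e e' : Ed} (he : e ∈ E) (he' : e' ∈ E)
    (hid : id e = id e') (h1 : e.2 = e'.2) : e = e' := by
  rcases lt_trichotomy (sl e) (sl e') with h2 | h2 | h2
  · have h3 := h.x_le he he' hid h2
    have h4 := h.sys_lt he'
    rw [h1] at h3
    linarith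
  · exact h.sys_eq he he' h2
  · have h3 := h.x_le he' he hid.symm h2
    have h4 := h.sys_lt he
    rw [← h1] at h3
    linarith

/-- A function that is monotone along all edges of a run is monotone (in the abscissa) on the
vertices of the run.  Proof: compare `sl e` and `sl e'`; use `mono_run`, `x_le`. -/
theorem Sys.mono_vert (h : Sys P E id i) (φ : Pt → ℝ) {e e' : Ed} (he : e ∈ E) (he' : e' ∈ E)
    (hid : id e = id e') (hφ : ∀ x ∈ E, id x = id e → φ x.1 ≤ φ x.2) {u v : Pt}
    (hu : Inc u e) (hv : Inc v e') (huv : u.1 ≤ v.1) : φ u ≤ φ v := by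
  have k1 := hφ e he rfl
  have k2 := hφ e' he' hid.symm
  have l1 := h.sys_lt he
  have l2 := h.sys_lt he'
  rcases lt_trichotomy (sl e) (sl e') with h2 | h2 | h2
  · have h3 := h.mono_run φ he he' hid h2 fun x hx hx' _ _ => hφ x hx hx'
    rcases hu with rfl | rfl <;> rcases hv with rfl | rfl <;> linarith
  · obtain rfl := h.sys_eq he he' h2
    rcases hu with rfl | rfl <;> rcases hv with rfl | rfl <;> linarith
  · have h3 := h.x_le he' he hid.symm h2
    have h4 : u.1 = v.1 := by
      rcases hu with rfl | rfl <;> rcases hv with rfl | rfl <;> linarith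
    rw [h.gp.xinj u (h.sys_mem he hu) v (h.sys_mem he' hv) h4]

/-- Convexity: at the time `sl e` no vertex of the run of `e` is below the line of `e`.
Proof: `mono_run` with `f (sl e)` (later edges) and `-f (sl e)` (earlier edges), `f_sl`. -/
theorem Sys.f_le (h : Sys P E id i) {e e' : Ed} (he : e ∈ E) (he' : e' ∈ E) (hid : id e = id e')
    {v : Pt} (hv : Inc v e') : f (sl e) e.1 ≤ f (sl e) v := by
  have k1 := f_sl e (h.sys_lt he)
  rcases lt_trichotomy (sl e) (sl e') with h2 | h2 | h2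
  · have h3 := h.mono_run (f (sl e)) he he' hid h2 fun x hx _ hx' _ =>
      (f_le_iff x (h.sys_lt hx) _).2 hx'.le
    have h4 := (f_le_iff e' (h.sys_lt he') _).2 h2.le
    rcases hv with rfl | rfl <;> linarith
  · obtain rfl := h.sys_eq he he' h2
    rcases hv with rfl | rfl <;> linarith
  · have h3 := h.mono_run (fun p => -f (sl e) p) he' he hid.symm h2 fun x hx _ _ hx' =>
      neg_le_neg ((f_ge_iff x (h.sys_lt hx) _).2 hx'.le)
    have h4 := (f_ge_iff e' (h.sys_lt he') _).2 h2.le
    rcases hv with rfl | rfl <;> linarith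

/-- The slope of two vertices of a run lies in the range of the slopes of the run.
Proof: with `a'` the least slope of an edge of the run (`a < a'`), `f a'` is monotone along the run,
and `-f b` too; `mono_vert`, `f_le_iff`, `f_ge_iff`. -/
theorem Sys.sl_mem (h : Sys P E id i) {a b : ℝ} {e e' : Ed} (he : e ∈ E) (he' : e' ∈ E)
    (hid : id e = id e') (hab : ∀ x ∈ E, id x = id e → a < sl x ∧ sl x ≤ b) {u v : Pt}
    (hu : Inc u e) (hv : Inc v e') (huv : u.1 < v.1) : a < sl (u, v) ∧ sl (u, v) ≤ b := by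
  constructor
  · obtain ⟨x₀, hx₀, hmin⟩ := exists_min_image (E.filter fun x => id x = id e) sl
      ⟨e, mem_filter.2 ⟨he, rfl⟩⟩
    rw [mem_filter] at hx₀
    refine (hab x₀ hx₀.1 hx₀.2).1.trans_le ((f_le_iff (u, v) huv _).1 ?_)
    exact h.mono_vert (f (sl x₀)) he he' hid
      (fun x hx hx' => (f_le_iff x (h.sys_lt hx) _).2 (hmin x (mem_filter.2 ⟨hx, hx'⟩))) hu hv huv.le
  · refine (f_ge_iff (u, v) huv _).1 (neg_le_neg_iff.1 ?_)
    exact h.mono_vert (fun p => -f b p) he he' hid
      (fun x hx hx' => neg_le_neg ((f_ge_iff x (h.sys_lt hx) _).2 (hab x hx hx').2)) hu hv huv.le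

/-- Sub-systems: the fibres of `id'` are convex parts of runs.
Proof: `link`: take `e''` from `h.link`; either `sl e'' = sl e'` and `e'' = e'`, or `hconv` applies.
`mult`: the map sending an `id'`-class to its `id`-class is injective on the classes that are
counted, by `eq_of_snd`; use `card_le_card_of_injOn` after choosing representatives (or: the filtered
set of edges `F'` is contained in the corresponding set `F` for `E`, `id` is injective on `F`, so
`nr F' id' ≤ #F' ≤ #F = nr F id`). -/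
theorem Sys.refine {κ : Type} (h : Sys P E id i) {E' : Finset Ed} (hE : E' ⊆ E) (id' : Ed → κ)
    (hid : ∀ e ∈ E', ∀ e' ∈ E', id' e = id' e' → id e = id e')
    (hconv : ∀ e ∈ E', ∀ e' ∈ E', id' e = id' e' → ∀ x ∈ E, id x = id e → sl e < sl x →
      sl x < sl e' → x ∈ E' ∧ id' x = id' e) : Sys P E' id' i := by
  refine ⟨h.gp, hE.trans h.sub, fun e he e' he' hh hsl => ?_, fun a θ => ?_⟩
  · obtain ⟨x, hx, h1, h2, h3, h4⟩ := h.link e (hE he) e' (hE he') (hid e he e' he' hh) hsl
    rcases h4.eq_or_lt with h5 | h5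
    · obtain rfl := h.sys_eq hx (hE he') h5
      exact ⟨x, he', hh.symm, h2, h3, h4⟩
    · obtain ⟨k1, k2⟩ := hconv e he e' he' hh x hx h1 h3 h5
      exact ⟨x, k1, k2, h2, h3, h4⟩
  · refine le_trans ?_ (h.mult a θ)
    unfold nr
    refine card_image_le.trans ?_
    rw [card_image_of_injOn]
    · refine card_le_card fun e he => ?_
      rw [mem_filter] at he ⊢
      obtain ⟨k1, k2, k3, e', k4, k5, k6⟩ := he
      exact ⟨hE k1, k2, k3, e', hE k4, hid e' k4 e k1 k5, k6⟩
    · intro e he e' he' hh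
      have k1 := mem_filter.1 (mem_coe.1 he)
      have k2 := mem_filter.1 (mem_coe.1 he')
      exact h.eq_of_snd k1.1 k2.1 hh (k1.2.1.trans k2.2.1.symm)

/-- Convex subsets with the same labels. -/
theorem Sys.conv (h : Sys P E id i) {E' : Finset Ed} (hE : E' ⊆ E)
    (hconv : ∀ e ∈ E', ∀ e' ∈ E', id e = id e' → ∀ x ∈ E, id x = id e → sl e < sl x →
      sl x < sl e' → x ∈ E') : Sys P E' id i :=
  h.refine hE id (fun _ _ _ _ hh => hh) fun e he e' he' hh x hx h1 h2 h3 =>
    ⟨hconv e he e' he' hh x hx h1 h2 h3, h1⟩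

theorem Sys.tm (h : Sys P E id i) (a b : ℝ) : Sys P (tm E a b) id i :=
  h.conv (tm_subset _ _ _) fun e he e' he' _ x hx _ h2 h3 => by
    rw [mem_tm] at he he' ⊢
    exact ⟨hx, by linarith [he.2.1], by linarith [he'.2.2]⟩

/-- The edges with both ends in a fibre of functions that are monotone along the edges
(e.g. a cell of a grid) form a subsystem. -/
theorem Sys.fibre (h : Sys P E id i) (φ ψ : Pt → ℝ) (hφ : ∀ x ∈ E, φ x.1 ≤ φ x.2)
    (hψ : ∀ x ∈ E, ψ x.1 ≤ ψ x.2) (s t : ℝ) (S : ι → Prop) :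
    Sys P (E.filter fun e => S (id e) ∧ φ e.1 = s ∧ φ e.2 = s ∧ ψ e.1 = t ∧ ψ e.2 = t) id i := by
  refine h.conv (filter_subset _ _) fun e he e' he' hh x hx h1 h2 h3 => ?_
  rw [mem_filter] at he he' ⊢
  obtain ⟨a0, a1, a2, a3, a4, a5⟩ := he
  obtain ⟨b0, b1, b2, b3, b4, b5⟩ := he'
  have k1 := h.mono_run φ a0 hx h1.symm h2 fun y hy _ _ _ => hφ y hy
  have k2 := h.mono_run φ hx b0 (h1.trans hh) h3 fun y hy _ _ _ => hφ y hy
  have k3 := h.mono_run ψ a0 hx h1.symm h2 fun y hy _ _ _ => hψ y hy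
  have k4 := h.mono_run ψ hx b0 (h1.trans hh) h3 fun y hy _ _ _ => hψ y hy
  have k5 := hφ x hx
  have k6 := hψ x hx
  exact ⟨hx, h1 ▸ a1, by linarith, by linarith, by linarith, by linarith⟩

/-- Labels can be taken in `ℕ`. -/
theorem exists_nat_label {α : Type} (s : Finset α) {β : Type} (g : α → β) :
    ∃ g' : α → ℕ, ∀ x ∈ s, ∀ y ∈ s, (g' x = g' y ↔ g x = g y) := by
  refine ⟨fun x => if hx : g x ∈ s.image g then ((s.image g).equivFin ⟨g x, hx⟩ : ℕ) else 0,
    fun x hx y hy => ?_⟩
  simp only [dif_pos (mem_image_of_mem g hx), dif_pos (mem_image_of_mem g hy)]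
  rw [Fin.val_inj, Equiv.apply_eq_iff_eq, Subtype.mk.injEq]

theorem sys_nr_le {κ : Type} (E : Finset Ed) (id : Ed → ι) (id' : Ed → κ)
    (hh : ∀ e ∈ E, ∀ e' ∈ E, id e = id e' → id' e = id' e') : nr E id' ≤ nr E id := by
  unfold nr
  refine le_trans (card_le_card ?_) (card_image_le (s := E.image id)
    (f := fun r => if h : ∃ e ∈ E, id e = r then id' h.choose else id' 0))
  intro c hc
  obtain ⟨e, he, rfl⟩ := mem_image.1 hc
  refine mem_image.2 ⟨id e, mem_image_of_mem id he, ?_⟩
  have h : ∃ e' ∈ E, id e' = id e := ⟨e, he, rfl⟩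
  rw [dif_pos h]
  exact hh _ h.choose_spec.1 e he h.choose_spec.2

theorem nr_congr {κ : Type} (E : Finset Ed) (id : Ed → ι) (id' : Ed → κ)
    (hh : ∀ e ∈ E, ∀ e' ∈ E, (id' e = id' e' ↔ id e = id e')) : nr E id' = nr E id := by
  exact le_antisymm (sys_nr_le E id id' fun e he e' he' => (hh e he e' he').2)
    (sys_nr_le E id' id fun e he e' he' => (hh e he e' he').1)

/-- A bounded function that is monotone along the edges changes on at most `R` edges of a run.
Proof: `e ↦ (id e, φ e.1)` is injective on the edges with `φ e.1 ≠ φ e.2` (`mono_run`), with values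
in `E.image id ×ˢ range R`. -/
theorem Sys.card_switch (h : Sys P E id i) (φ : Pt → ℕ) (R : ℕ) (hφ : ∀ e ∈ E, φ e.1 ≤ φ e.2)
    (hR : ∀ e ∈ E, φ e.2 ≤ R) : #(E.filter fun e => φ e.1 ≠ φ e.2) ≤ R * nr E id := by
  have key : ∀ e ∈ E, ∀ e' ∈ E, φ e.1 ≠ φ e.2 → id e = id e' → φ e.1 = φ e'.1 →
      ¬ sl e < sl e' := by
    intro e he e' he' h1 h2 h3 h4
    have h5 : φ e.2 ≤ φ e'.1 := by
      exact_mod_cast h.mono_run (fun p => (φ p : ℝ)) he he' h2 h4
        fun x hx _ _ _ => Nat.cast_le.2 (hφ x hx)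
    have h6 := hφ e he
    omega
  have h1 : #(E.filter fun e => φ e.1 ≠ φ e.2) ≤ #(range R ×ˢ E.image id) := by
    refine card_le_card_of_injOn (fun e => (φ e.1, id e)) (fun e he => ?_) fun e he e' he' hh => ?_
    · have k := mem_filter.1 (mem_coe.1 he)
      refine mem_coe.2 (mem_product.2 ⟨mem_range.2 ?_, mem_image_of_mem id k.1⟩)
      have := hφ e k.1
      have := hR e k.1
      have := k.2
      change φ e.1 < R
      omega
    · have k := mem_filter.1 (mem_coe.1 he)
      have k' := mem_filter.1 (mem_coe.1 he')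
      have a1 : φ e.1 = φ e'.1 := congrArg Prod.fst hh
      have a2 : id e = id e' := congrArg Prod.snd hh
      exact h.sys_eq k.1 k'.1 (le_antisymm (not_lt.1 (key e' k'.1 e k.1 k'.2 a2.symm a1.symm))
        (not_lt.1 (key e k.1 e' k'.1 k.2 a2 a1)))
  rwa [card_product, card_range] at h1

end Crest.Agent.R51
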