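import Crest.Agent.R51.Level
import Crest.Agent.R51.Sys

/-! The convex chains of a band. -/

namespace Crest.Agent.R51

open Finset
open scoped Classical

/-- `x` is the next edge after `e` in its chain. -/
def chains_N (P : Finset Pt) (e x : Ed) : Prop :=
  e ∈ pairs P ∧ x ∈ pairs P ∧ x.1 = e.2 ∧ elev P x = elev P e ∧ sl e < sl x ∧
    ∀ y ∈ pairs P, y.1 = e.2 → elev P y = elev P e → sl e < sl y → sl x ≤ sl y

theorem chains_rightUnique {P : Finset Pt} (hP : GP P) : Relator.RightUnique (chains_N P) := by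
  intro e x x' h h'
  exact hP.slinj x h.2.1 x' h'.2.1 (le_antisymm
    (h.2.2.2.2.2 x' h'.2.1 h'.2.2.1 h'.2.2.2.1 h'.2.2.2.2.1)
    (h'.2.2.2.2.2 x h.2.1 h.2.2.1 h.2.2.2.1 h.2.2.2.2.1))

theorem chains_left_aux {P : Finset Pt} (hP : GP P) {e e' x : Ed} (h : chains_N P e x)
    (h' : chains_N P e' x) : ¬ sl e < sl e' := by
  intro hs
  obtain ⟨y, hy, h1, h2, h3, h4⟩ := hP.alt_up h.1 h'.1 (h.2.2.1.symm.trans h'.2.2.1)
    (h.2.2.2.1.symm.trans h'.2.2.2.1) hs
  have := h.2.2.2.2.2 y hy h1 h2 h3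
  linarith [h'.2.2.2.2.1]

theorem chains_leftUnique {P : Finset Pt} (hP : GP P) :
    Relator.RightUnique (Function.swap (chains_N P)) := by
  intro x e e' h h'
  exact hP.slinj e h.1 e' h'.1
    (le_antisymm (not_lt.1 (chains_left_aux hP h' h)) (not_lt.1 (chains_left_aux hP h h')))

theorem chains_R {P : Finset Pt} {e x : Ed} (h : Relation.ReflTransGen (chains_N P) e x) :
    elev P x = elev P e ∧ sl e ≤ sl x ∧ (e = x ∨ e.2.1 ≤ x.1.1) := by
  induction h with
  | refl => exact ⟨rfl, le_rfl, Or.inl rfl⟩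
  | @tail b c _ hbc ih =>
    refine ⟨hbc.2.2.2.1.trans ih.1, ih.2.1.trans hbc.2.2.2.2.1.le, Or.inr ?_⟩
    rw [hbc.2.2.1]
    rcases ih.2.2 with h | h
    · rw [h]
    · exact h.trans (mem_pairs.1 hbc.1).2.2.le

/-- Being in the same chain. -/
def chains_C (P : Finset Pt) (e e' : Ed) : Prop :=
  Relation.ReflTransGen (chains_N P) e e' ∨ Relation.ReflTransGen (chains_N P) e' e

theorem chains_C_trans {P : Finset Pt} (hP : GP P) {a b c : Ed} (h : chains_C P a b)
    (h' : chains_C P b c) : chains_C P a c := by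
  rcases h with h | h <;> rcases h' with h' | h'
  · exact Or.inl (h.trans h')
  · rcases Relation.ReflTransGen.total_of_right_unique (chains_leftUnique hP) h.swap h'.swap with
      h1 | h1
    · exact Or.inr h1.swap
    · exact Or.inl h1.swap
  · exact Relation.ReflTransGen.total_of_right_unique (chains_rightUnique hP) h h'
  · exact Or.inr (h'.trans h)

theorem chains_C_symm {P : Finset Pt} {a b : Ed} (h : chains_C P a b) : chains_C P b a := h.symm

theorem chains_next {P : Finset Pt} {e e' : Ed} (h : chains_C P e e') (hs : sl e < sl e') :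
    ∃ x, chains_N P e x ∧ Relation.ReflTransGen (chains_N P) x e' := by
  rcases h with h | h
  · rcases h.cases_head with h1 | h1
    · rw [h1] at hs; exact absurd hs (lt_irrefl _)
    · exact h1
  · exact absurd (chains_R h).2.1 (not_le.2 hs)

theorem chains_card_Ico (j : ℤ) (i : ℕ) : #(Finset.Ico j (j + i)) = i := by
  simp

/-- The edges of a band split into convex chains.
Construction: for `e` in the band let `nxt e` be the edge `x` of least slope with `x.1 = e.2`,
`elev x = elev e`, `sl e < sl x` (if there is one).  By `alt_up`, `nxt` is injective.  Let `term e` be the last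
edge of the sequence `e, nxt e, …` (slopes increase; e.g. define the relation `R = ReflTransGen (nxt · = ·)`
and let `term e` be the `R`-successor of largest slope), label `e` by `term e` (`exists_nat_label`).
* `link`: if `term e = term e'` then one of `e`, `e'` is an `R`-successor of the other (injectivity of `nxt`);
  take `e'' = nxt e`.
* `mult`: a counted `e` has `e' = nxt e` (`link`-type argument: `e'.1 = e.2` in the same chain), and
  `e ↦ elev e ∈ [j, j + i)` is injective on the counted edges by `alt_up`.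
* number of chains in a window: send a chain to `(elev e, e.1)` for its edge `e` of least slope in the
  window; if two chains give `e₁`, `e₂` with `sl e₁ < sl e₂`, `alt_down` gives edges ending at `e.1` in
  between; the last of them, `x`, has `nxt x = e₂` (`alt_down` again), contradicting the minimality. -/
theorem GP.exists_chains {P : Finset Pt} (hP : GP P) (j : ℤ) (i : ℕ) :
    ∃ id : Ed → ℕ, Sys P (band P j i) id i ∧
      ∀ (a a' : ℝ) (Ω : Finset Pt), (∀ e ∈ tm (band P j i) a a', e.1 ∈ Ω) →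
        nr (tm (band P j i) a a') id ≤ i * #Ω := by
  obtain ⟨id, hid0⟩ := exists_nat_label (band P j i) (fun e => {x | chains_C P e x})
  have hid : ∀ x ∈ band P j i, ∀ y ∈ band P j i, (id x = id y ↔ chains_C P x y) := by
    intro x hx y hy
    rw [hid0 x hx y hy]
    constructor
    · intro h
      have : y ∈ {z | chains_C P y z} := Or.inl Relation.ReflTransGen.refl
      rw [← h] at this
      exact this
    · intro h
      ext z
      exact ⟨fun hz => chains_C_trans hP (chains_C_symm h) hz, fun hz => chains_C_trans hP h hz⟩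
  have hband : ∀ e ∈ band P j i, ∀ x ∈ pairs P, elev P x = elev P e → x ∈ band P j i := by
    intro e he x hx h
    rw [mem_band] at he ⊢
    rw [h]
    exact ⟨hx, he.2⟩
  refine ⟨id, ⟨hP, band_subset P j i, ?_, ?_⟩, ?_⟩
  · intro e he e' he' h hs
    obtain ⟨x, hx, hxe⟩ := chains_next ((hid e he e' he').1 h) hs
    have hxb := hband e he x hx.2.1 hx.2.2.2.1
    exact ⟨x, hxb, (hid x hxb e he).2 (Or.inr (Relation.ReflTransGen.single hx)), hx.2.2.1,
      hx.2.2.2.2.1, (chains_R hxe).2.1⟩
  · intro a θ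
    have main : ∀ F : Finset Ed, (∀ e ∈ F, e ∈ band P j i ∧ e.2 = a ∧ sl e ≤ θ ∧
        ∃ e' ∈ band P j i, id e' = id e ∧ e'.1 = a ∧ θ ≤ sl e') → nr F id ≤ i := by
      intro F hF
      rw [nr_eq]
      refine le_trans card_image_le ?_
      have key : ∀ e ∈ F, ∃ x, chains_N P e x ∧ θ ≤ sl x := by
        intro e he
        obtain ⟨he, h2, h3, e', he', h4, h5, h6⟩ := hF e he
        have hep := band_subset P j i he
        have hep' := band_subset P j i he'
        have hne : e ≠ e' := by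
          intro h
          have := (mem_pairs.1 hep).2.2
          rw [h2, h, h5] at this
          exact lt_irrefl _ this
        have hs : sl e < sl e' :=
          lt_of_le_of_ne (h3.trans h6) fun h => hne (hP.slinj e hep e' hep' h)
        obtain ⟨x, hx, hxe⟩ := chains_next ((hid e he e' he').1 h4.symm) hs
        rcases (chains_R hxe).2.2 with h | h
        · exact ⟨x, hx, h ▸ h6⟩
        · have := (mem_pairs.1 hx.2.1).2.2
          rw [hx.2.2.1, h2, ← h5] at this
          linarith
      have aux : ∀ e₁ ∈ F, ∀ e₂ ∈ F, elev P e₁ = elev P e₂ → ¬ sl e₁ < sl e₂ := by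
        intro e₁ h₁ e₂ h₂ hl hs
        obtain ⟨x, hx, hθ⟩ := key e₁ h₁
        have g₁ := hF e₁ h₁
        have g₂ := hF e₂ h₂
        obtain ⟨y, hy, h1, h2, h3, h4⟩ := hP.alt_up (band_subset P j i g₁.1)
          (band_subset P j i g₂.1) (g₁.2.1.trans g₂.2.1.symm) hl hs
        have := hx.2.2.2.2.2 y hy h1 h2 h3
        linarith [g₂.2.2.1]
      refine le_trans ?_ (chains_card_Ico j i).le
      refine card_le_card_of_injOn (fun e => (elev P e : ℤ)) ?_ ?_
      · intro e he
        have := mem_band.1 (hF e (mem_coe.1 he)).1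
        exact mem_coe.2 (mem_Ico.2 this.2)
      · intro e₁ h₁ e₂ h₂ hl
        have hl' : elev P e₁ = elev P e₂ := Int.ofNat_inj.1 hl
        have h₁' := mem_coe.1 h₁
        have h₂' := mem_coe.1 h₂
        exact hP.slinj e₁ (band_subset P j i (hF e₁ h₁').1) e₂ (band_subset P j i (hF e₂ h₂').1)
          (le_antisymm (not_lt.1 (aux e₂ h₂' e₁ h₁' hl'.symm)) (not_lt.1 (aux e₁ h₁' e₂ h₂' hl')))
    apply main
    intro e he
    simpa only [mem_filter] using he
  · intro a a' Ω hΩ
    obtain ⟨T, hT⟩ : ∃ T, T = tm (band P j i) a a' := ⟨_, rfl⟩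
    have hTm : ∀ e, e ∈ T ↔ e ∈ band P j i ∧ a < sl e ∧ sl e ≤ a' := fun e => by rw [hT, mem_tm]
    rw [← hT] at hΩ ⊢
    obtain ⟨M, hM⟩ : ∃ M, M = T.filter (fun e => ∀ e' ∈ T, id e' = id e → sl e ≤ sl e') :=
      ⟨_, rfl⟩
    have hMm : ∀ e, e ∈ M ↔ e ∈ T ∧ ∀ e' ∈ T, id e' = id e → sl e ≤ sl e' := fun e => by
      rw [hM, mem_filter]
    have h1 : nr T id ≤ #M := by
      rw [nr_eq]
      refine le_trans (card_le_card ?_) (card_image_le (s := M) (f := id))
      intro r hr
      obtain ⟨e, he, rfl⟩ := mem_image.1 hr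
      obtain ⟨x, hx, hmin⟩ := exists_min_image (T.filter fun e' => id e' = id e) sl
        ⟨e, mem_filter.2 ⟨he, rfl⟩⟩
      have hx' := mem_filter.1 hx
      refine mem_image.2 ⟨x, (hMm x).2 ⟨hx'.1, fun e' he' h => hmin e' ?_⟩, hx'.2⟩
      exact mem_filter.2 ⟨he', h.trans hx'.2⟩
    have aux : ∀ e₁ ∈ M, ∀ e₂ ∈ M, elev P e₁ = elev P e₂ → e₁.1 = e₂.1 → ¬ sl e₁ < sl e₂ := by
      intro e₁ h₁ e₂ h₂ hl hf hs
      have g₁ := (hTm e₁).1 ((hMm e₁).1 h₁).1
      have g₂ := (hTm e₂).1 ((hMm e₂).1 h₂).1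
      have p₁ := band_subset P j i g₁.1
      have p₂ := band_subset P j i g₂.1
      obtain ⟨x₀, hx₀, k1, k2, k3, k4⟩ := hP.alt_down p₁ p₂ hf hl hs
      obtain ⟨x, hx, hmax⟩ := exists_max_image ((pairs P).filter fun x => x.2 = e₂.1 ∧
        elev P x = elev P e₂ ∧ sl e₁ < sl x ∧ sl x < sl e₂) sl
        ⟨x₀, mem_filter.2 ⟨hx₀, k1.trans hf, k2.trans hl, k3, k4⟩⟩
      obtain ⟨hxp, m1, m2, m3, m4⟩ := mem_filter.1 hx
      have hN : chains_N P x e₂ := by
        refine ⟨hxp, p₂, m1.symm, m2.symm, m4, fun y hy n1 n2 n3 => ?_⟩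
        by_contra hc
        obtain ⟨x', hx', l1, l2, l3, l4⟩ := hP.alt_down hy p₂ (n1.trans m1) (n2.trans m2)
          (not_le.1 hc)
        have := hmax x' (mem_filter.2 ⟨hx', l1.trans (n1.trans m1), l2.trans (n2.trans m2),
          by linarith, l4⟩)
        linarith
      have hxb := hband e₂ g₂.1 x hxp m2
      have hxT : x ∈ T := (hTm x).2 ⟨hxb, by linarith [g₁.2.1], by linarith [g₂.2.2]⟩
      have := ((hMm e₂).1 h₂).2 x hxT
        ((hid x hxb e₂ g₂.1).2 (Or.inl (Relation.ReflTransGen.single hN)))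
      linarith
    refine h1.trans ?_
    refine le_trans ?_ (Nat.mul_le_mul_right _ (chains_card_Ico j i).le)
    rw [← card_product]
    refine card_le_card_of_injOn (fun e => ((elev P e : ℤ), e.1)) ?_ ?_
    · intro e he
      have he' := ((hMm e).1 (mem_coe.1 he)).1
      have := mem_band.1 ((hTm e).1 he').1
      exact mem_coe.2 (mem_product.2 ⟨mem_Ico.2 this.2, hΩ e he'⟩)
    · intro e₁ h₁ e₂ h₂ hl
      have h₁' := mem_coe.1 h₁
      have h₂' := mem_coe.1 h₂
      have hl1 : elev P e₁ = elev P e₂ := Int.ofNat_inj.1 (Prod.ext_iff.1 hl).1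
      have hl2 : e₁.1 = e₂.1 := (Prod.ext_iff.1 hl).2
      exact hP.slinj e₁ (band_subset P j i ((hTm e₁).1 ((hMm e₁).1 h₁').1).1) e₂
        (band_subset P j i ((hTm e₂).1 ((hMm e₂).1 h₂').1).1)
        (le_antisymm (not_lt.1 (aux e₂ h₂' e₁ h₁' hl1.symm hl2.symm))
          (not_lt.1 (aux e₁ h₁' e₂ h₂' hl1 hl2)))

end Crest.Agent.R51
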