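import Crest.Agent.R51.Basic

/-! The change of the chart: existence. -/

namespace Crest.Agent.R51

open Finset
open scoped Classical

theorem chartEx0_sl_eq {p q : Pt} {θ : ℝ} (h : p.1 ≠ q.1) (hf : f θ p = f θ q) :
    sl (p, q) = θ := by
  have h1 : q.1 - p.1 ≠ 0 := sub_ne_zero.2 h.symm
  unfold f at hf
  unfold sl
  rw [div_eq_iff h1]
  simp only
  linarith

/-- The abstract change of coordinates. -/
theorem chartEx0_abs {P : Finset Pt} (hP : GP P) (T : Pt → Pt) (τ k : ℝ → ℝ) (θ₀ σ u v : ℝ)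
    (hσ : σ ≠ 0) (ha : ∀ e ∈ pairs P, sl e ≠ θ₀) (hb : ∀ p, (T p).1 = σ * f θ₀ p)
    (hc : ∀ θ, θ ≠ θ₀ → ∀ p, f (τ θ) (T p) = k θ * f θ p)
    (hd : ∀ x, x ≠ θ₀ → ∀ y, y ≠ θ₀ → τ x = τ y → x = y)
    (he : ∀ x ∈ Set.Icc u v, 0 < σ * (x - θ₀))
    (hf : StrictMonoOn τ {x | 0 < σ * (x - θ₀)}) (huv : u ≤ v)
    (hg : ∀ x, σ * (x - θ₀) < 0 → τ x ≤ τ u ∨ τ v < τ x) :
    GP (P.image T) ∧ StrictMonoOn τ (Set.Icc u v) ∧
      (∀ e ∈ tm (pairs P) u v, (T e.1).1 < (T e.2).1 ∧ sl (Prod.map T T e) = τ (sl e)) ∧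
      (∀ e' ∈ tm (pairs (P.image T)) (τ u) (τ v),
        ∃ e ∈ tm (pairs P) u v, Prod.map T T e = e') := by
  have k1 : ∀ e ∈ pairs P, (T e.2).1 - (T e.1).1 = (e.2.1 - e.1.1) * (σ * (sl e - θ₀)) := by
    intro e he
    have := f_sub e (mem_pairs.1 he).2.2 θ₀
    rw [hb, hb, ← mul_sub, this]
    ring
  have k2 : ∀ e ∈ pairs P, σ * (sl e - θ₀) ≠ 0 := fun e he =>
    mul_ne_zero hσ (sub_ne_zero.2 (ha e he))
  have k3 : ∀ e ∈ pairs P, (T e.1).1 ≠ (T e.2).1 := by
    intro e he h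
    have h1 := k1 e he
    rw [h, sub_self] at h1
    have h2 : 0 < e.2.1 - e.1.1 := sub_pos.2 (mem_pairs.1 he).2.2
    exact mul_ne_zero h2.ne' (k2 e he) h1.symm
  have k4 : ∀ e ∈ pairs P, f (τ (sl e)) (T e.1) = f (τ (sl e)) (T e.2) := by
    intro e he
    rw [hc _ (ha e he), hc _ (ha e he), f_sl e (mem_pairs.1 he).2.2]
  have k5 : ∀ e ∈ pairs P, ((T e.1).1 < (T e.2).1 ↔ 0 < σ * (sl e - θ₀)) := by
    intro e he
    have h2 : 0 < e.2.1 - e.1.1 := sub_pos.2 (mem_pairs.1 he).2.2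
    rw [← sub_pos, k1 e he]
    exact mul_pos_iff_of_pos_left h2
  have k6 : ∀ p ∈ P, ∀ q ∈ P, p ≠ q → (p, q) ∈ pairs P ∨ (q, p) ∈ pairs P := by
    intro p hp q hq hpq
    have : p.1 ≠ q.1 := fun h => hpq (hP.xinj p hp q hq h)
    rcases lt_or_gt_of_ne this with h | h
    · exact Or.inl (mem_pairs.2 ⟨hp, hq, h⟩)
    · exact Or.inr (mem_pairs.2 ⟨hq, hp, h⟩)
  have k7 : ∀ e' ∈ pairs (P.image T), ∃ e ∈ pairs P, sl e' = τ (sl e) ∧
      ((0 < σ * (sl e - θ₀) ∧ e' = (T e.1, T e.2)) ∨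
        (σ * (sl e - θ₀) < 0 ∧ e' = (T e.2, T e.1))) := by
    rintro ⟨p', q'⟩ he'
    obtain ⟨hp', hq', hlt⟩ := mem_pairs.1 he'
    obtain ⟨p, hp, rfl⟩ := mem_image.1 hp'
    obtain ⟨q, hq, rfl⟩ := mem_image.1 hq'
    simp only at hlt
    have hpq : p ≠ q := by
      rintro rfl
      exact lt_irrefl _ hlt
    rcases k6 p hp q hq hpq with h | h
    · exact ⟨(p, q), h, chartEx0_sl_eq hlt.ne (k4 _ h), Or.inl ⟨(k5 _ h).1 hlt, rfl⟩⟩
    · refine ⟨(q, p), h, chartEx0_sl_eq hlt.ne (k4 _ h).symm, Or.inr ⟨?_, rfl⟩⟩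
      have h1 : ¬ 0 < σ * (sl (q, p) - θ₀) := fun h2 => lt_asymm hlt ((k5 _ h).2 h2)
      exact lt_of_le_of_ne (not_lt.1 h1) (k2 _ h)
  have hu := he u ⟨le_rfl, huv⟩
  have hv := he v ⟨huv, le_rfl⟩
  refine ⟨⟨?_, ?_⟩, hf.mono he, ?_, ?_⟩
  · intro p' hp' q' hq' h
    obtain ⟨p, hp, rfl⟩ := mem_image.1 hp'
    obtain ⟨q, hq, rfl⟩ := mem_image.1 hq'
    by_contra hne
    have hpq : p ≠ q := by
      rintro rfl
      exact hne rfl
    rcases k6 p hp q hq hpq with h1 | h1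
    · exact k3 _ h1 h
    · exact k3 _ h1 h.symm
  · intro e₁' h₁ e₂' h₂ h
    obtain ⟨e₁, he₁, hs₁, hx₁⟩ := k7 e₁' h₁
    obtain ⟨e₂, he₂, hs₂, hx₂⟩ := k7 e₂' h₂
    have h3 : sl e₁ = sl e₂ := hd _ (ha _ he₁) _ (ha _ he₂) (by rw [← hs₁, ← hs₂, h])
    obtain rfl := hP.slinj _ he₁ _ he₂ h3
    rcases hx₁ with ⟨a1, b1⟩ | ⟨a1, b1⟩ <;> rcases hx₂ with ⟨a2, b2⟩ | ⟨a2, b2⟩
    · rw [b1, b2]
    · exact absurd a1 (not_lt.2 a2.le)
    · exact absurd a2 (not_lt.2 a1.le)
    · rw [b1, b2]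
  · intro e he'
    obtain ⟨h1, h2, h3⟩ := mem_tm.1 he'
    exact ⟨(k5 e h1).2 (he _ ⟨h2.le, h3⟩), chartEx0_sl_eq (k3 e h1) (k4 e h1)⟩
  · intro e' he'
    obtain ⟨h1, h2, h3⟩ := mem_tm.1 he'
    obtain ⟨e, he₁, hs, hx⟩ := k7 e' h1
    rw [hs] at h2 h3
    rcases hx with ⟨a1, b1⟩ | ⟨a1, -⟩
    · refine ⟨e, mem_tm.2 ⟨he₁, ?_, ?_⟩, b1.symm⟩
      · exact (hf.lt_iff_lt hu a1).1 h2
      · exact (hf.le_iff_le a1 hv).1 h3
    · rcases hg _ a1 with h4 | h4
      · exact absurd h2 (not_lt.2 h4)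
      · exact absurd h3 (not_le.2 h4)

theorem chartEx0_lip {h h' u v : ℝ} (h0 : 0 < h) (h1 : h ≤ h') (hu : h' ≤ u) (huv : u ≤ v)
    (hv : v ≤ h' + h) :
    h' / (h' + h) ^ 2 * (v - u) ≤ h' / u - h' / v ∧
      h' / u - h' / v ≤ 4 * (h' / (h' + h) ^ 2) * (v - u) := by
  have hh' : 0 < h' := by linarith
  have hu0 : 0 < u := by linarith
  have hv0 : 0 < v := by linarith
  have e : h' / u - h' / v = h' / (u * v) * (v - u) := by
    field_simp
  have hd : 0 ≤ v - u := by linarith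
  rw [e]
  constructor
  · apply mul_le_mul_of_nonneg_right _ hd
    apply div_le_div_of_nonneg_left hh'.le (by positivity)
    rw [sq]
    exact mul_le_mul (by linarith) hv hv0.le (by linarith)
  · apply mul_le_mul_of_nonneg_right _ hd
    rw [← mul_div_assoc, div_le_div_iff₀ (by positivity) (by positivity)]
    have h2 : h' * h' ≤ u * v := mul_le_mul hu (by linarith) hh'.le hu0.le
    have h3 : (h' + h) ^ 2 ≤ 4 * (h' * h') := by nlinarith
    have h4 : (h' + h) ^ 2 ≤ 4 * (u * v) := by linarith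
    calc h' * (h' + h) ^ 2 ≤ h' * (4 * (u * v)) := mul_le_mul_of_nonneg_left h4 hh'.le
      _ = 4 * h' * (u * v) := by ring

theorem chartEx0_gap {h h' u v : ℝ} (h0 : 0 < h) (h1 : h ≤ h') (h2 : h' ≤ 2 * h) (hu0 : 0 < u)
    (hu : u ≤ h' + h) (huv : h ≤ 201 * (v - u)) : 1 / 2000 ≤ h' / u - h' / v := by
  have hh' : 0 < h' := by linarith
  have hw : u + h / 201 ≤ v := by linarith
  have hw0 : 0 < u + h / 201 := by positivity
  have h3 : h' / v ≤ h' / (u + h / 201) := div_le_div_of_nonneg_left hh'.le hw0 hw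
  have e : h' / u - h' / (u + h / 201) = h' * (h / 201) / (u * (u + h / 201)) := by
    field_simp
    ring
  have h4 : 1 / 2000 ≤ h' * (h / 201) / (u * (u + h / 201)) := by
    rw [div_le_div_iff₀ (by norm_num) (by positivity)]
    have h5 : u * (u + h / 201) ≤ (3 * h) * (3 * h + h / 201) :=
      mul_le_mul (by linarith) (by linarith) hw0.le (by linarith)
    have h6 : h * h ≤ h' * h := mul_le_mul_of_nonneg_right h1 h0.le
    have h7 : 0 ≤ h * h := by positivity
    nlinarith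
  linarith

theorem chartEx0_choose (S : Finset ℝ) {h : ℝ} (h0 : 0 < h) :
    ∃ h', h ≤ h' ∧ h' ≤ 2 * h ∧ h' ∉ S := by
  obtain ⟨x, hx, hxS⟩ := (Set.Icc_infinite (show h < 2 * h by linarith)).exists_notMem_finset S
  exact ⟨x, hx.1, hx.2, hxS⟩

/-- A linear change of coordinates that changes the time by a monotone fractional linear map.
First case of `SepT`: `h = hi₁ - lo₀ > 0`; choose `h' ∈ [h, 2 h]` such that `θ₀ = lo₀ - h'` is not the slope of a pair of `P`;
`T p = (f θ₀ p, f θ₀ p - h' p.1)`, `τ θ = 1 - h' / (θ - θ₀)`; then `f (τ θ) (T p) = h' / (θ - θ₀) · f θ p` for `θ ≠ θ₀`; `ν = h' / (h' + h) ^ 2`.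
Second case: `h = hi₂ - lo₁`, `θ₀ = hi₂ + h'`, `T p = (-f θ₀ p, h' p.1)`, `τ θ = h' / (θ₀ - θ)`, `f (τ θ) (T p) = h' / (θ₀ - θ) · f θ p`.
A pair `e` of `P` on the good side of `θ₀` goes to the pair `(T e.1, T e.2)`, a pair on the other side goes to
`(T e.2, T e.1)`, in both cases with the slope `τ (sl e)`; the slopes of the second kind are outside `[0, 1]`
(`> 1` in the first case, `< 0` in the second case); `τ` is injective on `θ ≠ θ₀`.
The gaps are at least `1 / 2000`: `τ y - τ x = h' (y - x) / ((x - θ₀) (y - θ₀))`, and use monotonicity to replace the far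
end by the point at the distance `h / 201`. -/
theorem exists_map {P : Finset Pt} (hP : GP P) (lo hi : Fin 3 → ℝ) (h0 : ∀ x, lo x < hi x)
    (h01 : hi 0 ≤ lo 1) (h12 : hi 1 ≤ lo 2)
    (hs : (hi 1 - lo 0 ≤ 201 * (lo 1 - hi 0) ∧ hi 1 - lo 0 ≤ 201 * (lo 2 - hi 1)) ∨
      (hi 2 - lo 1 ≤ 201 * (lo 2 - hi 1) ∧ hi 2 - lo 1 ≤ 201 * (lo 1 - hi 0))) :
    ∃ (T : Pt → Pt) (τ : ℝ → ℝ) (ν : ℝ), Function.Bijective T ∧ GP (P.image T) ∧
      StrictMonoOn τ (Set.Icc (lo 0) (hi 2)) ∧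
      (∀ e ∈ tm (pairs P) (lo 0) (hi 2), (T e.1).1 < (T e.2).1 ∧ sl (Prod.map T T e) = τ (sl e)) ∧
      (∀ e' ∈ tm (pairs (P.image T)) (τ (lo 0)) (τ (hi 2)),
        ∃ e ∈ tm (pairs P) (lo 0) (hi 2), Prod.map T T e = e') ∧
      Clus (fun x => τ (lo x)) (fun x => τ (hi x)) ∧ 0 < ν ∧
      ∀ x y, lo 1 ≤ x → x ≤ y → y ≤ hi 1 → ν * (y - x) ≤ τ y - τ x ∧ τ y - τ x ≤ 4 * ν * (y - x) := by
  have a0 := h0 0
  have a1 := h0 1
  have a2 := h0 2
  rcases hs with ⟨g1, g2⟩ | ⟨g1, g2⟩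
  · obtain ⟨h, hh⟩ : ∃ h, h = hi 1 - lo 0 := ⟨_, rfl⟩
    have hh0 : 0 < h := by linarith
    obtain ⟨h', b1, b2, b3⟩ := chartEx0_choose ((pairs P).image fun e => lo 0 - sl e) hh0
    have hh' : 0 < h' := by linarith
    obtain ⟨θ₀, hθ⟩ : ∃ θ₀, θ₀ = lo 0 - h' := ⟨_, rfl⟩
    have hmono : StrictMonoOn (fun θ => 1 - h' / (θ - θ₀)) {x | 0 < 1 * (x - θ₀)} := by
      intro x hx y hy hxy
      simp only [Set.mem_ofPred_eq, one_mul] at hx hy
      have : h' / (y - θ₀) < h' / (x - θ₀) := div_lt_div_of_pos_left hh' hx (by linarith)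
      simp only
      linarith
    have htop : 0 < h' / (hi 2 - θ₀) := div_pos hh' (by linarith)
    obtain ⟨c1, c2, c3, c4⟩ := chartEx0_abs hP (fun p => (f θ₀ p, f θ₀ p - h' * p.1))
      (fun θ => 1 - h' / (θ - θ₀)) (fun θ => h' / (θ - θ₀)) θ₀ 1 (lo 0) (hi 2) one_ne_zero
      (fun e he hse => b3 (mem_image.2 ⟨e, he, by rw [hse]; linarith⟩))
      (fun p => by simp)
      (fun θ hθ' p => by
        have : θ - θ₀ ≠ 0 := sub_ne_zero.2 hθ'
        simp only [f]
        field_simp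
        ring)
      (fun x hx y hy hxy => by
        have h1 : x - θ₀ ≠ 0 := sub_ne_zero.2 hx
        have h2 : y - θ₀ ≠ 0 := sub_ne_zero.2 hy
        have h3 : h' / (x - θ₀) = h' / (y - θ₀) := by linarith
        rw [div_eq_div_iff h1 h2] at h3
        have := mul_left_cancel₀ hh'.ne' h3
        linarith)
      (fun x hx => by linarith [hx.1]) hmono (by linarith)
      (fun x hx => by
        right
        have : h' / (x - θ₀) < 0 := div_neg_of_pos_of_neg hh' (by linarith)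
        linarith)
    refine ⟨fun p => (f θ₀ p, f θ₀ p - h' * p.1), fun θ => 1 - h' / (θ - θ₀), h' / (h' + h) ^ 2,
      ?_, c1, c2, c3, c4, ⟨?_, ?_, ?_, ?_, ?_⟩, by positivity, ?_⟩
    · rw [Function.bijective_iff_has_inverse]
      refine ⟨fun q => ((q.1 - q.2) / h', q.1 + θ₀ * ((q.1 - q.2) / h')), ?_, ?_⟩
      · intro p
        ext
        · simp only [f]
          field_simp
          ring
        · simp only [f]
          field_simp
          ring
      · intro p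
        ext
        · simp only [f]
          ring
        · simp only [f]
          field_simp
          ring
    · intro t
      have h1 : lo 0 ≤ lo t := by
        fin_cases t
        · exact le_rfl
        · show lo 0 ≤ lo 1
          linarith
        · show lo 0 ≤ lo 2
          linarith
      have h2 := h0 t
      exact (hmono (show 0 < 1 * (lo t - θ₀) by linarith) (show 0 < 1 * (hi t - θ₀) by linarith)
        h2).le
    · have : lo 0 - θ₀ = h' := by linarith
      simp only [this, div_self hh'.ne']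
      norm_num
    · have := chartEx0_gap (u := hi 0 - θ₀) (v := lo 1 - θ₀) hh0 b1 b2 (by linarith) (by linarith)
        (by linarith)
      simp only
      linarith
    · have := chartEx0_gap (u := hi 1 - θ₀) (v := lo 2 - θ₀) hh0 b1 b2 (by linarith) (by linarith)
        (by linarith)
      simp only
      linarith
    · simp only
      linarith
    · intro x y hx hxy hy
      have := chartEx0_lip (u := x - θ₀) (v := y - θ₀) hh0 b1 (by linarith) (by linarith)
        (by linarith)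
      have e : y - θ₀ - (x - θ₀) = y - x := by ring
      rw [e] at this
      simp only
      constructor <;> linarith [this.1, this.2]
  · obtain ⟨h, hh⟩ : ∃ h, h = hi 2 - lo 1 := ⟨_, rfl⟩
    have hh0 : 0 < h := by linarith
    obtain ⟨h', b1, b2, b3⟩ := chartEx0_choose ((pairs P).image fun e => sl e - hi 2) hh0
    have hh' : 0 < h' := by linarith
    obtain ⟨θ₀, hθ⟩ : ∃ θ₀, θ₀ = hi 2 + h' := ⟨_, rfl⟩
    have hmono : StrictMonoOn (fun θ => h' / (θ₀ - θ)) {x | 0 < (-1) * (x - θ₀)} := by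
      intro x hx y hy hxy
      simp only [Set.mem_ofPred_eq] at hx hy
      exact div_lt_div_of_pos_left hh' (by linarith) (by linarith)
    have hbot : 0 < h' / (θ₀ - lo 0) := div_pos hh' (by linarith)
    obtain ⟨c1, c2, c3, c4⟩ := chartEx0_abs hP (fun p => (-f θ₀ p, h' * p.1))
      (fun θ => h' / (θ₀ - θ)) (fun θ => h' / (θ₀ - θ)) θ₀ (-1) (lo 0) (hi 2) (by norm_num)
      (fun e he hse => b3 (mem_image.2 ⟨e, he, by rw [hse]; linarith⟩))
      (fun p => by simp)
      (fun θ hθ' p => by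
        have : θ₀ - θ ≠ 0 := sub_ne_zero.2 hθ'.symm
        simp only [f]
        field_simp
        ring)
      (fun x hx y hy hxy => by
        have h1 : θ₀ - x ≠ 0 := sub_ne_zero.2 hx.symm
        have h2 : θ₀ - y ≠ 0 := sub_ne_zero.2 hy.symm
        rw [div_eq_div_iff h1 h2] at hxy
        have := mul_left_cancel₀ hh'.ne' hxy
        linarith)
      (fun x hx => by linarith [hx.2]) hmono (by linarith)
      (fun x hx => by
        left
        have : h' / (θ₀ - x) < 0 := div_neg_of_pos_of_neg hh' (by linarith)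
        linarith)
    refine ⟨fun p => (-f θ₀ p, h' * p.1), fun θ => h' / (θ₀ - θ), h' / (h' + h) ^ 2,
      ?_, c1, c2, c3, c4, ⟨?_, ?_, ?_, ?_, ?_⟩, by positivity, ?_⟩
    · rw [Function.bijective_iff_has_inverse]
      refine ⟨fun q => (q.2 / h', -q.1 + θ₀ * (q.2 / h')), ?_, ?_⟩
      · intro p
        ext
        · simp only
          field_simp
        · simp only [f]
          field_simp
          ring
      · intro p
        ext
        · simp only [f]
          ring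
        · simp only
          field_simp
    · intro t
      have h1 : hi t ≤ hi 2 := by
        fin_cases t
        · show hi 0 ≤ hi 2
          linarith
        · show hi 1 ≤ hi 2
          linarith
        · exact le_rfl
      have h2 := h0 t
      exact (hmono (show 0 < (-1) * (lo t - θ₀) by linarith)
        (show 0 < (-1) * (hi t - θ₀) by linarith) h2).le
    · exact hbot.le
    · have := chartEx0_gap (u := θ₀ - lo 1) (v := θ₀ - hi 0) hh0 b1 b2 (by linarith) (by linarith)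
        (by linarith)
      simp only
      linarith
    · have := chartEx0_gap (u := θ₀ - lo 2) (v := θ₀ - hi 1) hh0 b1 b2 (by linarith) (by linarith)
        (by linarith)
      simp only
      linarith
    · have : θ₀ - hi 2 = h' := by linarith
      simp only [this, div_self hh'.ne']
      exact le_rfl
    · intro x y hx hxy hy
      have := chartEx0_lip (u := θ₀ - y) (v := θ₀ - x) hh0 b1 (by linarith) (by linarith)
        (by linarith)
      have e : θ₀ - x - (θ₀ - y) = y - x := by ring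
      rw [e] at this
      exact this

end Crest.Agent.R51
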