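import Crest.Agent.R51.Sys
import Crest.Agent.R51.ChartEx0

/-! The change of the chart: existence. -/

namespace Crest.Agent.R51

open Finset
open scoped Classical

theorem chartEx_sys {ι : Type} {P : Finset Pt} {E : Finset Ed} {id id' : Ed → ι} {i : ℕ}
    (h : Sys P E id i) {T : Pt → Pt} (hT : Function.Injective T) (hG : GP (P.image T))
    {τ : ℝ → ℝ} {S : Set ℝ} (hτ : StrictMonoOn τ S) (hS : ∀ e ∈ E, sl e ∈ S)
    (h1 : ∀ e ∈ E, (T e.1).1 < (T e.2).1 ∧ sl (Prod.map T T e) = τ (sl e))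
    (hid : ∀ e, id' (Prod.map T T e) = id e) :
    Sys (P.image T) (E.image (Prod.map T T)) id' i := by
  refine ⟨hG, fun e' he' => ?_, fun e₁' h₁ e₂' h₂ hh hsl => ?_, fun a θ' => ?_⟩
  · obtain ⟨e, he, rfl⟩ := mem_image.1 he'
    have := mem_pairs.1 (h.sub he)
    exact mem_pairs.2 ⟨mem_image_of_mem T this.1, mem_image_of_mem T this.2.1, (h1 e he).1⟩
  · obtain ⟨e₁, he₁, rfl⟩ := mem_image.1 h₁
    obtain ⟨e₂, he₂, rfl⟩ := mem_image.1 h₂
    rw [hid, hid] at hh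
    rw [(h1 _ he₁).2, (h1 _ he₂).2, hτ.lt_iff_lt (hS _ he₁) (hS _ he₂)] at hsl
    obtain ⟨x, hx, k1, k2, k3, k4⟩ := h.link e₁ he₁ e₂ he₂ hh hsl
    refine ⟨Prod.map T T x, mem_image_of_mem _ hx, by rw [hid, hid, k1], congrArg T k2, ?_, ?_⟩
    · rw [(h1 _ he₁).2, (h1 _ hx).2]
      exact hτ (hS _ he₁) (hS _ hx) k3
    · rw [(h1 _ he₂).2, (h1 _ hx).2]
      exact hτ.monotoneOn (hS _ hx) (hS _ he₂) k4
  · rcases (E.filter fun x => T x.2 = a ∧ τ (sl x) ≤ θ').eq_empty_or_nonempty with hX | hX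
    · refine le_trans (le_of_eq ?_) (Nat.zero_le _)
      unfold nr
      rw [card_eq_zero, image_eq_empty, filter_eq_empty_iff]
      intro e' he' hc
      obtain ⟨e, he, rfl⟩ := mem_image.1 he'
      rw [(h1 _ he).2] at hc
      exact filter_eq_empty_iff.1 hX he ⟨hc.1, hc.2.1⟩
    · obtain ⟨x₀, hx₀, hmax⟩ := exists_max_image _ sl hX
      obtain ⟨hx₂, rfl, hx₁⟩ := mem_filter.1 hx₀
      refine le_trans ?_ (h.mult x₀.2 (sl x₀))
      unfold nr
      refine card_le_card fun r hr => ?_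
      obtain ⟨e', he', rfl⟩ := mem_image.1 hr
      obtain ⟨he', k1, k2, e₂', he₂', k3, k4, k5⟩ := mem_filter.1 he'
      obtain ⟨e, he, rfl⟩ := mem_image.1 he'
      obtain ⟨e₂, he₂, rfl⟩ := mem_image.1 he₂'
      rw [(h1 _ he).2] at k2
      rw [(h1 _ he₂).2] at k5
      rw [hid, hid] at k3
      refine mem_image.2 ⟨e, mem_filter.2 ⟨he, hT k1, hmax e (mem_filter.2 ⟨he, k1, k2⟩), e₂, he₂,
        k3, hT k4, ?_⟩, (hid e).symm⟩
      exact (hτ.le_iff_le (hS _ hx₂) (hS _ he₂)).1 (hx₁.trans k5)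

/-- The image of a piece: `P' = P.image T`, `E' = (tm E u v).image (Prod.map T T)`, `id' = id ∘ Prod.map T⁻¹ T⁻¹`,
`b' w = τ (max u (min (b w) v))`.  `link` is transported by `τ`; for `mult` at a time `θ'`: if the filtered set is
nonempty then `τ u < θ' ≤ τ v`; let `θ` be the largest slope `sl x` of an edge `x ∈ tm E u v` with `τ (sl x) ≤ θ'`, and
compare with `(L.sys.tm u v).mult (T⁻¹ a) θ` (`θ' ≤ τ (sl e')` gives `θ ≤ sl e'` by strict monotonicity). -/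
theorem Loc.exists_chart (L : Loc) {u v : ℝ} (huv : u ≤ v) {T : Pt → Pt} {τ : ℝ → ℝ}
    (hT : Function.Bijective T) (hG : GP (L.P.image T)) (hτ : StrictMonoOn τ (Set.Icc u v))
    (h1 : ∀ e ∈ tm (pairs L.P) u v, (T e.1).1 < (T e.2).1 ∧ sl (Prod.map T T e) = τ (sl e))
    (h2 : ∀ e' ∈ tm (pairs (L.P.image T)) (τ u) (τ v),
      ∃ e ∈ tm (pairs L.P) u v, Prod.map T T e = e') : ∃ L' : Loc, Chart L L' u v T τ := by
  have hcl : ∀ x, max u (min x v) ∈ Set.Icc u v := fun x =>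
    ⟨le_max_left _ _, max_le huv (min_le_right _ _)⟩
  have hE : ∀ e ∈ tm L.E u v, e ∈ tm (pairs L.P) u v := fun e he =>
    tm_mono L.sys.sub le_rfl le_rfl he
  have hZ : ∀ e ∈ tm (pairs L.Z) u v, e ∈ tm (pairs L.P) u v := fun e he =>
    tm_mono (pairs_mono L.ZP) le_rfl le_rfl he
  have hS : ∀ {E : Finset Ed}, ∀ e ∈ tm E u v, sl e ∈ Set.Icc u v := fun e he =>
    ⟨(mem_tm.1 he).2.1.le, (mem_tm.1 he).2.2⟩
  obtain ⟨T', hT'⟩ := hT.1.hasLeftInverse
  have hid : ∀ e, L.id (Prod.map T' T' (Prod.map T T e)) = L.id e := fun e => by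
    rw [show Prod.map T' T' (Prod.map T T e) = e from Prod.ext (hT' _) (hT' _)]
  refine ⟨{
    P := L.P.image T
    Z := L.Z.image T
    E := (tm L.E u v).image (Prod.map T T)
    id := fun e => L.id (Prod.map T' T' e)
    i := L.i
    q := L.q
    κ := L.κ
    b := fun w => τ (max u (min (L.b w) v))
    sys := chartEx_sys (L.sys.tm u v) hT.1 hG hτ hS (fun e he => h1 e (hE e he)) hid
    ZP := image_subset_image L.ZP
    inZ := ?_
    i_pos := L.i_pos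
    q_pos := L.q_pos
    mono := fun w w' h => hτ.monotoneOn (hcl _) (hcl _)
      (max_le_max le_rfl (min_le_min (L.mono h) le_rfl))
    range := ?_
    cardZ := le_trans (by exact_mod_cast card_image_le) L.cardZ },
    hT.1, rfl, rfl, rfl, rfl, rfl, hid, fun _ => rfl, huv, hτ, ?_, fun e he => (h1 e (hZ e he)).2⟩
  · intro e' he'
    obtain ⟨e, he, rfl⟩ := mem_image.1 he'
    have := L.inZ e (mem_tm.1 he).1
    exact ⟨mem_image_of_mem T this.1, mem_image_of_mem T this.2⟩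
  · intro e' he'
    obtain ⟨e, he, rfl⟩ := mem_image.1 he'
    obtain ⟨k1, k2, k3⟩ := mem_tm.1 he
    obtain ⟨k4, k5⟩ := L.range e k1
    rw [(h1 e (hE e he)).2]
    exact ⟨hτ (hcl _) (hS e he) (max_lt k2 ((min_le_left _ _).trans_lt k4)),
      hτ.monotoneOn (hS e he) (hcl _) ((le_min k5 k3).trans (le_max_right _ _))⟩
  · refine Subset.antisymm (fun e' he' => ?_) fun e' he' => ?_
    · obtain ⟨e, he, rfl⟩ := h2 e' (tm_mono (pairs_mono (image_subset_image L.ZP)) le_rfl le_rfl he')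
      obtain ⟨k1, k2, -⟩ := mem_pairs.1 (mem_tm.1 he').1
      obtain ⟨p, hp, hp'⟩ := mem_image.1 k1
      obtain ⟨q, hq, hq'⟩ := mem_image.1 k2
      refine mem_image_of_mem _ (mem_tm.2 ⟨mem_pairs.2 ⟨?_, ?_, ?_⟩, (mem_tm.1 he).2⟩)
      · rwa [← hT.1 hp']
      · rwa [← hT.1 hq']
      · exact (mem_pairs.1 (mem_tm.1 he).1).2.2
    · obtain ⟨e, he, rfl⟩ := mem_image.1 he'
      obtain ⟨k1, k2, k3⟩ := mem_tm.1 he
      obtain ⟨k4, k5⟩ := h1 e (hZ e he)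
      have k6 := mem_pairs.1 k1
      refine mem_tm.2 ⟨mem_pairs.2 ⟨mem_image_of_mem T k6.1, mem_image_of_mem T k6.2.1, k4⟩, ?_⟩
      rw [k5]
      exact ⟨hτ ⟨le_rfl, huv⟩ (hS e he) k2, hτ.monotoneOn (hS e he) ⟨huv, le_rfl⟩ k3⟩

end Crest.Agent.R51
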