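import Crest.Agent.R51.LocReg

/-! The change of the chart: transport of the regularity properties. -/

namespace Crest.Agent.R51

open Finset
open scoped Classical

namespace Chart

variable {L L' : Loc} {u v : ℝ} {T : Pt → Pt} {τ : ℝ → ℝ}

theorem N_eq (h : Chart L L' u v T τ) : L'.N = L.N := by
  simp [Loc.N, h.i_eq, h.q_eq, h.κ_eq]

theorem d_eq (h : Chart L L' u v T τ) : L'.d = L.d := by
  simp [Loc.d, h.i_eq, h.κ_eq]

theorem big (h : Chart L L' u v T τ) {Q : ℕ} (hb : L.Big Q) : L'.Big Q := by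
  simpa [Loc.Big, h.q_eq, h.κ_eq] using hb

theorem lo_eq (h : Chart L L' u v T τ) (m k : ℕ) :
    L'.lo m k = τ (max u (min (L.lo m k) v)) := by
  simp [Loc.lo, h.q_eq, h.b_eq]

theorem hi_eq (h : Chart L L' u v T τ) (m k : ℕ) :
    L'.hi m k = τ (max u (min (L.hi m k) v)) := h.lo_eq m (k + 1)

/-- Windows correspond: for `x ∈ (u, v]`, `max u (min s v) < x ↔ s < x` and `x ≤ max u (min s v) ↔ x ≤ s`. -/
theorem W_eq (h : Chart L L' u v T τ) {F : Finset Ed} (hF : F ⊆ pairs L.Z) (m k : ℕ) :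
    L'.W ((tm F u v).image (Prod.map T T)) m k = (L.W (tm F u v) m k).image (Prod.map T T) := by
  have hc : ∀ s, max u (min s v) ∈ Set.Icc u v := fun s =>
    ⟨le_max_left _ _, max_le h.le (min_le_right _ _)⟩
  unfold Loc.W
  rw [h.lo_eq, h.hi_eq]
  conv_lhs => rw [tm, filter_image]
  conv_rhs => rw [tm]
  congr 1
  refine filter_congr fun e he => ?_
  obtain ⟨-, h1, h2⟩ := mem_tm.1 he
  rw [h.sl_eq e (tm_mono hF le_rfl le_rfl he), h.mono.lt_iff_lt (hc _) ⟨h1.le, h2⟩,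
    h.mono.le_iff_le ⟨h1.le, h2⟩ (hc _)]
  simp only [max_lt_iff, min_lt_iff, le_max_iff, le_min_iff, h1, h2, h1.not_ge, h2.not_gt,
    true_and, and_true, or_false, false_or]

theorem deg_image (h : Chart L L' u v T τ) (F : Finset Ed) (p : Pt) :
    deg (F.image (Prod.map T T)) (T p) = deg F p := by
  unfold deg
  rw [filter_image, card_image_of_injective _ (h.inj.prodMap h.inj)]
  congr 1
  refine filter_congr fun e _ => ?_
  simp only [Inc, Prod.map_fst, Prod.map_snd, h.inj.eq_iff]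

theorem chartTr0_nr (h : Chart L L' u v T τ) (F : Finset Ed) :
    nr (F.image (Prod.map T T)) L'.id = nr F L.id := by
  rw [nr_eq, nr_eq, image_image]
  congr 2
  exact funext h.id_eq

theorem chartTr0_U (h : Chart L L' u v T τ) : L'.U = L.U := by
  simp [Loc.U, h.i_eq, h.q_eq, h.κ_eq]

theorem base (h : Chart L L' u v T τ) {Ω : ℕ → Finset Pt} {C : ℝ} (hb : L.Base Ω C) :
    L'.Base (fun w => (Ω w).image T) C := by
  refine ⟨fun w => h.Z_eq ▸ image_subset_image (hb.sub w), ?_, fun w => ?_, ?_⟩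
  · rw [h.E_eq, h.chartTr0_nr, h.chartTr0_U]
    exact (Nat.cast_le.2 (nr_mono (tm_subset _ _ _) _)).trans hb.nr_le
  · rw [card_image_of_injective _ h.inj, h.N_eq, h.q_eq]
    exact hb.card_le w
  · simp only [card_image_of_injective _ h.inj, h.N_eq, h.q_eq]
    exact hb.sum_le

/-- All sets of `L'` are images of subsets of the corresponding sets of `L` (`W_eq`, `E_eq`). -/
theorem reg (h : Chart L L' u v T τ) {Ω : ℕ → Finset Pt} {C : ℝ} {m : ℕ} {E₀ : Finset Ed}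
    (hr : L.Reg Ω C m E₀) :
    L'.Reg (fun w => (Ω w).image T) C m ((tm E₀ u v).image (Prod.map T T)) := by
  have h0 : E₀ ⊆ pairs L.Z := hr.sub.trans L.E_sub
  have hne : ∀ {m k}, (L'.W ((tm E₀ u v).image (Prod.map T T)) m k).Nonempty →
      (L.W E₀ m k).Nonempty := fun hw => by
    rw [h.W_eq h0, image_nonempty] at hw
    exact hw.mono (L.W_mono (tm_subset _ _ _) _ _)
  have hin : ∀ {k e p}, e ∈ L'.W ((tm E₀ u v).image (Prod.map T T)) m k → Inc p e →
      ∃ e₁ ∈ L.W E₀ m k, ∃ p₁, Inc p₁ e₁ ∧ p = T p₁ := fun he hp => by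
    rw [h.W_eq h0] at he
    obtain ⟨e₁, he₁, rfl⟩ := mem_image.1 he
    refine ⟨e₁, L.W_mono (tm_subset _ _ _) _ _ he₁, ?_⟩
    rcases hp with rfl | rfl
    · exact ⟨e₁.1, Or.inl rfl, rfl⟩
    · exact ⟨e₁.2, Or.inr rfl, rfl⟩
  refine ⟨h.E_eq ▸ image_subset_image (tm_mono hr.sub le_rfl le_rfl), fun w hw e he => ?_, ?_,
    fun k e he p hp => ?_, fun k hk => ?_, fun k e he p hp => ?_⟩
  · rw [h.q_eq] at hw he
    rw [h.E_eq, h.W_eq L.E_sub] at he
    obtain ⟨e₁, he₁, rfl⟩ := mem_image.1 he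
    have := hr.cov w (hne hw) e₁ (L.W_mono (tm_subset _ _ _) _ _ he₁)
    exact ⟨mem_image_of_mem T this.1, mem_image_of_mem T this.2⟩
  · refine le_trans (Nat.cast_le.2 (card_le_card fun k hk => ?_)) hr.rel
    exact mem_filter.2 ⟨(mem_filter.1 hk).1, hne (mem_filter.1 hk).2⟩
  · obtain ⟨e₁, he₁, p₁, hp₁, rfl⟩ := hin he hp
    rw [h.E_eq, h.W_eq L.E_sub, h.deg_image, h.d_eq]
    exact (Nat.cast_le.2 (deg_mono (L.W_mono (tm_subset _ _ _) _ _) _)).trans
      (hr.deg_le k e₁ he₁ p₁ hp₁)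
  · rw [h.E_eq, h.W_eq L.E_sub, h.chartTr0_nr, h.chartTr0_U]
    exact (Nat.cast_le.2 (nr_mono (L.W_mono (tm_subset _ _ _) _ _) _)).trans
      (hr.nr_le k (hne hk))
  · obtain ⟨e₁, he₁, p₁, hp₁, rfl⟩ := hin he hp
    simp only [h.inj.mem_finset_image, h.q_eq]
    exact hr.act_le k e₁ he₁ p₁ hp₁

end Chart

end Crest.Agent.R51
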