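import Crest.Agent.R51.LocReg
import Crest.Agent.R51.ChartTr0

/-! The change of the chart: transport of the regularity properties. -/

namespace Crest.Agent.R51

open Finset
open scoped Classical

namespace Chart

variable {L L' : Loc} {u v : ℝ} {T : Pt → Pt} {τ : ℝ → ℝ}

theorem chartTr_abs {x y ν : ℝ}
    (hlip : ∀ s t, x ≤ s → s ≤ t → t ≤ y → ν * (t - s) ≤ τ t - τ s ∧ τ t - τ s ≤ 4 * ν * (t - s))
    (hν : 0 < ν) {s t : ℝ} (hs : x ≤ s ∧ s ≤ y) (ht : x ≤ t ∧ t ≤ y) :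
    ν * |s - t| ≤ |τ s - τ t| ∧ |τ s - τ t| ≤ 4 * ν * |s - t| := by
  rcases le_total s t with h | h
  · have a := hlip s t hs.1 h ht.2
    have b : 0 ≤ ν * (t - s) := mul_nonneg hν.le (sub_nonneg.2 h)
    rw [abs_sub_comm s t, abs_sub_comm (τ s) (τ t), abs_of_nonneg (sub_nonneg.2 h),
      abs_of_nonneg (b.trans a.1)]
    exact a
  · have a := hlip t s ht.1 h hs.2
    have b : 0 ≤ ν * (s - t) := mul_nonneg hν.le (sub_nonneg.2 h)
    rw [abs_of_nonneg (sub_nonneg.2 h), abs_of_nonneg (b.trans a.1)]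
    exact a

theorem chartTr_str (h : Chart L L' u v T τ) {x y ν : ℝ} (hx : u ≤ x) (hxy : x ≤ y)
    (hy : y ≤ v) (hν : 0 < ν)
    (hlip : ∀ s t, x ≤ s → s ≤ t → t ≤ y → ν * (t - s) ≤ τ t - τ s ∧ τ t - τ s ≤ 4 * ν * (t - s))
    {θ : ℝ} (hθ : x ≤ θ ∧ θ ≤ y) {c J σ N : ℝ} (hc : 0 < c) (hJ : 0 ≤ J) (hσ : 0 ≤ σ) (hN : 0 ≤ N)
    {Y : Finset Pt} (hY : Y ⊆ L.Z) (hs : Str L'.Z (Y.image T) (τ θ) (τ x) (τ y) σ N J c) :
    Str L.Z Y θ x y σ N J (c / 4) := by
  obtain ⟨ϑ, hϑ, h1, h2⟩ := hs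
  have hxI : x ∈ Set.Icc u v := ⟨hx, hxy.trans hy⟩
  have hyI : y ∈ Set.Icc u v := ⟨hx.trans hxy, hy⟩
  have huI : u ∈ Set.Icc u v := ⟨le_rfl, h.le⟩
  have hvI : v ∈ Set.Icc u v := ⟨h.le, le_rfl⟩
  refine ⟨ϑ / (4 * ν), by positivity, fun p => ?_, ?_⟩
  · rw [← h.deg_image]
    refine le_trans (Nat.cast_le.2 (deg_mono ?_ _)) ((h1 (T p)).trans
      (div_le_div_of_nonneg_left hσ (by positivity) (by linarith)))
    intro e' he'
    obtain ⟨e, he, rfl⟩ := mem_image.1 he'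
    obtain ⟨he1, he2⟩ := mem_filter.1 he
    obtain ⟨he3, he4, he5⟩ := mem_tm.1 he1
    have hz : e ∈ tm (pairs L.Z) u v := mem_tm.2 ⟨pairs_mono hY he3, by linarith, by linarith⟩
    have hI : sl e ∈ Set.Icc u v := ⟨by linarith, by linarith⟩
    have hz' : Prod.map T T e ∈ tm (pairs L'.Z) (τ u) (τ v) := by
      rw [h.pairs_eq]
      exact mem_image_of_mem _ hz
    have hp := mem_pairs.1 he3
    rw [mem_filter, mem_tm, mem_pairs, h.sl_eq e hz]
    refine ⟨⟨⟨mem_image_of_mem _ hp.1, mem_image_of_mem _ hp.2.1,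
      (mem_pairs.1 (mem_tm.1 hz').1).2.2⟩, h.mono hxI hI he4, h.mono.monotoneOn hI hyI he5⟩, ?_⟩
    have a := (chartTr_abs hlip hν ⟨he4.le, he5⟩ hθ).2
    rw [le_div_iff₀ (by positivity)] at he2
    linarith
  · have e1 : J * (ϑ / (4 * ν)) / (c / 4) = J * ϑ / c / ν := by field_simp
    rw [e1]
    set Θ := J * ϑ / c with hΘ
    by_cases hA : θ - Θ / ν ≤ x
    · exact Or.inl hA
    by_cases hB : y ≤ θ + Θ / ν
    · exact Or.inr (Or.inl hB)
    have hA' : Θ < τ θ - τ x := by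
      have a := (hlip x θ le_rfl hθ.1 hθ.2).1
      have b : Θ / ν < θ - x := by linarith [not_le.1 hA]
      rw [div_lt_iff₀ hν] at b
      linarith
    have hB' : Θ < τ y - τ θ := by
      have a := (hlip θ y hθ.1 hθ.2 le_rfl).1
      have b : Θ / ν < y - θ := by linarith [not_le.1 hB]
      rw [div_lt_iff₀ hν] at b
      linarith
    refine Or.inr (Or.inr ?_)
    rcases h2 with h2 | h2 | h2
    · linarith
    · linarith
    have a1 : c / 4 * J * σ * N ≤ c * J * σ * N := by gcongr; linarith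
    refine a1.trans (h2.trans (Nat.cast_le.2 (le_trans (card_le_card ?_)
      (card_image_le (f := Prod.map T T)))))
    intro e' he'
    obtain ⟨he1, he2⟩ := mem_filter.1 he'
    obtain ⟨he3, he4⟩ := abs_le.1 he2
    have b1 : τ u ≤ τ x := h.mono.monotoneOn huI hxI hx
    have b2 : τ y ≤ τ v := h.mono.monotoneOn hyI hvI hy
    have hz' : e' ∈ tm (pairs L'.Z) (τ u) (τ v) := mem_tm.2 ⟨he1, by linarith, by linarith⟩
    rw [h.pairs_eq] at hz'
    obtain ⟨e, he, rfl⟩ := mem_image.1 hz'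
    rw [h.sl_eq e he] at he2 he3 he4
    obtain ⟨hp, hs1, hs2⟩ := mem_tm.1 he
    have hI : sl e ∈ Set.Icc u v := ⟨hs1.le, hs2⟩
    have c1 : x < sl e := (h.mono.lt_iff_lt hxI hI).1 (by linarith)
    have c2 : sl e < y := (h.mono.lt_iff_lt hI hyI).1 (by linarith)
    refine mem_image_of_mem _ (mem_filter.2 ⟨hp, ?_⟩)
    have a := (chartTr_abs hlip hν ⟨c1.le, c2.le⟩ hθ).1
    rw [le_div_iff₀ hν]
    linarith

/-- Transport of `AW` back to the original chart.  The window `k` of `L'` contains an edge (the points of `Y` have a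
positive degree), so it is not degenerate; from `τ x ≤ L'.lo m k`, `L'.hi m k ≤ τ y` and `hxy` we get `x ≤ lo m k`,
`hi m k ≤ y`.  Take `Y` the preimage, `ϑ = ϑ' / (4 ν)`; with `θ = lo m k`, `Θ' = J ϑ' / c` we have `J ϑ / (c / 4) = Θ' / ν`.  First part:
`|sl e - θ| ≤ ϑ` with `sl e ∈ (x, y]` gives `|τ (sl e) - τ θ| ≤ ϑ'`.  Second part: if `x < θ - Θ' / ν` and `θ + Θ' / ν < y` then
`τ x < τ (θ - Θ' / ν) ≤ τ θ - Θ'` and `τ θ + Θ' < τ y`, so the third alternative holds in `L'`; its pairs have slopes in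
`(τ x, τ y)`, come from pairs of `L.Z` (`pairs_eq`) with slopes in `(x, y)`, at a distance at most `Θ' / ν` from `θ`. -/
theorem aw (h : Chart L L' u v T τ) (hb : L.Big 1) {x y ν : ℝ} (hx : u ≤ x) (hxy : x ≤ y)
    (hy : y ≤ v) (hν : 0 < ν)
    (hlip : ∀ s t, x ≤ s → s ≤ t → t ≤ y → ν * (t - s) ≤ τ t - τ s ∧ τ t - τ s ≤ 4 * ν * (t - s))
    {E₀ : Finset Ed} (hE : E₀ ⊆ L.E) {m k : ℕ} (hm : 1 ≤ m)
    (hk : (x ≤ L.lo m k ∧ L.hi m k ≤ y) ∨ L.hi m k ≤ x ∨ y ≤ L.lo m k) {c J σ : ℝ} (hc : 0 < c)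
    (hJ : 0 ≤ J) (hσ : 0 ≤ σ)
    (ha : L'.AW ((tm E₀ u v).image (Prod.map T T)) m (τ x) (τ y) c J σ k) :
    L.AW E₀ m x y (c / 4) J σ k := by
  obtain ⟨h1, h2, Y', hY', hcard, hdeg, hstr⟩ := ha
  have hN := hb.N_pos le_rfl
  have hd := hb.d_pos le_rfl
  have hmR : (0 : ℝ) < m := by exact_mod_cast hm
  rw [h.N_eq] at hcard hstr
  rw [h.d_eq] at hdeg
  have hlt : L'.lo m k < L'.hi m k := by
    have a : (0 : ℝ) < #Y' := lt_of_lt_of_le (by positivity) hcard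
    obtain ⟨p, hp⟩ : Y'.Nonempty := card_pos.1 (by exact_mod_cast a)
    have b : (0 : ℝ) < deg (L'.W ((tm E₀ u v).image (Prod.map T T)) m k) p :=
      lt_of_lt_of_le (by positivity) (hdeg p hp)
    have b' : 0 < deg (L'.W ((tm E₀ u v).image (Prod.map T T)) m k) p := by exact_mod_cast b
    obtain ⟨e, he⟩ := card_pos.1 b'
    have := L'.mem_W.1 (mem_filter.1 he).1
    exact this.2.1.trans_le this.2.2
  have hcl : ∀ s, max u (min s v) ∈ Set.Icc u v := fun s =>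
    ⟨le_max_left _ _, max_le h.le (min_le_right _ _)⟩
  have hxI : x ∈ Set.Icc u v := ⟨hx, hxy.trans hy⟩
  have hyI : y ∈ Set.Icc u v := ⟨hx.trans hxy, hy⟩
  rw [h.lo_eq] at h1 hlt hstr
  rw [h.hi_eq] at h2 hlt
  have a1 := (h.mono.le_iff_le hxI (hcl _)).1 h1
  have a2 := (h.mono.le_iff_le (hcl _) hyI).1 h2
  have a3 := (h.mono.lt_iff_lt (hcl _) (hcl _)).1 hlt
  have hk' : x ≤ L.lo m k ∧ L.hi m k ≤ y := by
    rcases hk with hk | hk | hk
    · exact hk
    · have : max u (min (L.hi m k) v) ≤ x := max_le hx ((min_le_left _ _).trans hk)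
      linarith
    · have : y ≤ max u (min (L.lo m k) v) := le_max_of_le_right (le_min hk hy)
      linarith
  have hlh := L.lo_le_hi m k
  have hlo : max u (min (L.lo m k) v) = L.lo m k := by
    rw [min_eq_left (by linarith [hk'.2]), max_eq_right (by linarith [hk'.1])]
  rw [hlo] at hstr
  have hYe : Y' = (L.Z.filter fun p => T p ∈ Y').image T := by
    ext p'
    constructor
    · intro hp'
      have := hY' hp'
      rw [h.Z_eq] at this
      obtain ⟨p, hp, rfl⟩ := mem_image.1 this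
      exact mem_image_of_mem _ (mem_filter.2 ⟨hp, hp'⟩)
    · intro hp'
      obtain ⟨p, hp, rfl⟩ := mem_image.1 hp'
      exact (mem_filter.1 hp).2
  refine ⟨hk'.1, hk'.2, L.Z.filter fun p => T p ∈ Y', filter_subset _ _, ?_, fun p hp => ?_, ?_⟩
  · have b1 : #Y' ≤ #(L.Z.filter fun p => T p ∈ Y') := by
      conv_lhs => rw [hYe]
      exact card_image_le
    have b2 : (#Y' : ℝ) ≤ #(L.Z.filter fun p => T p ∈ Y') := by exact_mod_cast b1
    have b3 : c / 4 * L.N ≤ c * L.N := by gcongr; linarith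
    linarith
  · have b1 := hdeg (T p) (mem_filter.1 hp).2
    rw [h.W_eq (hE.trans L.E_sub), h.deg_image] at b1
    have b2 : (deg (L.W (tm E₀ u v) m k) p : ℝ) ≤ deg (L.W E₀ m k) p :=
      Nat.cast_le.2 (deg_mono (L.W_mono (tm_subset _ _ _) _ _) p)
    have b3 : c / 4 * L.d / m ≤ c * L.d / m := by gcongr; linarith
    linarith
  · rw [hYe] at hstr
    exact chartTr_str h hx hxy hy hν hlip ⟨hk'.1, hlh.trans hk'.2⟩ hc hJ hσ hN.le
      (filter_subset _ _) hstr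

end Chart

end Crest.Agent.R51
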