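import Crest.Agent.R51.Sys

/-! The number of crossings between runs. -/

namespace Crest.Agent.R51

open Finset
open scoped Classical

variable {ι : Type} {P : Finset Pt} {E : Finset Ed} {id : Ed → ι} {i : ℕ}

/-- `a` is a vertex of the run `r` that is lowest among the vertices of `r` at the time `θ`. -/
def Cur (E : Finset Ed) (id : Ed → ι) (r : ι) (θ : ℝ) (a : Pt) : Prop :=
  (∃ e ∈ E, id e = r ∧ Inc a e) ∧ ∀ e ∈ E, id e = r → f θ a ≤ f θ e.1 ∧ f θ a ≤ f θ e.2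

theorem cross0_f_seg (θ : ℝ) (e : Ed) (t : ℝ) :
    f θ (seg e t) = (1 - t) * f θ e.1 + t * f θ e.2 := by
  unfold f seg
  ring

theorem cross0_cont (p : Pt) : Continuous fun θ : ℝ => f θ p := by
  unfold f
  fun_prop

theorem cross0_closed_low (E : Finset Ed) (id : Ed → ι) (r : ι) (a : Pt) :
    IsClosed {θ : ℝ | ∀ e ∈ E, id e = r → f θ a ≤ f θ e.1 ∧ f θ a ≤ f θ e.2} := by
  simp only [Set.ofPred_forall]
  refine isClosed_iInter fun e => isClosed_iInter fun _ => isClosed_iInter fun _ => ?_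
  exact (isClosed_le (cross0_cont a) (cross0_cont e.1)).inter
    (isClosed_le (cross0_cont a) (cross0_cont e.2))

theorem cross0_closed_cur (E : Finset Ed) (id : Ed → ι) (r : ι) (a : Pt) :
    IsClosed {θ : ℝ | Cur E id r θ a} :=
  isClosed_const.inter (cross0_closed_low E id r a)

theorem cross0_finite (E : Finset Ed) : {a : Pt | ∃ e ∈ E, Inc a e}.Finite := by
  refine ((E.finite_toSet.image Prod.fst).union (E.finite_toSet.image Prod.snd)).subset ?_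
  rintro a ⟨e, he, h | h⟩
  · exact Or.inl ⟨e, he, h⟩
  · exact Or.inr ⟨e, he, h⟩

theorem cross0_exists_cur {E : Finset Ed} {id : Ed → ι} {r : ι} {e₀ : Ed} (he₀ : e₀ ∈ E)
    (hr : id e₀ = r) (θ : ℝ) : ∃ a, Cur E id r θ a := by
  have hfin : {a : Pt | ∃ e ∈ E, id e = r ∧ Inc a e}.Finite :=
    (cross0_finite E).subset fun a ⟨e, he, _, h⟩ => ⟨e, he, h⟩
  obtain ⟨a, ha, hmin⟩ := Set.exists_min_image _ (f θ) hfin ⟨e₀.1, e₀, he₀, hr, Or.inl rfl⟩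
  exact ⟨a, ha, fun e he hid =>
    ⟨hmin _ ⟨e, he, hid, Or.inl rfl⟩, hmin _ ⟨e, he, hid, Or.inr rfl⟩⟩⟩

theorem cross0_cur_le {E : Finset Ed} {id : Ed → ι} {r : ι} {θ : ℝ} {a b : Pt}
    (h : ∀ e ∈ E, id e = r → f θ a ≤ f θ e.1 ∧ f θ a ≤ f θ e.2)
    (hb : ∃ e ∈ E, id e = r ∧ Inc b e) : f θ a ≤ f θ b := by
  obtain ⟨e, he, hid, rfl | rfl⟩ := hb
  · exact (h e he hid).1
  · exact (h e he hid).2

theorem cross0_lt_of_below {E : Finset Ed} {id : Ed → ι} {r : ι} {θ : ℝ} {u v : Pt}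
    (hu : Below E id r u) (h : ∀ e ∈ E, id e = r → f θ v ≤ f θ e.1 ∧ f θ v ≤ f θ e.2) :
    f θ v < f θ u := by
  obtain ⟨e, he, hid, h1 | h1⟩ := hu θ
  · exact lt_of_le_of_lt (h e he hid).1 h1
  · exact lt_of_le_of_lt (h e he hid).2 h1

/-- Three edges of a run `r'` that cross the boundary of the region above `r` give a common tangent.
Proof: take `u` on `e₁` and `w` on `e₃` with `Below r`, `v` on `e₂` with `¬ Below r`; so there is `θ₀` with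
`f θ₀ v ≤` all vertices of `r`; hence `f θ₀ v < f θ₀ u`, `f θ₀ v < f θ₀ w`.  If `θ₀ ≤ sl e₁` then `f θ₀` is
monotone along `e₁`, the run between and `e₂` (`mono_run`; `f θ (seg e t)` is affine in `t`), so
`f θ₀ u ≤ f θ₀ v`, absurd; likewise `θ₀ < sl e₃`.  Let `F` be the set of `θ` for which there are `a ≠ b`
with `Cur r θ a`, `Cur r' θ b`, `f θ a ≤ f θ b` (a finite union of closed sets), and `F'` the set of `θ`
such that some vertex `b` of `r'` has `f θ b ≤ f θ a` for all vertices `a` of `r` (closed too).  Every `θ`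
is in `F ∪ F'` (take lowest vertices `a`, `b`; if `f θ a < f θ b` then `a ≠ b`).  `sl e₁ ∉ F'` (by `Sys.f_le`
the lowest value of `r'` at that time is `f (sl e₁) u`, and `Below r u`), `θ₀ ∈ F'` (an end of `e₂` is
`≤ v`).  `isPreconnected_Icc` (`isPreconnected_closed_iff`) gives `θ ∈ [sl e₁, θ₀] ∩ F ∩ F'`. -/
theorem Sys.exists_tangent (h : Sys P E id i) {r : ι} {e₁ e₂ e₃ : Ed} (h₁ : e₁ ∈ E) (h₂ : e₂ ∈ E)
    (h₃ : e₃ ∈ E) (hid₂ : id e₂ = id e₁) (hid₃ : id e₃ = id e₁) (h12 : sl e₁ < sl e₂)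
    (h23 : sl e₂ < sl e₃) (n₁ : NC E id r e₁) (n₂ : NC E id r e₂) (n₃ : NC E id r e₃) :
    ∃ θ a b, sl e₁ < θ ∧ θ < sl e₃ ∧ a ≠ b ∧ Cur E id r θ a ∧ Cur E id (id e₁) θ b ∧
      f θ a = f θ b := by
  obtain ⟨t₁, ⟨t₁0, t₁1⟩, -, -, hu, -⟩ := n₁
  obtain ⟨-, -, t₂, ⟨t₂0, t₂1⟩, -, hv⟩ := n₂
  obtain ⟨t₃, ⟨t₃0, t₃1⟩, -, -, hw, -⟩ := n₃
  have hx : ∀ e ∈ E, e.1.1 < e.2.1 := fun e he => (mem_pairs.1 (h.sub he)).2.2
  obtain ⟨θ₀, hθ₀⟩ : ∃ θ₀, ∀ e ∈ E, id e = r →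
      f θ₀ (seg e₂ t₂) ≤ f θ₀ e.1 ∧ f θ₀ (seg e₂ t₂) ≤ f θ₀ e.2 := by
    unfold Below at hv
    push Not at hv
    exact hv
  have hvu := cross0_lt_of_below hu hθ₀
  have hvw := cross0_lt_of_below hw hθ₀
  rw [cross0_f_seg, cross0_f_seg] at hvu hvw
  have hlo : sl e₁ < θ₀ := by
    by_contra hc
    have hc := not_lt.1 hc
    have a1 := (f_le_iff e₁ (hx _ h₁) θ₀).2 hc
    have a2 := (f_le_iff e₂ (hx _ h₂) θ₀).2 (by linarith)
    have a3 := h.mono_run (f θ₀) h₁ h₂ hid₂.symm h12 fun x hx' _ h1 _ =>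
      (f_le_iff x (hx _ hx') θ₀).2 (by linarith)
    nlinarith [mul_nonneg (sub_nonneg.2 t₁1) (sub_nonneg.2 a1), mul_nonneg t₂0 (sub_nonneg.2 a2)]
  have hhi : θ₀ < sl e₃ := by
    by_contra hc
    have hc := not_lt.1 hc
    have a1 := (f_ge_iff e₃ (hx _ h₃) θ₀).2 hc
    have a2 := (f_ge_iff e₂ (hx _ h₂) θ₀).2 (by linarith)
    have a3 := h.mono_run (fun p => -f θ₀ p) h₂ h₃ (hid₂.trans hid₃.symm) h23 fun x hx' _ _ h1 =>
      neg_le_neg ((f_ge_iff x (hx _ hx') θ₀).2 (by linarith))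
    simp only [neg_le_neg_iff] at a3
    nlinarith [mul_nonneg (sub_nonneg.2 t₂1) (sub_nonneg.2 a2), mul_nonneg t₃0 (sub_nonneg.2 a1)]
  obtain ⟨e₀, he₀, hr₀, -⟩ := hu 0
  set V : Set Pt := {a : Pt | ∃ e ∈ E, Inc a e} with hV
  have hVf : V.Finite := cross0_finite E
  set F : Set ℝ := ⋃ a ∈ V, ⋃ b ∈ V,
    {θ | a ≠ b ∧ Cur E id r θ a ∧ Cur E id (id e₁) θ b ∧ f θ a ≤ f θ b} with hF
  set F' : Set ℝ := ⋃ b ∈ V, {θ | (∃ e ∈ E, id e = id e₁ ∧ Inc b e) ∧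
    ∀ e ∈ E, id e = r → f θ b ≤ f θ e.1 ∧ f θ b ≤ f θ e.2} with hF'
  have hFc : IsClosed F := by
    refine hVf.isClosed_biUnion fun a _ => hVf.isClosed_biUnion fun b _ => ?_
    exact isClosed_const.inter ((cross0_closed_cur E id r a).inter
      ((cross0_closed_cur E id (id e₁) b).inter (isClosed_le (cross0_cont a) (cross0_cont b))))
  have hFc' : IsClosed F' :=
    hVf.isClosed_biUnion fun b _ => isClosed_const.inter (cross0_closed_low E id r b)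
  have hmemV : ∀ {s : ι} {a : Pt}, (∃ e ∈ E, id e = s ∧ Inc a e) → a ∈ V :=
    fun ⟨e, he, _, hi⟩ => ⟨e, he, hi⟩
  have hcov : ∀ θ, θ ∈ F ∪ F' := by
    intro θ
    obtain ⟨a, ha⟩ := cross0_exists_cur he₀ hr₀ θ
    obtain ⟨b, hb⟩ := cross0_exists_cur (id := id) h₁ rfl θ
    by_cases hab : f θ a < f θ b
    · left
      refine Set.mem_iUnion₂.2 ⟨a, hmemV ha.1, Set.mem_iUnion₂.2 ⟨b, hmemV hb.1, ?_, ha, hb, hab.le⟩⟩
      rintro rfl
      exact lt_irrefl _ hab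
    · right
      have hba := not_lt.1 hab
      exact Set.mem_iUnion₂.2 ⟨b, hmemV hb.1, hb.1, fun e he hid =>
        ⟨hba.trans (ha.2 e he hid).1, hba.trans (ha.2 e he hid).2⟩⟩
  have hn1 : sl e₁ ∉ F' := by
    intro hm
    obtain ⟨b, -, ⟨e, he, hid, hb⟩, hlow⟩ := Set.mem_iUnion₂.1 hm
    have a1 := cross0_lt_of_below hu hlow
    have a2 := h.f_le h₁ he hid.symm hb
    rw [cross0_f_seg, f_sl e₁ (hx _ h₁)] at a1
    linarith
  have hθF' : θ₀ ∈ F' := by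
    have key : ∀ b, Inc b e₂ → f θ₀ b ≤ f θ₀ (seg e₂ t₂) → θ₀ ∈ F' := fun b hb hle =>
      Set.mem_iUnion₂.2 ⟨b, ⟨e₂, h₂, hb⟩, ⟨e₂, h₂, hid₂, hb⟩, fun e he hid =>
        ⟨hle.trans (hθ₀ e he hid).1, hle.trans (hθ₀ e he hid).2⟩⟩
    rcases le_total (f θ₀ e₂.1) (f θ₀ e₂.2) with hc | hc
    · refine key e₂.1 (Or.inl rfl) ?_
      rw [cross0_f_seg]
      nlinarith [mul_nonneg t₂0 (sub_nonneg.2 hc)]
    · refine key e₂.2 (Or.inr rfl) ?_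
      rw [cross0_f_seg]
      nlinarith [mul_nonneg (sub_nonneg.2 t₂1) (sub_nonneg.2 hc)]
  obtain ⟨θ, ⟨hθ1, hθ2⟩, hθF, hθF2⟩ := isPreconnected_closed_iff.1
    (isPreconnected_Icc (a := sl e₁) (b := θ₀)) F F' hFc hFc' (fun θ _ => hcov θ)
    ⟨sl e₁, ⟨le_rfl, hlo.le⟩, (hcov _).resolve_right hn1⟩ ⟨θ₀, ⟨hlo.le, le_rfl⟩, hθF'⟩
  obtain ⟨a, -, hθF⟩ := Set.mem_iUnion₂.1 hθF
  obtain ⟨b, -, hab, ha, hb, hle⟩ := Set.mem_iUnion₂.1 hθF
  have hne : sl e₁ ≠ θ := fun hh => hn1 (hh ▸ hθF2)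
  obtain ⟨b', -, hb', hlow⟩ := Set.mem_iUnion₂.1 hθF2
  exact ⟨θ, a, b, lt_of_le_of_ne hθ1 hne, lt_of_le_of_lt hθ2 hhi, hab, ha, hb,
    le_antisymm hle ((cross0_cur_le hb.2 hb').trans (cross0_cur_le hlow ha.1))⟩

end Crest.Agent.R51
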