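import Crest.Agent.R51.Sys
import Crest.Agent.R51.Cross0

/-! The number of crossings between runs. -/

namespace Crest.Agent.R51

open Finset
open scoped Classical

variable {ι : Type} {P : Finset Pt} {E : Finset Ed} {id : Ed → ι} {i : ℕ}

theorem cross_sum_le {α β : Type} (Ω : Finset α) (R : Finset β) (p : α → β → Prop)
    [∀ a, DecidablePred (p a)] (hp : ∀ a a' r, p a r → p a' r → a = a') : ∑ a ∈ Ω, #(R.filter (p a)) ≤ #R := by
  rw [← card_biUnion]
  · exact card_le_card (biUnion_subset.2 fun a _ => filter_subset _ _)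
  · intro a _ a' _ hne
    rw [Function.onFun, disjoint_filter]
    exact fun r _ h1 h2 => hne (hp a a' r h1 h2)

theorem Sys.cross_prev (h : Sys P E id i) {e e' : Ed} (he : e ∈ E) (he' : e' ∈ E)
    (hid : id e = id e') (hsl : sl e < sl e') : ∃ x ∈ E, id x = id e ∧ x.2 = e'.1 := by
  obtain ⟨x, hx, hmax⟩ := exists_max_image (E.filter fun x => id x = id e ∧ sl x < sl e') sl
    ⟨e, mem_filter.2 ⟨he, rfl, hsl⟩⟩
  rw [mem_filter] at hx
  obtain ⟨y, hy, h1, h2, h3, h4⟩ := h.link x hx.1 e' he' (hx.2.1.trans hid) hx.2.2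
  rcases h4.eq_or_lt with h5 | h5
  · exact ⟨x, hx.1, hx.2.1, by rw [← h2, h.sys_eq hy he' h5]⟩
  · exact absurd (hmax y (mem_filter.2 ⟨hy, h1.trans hx.2.1, h5⟩)) (not_le.2 h3)

/-- The runs of which `a` is the current vertex at the time `θ`: at most `i` have `a` as an inner
vertex (`Cur` gives `sl e ≤ θ ≤ sl e'` for the edge `e` ending and the edge `e'` starting at `a`;
`h.mult`); the others start or end at `a`.  Here `st a` and `en a` count the runs with a vertex `a` that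
is not a right end (not a left end) of an edge of the run; each run has at most one such vertex
(if `a = e.1`, `a' = e'.1`, `sl e < sl e'`, the edge of the run of largest slope below `sl e'` ends at
`a'` by `link`), so the sums are at most `nr`. -/
theorem Sys.exists_cur_bound (h : Sys P E id i) (Ω : Finset Pt) :
    ∃ ex : Pt → ℕ, ∑ a ∈ Ω, ex a ≤ 2 * nr E id ∧
      ∀ a θ, #((E.image id).filter fun r => Cur E id r θ a) ≤ i + ex a := by
  set St : Pt → ι → Prop := fun a r =>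
    (∃ e ∈ E, id e = r ∧ e.1 = a) ∧ ∀ e ∈ E, id e = r → e.2 ≠ a with hSt
  set En : Pt → ι → Prop := fun a r =>
    (∃ e ∈ E, id e = r ∧ e.2 = a) ∧ ∀ e ∈ E, id e = r → e.1 ≠ a with hEn
  refine ⟨fun a => #((E.image id).filter (St a)) + #((E.image id).filter (En a)), ?_,
    fun a θ => ?_⟩
  · rw [sum_add_distrib, two_mul]
    refine add_le_add (cross_sum_le Ω _ St ?_) (cross_sum_le Ω _ En ?_)
    · rintro _ _ _ ⟨⟨e, he, rfl, rfl⟩, h1⟩ ⟨⟨e', he', hid, rfl⟩, h2⟩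
      rcases lt_trichotomy (sl e) (sl e') with h3 | h3 | h3
      · obtain ⟨x, hx, k1, k2⟩ := h.cross_prev he he' hid.symm h3
        exact absurd k2 (h2 x hx k1)
      · rw [h.sys_eq he he' h3]
      · obtain ⟨x, hx, k1, k2⟩ := h.cross_prev he' he hid h3
        exact absurd k2 (h1 x hx (k1.trans hid))
    · rintro _ _ _ ⟨⟨e, he, rfl, rfl⟩, h1⟩ ⟨⟨e', he', hid, rfl⟩, h2⟩
      rcases lt_trichotomy (sl e) (sl e') with h3 | h3 | h3
      · obtain ⟨x, hx, k1, k2, -⟩ := h.link e he e' he' hid.symm h3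
        exact absurd k2 (h1 x hx k1)
      · rw [h.sys_eq he he' h3]
      · obtain ⟨x, hx, k1, k2, -⟩ := h.link e' he' e he hid h3
        exact absurd k2 (h2 x hx (k1.trans hid))
  · have hm := h.mult a θ
    unfold nr at hm
    refine le_trans (card_le_card (t := ((E.filter fun e => e.2 = a ∧ sl e ≤ θ ∧
      ∃ e' ∈ E, id e' = id e ∧ e'.1 = a ∧ θ ≤ sl e').image id) ∪
      ((E.image id).filter (St a) ∪ (E.image id).filter (En a))) fun r hr => ?_)
      ((card_union_le _ _).trans (add_le_add hm (card_union_le _ _)))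
    obtain ⟨hr, ⟨e₀, he₀, hid₀, hinc⟩, hmin⟩ := mem_filter.1 hr
    rw [mem_union, mem_union, mem_filter, mem_filter]
    by_cases h1 : ∃ e ∈ E, id e = r ∧ e.2 = a
    · by_cases h2 : ∃ e ∈ E, id e = r ∧ e.1 = a
      · obtain ⟨e, he, k1, k2⟩ := h1
        obtain ⟨e', he', k3, k4⟩ := h2
        refine Or.inl (mem_image.2 ⟨e, mem_filter.2 ⟨he, k2, ?_, e', he', k3.trans k1.symm, k4, ?_⟩,
          k1⟩)
        · rw [← f_ge_iff e (h.sys_lt he), k2]
          exact (hmin e he k1).1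
        · rw [← f_le_iff e' (h.sys_lt he'), k4]
          exact (hmin e' he' k3).2
      · exact Or.inr (Or.inr ⟨hr, h1, fun e he k1 k2 => h2 ⟨e, he, k1, k2⟩⟩)
    · refine Or.inr (Or.inl ⟨hr, ⟨e₀, he₀, hid₀, ?_⟩, fun e he k1 k2 => h1 ⟨e, he, k1, k2⟩⟩)
      exact hinc.resolve_right fun k => h1 ⟨e₀, he₀, hid₀, k⟩

theorem cross_sl_eq {θ : ℝ} {a b : Pt} (hab : a.1 ≠ b.1) (h : f θ a = f θ b) : sl (a, b) = θ := by
  have h1 : b.1 - a.1 ≠ 0 := sub_ne_zero.2 hab.symm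
  unfold f at h
  unfold sl
  rw [div_eq_iff h1]
  linarith

theorem Sys.cross_pair (h : Sys P E id i) (Ω : Finset Pt) (hΩ : ∀ e ∈ E, e.1 ∈ Ω ∧ e.2 ∈ Ω)
    (r r' : ι) : #((E.filter (NC E id r)).filter fun e => id e = r') ≤
      2 * (#((Ω ×ˢ Ω).filter fun p => Cur E id r (sl p) p.1 ∧ Cur E id r' (sl p) p.2) + 1) := by
  set Φ := (Ω ×ˢ Ω).filter fun p => Cur E id r (sl p) p.1 ∧ Cur E id r' (sl p) p.2 with hΦ
  have hmem : ∀ {s : ι} {θ : ℝ} {a : Pt}, Cur E id s θ a → a ∈ Ω ∧ a ∈ P := by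
    rintro s θ a ⟨⟨e, he, -, hinc⟩, -⟩
    refine ⟨?_, h.sys_mem he hinc⟩
    rcases hinc with rfl | rfl
    · exact (hΩ e he).1
    · exact (hΩ e he).2
  rw [← card_range (#Φ + 1)]
  refine card_le_mul_card_image_of_maps_to (f := fun e => #(Φ.filter fun p => sl p ≤ sl e))
    (fun e _ => mem_range.2 (Nat.lt_succ_of_le (card_filter_le _ _))) 2 fun n _ => ?_
  set S := ((E.filter (NC E id r)).filter fun e => id e = r').filter
    fun e => #(Φ.filter fun p => sl p ≤ sl e) = n with hS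
  by_contra hc
  have hne : S.Nonempty := card_pos.1 (by omega)
  obtain ⟨e₁, h₁, hmin⟩ := exists_min_image S sl hne
  obtain ⟨e₃, h₃, hmax⟩ := exists_max_image S sl hne
  obtain ⟨e₂, h₂, h₂'⟩ := exists_mem_notMem_of_card_lt_card (s := {e₁, e₃}) (t := S)
    (card_le_two.trans_lt (by omega))
  rw [mem_insert, mem_singleton, not_or] at h₂'
  have a₁ := hmin e₂ h₂
  have a₃ := hmax e₂ h₂
  simp only [hS, mem_filter] at h₁ h₂ h₃
  have b₁ : sl e₁ < sl e₂ := a₁.lt_of_ne fun k => h₂'.1 (h.sys_eq h₁.1.1.1 h₂.1.1.1 k).symm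
  have b₃ : sl e₂ < sl e₃ := a₃.lt_of_ne fun k => h₂'.2 (h.sys_eq h₂.1.1.1 h₃.1.1.1 k)
  obtain ⟨θ, a, b, k1, k2, k3, k4, k5, k6⟩ := h.exists_tangent h₁.1.1.1 h₂.1.1.1 h₃.1.1.1
    (h₂.1.2.trans h₁.1.2.symm) (h₃.1.2.trans h₁.1.2.symm) b₁ b₃ h₁.1.1.2 h₂.1.1.2 h₃.1.1.2
  rw [h₁.1.2] at k5
  obtain rfl := cross_sl_eq (fun k => k3 (h.gp.xinj a (hmem k4).2 b (hmem k5).2 k)) k6
  have hab : (a, b) ∈ Φ := mem_filter.2 ⟨mem_product.2 ⟨(hmem k4).1, (hmem k5).1⟩, k4, k5⟩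
  have hlt : #(Φ.filter fun p => sl p ≤ sl e₁) < #(Φ.filter fun p => sl p ≤ sl e₃) := by
    refine card_lt_card ⟨fun p hp => ?_, fun hs => ?_⟩
    · rw [mem_filter] at hp ⊢
      exact ⟨hp.1, by linarith [hp.2]⟩
    · exact absurd (mem_filter.1 (hs (mem_filter.2 ⟨hab, k2.le⟩))).2 (not_le.2 k1)
  rw [h₁.2, h₃.2] at hlt
  exact lt_irrefl _ hlt

/-- The total number of crossings.
Proof: `∑ e, cr e = ∑ r, ∑ r', c r r'` where `c r r'` is the number of edges `e` of `r'` with `NC r e`.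
Let `Φ r r'` be the set of pairs `(a, b) ∈ Ω ×ˢ Ω`, `a ≠ b`, such that for some `θ` (it is determined by
`(a, b)`, because `a.1 ≠ b.1` by `gp.xinj`) `Cur r θ a`, `Cur r' θ b`, `f θ a = f θ b`.  Then
`c r r' ≤ 2 #Φ + 2`: sort the `NC` edges by slope, `e 0, e 1, …`; `exists_tangent` for
`(e (2 s), e (2 s + 1), e (2 s + 2))` gives times in disjoint intervals, so different elements of `Φ`
(or: map an `NC` edge `e` to the number of elements of `Φ` with time `≤ sl e`; fibres have at most two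
elements).  `∑ r r', #Φ r r' ≤ ∑ (a, b), (i + ex a) (i + ex b) ≤ (i #Ω + 2 nr) ^ 2 ≤ 4 W ^ 2`. -/
theorem Sys.sum_cr_le (h : Sys P E id i) (Ω : Finset Pt) (hΩ : ∀ e ∈ E, e.1 ∈ Ω ∧ e.2 ∈ Ω) :
    ∑ e ∈ E, cr E id e ≤ 10 * (i * #Ω + nr E id) ^ 2 := by
  obtain ⟨ex, hex, hcur⟩ := h.exists_cur_bound Ω
  set R := E.image id with hR
  have hnr : nr E id = #R := rfl
  have e1 : ∑ e ∈ E, cr E id e = ∑ r ∈ R, #(E.filter (NC E id r)) := by
    unfold cr
    simp only [card_filter]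
    rw [sum_comm]
  have e2 : ∀ r, #(E.filter (NC E id r)) =
      ∑ r' ∈ R, #((E.filter (NC E id r)).filter fun e => id e = r') := fun r =>
    card_eq_sum_card_fiberwise fun e he => mem_image_of_mem id (mem_filter.1 (mem_coe.1 he)).1
  have h1 : ∑ r ∈ R, ∑ r' ∈ R,
      #((Ω ×ˢ Ω).filter fun p => Cur E id r (sl p) p.1 ∧ Cur E id r' (sl p) p.2) ≤
      (i * #Ω + 2 * #R) ^ 2 := by
    have e3 : ∑ r ∈ R, ∑ r' ∈ R,
        #((Ω ×ˢ Ω).filter fun p => Cur E id r (sl p) p.1 ∧ Cur E id r' (sl p) p.2) =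
        ∑ p ∈ Ω ×ˢ Ω, #(R.filter fun r => Cur E id r (sl p) p.1) *
          #(R.filter fun r => Cur E id r (sl p) p.2) := by
      simp only [card_filter, sum_mul_sum]
      rw [sum_comm (s := Ω ×ˢ Ω)]
      refine sum_congr rfl fun r _ => ?_
      rw [sum_comm (s := Ω ×ˢ Ω)]
      refine sum_congr rfl fun r' _ => sum_congr rfl fun p _ => ?_
      by_cases k1 : Cur E id r (sl p) p.1 <;> by_cases k2 : Cur E id r' (sl p) p.2 <;>
        simp [k1, k2]
    rw [e3]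
    refine (sum_le_sum fun p _ => Nat.mul_le_mul (hcur p.1 (sl p)) (hcur p.2 (sl p))).trans ?_
    rw [sum_product' (f := fun a b => (i + ex a) * (i + ex b)), ← sum_mul_sum, ← sq,
      sum_add_distrib, sum_const, smul_eq_mul, mul_comm _ i]
    exact Nat.pow_le_pow_left (by omega) 2
  rw [e1, hnr]
  simp only [e2]
  refine (sum_le_sum fun r _ => sum_le_sum fun r' _ => h.cross_pair Ω hΩ r r').trans ?_
  simp only [← mul_sum, sum_add_distrib, sum_const, smul_eq_mul, mul_one]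
  generalize i * #Ω = A at h1 ⊢
  nlinarith [Nat.zero_le (A * A), Nat.zero_le (A * #R)]

end Crest.Agent.R51
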