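import Mathlib

/-!
Definitions for result 51 (planar `k`-sets).

A real number `θ` is a *time*; at time `θ` the points are ordered by `f θ`.  A pair `e = (p, q)` with
`p` to the left of `q` is swapped at time `sl e` (before, `p` is below `q`; afterwards `q` is below `p`).
-/

namespace Crest.Agent.R51

open Finset
open scoped Classical Pointwise

noncomputable section

abbrev Pt : Type := ℝ × ℝ
abbrev Ed : Type := Pt × Pt

/-- The height of `p` at time `θ`. -/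
def f (θ : ℝ) (p : Pt) : ℝ := p.2 - θ * p.1

/-- The slope of a pair. -/
def sl (e : Ed) : ℝ := (e.2.2 - e.1.2) / (e.2.1 - e.1.1)

/-- Pairs `(left point, right point)`. -/
def pairs (P : Finset Pt) : Finset Ed := (P ×ˢ P).filter fun e => e.1.1 < e.2.1

/-- General position: distinct abscissae and distinct slopes. -/
structure GP (P : Finset Pt) : Prop where
  xinj : ∀ p ∈ P, ∀ q ∈ P, p.1 = q.1 → p = q
  slinj : ∀ e ∈ pairs P, ∀ e' ∈ pairs P, sl e = sl e' → e = e'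

/-- The number of points strictly below `p` at time `θ`. -/
def lev (P : Finset Pt) (θ : ℝ) (p : Pt) : ℕ := #(P.filter fun z => f θ z < f θ p)

/-- The number of points strictly below the line through a pair. -/
def elev (P : Finset Pt) (e : Ed) : ℕ := lev P (sl e) e.1

/-- The pairs whose level lies in `[j, j + i)`. -/
def band (P : Finset Pt) (j : ℤ) (i : ℕ) : Finset Ed :=
  (pairs P).filter fun e => j ≤ (elev P e : ℤ) ∧ (elev P e : ℤ) < j + i

/-- The edges with slope in `(a, b]`. -/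
def tm (E : Finset Ed) (a b : ℝ) : Finset Ed := E.filter fun e => a < sl e ∧ sl e ≤ b

/-- `p` is an end of `e`. -/
def Inc (p : Pt) (e : Ed) : Prop := e.1 = p ∨ e.2 = p

/-- The degree of `p`. -/
def deg (E : Finset Ed) (p : Pt) : ℕ := #(E.filter (Inc p))

/-- The edges with an end in `Y`. -/
def inc (E : Finset Ed) (Y : Finset Pt) : Finset Ed := E.filter fun e => e.1 ∈ Y ∨ e.2 ∈ Y

/-- The edges with both ends in `Y`. -/
def ins (E : Finset Ed) (Y : Finset Pt) : Finset Ed := E.filter fun e => e.1 ∈ Y ∧ e.2 ∈ Y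

/-- The edges between `Y₁` and `Y₂`. -/
def btw (E : Finset Ed) (Y₁ Y₂ : Finset Pt) : Finset Ed :=
  E.filter fun e => (e.1 ∈ Y₁ ∧ e.2 ∈ Y₂) ∨ (e.1 ∈ Y₂ ∧ e.2 ∈ Y₁)

/-- The number of runs (chains). -/
def nr {ι : Type} (E : Finset Ed) (id : Ed → ι) : ℕ := #(E.image id)

/-- A system of convex chains ("runs"): the edges with the same `id` form a path with increasing
slopes, and a point is an inner vertex of at most `i` runs at any time. -/
structure Sys {ι : Type} (P : Finset Pt) (E : Finset Ed) (id : Ed → ι) (i : ℕ) : Prop where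
  gp : GP P
  sub : E ⊆ pairs P
  link : ∀ e ∈ E, ∀ e' ∈ E, id e = id e' → sl e < sl e' →
    ∃ e'' ∈ E, id e'' = id e ∧ e''.1 = e.2 ∧ sl e < sl e'' ∧ sl e'' ≤ sl e'
  mult : ∀ (a : Pt) (θ : ℝ),
    nr (E.filter fun e => e.2 = a ∧ sl e ≤ θ ∧ ∃ e' ∈ E, id e' = id e ∧ e'.1 = a ∧ θ ≤ sl e') id ≤ i

/-- The set that contains everything happening in the band during the time `[a, b]`. -/
def Rset (P : Finset Pt) (j : ℤ) (i s : ℕ) (a b : ℝ) : Finset Pt :=
  P.filter fun p => ¬ (j + i + s < (lev P a p : ℤ) ∧ j + i + s < (lev P b p : ℤ)) ∧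
    ¬ ((lev P a p : ℤ) < j - s ∧ (lev P b p : ℤ) < j - s)

/-- Few swaps in the wide band during the time `(a, b]`. -/
def Calm (P : Finset Pt) (j : ℤ) (i s : ℕ) (a b : ℝ) : Prop :=
  100 * #(tm (band P (j - 2 * s) (i + 4 * s)) a b) ≤ s ^ 2

/-- The window `(lo, hi]` is long on the logarithmic scale seen from `θ`. -/
def LL (θ lo hi : ℝ) : Prop :=
  (θ ≤ lo ∧ 100 * (lo - θ) ≤ hi - θ) ∨ (hi ≤ θ ∧ 100 * (θ - hi) ≤ θ - lo)

/-- Three well separated windows. -/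
def SepT (lo hi : ℕ → ℝ) (a b c : ℕ) : Prop :=
  (hi b - lo a ≤ 201 * (lo b - hi a) ∧ hi b - lo a ≤ 201 * (lo c - hi b)) ∨
    (hi c - lo b ≤ 201 * (lo c - hi b) ∧ hi c - lo b ≤ 201 * (lo b - hi a))

/-- Three separated time intervals `(α t, β t]` inside `[0, 1]`. -/
structure Clus (α β : Fin 3 → ℝ) : Prop where
  le : ∀ t, α t ≤ β t
  zero : 0 ≤ α 0
  g01 : β 0 + 1 / 2000 ≤ α 1
  g12 : β 1 + 1 / 2000 ≤ α 2
  one : β 2 ≤ 1

/-- The number of points of `Z` in the grid square of side `δ` that contains `p`. -/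
def amass (Z : Finset Pt) (δ : ℝ) (p : Pt) : ℕ :=
  #(Z.filter fun z => ⌊z.1 / δ⌋ = ⌊p.1 / δ⌋ ∧ ⌊z.2 / δ⌋ = ⌊p.2 / δ⌋)

/-- The number of points of `Z` in the seven grid strips of direction `θ` and width `δ` around `p`. -/
def smass (Z : Finset Pt) (θ δ : ℝ) (p : Pt) : ℕ :=
  #(Z.filter fun z => |⌊f θ z / δ⌋ - ⌊f θ p / δ⌋| ≤ 3)

/-- The point `z` of the plane lies strictly above the run `r` (at every time some vertex of the run
is strictly below `z`). -/
def Below {ι : Type} (E : Finset Ed) (id : Ed → ι) (r : ι) (z : Pt) : Prop :=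
  ∀ θ : ℝ, ∃ e ∈ E, id e = r ∧ (f θ e.1 < f θ z ∨ f θ e.2 < f θ z)

/-- The number of runs below `z`. -/
def ht {ι : Type} (E : Finset Ed) (id : Ed → ι) (z : Pt) : ℕ :=
  #((E.image id).filter fun r => Below E id r z)

/-- The point with parameter `t` of the segment `e`. -/
def seg (e : Ed) (t : ℝ) : Pt := ((1 - t) * e.1.1 + t * e.2.1, (1 - t) * e.1.2 + t * e.2.2)

/-- The segment `e` has points above and points not above the run `r`. -/
def NC {ι : Type} (E : Finset Ed) (id : Ed → ι) (r : ι) (e : Ed) : Prop :=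
  ∃ t ∈ Set.Icc (0 : ℝ) 1, ∃ t' ∈ Set.Icc (0 : ℝ) 1, Below E id r (seg e t) ∧ ¬ Below E id r (seg e t')

/-- The number of runs crossed by the segment `e`. -/
def cr {ι : Type} (E : Finset Ed) (id : Ed → ι) (e : Ed) : ℕ :=
  #((E.image id).filter fun r => NC E id r e)

/-- The number of elements of `S + S` of absolute value at most `r`. -/
def bb (S : Finset ℤ) (r : ℕ) : ℕ := #((S + S).filter fun x : ℤ => |x| ≤ (r : ℤ))

/-- At the angular scale `ϑ` around the time `θ` the set `Y` has few swaps (`σ / c` per point), at the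
scale `J ϑ / c` there are many swaps (or this scale reaches the boundary of `(u, v]`). -/
def Str (Z Y : Finset Pt) (θ u v σ N J c : ℝ) : Prop :=
  ∃ ϑ : ℝ, 0 < ϑ ∧
    (∀ p, (deg ((tm (pairs Y) u v).filter fun e => |sl e - θ| ≤ ϑ) p : ℝ) ≤ σ / c) ∧
    (θ - J * ϑ / c ≤ u ∨ v ≤ θ + J * ϑ / c ∨
      c * J * σ * N ≤ #((pairs Z).filter fun e => |sl e - θ| ≤ J * ϑ / c))

/-- The window `(B k, B (k + 1)]` is long compared with the time between its parent (parents consist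
of `u` windows) and the start or the end of its block (blocks consist of `v` parents). -/
def Long (B : ℕ → ℝ) (u v : ℕ) (Λ : ℝ) (k : ℕ) : Prop :=
  B (k / u * u) - B (k / (u * v) * (u * v)) ≤ Λ * (B (k + 1) - B k) ∨
    B ((k / (u * v) + 1) * (u * v)) - B ((k / u + 1) * u) ≤ Λ * (B (k + 1) - B k)

/-- One piece `Z` of the point set together with the runs inside it and the time grid `b`
(`q ^ 4` finest windows `(b w, b (w + 1)]`). -/
structure Loc where
  P : Finset Pt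
  Z : Finset Pt
  E : Finset Ed
  id : Ed → ℕ
  i : ℕ
  q : ℕ
  κ : ℝ
  b : ℕ → ℝ
  sys : Sys P E id i
  ZP : Z ⊆ P
  inZ : ∀ e ∈ E, e.1 ∈ Z ∧ e.2 ∈ Z
  i_pos : 1 ≤ i
  q_pos : 1 ≤ q
  mono : Monotone b
  range : ∀ e ∈ E, b 0 < sl e ∧ sl e ≤ b (q ^ 4)
  cardZ : (#Z : ℝ) ≤ i * κ ^ 3 / q ^ 2

namespace Loc

variable (L : Loc)

/-- Typical number of points of a piece. -/
def N : ℝ := L.i * L.κ ^ 3 / L.q ^ 2
/-- Typical number of runs in a piece. -/
def U : ℝ := L.i ^ 2 * L.κ ^ 3 / L.q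
/-- Typical degree. -/
def d : ℝ := L.i * L.κ
/-- Typical number of edges of a piece. -/
def M : ℝ := L.i ^ 2 * L.κ ^ 4 / L.q ^ 2

/-- Left end of the window number `k` of scale `m` (`m ∣ q`; there are `m ^ 4` such windows). -/
def lo (m k : ℕ) : ℝ := L.b (k * (L.q / m) ^ 4)
/-- Right end of the window number `k` of scale `m`. -/
def hi (m k : ℕ) : ℝ := L.b ((k + 1) * (L.q / m) ^ 4)
/-- The edges of `E` in the window number `k` of scale `m`. -/
def W (E : Finset Ed) (m k : ℕ) : Finset Ed := tm E (L.lo m k) (L.hi m k)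

/-- The parameters are large. -/
def Big (Q : ℕ) : Prop := Q ≤ L.q ∧ (Q : ℝ) * L.q ≤ L.κ

/-- The piece is typical; `Ω w` is the set of points that may be active in the finest window `w`. -/
structure Base (Ω : ℕ → Finset Pt) (C : ℝ) : Prop where
  sub : ∀ w, Ω w ⊆ L.Z
  nr_le : (nr L.E L.id : ℝ) ≤ C * L.U
  card_le : ∀ w, (#(Ω w) : ℝ) ≤ C * L.N / L.q
  sum_le : ∑ w ∈ Finset.range (L.q ^ 4), (#(Ω w) : ℝ) ≤ C * L.N * L.q

/-- The edges of `E₀` are typical at the scale `m`. -/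
structure Reg (Ω : ℕ → Finset Pt) (C : ℝ) (m : ℕ) (E₀ : Finset Ed) : Prop where
  sub : E₀ ⊆ L.E
  cov : ∀ w, (L.W E₀ L.q w).Nonempty → ∀ e ∈ L.W L.E L.q w, e.1 ∈ Ω w ∧ e.2 ∈ Ω w
  rel : (#((Finset.range (m ^ 4)).filter fun k => (L.W E₀ m k).Nonempty) : ℝ) ≤ C * m
  deg_le : ∀ k, ∀ e ∈ L.W E₀ m k, ∀ p, Inc p e → (deg (L.W L.E m k) p : ℝ) ≤ C * L.d / m
  nr_le : ∀ k, (L.W E₀ m k).Nonempty → (nr (L.W L.E m k) L.id : ℝ) ≤ C * L.U / m
  act_le : ∀ k, ∀ e ∈ L.W E₀ m k, ∀ p, Inc p e →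
    (#((Finset.range ((L.q / m) ^ 4)).filter fun r => p ∈ Ω (k * (L.q / m) ^ 4 + r)) : ℝ) ≤
      C * L.q / m

/-- The ends of the edges of `E₀` have a large `E₁`-degree in their window of scale `m`. -/
def Rich (c : ℝ) (m : ℕ) (E₁ E₀ : Finset Ed) : Prop :=
  ∀ k, ∀ e ∈ L.W E₀ m k, ∀ p, Inc p e → c * L.d / m ≤ (deg (L.W E₁ m k) p : ℝ)

/-- The windows near a window that meets `E₀` contain few slopes of pairs of `Z`. -/
def XReg (X : ℝ) (R m : ℕ) (E₀ : Finset Ed) : Prop :=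
  ∀ k, (L.W E₀ m k).Nonempty →
    ∀ k', k ≤ k' + R → k' ≤ k + R → (#(L.W (pairs L.Z) m k') : ℝ) ≤ X * L.N ^ 2 / m

/-- The edges of `E` in those windows of scale `m` that satisfy `S`. -/
def sel (E : Finset Ed) (m : ℕ) (S : ℕ → Prop) : Finset Ed :=
  E.filter fun e => ∃ k, S k ∧ L.lo m k < sl e ∧ sl e ≤ L.hi m k

/-- The window `k` of scale `m` lies in `[u, v]` and has a large set of rich points with the structure
`Str` around the start of the window. -/
def AW (E₀ : Finset Ed) (m : ℕ) (u v c J σ : ℝ) (k : ℕ) : Prop :=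
  u ≤ L.lo m k ∧ L.hi m k ≤ v ∧ ∃ Y ⊆ L.Z, c * L.N ≤ (#Y : ℝ) ∧
    (∀ p ∈ Y, c * L.d / m ≤ (deg (L.W E₀ m k) p : ℝ)) ∧ Str L.Z Y (L.lo m k) u v σ L.N J c

/-- The pairs of points of `Y k` that are swapped in the window `k` of scale `m`, inside a finest
window in which both are active. -/
def H (Ω : ℕ → Finset Pt) (m : ℕ) (Y : ℕ → Finset Pt) : Finset Ed :=
  (pairs L.Z).filter fun e => ∃ k < m ^ 4, ∃ r < (L.q / m) ^ 4,
    e ∈ L.W (pairs L.Z) L.q (k * (L.q / m) ^ 4 + r) ∧ e.1 ∈ Y k ∧ e.2 ∈ Y k ∧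
      e.1 ∈ Ω (k * (L.q / m) ^ 4 + r) ∧ e.2 ∈ Ω (k * (L.q / m) ^ 4 + r)

end Loc

/-- `L'` is the image of the part of `L` in the time `(u, v]` under the map `T` of the plane, which
changes the time by `τ`. -/
structure Chart (L L' : Loc) (u v : ℝ) (T : Pt → Pt) (τ : ℝ → ℝ) : Prop where
  inj : Function.Injective T
  i_eq : L'.i = L.i
  q_eq : L'.q = L.q
  κ_eq : L'.κ = L.κ
  Z_eq : L'.Z = L.Z.image T
  E_eq : L'.E = (tm L.E u v).image (Prod.map T T)
  id_eq : ∀ e, L'.id (Prod.map T T e) = L.id e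
  b_eq : ∀ w, L'.b w = τ (max u (min (L.b w) v))
  le : u ≤ v
  mono : StrictMonoOn τ (Set.Icc u v)
  pairs_eq : tm (pairs L'.Z) (τ u) (τ v) = (tm (pairs L.Z) u v).image (Prod.map T T)
  sl_eq : ∀ e ∈ tm (pairs L.Z) u v, sl (Prod.map T T e) = τ (sl e)

/-- The width parameter of the wide band at scale `m`. -/
def sw (g i m : ℕ) (κ : ℝ) : ℕ := ⌈(g : ℝ) ^ 3 * (i * κ ^ 3) / m ^ 3⌉₊

/-- The global data: a band, a time grid, a partition of the points into pieces and the runs inside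
the pieces. -/
structure Glob where
  P : Finset Pt
  j : ℤ
  i : ℕ
  q : ℕ
  κ : ℝ
  b : ℕ → ℝ
  C₀ : ℝ
  gm : ℕ
  mm : ℕ
  pc : Pt → ℕ
  cid : Ed → ℕ
  rid : Ed → ℕ
  i_pos : 1 ≤ i
  q_pos : 1 ≤ q
  mono : Monotone b
  cardP : (#P : ℝ) ≤ i * κ ^ 3
  fine : ∀ w < q ^ 4, (#(tm (band P j i) (b w) (b (w + 1))) : ℝ) ≤ C₀ * (i ^ 2 * κ ^ 4) / q ^ 4
  csys : Sys P (band P j i) cid i
  cnr : ∀ (a a' : ℝ) (Ω : Finset Pt), (∀ e ∈ tm (band P j i) a a', e.1 ∈ Ω) →
    nr (tm (band P j i) a a') cid ≤ i * #Ω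
  rsys : Sys P ((tm (band P j i) (b 0) (b (q ^ 4))).filter fun e => pc e.1 = pc e.2) rid i
  rnr : (nr ((tm (band P j i) (b 0) (b (q ^ 4))).filter fun e => pc e.1 = pc e.2) rid : ℝ) ≤
    300 * (i ^ 2 * κ ^ 3) * q
  cut : (#((tm (band P j i) (b 0) (b (q ^ 4))).filter fun e => pc e.1 ≠ pc e.2) : ℝ) ≤
    300 * (i ^ 2 * κ ^ 3) * q
  piece : ∀ z, (#(P.filter fun p => pc p = z) : ℝ) ≤ i * κ ^ 3 / q ^ 2
  compat : ∀ g ≤ gm, ∀ m ≤ mm, ∀ k < m ^ 4, ∀ p ∈ P, ∀ p' ∈ P, pc p = pc p' →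
    p ∈ Rset P j i (sw g i m κ) (b (k * (q / m) ^ 4)) (b ((k + 1) * (q / m) ^ 4)) →
    p' ∈ Rset P j i (sw g i m κ) (b (k * (q / m) ^ 4)) (b ((k + 1) * (q / m) ^ 4))

namespace Glob

variable (G : Glob)

/-- All edges. -/
def E : Finset Ed := tm (band G.P G.j G.i) (G.b 0) (G.b (G.q ^ 4))
/-- The edges inside pieces. -/
def Ein : Finset Ed := G.E.filter fun e => G.pc e.1 = G.pc e.2
/-- The part of a set of edges that starts in the piece `z`. -/
def at' (E : Finset Ed) (z : ℕ) : Finset Ed := E.filter fun e => G.pc e.1 = z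
/-- The trivial bound for the number of edges. -/
def M₀ : ℝ := G.i ^ 2 * G.κ ^ 4
/-- The parameters are large. -/
def Big (Q : ℕ) : Prop := Q ≤ G.q ∧ (Q : ℝ) * G.q ≤ G.κ

end Glob

end

end Crest.Agent.R51
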