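import Crest.Agent.R51.Sys

/-! The height function along an edge and along a vertical line. -/

namespace Crest.Agent.R51

open Finset
open scoped Classical

variable {ι : Type} {P : Finset Pt} {E : Finset Ed} {id : Ed → ι} {i : ℕ}

theorem vert_seg_zero (e : Ed) : seg e 0 = e.1 := by
  simp [seg]

theorem vert_seg_one (e : Ed) : seg e 1 = e.2 := by
  simp [seg]

theorem vert_f_seg (θ : ℝ) (e : Ed) (t : ℝ) :
    f θ (seg e t) = (1 - t) * f θ e.1 + t * f θ e.2 := by
  unfold f seg
  ring

/-- The point of an edge with a given abscissa. -/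
theorem vert_exists_seg {e : Ed} (hx : e.1.1 < e.2.1) {x : ℝ} (h1 : e.1.1 ≤ x) (h2 : x ≤ e.2.1) :
    ∃ τ ∈ Set.Icc (0 : ℝ) 1, seg e τ = (x, f (sl e) e.1 + sl e * x) := by
  have hd : 0 < e.2.1 - e.1.1 := by linarith
  refine ⟨(x - e.1.1) / (e.2.1 - e.1.1), ⟨div_nonneg (by linarith) hd.le,
    (div_le_one hd).2 (by linarith)⟩, ?_⟩
  unfold seg f sl
  refine Prod.ext ?_ ?_
  · simp only
    field_simp
    ring
  · simp only
    field_simp
    ring

theorem vert_below_mono {E : Finset Ed} {id : Ed → ι} {r : ι} {x y y' : ℝ}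
    (h : Below E id r (x, y)) (hy : y ≤ y') : Below E id r (x, y') := by
  intro θ
  obtain ⟨e, he, hid, hh⟩ := h θ
  have : f θ (x, y) ≤ f θ (x, y') := by
    unfold f
    simp only
    linarith
  exact ⟨e, he, hid, hh.imp (fun a => lt_of_lt_of_le a this) fun a => lt_of_lt_of_le a this⟩

/-- The height changes by at most `cr` along a segment: a run below `seg e t` and not below
`seg e t'` is counted by `cr`. -/
theorem ht_seg_le (E : Finset Ed) (id : Ed → ι) (e : Ed) {t t' : ℝ} (ht0 : t ∈ Set.Icc (0 : ℝ) 1)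
    (ht1 : t' ∈ Set.Icc (0 : ℝ) 1) : ht E id (seg e t) ≤ ht E id (seg e t') + cr E id e := by
  unfold ht cr
  refine le_trans (card_le_card ?_) (card_union_le _ _)
  intro r hr
  rw [mem_filter] at hr
  rw [mem_union, mem_filter, mem_filter]
  by_cases hb : Below E id r (seg e t')
  · exact Or.inl ⟨hr.1, hb⟩
  · exact Or.inr ⟨hr.1, t, ht0, t', ht1, hr.2, hb⟩

theorem ht_ends (E : Finset Ed) (id : Ed → ι) (e : Ed) :
    ht E id e.1 ≤ ht E id e.2 + cr E id e ∧ ht E id e.2 ≤ ht E id e.1 + cr E id e := by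
  have h0 : (0 : ℝ) ∈ Set.Icc (0 : ℝ) 1 := ⟨le_rfl, zero_le_one⟩
  have h1 : (1 : ℝ) ∈ Set.Icc (0 : ℝ) 1 := ⟨zero_le_one, le_rfl⟩
  have a := ht_seg_le E id e h0 h1
  have b := ht_seg_le E id e h1 h0
  rw [vert_seg_zero, vert_seg_one] at a b
  exact ⟨a, b⟩

/-- A point `z` whose abscissa is in the range of an edge `e` is above the run of `e` iff it is above
the line of `e`.  Proof: (⇐) the point `seg e t` with abscissa `z.1` has `f θ` between the values at the
ends of `e`, and is below `z`; (⇒) use the time `sl e` and `Sys.f_le`. -/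
theorem Sys.below_iff (h : Sys P E id i) {e : Ed} (he : e ∈ E) {z : Pt} (h1 : e.1.1 ≤ z.1)
    (h2 : z.1 ≤ e.2.1) : Below E id (id e) z ↔ f (sl e) e.1 < f (sl e) z := by
  have hx : e.1.1 < e.2.1 := (mem_pairs.1 (h.sub he)).2.2
  constructor
  · intro hb
    obtain ⟨e', he', hid, hh | hh⟩ := hb (sl e)
    · exact lt_of_le_of_lt (h.f_le he he' hid.symm (Or.inl rfl)) hh
    · exact lt_of_le_of_lt (h.f_le he he' hid.symm (Or.inr rfl)) hh
  · intro hlt θ
    obtain ⟨τ, ⟨τ0, τ1⟩, hτ⟩ := vert_exists_seg hx h1 h2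
    have a1 := vert_f_seg θ e τ
    have a2 : f θ (seg e τ) < f θ z := by
      rw [hτ]
      unfold f at hlt ⊢
      simp only
      linarith
    refine ⟨e, he, rfl, ?_⟩
    by_contra hc
    push Not at hc
    nlinarith [mul_nonneg (sub_nonneg.2 τ1) (sub_nonneg.2 hc.1), mul_nonneg τ0 (sub_nonneg.2 hc.2)]

/-- Few edges with few crossings that start in a layer of the height function cross a vertical line.
Proof: let `F` be the set, and `c' > c` smaller than `e.2.1` for all `e ∈ F`; `z e` is the point of `e` with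
abscissa `c'` (strictly inside).  Edges of `F` belong to different runs (`Sys.x_le`).  By `ht_seg_le`,
`t - 2 D ≤ ht (z e) ≤ t + D - 1`.  Let `top`, `bot` be edges of `F` with highest and lowest `z e`.  `Below` is
preserved when the point moves up, and by `below_iff` the run of `e ∈ F` with `(z e).2 < (z top).2` is below
`z top` and not below `z bot`; so there are at most `3 D - 1` of them.  If `z e = z top`, `e ≠ top`, then
the slopes differ and `NC (id e) top` (at `z top` not below; a little to one side, still in the range of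
both edges, below): at most `D` such edges. -/
theorem Sys.vertical (h : Sys P E id i) (c : ℝ) (t D : ℕ) (hD : 1 ≤ D) :
    #(E.filter fun e => e.1.1 ≤ c ∧ c < e.2.1 ∧ cr E id e ≤ D ∧ t ≤ ht E id e.1 + D ∧
      ht E id e.1 < t) ≤ 5 * D := by
  set F := E.filter fun e => e.1.1 ≤ c ∧ c < e.2.1 ∧ cr E id e ≤ D ∧ t ≤ ht E id e.1 + D ∧
      ht E id e.1 < t with hF
  rcases F.eq_empty_or_nonempty with hemp | hne
  · rw [hemp]; simp
  have hmem : ∀ e ∈ F, e ∈ E ∧ e.1.1 ≤ c ∧ c < e.2.1 ∧ cr E id e ≤ D ∧ t ≤ ht E id e.1 + D ∧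
      ht E id e.1 < t := fun e he => mem_filter.1 he
  have hsl : ∀ e ∈ F, ∀ e' ∈ F, sl e = sl e' → e = e' := fun e he e' he' hh =>
    h.gp.slinj e (h.sub (hmem e he).1) e' (h.sub (hmem e' he').1) hh
  obtain ⟨m, hm, hmin⟩ := F.exists_min_image (fun e => e.2.1) hne
  obtain ⟨c', ⟨hc1, hc2⟩, hc3⟩ := (Set.Ioo_infinite (hmem m hm).2.2.1).exists_notMem_finset
    ((F ×ˢ F).image fun p => (f (sl p.2) p.2.1 - f (sl p.1) p.1.1) / (sl p.1 - sl p.2))
  set y : Ed → ℝ := fun e => f (sl e) e.1 + sl e * c' with hy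
  have hyinj : ∀ e ∈ F, ∀ e' ∈ F, y e = y e' → e = e' := by
    intro e he e' he' hh
    by_contra hn
    have h1 : sl e - sl e' ≠ 0 := fun h0 => hn (hsl e he e' he' (by linarith))
    refine hc3 (mem_image.2 ⟨(e, e'), mem_product.2 ⟨he, he'⟩, ?_⟩)
    simp only [hy] at hh
    simp only
    rw [div_eq_iff h1]
    linarith
  have hrange : ∀ e ∈ F, e.1.1 ≤ c' ∧ c' ≤ e.2.1 := fun e he =>
    ⟨by linarith [(hmem e he).2.1], by linarith [hmin e he]⟩
  have hbel : ∀ e ∈ F, ∀ w : ℝ, Below E id (id e) (c', w) ↔ y e < w := by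
    intro e he w
    rw [h.below_iff (hmem e he).1 (hrange e he).1 (hrange e he).2]
    simp only [hy]
    unfold f
    simp only
    constructor <;> intro hh <;> linarith
  have hht : ∀ e ∈ F, ht E id (c', y e) + 1 ≤ t + D ∧ t ≤ ht E id (c', y e) + 2 * D := by
    intro e he
    obtain ⟨he1, he2, he3, he4, he5, he6⟩ := hmem e he
    obtain ⟨τ, hτ, hτ'⟩ := vert_exists_seg (lt_of_le_of_lt he2 he3) (hrange e he).1 (hrange e he).2
    have h0 : (0 : ℝ) ∈ Set.Icc (0 : ℝ) 1 := ⟨le_rfl, zero_le_one⟩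
    have a := ht_seg_le E id e h0 hτ
    have b := ht_seg_le E id e hτ h0
    rw [vert_seg_zero, hτ'] at a b
    simp only [hy]
    omega
  have hinj : ∀ e ∈ F, ∀ e' ∈ F, id e = id e' → e = e' := by
    intro e he e' he' hid
    by_contra hn
    have h1 : sl e ≠ sl e' := fun h0 => hn (hsl e he e' he' h0)
    rcases lt_or_gt_of_ne h1 with h2 | h2
    · have := h.x_le (hmem e he).1 (hmem e' he').1 hid h2
      linarith [(hmem e he).2.2.1, (hmem e' he').2.1]
    · have := h.x_le (hmem e' he').1 (hmem e he).1 hid.symm h2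
      linarith [(hmem e' he').2.2.1, (hmem e he).2.1]
  obtain ⟨top, htop, hmax⟩ := F.exists_max_image y hne
  obtain ⟨bot, hbot, hmin'⟩ := F.exists_min_image y hne
  have hsub : ((E.image id).filter fun r => Below E id r (c', y bot)) ⊆
      (E.image id).filter fun r => Below E id r (c', y top) := by
    intro r hr
    rw [mem_filter] at hr ⊢
    exact ⟨hr.1, vert_below_mono hr.2 (hmax bot hbot)⟩
  have hcard : #(F.erase top) ≤ #(((E.image id).filter fun r => Below E id r (c', y top)) \
      ((E.image id).filter fun r => Below E id r (c', y bot))) := by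
    refine card_le_card_of_injOn id ?_ ?_
    · intro e he
      have he' := mem_erase.1 (mem_coe.1 he)
      rw [mem_coe, mem_sdiff, mem_filter, mem_filter]
      refine ⟨⟨mem_image_of_mem _ (hmem e he'.2).1, (hbel e he'.2 _).2
        (lt_of_le_of_ne (hmax e he'.2) fun hh => he'.1 (hyinj e he'.2 top htop hh))⟩, ?_⟩
      rintro ⟨-, hb⟩
      exact absurd ((hbel e he'.2 _).1 hb) (not_lt.2 (hmin' e he'.2))
    · intro e he e' he' hid
      exact hinj e (mem_erase.1 (mem_coe.1 he)).2 e' (mem_erase.1 (mem_coe.1 he')).2 hid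
  rw [card_sdiff_of_subset hsub, card_erase_of_mem htop] at hcard
  have a := (hht top htop).1
  have b := (hht bot hbot).2
  unfold ht at a b
  omega

end Crest.Agent.R51
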