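import Crest.Agent.R51.Cross
import Crest.Agent.R51.Vert

/-! The partition lemma and the bound for the number of edges between two sets. -/

namespace Crest.Agent.R51

open Finset
open scoped Classical

variable {ι : Type} {P : Finset Pt} {E : Finset Ed} {id : Ed → ι} {i : ℕ}

theorem part0_slab {α β : Type} [LinearOrder β] (Y : Finset α) (κ : α → β)
    (hinj : Set.InjOn κ Y) {a : ℕ} (ha : 0 < a) :
    ∃ (σ : α → ℕ) (K : Finset α), (∀ s, #(Y.filter fun p => σ p = s) ≤ a) ∧ #K * a ≤ #Y ∧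
      ∀ u v, κ u ≤ κ v → σ u ≠ σ v → ∃ y ∈ K, κ u ≤ κ y ∧ κ y < κ v := by
  let g : α → ℕ := fun p => #(Y.filter fun y => κ y < κ p)
  have hmono : ∀ u v, κ u ≤ κ v → g u ≤ g v := fun u v h =>
    card_le_card fun y hy => mem_filter.2 ⟨(mem_filter.1 hy).1, (mem_filter.1 hy).2.trans_le h⟩
  have hstrict : ∀ u ∈ Y, ∀ v, κ u < κ v → g u < g v := fun u hu v h => by
    refine card_lt_card ⟨fun y hy => mem_filter.2 ⟨(mem_filter.1 hy).1,
      (mem_filter.1 hy).2.trans h⟩, fun hs => ?_⟩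
    exact lt_irrefl _ (mem_filter.1 (hs (mem_filter.2 ⟨hu, h⟩))).2
  have hg : Set.InjOn g Y := fun u hu v hv h => by
    rcases lt_trichotomy (κ u) (κ v) with h1 | h1 | h1
    · exact absurd h (hstrict u hu v h1).ne
    · exact hinj hu hv h1
    · exact absurd h (hstrict v hv u h1).ne'
  have hle : ∀ v, g v ≤ #Y := fun v => card_le_card (filter_subset _ _)
  have hlt : ∀ u ∈ Y, g u < #Y := fun u hu =>
    card_lt_card ⟨filter_subset _ _, fun hs => lt_irrefl _ (mem_filter.1 (hs hu)).2⟩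
  have himg : Y.image g = range #Y := by
    refine eq_of_subset_of_card_le (fun r hr => ?_) ?_
    · obtain ⟨u, hu, rfl⟩ := mem_image.1 hr
      exact mem_range.2 (hlt u hu)
    · rw [card_range, card_image_of_injOn hg]
  refine ⟨fun p => g p / a, Y.filter fun y => a ∣ g y + 1, fun s => ?_, ?_, fun u v h hne => ?_⟩
  · refine le_trans (card_le_card_of_injOn (t := Finset.Ico (s * a) (s * a + a)) g ?_
      (hg.mono (coe_subset.2 (filter_subset _ _)))) (by simp)
    intro p hp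
    obtain ⟨-, rfl⟩ := mem_filter.1 (mem_coe.1 hp)
    exact mem_coe.2 (mem_Ico.2 ⟨Nat.div_mul_le_self _ _, Nat.lt_div_mul_add ha⟩)
  · refine le_trans (Nat.mul_le_mul_right a ?_) (Nat.div_mul_le_self #Y a)
    rw [← Nat.card_multiples]
    refine card_le_card_of_injOn g ?_ (hg.mono (coe_subset.2 (filter_subset _ _)))
    intro p hp
    obtain ⟨h1, h2⟩ := mem_filter.1 (mem_coe.1 hp)
    exact mem_coe.2 (mem_filter.2 ⟨mem_range.2 (hlt p h1), h2⟩)
  · have h1 : g u / a < g v / a := lt_of_le_of_ne (Nat.div_le_div_right (hmono u v h)) hne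
    have h2 : g u < g v / a * a := (Nat.div_lt_iff_lt_mul ha).1 h1
    have h3 : g v / a * a ≤ g v := Nat.div_mul_le_self _ _
    have h4 : g v / a * a - 1 ∈ Y.image g := by
      rw [himg, mem_range]
      have := hle v
      omega
    obtain ⟨y, hy, hy2⟩ := mem_image.1 h4
    refine ⟨y, mem_filter.2 ⟨hy, ?_⟩, ?_, ?_⟩
    · have : g y + 1 = g v / a * a := by omega
      rw [this]
      exact Dvd.intro_left _ rfl
    · by_contra hc
      have := hstrict y hy u (not_le.1 hc)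
      omega
    · by_contra hc
      have := hmono v y (not_lt.1 hc)
      omega

theorem part0_offset_aux (D x c : ℕ) :
    #((range D).filter fun ρ => (x + ρ) / D ≠ (x + c + ρ) / D) ≤ c := by
  induction c with
  | zero => simp
  | succ c ih =>
    have h1 : #((range D).filter fun ρ => D ∣ x + c + ρ + 1) ≤ 1 := by
      refine card_le_one.2 fun ρ hρ ρ' hρ' => ?_
      obtain ⟨a1, a2⟩ := mem_filter.1 hρ
      obtain ⟨b1, b2⟩ := mem_filter.1 hρ'
      rw [mem_range] at a1 b1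
      rcases le_total ρ ρ' with h | h
      · have := (Nat.dvd_sub b2 a2)
        have := Nat.eq_zero_of_dvd_of_lt this (by omega)
        omega
      · have := (Nat.dvd_sub a2 b2)
        have := Nat.eq_zero_of_dvd_of_lt this (by omega)
        omega
    refine le_trans (card_le_card ?_) ((card_union_le _ _).trans (add_le_add ih h1))
    intro ρ hρ
    obtain ⟨a1, a2⟩ := mem_filter.1 hρ
    rw [mem_union, mem_filter, mem_filter]
    by_cases hd : D ∣ x + c + ρ + 1
    · exact Or.inr ⟨a1, hd⟩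
    · refine Or.inl ⟨a1, ?_⟩
      rw [← Nat.succ_div_of_not_dvd hd]
      have e : x + c + ρ + 1 = x + (c + 1) + ρ := by ring
      rwa [e]

theorem part0_offset (D : ℕ) {x y c : ℕ} (h1 : x ≤ y + c) (h2 : y ≤ x + c) :
    #((range D).filter fun ρ => (x + ρ) / D ≠ (y + ρ) / D) ≤ c := by
  rcases le_total x y with h | h
  · obtain ⟨d, rfl⟩ := Nat.exists_eq_add_of_le h
    exact (part0_offset_aux D x d).trans (by omega)
  · obtain ⟨d, rfl⟩ := Nat.exists_eq_add_of_le h
    simp only [ne_comm (a := (y + d + _) / D)]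
    exact (part0_offset_aux D y d).trans (by omega)

theorem part0_exists_offset (E : Finset Ed) (id : Ed → ι) {D : ℕ} (hD : 0 < D) :
    ∃ ρ < D, D * #(E.filter fun e => (ht E id e.1 + ρ) / D ≠ (ht E id e.2 + ρ) / D) ≤
      ∑ e ∈ E, cr E id e := by
  have h : ∑ ρ ∈ range D, D * #(E.filter fun e => (ht E id e.1 + ρ) / D ≠ (ht E id e.2 + ρ) / D) ≤
      ∑ _ρ ∈ range D, ∑ e ∈ E, cr E id e := by
    rw [← mul_sum, sum_const, card_range, smul_eq_mul]
    refine Nat.mul_le_mul_left D ?_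
    simp only [card_filter]
    rw [sum_comm]
    refine sum_le_sum fun e _ => ?_
    rw [← card_filter]
    exact part0_offset D (ht_ends E id e).1 (ht_ends E id e).2
  obtain ⟨ρ, h1, h2⟩ := exists_le_of_sum_le (nonempty_range_iff.2 hD.ne') h
  exact ⟨ρ, mem_range.1 h1, h2⟩

theorem part0_markov (E : Finset Ed) (id : Ed → ι) (D : ℕ) :
    D * #(E.filter fun e => D < cr E id e) ≤ ∑ e ∈ E, cr E id e := by
  rw [mul_comm, ← smul_eq_mul]
  exact (card_nsmul_le_sum _ _ _ fun e he => (mem_filter.1 he).2.le).trans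
    (sum_le_sum_of_subset (filter_subset _ _))

/-- The partition lemma.  Let `W = i #Ω + nr`; if `E = ∅` use any injective labelling of `Y`
(`exists_nat_label`).  Otherwise `W ≥ 1`.  Let `a' = ⌊a⌋₊ ≥ max 1 (a / 2)`, `D = ⌈W / lam⌉₊ ≥ 1`,
`Y' = Y ∩ {ends of edges}` (`⊆ Ω ∩ P`, so abscissae are distinct and `#Y' ≤ W`).
* Layers: `τ p = (ht p + ρ) / D` with an offset `ρ < D`.  An edge has different layers at its ends for at
  most `|ht e.1 - ht e.2| ≤ cr e` offsets (`ht_ends`), so by `sum_cr_le` some offset cuts at most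
  `10 W ^ 2 / D ≤ 10 lam W` edges.  At most `10 W ^ 2 / D` edges have `cr e > D`.
* Slabs: `σ p = #{y ∈ Y' | τ y = τ p ∧ y.1 < p.1} / a'`.  At most `a'` points of `Y'` have the same `(τ, σ)`.
  For an edge with `τ e.1 = τ e.2 = τ₀` and `σ e.1 < σ e.2 = σ₀` there is the point `y ∈ Y'` of the layer with
  exactly `σ₀ a' - 1` points of the layer to its left, and `e.1.1 ≤ y.1 < e.2.1`.  The number of such
  `(τ₀, σ₀)` is at most `#Y' / a' ≤ min (2 lam ^ 2) W`, and each has at most `5 D ≤ 5 (W / lam + 1)` edges with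
  `cr ≤ D` by `vertical` (with `t = (τ₀ + 1) D - ρ`): at most `10 lam W + 5 lam W` in total.
* Label `p` by `Sum.inl (τ p, σ p)` if `p ∉ Y \ Y'` and by `Sum.inr p` otherwise; pass to `ℕ` by
  `exists_nat_label` on `Y ∪ Ω` (and mind the fibres inside `Y` only). -/
theorem Sys.partition (h : Sys P E id i) (hi : 1 ≤ i) (Ω : Finset Pt)
    (hΩ : ∀ e ∈ E, e.1 ∈ Ω ∧ e.2 ∈ Ω) (Y : Finset Pt) {lam a : ℝ} (hl : 1 ≤ lam) (ha : 1 ≤ a)
    (hY : (#Y : ℝ) ≤ lam ^ 2 * a) :
    ∃ pc : Pt → ℕ, (∀ z, (#(Y.filter fun p => pc p = z) : ℝ) ≤ a) ∧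
      (#(E.filter fun e => pc e.1 ≠ pc e.2) : ℝ) ≤ 100 * lam * (i * #Ω + nr E id) := by
  obtain ⟨W, hW⟩ : ∃ W : ℕ, W = i * #Ω + nr E id := ⟨_, rfl⟩
  have hWR : (i : ℝ) * #Ω + nr E id = W := by rw [hW]; push_cast; rfl
  have hsum := h.sum_cr_le Ω hΩ
  rw [← hW] at hsum
  rw [hWR]
  have hl0 : 0 < lam := by linarith
  have hW0 : (0 : ℝ) ≤ W := Nat.cast_nonneg W
  obtain ⟨D, hD, hD1, hD2⟩ : ∃ D : ℕ, 0 < D ∧ (W : ℝ) ≤ lam * D ∧ lam * D ≤ W + lam := by
    refine ⟨⌊W / lam⌋₊ + 1, Nat.succ_pos _, ?_, ?_⟩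
    · have := Nat.lt_floor_add_one (W / lam)
      rw [div_lt_iff₀ hl0] at this
      push_cast
      linarith
    · have := Nat.floor_le (div_nonneg hW0 hl0.le)
      rw [le_div_iff₀ hl0] at this
      push_cast
      linarith
  obtain ⟨b, hb, hb1, hb2⟩ : ∃ b : ℕ, 0 < b ∧ (b : ℝ) ≤ a ∧ a ≤ 2 * b := by
    have h1 : 1 ≤ ⌊a⌋₊ := Nat.le_floor (by simpa using ha)
    have h2 : (1 : ℝ) ≤ ⌊a⌋₊ := by exact_mod_cast h1
    exact ⟨⌊a⌋₊, h1, Nat.floor_le (by linarith), by linarith [Nat.lt_floor_add_one a]⟩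
  have hDR : (0 : ℝ) < D := by exact_mod_cast hD
  have hbR : (1 : ℝ) ≤ b := by exact_mod_cast hb
  have hsmall : ∀ n : ℕ, D * n ≤ ∑ e ∈ E, cr E id e → (n : ℝ) ≤ 10 * lam * W := by
    intro n hn
    have h1 : (D : ℝ) * n ≤ 10 * (W : ℝ) ^ 2 := by exact_mod_cast hn.trans hsum
    refine le_of_mul_le_mul_left ?_ hDR
    nlinarith
  obtain ⟨ρ, hρ, hcut⟩ := part0_exists_offset E id hD
  let τ : Pt → ℕ := fun p => (ht E id p + ρ) / D
  let Y' : Finset Pt := Y.filter fun p => ∃ e ∈ E, e.1 = p ∨ e.2 = p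
  have hY'P : ∀ p ∈ Y', p ∈ P ∧ p ∈ Ω := by
    intro p hp
    obtain ⟨-, e, he, h1 | h1⟩ := mem_filter.1 hp
    · exact h1 ▸ ⟨(mem_pairs.1 (h.sub he)).1, (hΩ e he).1⟩
    · exact h1 ▸ ⟨(mem_pairs.1 (h.sub he)).2.1, (hΩ e he).2⟩
  obtain ⟨σ, K, hσ, hK, hsep⟩ := part0_slab Y' (fun p => toLex (τ p, p.1))
    (fun p hp q hq e => h.gp.xinj p (hY'P p hp).1 q (hY'P q hq).1
      (congrArg Prod.snd (toLex.injective e))) hb
  obtain ⟨pc, hpc⟩ := exists_nat_label (Y ∪ Ω)
    (fun p => if p ∈ Y \ Y' then (Sum.inr p : (ℕ × ℕ) ⊕ Pt) else Sum.inl (τ p, σ p))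
  refine ⟨pc, fun z => ?_, ?_⟩
  · rcases (Y.filter fun p => pc p = z).eq_empty_or_nonempty with h0 | ⟨p₀, hp₀⟩
    · rw [h0, card_empty, Nat.cast_zero]
      linarith
    obtain ⟨hq₀, rfl⟩ := mem_filter.1 hp₀
    by_cases h1 : p₀ ∈ Y \ Y'
    · have : (Y.filter fun p => pc p = pc p₀) ⊆ {p₀} := by
        intro p hp
        obtain ⟨a1, a2⟩ := mem_filter.1 hp
        rw [hpc p (mem_union_left _ a1) p₀ (mem_union_left _ hq₀), if_pos h1] at a2
        split_ifs at a2
        exact mem_singleton.2 (Sum.inr.inj a2)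
      have h2 : (#(Y.filter fun p => pc p = pc p₀) : ℝ) ≤ 1 := by
        exact_mod_cast (card_le_card this).trans (card_singleton p₀).le
      linarith
    · have : (Y.filter fun p => pc p = pc p₀) ⊆ Y'.filter fun p => σ p = σ p₀ := by
        intro p hp
        obtain ⟨a1, a2⟩ := mem_filter.1 hp
        rw [hpc p (mem_union_left _ a1) p₀ (mem_union_left _ hq₀), if_neg h1] at a2
        split_ifs at a2 with a3
        refine mem_filter.2 ⟨?_, congrArg Prod.snd (Sum.inl.inj a2)⟩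
        by_contra a4
        exact a3 (mem_sdiff.2 ⟨a1, a4⟩)
      have h2 : (#(Y.filter fun p => pc p = pc p₀) : ℝ) ≤ b := by
        exact_mod_cast (card_le_card this).trans (hσ _)
      linarith
  · let V : Pt → Finset Ed := fun y => E.filter fun e => e.1.1 ≤ y.1 ∧ y.1 < e.2.1 ∧
      cr E id e ≤ D ∧ (τ y + 1) * D - ρ ≤ ht E id e.1 + D ∧ ht E id e.1 < (τ y + 1) * D - ρ
    have hsub : (E.filter fun e => pc e.1 ≠ pc e.2) ⊆
        (E.filter fun e => τ e.1 ≠ τ e.2) ∪ (E.filter fun e => D < cr E id e) ∪ K.biUnion V := by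
      intro e he
      obtain ⟨he, hne⟩ := mem_filter.1 he
      have n1 : e.1 ∉ Y \ Y' := fun hh =>
        (mem_sdiff.1 hh).2 (mem_filter.2 ⟨(mem_sdiff.1 hh).1, e, he, Or.inl rfl⟩)
      have n2 : e.2 ∉ Y \ Y' := fun hh =>
        (mem_sdiff.1 hh).2 (mem_filter.2 ⟨(mem_sdiff.1 hh).1, e, he, Or.inr rfl⟩)
      rw [Ne, hpc _ (mem_union_right _ (hΩ e he).1) _ (mem_union_right _ (hΩ e he).2),
        if_neg n1, if_neg n2] at hne
      by_cases c1 : τ e.1 = τ e.2
      swap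
      · exact mem_union_left _ (mem_union_left _ (mem_filter.2 ⟨he, c1⟩))
      by_cases c2 : D < cr E id e
      · exact mem_union_left _ (mem_union_right _ (mem_filter.2 ⟨he, c2⟩))
      have c3 : σ e.1 ≠ σ e.2 := fun c3 => hne (by rw [c1, c3])
      have hx := (mem_pairs.1 (h.sub he)).2.2
      obtain ⟨y, hy, d1, d2⟩ := hsep e.1 e.2
        (Prod.Lex.toLex_le_toLex.2 (Or.inr ⟨c1, hx.le⟩)) c3
      rw [Prod.Lex.toLex_le_toLex] at d1
      rw [Prod.Lex.toLex_lt_toLex] at d2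
      simp only at d1 d2
      have d3 : τ e.1 = τ y := by
        rcases d1 with d1 | d1 <;> rcases d2 with d2 | d2 <;> omega
      have d4 : e.1.1 ≤ y.1 := by
        rcases d1 with d1 | d1
        · omega
        · exact d1.2
      have d5 : y.1 < e.2.1 := by
        rcases d2 with d2 | d2
        · omega
        · exact d2.2
      have d6 : τ y * D ≤ ht E id e.1 + ρ := d3 ▸ Nat.div_mul_le_self _ _
      have d7 : ht E id e.1 + ρ < τ y * D + D := d3 ▸ Nat.lt_div_mul_add hD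
      refine mem_union_right _ (mem_biUnion.2 ⟨y, hy, mem_filter.2
        ⟨he, d4, d5, not_lt.1 c2, ?_, ?_⟩⟩)
      · rw [add_mul, one_mul]
        omega
      · rw [add_mul, one_mul]
        omega
    have k1 := hsmall _ hcut
    have k2 := hsmall _ (part0_markov E id D)
    have k3 : #(K.biUnion V) ≤ #K * (5 * D) :=
      card_biUnion_le_card_mul _ _ _ fun y _ => h.vertical _ _ D hD
    have k4 : (#K : ℝ) * b ≤ #Y' := by exact_mod_cast hK
    have k5 : (#Y' : ℝ) ≤ #Y := by exact_mod_cast card_le_card (filter_subset _ _)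
    have k6 : (#Y' : ℝ) ≤ W := by
      have a1 : #Y' ≤ #Ω := card_le_card fun p hp => (hY'P p hp).2
      have a2 : #Ω ≤ i * #Ω := Nat.le_mul_of_pos_left _ hi
      exact_mod_cast (by omega : #Y' ≤ W)
    have hK0 : (0 : ℝ) ≤ #K := Nat.cast_nonneg _
    have k7 : (#K : ℝ) ≤ W := by nlinarith
    have k8 : (#K : ℝ) ≤ 2 * lam ^ 2 := by
      refine le_of_mul_le_mul_right ?_ (by linarith : (0 : ℝ) < b)
      have : lam ^ 2 * a ≤ lam ^ 2 * (2 * b) := mul_le_mul_of_nonneg_left hb2 (by positivity)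
      linarith
    have k9 : (#K : ℝ) * D ≤ 2 * lam * W + W := by
      refine le_of_mul_le_mul_left ?_ hl0
      have a1 : (#K : ℝ) * (lam * D) ≤ #K * (W + lam) := mul_le_mul_of_nonneg_left hD2 hK0
      have a2 : (#K : ℝ) * W ≤ 2 * lam ^ 2 * W := mul_le_mul_of_nonneg_right k8 hW0
      have a3 : (#K : ℝ) * lam ≤ W * lam := mul_le_mul_of_nonneg_right k7 hl0.le
      nlinarith
    have k10 : (#(E.filter fun e => pc e.1 ≠ pc e.2) : ℝ) ≤
        #(E.filter fun e => τ e.1 ≠ τ e.2) + #(E.filter fun e => D < cr E id e) + #K * (5 * D) := by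
      exact_mod_cast (card_le_card hsub).trans ((card_union_le _ _).trans
        (add_le_add (card_union_le _ _) k3))
    have k11 : (W : ℝ) ≤ lam * W := by nlinarith
    have k12 : (#(E.filter fun e => τ e.1 ≠ τ e.2) : ℝ) ≤ 10 * lam * W := k1
    nlinarith

end Crest.Agent.R51
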