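import Crest.Agent.R51.Cross
import Crest.Agent.R51.Vert
import Crest.Agent.R51.Part0

/-! The partition lemma and the bound for the number of edges between two sets. -/

namespace Crest.Agent.R51

open Finset
open scoped Classical

variable {ι : Type} {P : Finset Pt} {E : Finset Ed} {id : Ed → ι} {i : ℕ}

theorem part_pairs_le (A B : Finset Pt) (pc : Pt → ℕ) {a : ℝ}
    (ha : ∀ z, (#(A.filter fun p => pc p = z) : ℝ) ≤ a) :
    (#((B ×ˢ A).filter fun e : Ed => pc e.1 = pc e.2) : ℝ) ≤ #B * a := by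
  have h1 : ((B ×ˢ A).filter fun e : Ed => pc e.1 = pc e.2) ⊆
      B.biUnion fun q => (A.filter fun p => pc p = pc q).image fun p => (q, p) := by
    intro e he
    simp only [mem_filter, mem_product] at he
    exact mem_biUnion.2 ⟨e.1, he.1.1, mem_image.2 ⟨e.2, mem_filter.2 ⟨he.1.2, he.2.symm⟩, rfl⟩⟩
  have h2 := (card_le_card h1).trans (card_biUnion_le.trans (sum_le_sum fun q _ => card_image_le))
  have h3 : (#((B ×ˢ A).filter fun e : Ed => pc e.1 = pc e.2) : ℝ) ≤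
      ∑ q ∈ B, (#(A.filter fun p => pc p = pc q) : ℝ) := by exact_mod_cast h2
  refine h3.trans ?_
  rw [← nsmul_eq_mul]
  exact sum_le_card_nsmul _ _ _ fun q _ => ha _

theorem part_uncut_le (Ω : Finset Pt) (hΩ : ∀ e ∈ E, e.1 ∈ Ω ∧ e.2 ∈ Ω) (Y₁ Y₂ : Finset Pt)
    (pc : Pt → ℕ) {a : ℝ} (ha : ∀ z, (#(Y₁.filter fun p => pc p = z) : ℝ) ≤ a) :
    (#(btw E Y₁ Y₂) : ℝ) ≤ #(E.filter fun e => pc e.1 ≠ pc e.2) + 2 * (#(Y₂ ∩ Ω) * a) := by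
  set S := ((Y₂ ∩ Ω) ×ˢ Y₁).filter fun e : Ed => pc e.1 = pc e.2 with hS
  have h1 : btw E Y₁ Y₂ ⊆ (E.filter fun e => pc e.1 ≠ pc e.2) ∪ (S ∪ S.image Prod.swap) := by
    intro e he
    rw [mem_btw] at he
    by_cases hc : pc e.1 = pc e.2
    · refine mem_union_right _ ?_
      rcases he.2 with h | h
      · refine mem_union_right _ (mem_image.2 ⟨e.swap, ?_, rfl⟩)
        exact mem_filter.2 ⟨mem_product.2 ⟨mem_inter.2 ⟨h.2, (hΩ e he.1).2⟩, h.1⟩, hc.symm⟩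
      · exact mem_union_left _
          (mem_filter.2 ⟨mem_product.2 ⟨mem_inter.2 ⟨h.1, (hΩ e he.1).1⟩, h.2⟩, hc⟩)
    · exact mem_union_left _ (mem_filter.2 ⟨he.1, hc⟩)
  have h2 := (card_le_card h1).trans ((card_union_le _ _).trans (Nat.add_le_add_left
    ((card_union_le _ _).trans (Nat.add_le_add_left card_image_le _)) _))
  have h3 : (#(btw E Y₁ Y₂) : ℝ) ≤ #(E.filter fun e => pc e.1 ≠ pc e.2) + (#S + #S) := by
    exact_mod_cast h2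
  have h4 := part_pairs_le Y₁ (Y₂ ∩ Ω) pc ha
  linarith

/-- The number of edges between two sets.  For `lam ≤ 1` use `#btw ≤ 2 #Y₁ #Y₂`.  Otherwise take the
partition for `Y₁` with `a = max 1 (#Y₁ / lam ^ 2)`; an uncut edge between `Y₁` and `Y₂` is determined by
its end in `Y₂ ∩ Ω`, its other end (in the part of the first one, in `Y₁`) and the orientation: at most
`2 a #(Y₂ ∩ Ω) ≤ 2 #Ω + 2 #Y₁ #Y₂ / lam ^ 2`. -/
theorem Sys.card_btw_le (h : Sys P E id i) (hi : 1 ≤ i) (Ω : Finset Pt)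
    (hΩ : ∀ e ∈ E, e.1 ∈ Ω ∧ e.2 ∈ Ω) (Y₁ Y₂ : Finset Pt) {lam : ℝ} (hl : 0 < lam) :
    (#(btw E Y₁ Y₂) : ℝ) ≤ 200 * (lam * (i * #Ω + nr E id) + #Y₁ * #Y₂ / lam ^ 2) := by
  have hY₂ : (#(Y₂ ∩ Ω) : ℝ) ≤ #Y₂ := by exact_mod_cast card_le_card inter_subset_left
  have hΩ' : (#(Y₂ ∩ Ω) : ℝ) ≤ #Ω := by exact_mod_cast card_le_card inter_subset_right
  have hW : 0 ≤ lam * (i * #Ω + nr E id) := by positivity
  have hX : (0 : ℝ) ≤ #Y₁ * #Y₂ / lam ^ 2 := by positivity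
  rcases le_total lam 1 with h1 | h1
  · have h2 := part_uncut_le Ω hΩ Y₁ Y₂ (fun _ => 0) (a := #Y₁)
      fun z => by exact_mod_cast card_filter_le _ _
    simp only [ne_eq, not_true_eq_false, filter_false, card_empty, Nat.cast_zero, zero_add] at h2
    have h3 : (#(Y₂ ∩ Ω) : ℝ) * #Y₁ ≤ #Y₂ * #Y₁ := by gcongr
    have h4 : (#Y₁ * #Y₂ : ℝ) ≤ #Y₁ * #Y₂ / lam ^ 2 :=
      le_div_self (by positivity) (by positivity) (pow_le_one₀ hl.le h1)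
    linarith
  · obtain ⟨pc, hpc, hcut⟩ := h.partition hi Ω hΩ Y₁ (a := max 1 (#Y₁ / lam ^ 2)) h1
      (le_max_left _ _) (by
        rw [← div_le_iff₀' (by positivity)]
        exact le_max_right _ _)
    have h2 := part_uncut_le Ω hΩ Y₁ Y₂ pc hpc
    have h3 : max 1 ((#Y₁ : ℝ) / lam ^ 2) ≤ 1 + #Y₁ / lam ^ 2 :=
      max_le (le_add_of_nonneg_right (by positivity)) (le_add_of_nonneg_left zero_le_one)
    have h4 : (#(Y₂ ∩ Ω) : ℝ) * max 1 ((#Y₁ : ℝ) / lam ^ 2) ≤ #Ω + #Y₁ * #Y₂ / lam ^ 2 := by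
      calc (#(Y₂ ∩ Ω) : ℝ) * max 1 ((#Y₁ : ℝ) / lam ^ 2) ≤ #(Y₂ ∩ Ω) * (1 + #Y₁ / lam ^ 2) := by
            gcongr
        _ = #(Y₂ ∩ Ω) + #(Y₂ ∩ Ω) * (#Y₁ / lam ^ 2) := by ring
        _ ≤ #Ω + #Y₂ * (#Y₁ / lam ^ 2) := by gcongr
        _ = _ := by ring
    have hi' : (1 : ℝ) ≤ i := by exact_mod_cast hi
    have h5 : (#Ω : ℝ) ≤ lam * (i * #Ω + nr E id) := by
      calc (#Ω : ℝ) = 1 * (1 * #Ω + 0) := by ring
        _ ≤ lam * (i * #Ω + nr E id) := by gcongr; positivity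
    linarith

theorem Sys.card_inc_le (h : Sys P E id i) (hi : 1 ≤ i) (Ω : Finset Pt)
    (hΩ : ∀ e ∈ E, e.1 ∈ Ω ∧ e.2 ∈ Ω) (Y : Finset Pt) {lam : ℝ} (hl : 0 < lam) :
    (#(inc E Y) : ℝ) ≤ 200 * (lam * (i * #Ω + nr E id) + #Y * #Ω / lam ^ 2) := by
  refine le_trans ?_ (h.card_btw_le hi Ω hΩ Y Ω hl)
  have : inc E Y ⊆ btw E Y Ω := by
    intro e he
    rw [mem_inc] at he
    rw [mem_btw]
    exact ⟨he.1, he.2.imp (fun x => ⟨x, (hΩ e he.1).2⟩) fun x => ⟨(hΩ e he.1).1, x⟩⟩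
  exact_mod_cast card_le_card this

theorem Sys.card_le (h : Sys P E id i) (hi : 1 ≤ i) (Ω : Finset Pt)
    (hΩ : ∀ e ∈ E, e.1 ∈ Ω ∧ e.2 ∈ Ω) {lam : ℝ} (hl : 0 < lam) :
    (#E : ℝ) ≤ 200 * (lam * (i * #Ω + nr E id) + #Ω * #Ω / lam ^ 2) := by
  refine le_trans ?_ (h.card_inc_le hi Ω hΩ Ω hl)
  have : E ⊆ inc E Ω := fun e he => mem_inc.2 ⟨he, Or.inl (hΩ e he).1⟩
  exact_mod_cast card_le_card this

end Crest.Agent.R51
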