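import Crest.Agent.R51.Basic

/-! Cutting runs; counting runs in time windows; refinement of time grids. -/

namespace Crest.Agent.R51

open Finset
open scoped Classical

variable {ι : Type} {P : Finset Pt} {E : Finset Ed} {id : Ed → ι} {i : ℕ}

theorem refine_tm_self (E : Finset Ed) (a : ℝ) : tm E a a = ∅ := by
  rw [eq_empty_iff_forall_notMem]
  intro e he
  rw [mem_tm] at he
  linarith [he.2.1, he.2.2]

theorem refine_card_add (E : Finset Ed) {a x b : ℝ} (h1 : a ≤ x) (h2 : x ≤ b) :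
    #(tm E a b) = #(tm E a x) + #(tm E x b) := by
  rw [← card_union_of_disjoint]
  · congr 1
    ext e
    simp only [mem_union, mem_tm]
    constructor
    · rintro ⟨he, h3, h4⟩
      by_cases h : sl e ≤ x
      · exact Or.inl ⟨he, h3, h⟩
      · exact Or.inr ⟨he, not_le.1 h, h4⟩
    · rintro (⟨he, h3, h4⟩ | ⟨he, h3, h4⟩)
      · exact ⟨he, h3, by linarith⟩
      · exact ⟨he, by linarith, h4⟩
  · rw [disjoint_left]
    intro e he he'
    rw [mem_tm] at he he'
    linarith [he.2.2, he'.2.1]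

theorem refine_cut (hE : ∀ e ∈ E, ∀ e' ∈ E, sl e = sl e' → e = e') {a b : ℝ} (hab : a ≤ b)
    (n : ℕ) (hn : n ≤ #(tm E a b)) : ∃ x, a ≤ x ∧ x ≤ b ∧ #(tm E a x) = n := by
  induction n with
  | zero => exact ⟨a, le_rfl, hab, by rw [refine_tm_self, card_empty]⟩
  | succ n ih =>
    obtain ⟨x, h1, h2, h3⟩ := ih (by omega)
    have h4 := refine_card_add E h1 h2
    have hne : (tm E x b).Nonempty := card_pos.1 (by omega)
    obtain ⟨e, he, hmin⟩ := (tm E x b).exists_min_image sl hne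
    rw [mem_tm] at he
    refine ⟨sl e, by linarith [he.2.1], he.2.2, ?_⟩
    rw [refine_card_add E h1 he.2.1.le, h3]
    congr 1
    rw [card_eq_one]
    refine ⟨e, eq_singleton_iff_unique_mem.2 ⟨mem_tm.2 ⟨he.1, he.2.1, le_rfl⟩, fun e' he' => ?_⟩⟩
    rw [mem_tm] at he'
    exact hE e' he'.1 e he.1 (le_antisymm he'.2.2
      (hmin e' (mem_tm.2 ⟨he'.1, he'.2.1, by linarith [he'.2.2, he.2.2]⟩)))

theorem refine_split (hE : ∀ e ∈ E, ∀ e' ∈ E, sl e = sl e' → e = e') (t : ℕ) (b : ℝ) (S : ℕ) :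
    ∀ a, a ≤ b → #(tm E a b) ≤ (S + 1) * t →
      ∃ c : ℕ → ℝ, Monotone c ∧ c 0 = a ∧ (∀ w, S + 1 ≤ w → c w = b) ∧
        ∀ w, #(tm E (c w) (c (w + 1))) ≤ t := by
  induction S with
  | zero =>
    intro a hab h
    refine ⟨fun w => if w = 0 then a else b, monotone_nat_of_le_succ fun w => ?_, by simp,
      fun w hw => if_neg (by omega), fun w => ?_⟩
    · by_cases hw : w = 0 <;> simp [hw, hab]
    · by_cases hw : w = 0
      · simpa [hw] using h
      · simp [hw, refine_tm_self]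
  | succ S ih =>
    intro a hab h
    obtain ⟨x, h1, h2, h3⟩ := refine_cut hE hab (min t #(tm E a b)) (min_le_right _ _)
    have h4 := refine_card_add E h1 h2
    rw [add_mul (S + 1), one_mul] at h
    obtain ⟨c, hc1, hc2, hc3, hc4⟩ := ih x h2 (by omega)
    refine ⟨fun w => Nat.casesOn w a c, monotone_nat_of_le_succ fun w => ?_, rfl,
      fun w hw => ?_, fun w => ?_⟩
    · cases w with
      | zero => simpa [hc2] using h1
      | succ w => exact hc1 (Nat.le_succ w)
    · cases w with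
      | zero => omega
      | succ w => exact hc3 w (by omega)
    · cases w with
      | zero =>
        show #(tm E a (c 0)) ≤ t
        rw [hc2]
        omega
      | succ w => exact hc4 w

/-- One window can be cut into `S` windows with about the same number of edges.
Proof: let `t = ⌈#(tm E a b) / S⌉` (so `t ≤ # / S + 1`, `# ≤ S t`); `c w` is `a` for `w = 0`, `b` for
`w ≥ S`, and otherwise the least element `x` of `(tm E a b).image sl ∪ {b}` with
`min (w t) # ≤ #(tm E a x)`; since slopes are distinct, `#(tm E a (c w)) = min (w t) #`.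
(An induction on `S`, cutting off the first `t` edges, also works: prove the statement
`#(tm E a b) ≤ S * t → ∃ c, … ∀ w < S, # ≤ t`.) -/
theorem exists_split (hE : ∀ e ∈ E, ∀ e' ∈ E, sl e = sl e' → e = e') {a b : ℝ} (hab : a ≤ b)
    {S : ℕ} (hS : 1 ≤ S) :
    ∃ c : ℕ → ℝ, Monotone c ∧ c 0 = a ∧ (∀ w, S ≤ w → c w = b) ∧
      ∀ w, (#(tm E (c w) (c (w + 1))) : ℝ) ≤ #(tm E a b) / S + 1 := by
  obtain ⟨S, rfl⟩ : ∃ S', S = S' + 1 := ⟨S - 1, by omega⟩
  have h1 : #(tm E a b) ≤ (S + 1) * (#(tm E a b) / (S + 1) + 1) :=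
    (Nat.lt_mul_div_succ _ (Nat.succ_pos S)).le
  obtain ⟨c, hc1, hc2, hc3, hc4⟩ := refine_split hE _ b S a hab h1
  refine ⟨c, hc1, hc2, hc3, fun w => ?_⟩
  have h2 : ((#(tm E (c w) (c (w + 1))) : ℕ) : ℝ) ≤ ((#(tm E a b) / (S + 1) + 1 : ℕ) : ℝ) := by
    exact_mod_cast hc4 w
  have h3 : ((#(tm E a b) / (S + 1) : ℕ) : ℝ) ≤ (#(tm E a b) : ℝ) / ((S + 1 : ℕ) : ℝ) :=
    Nat.cast_div_le
  rw [Nat.cast_add, Nat.cast_one] at h2
  linarith

/-- Refinement of a time grid: `b w = c (w / S) (w % S)` with `c k` from `exists_split` for the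
window `k`. -/
theorem exists_refine (hE : ∀ e ∈ E, ∀ e' ∈ E, sl e = sl e' → e = e') {B : ℕ → ℝ}
    (hB : Monotone B) {S : ℕ} (hS : 1 ≤ S) :
    ∃ b : ℕ → ℝ, Monotone b ∧ (∀ k, b (k * S) = B k) ∧
      ∀ w, (#(tm E (b w) (b (w + 1))) : ℝ) ≤ #(tm E (B (w / S)) (B (w / S + 1))) / S + 1 := by
  choose c hc1 hc2 hc3 hc4 using fun k => exists_split hE (hB (Nat.le_succ k)) hS
  have hstep : ∀ w, c ((w + 1) / S) ((w + 1) % S) = c (w / S) (w % S + 1) := by
    intro w
    have hm : w % S < S := Nat.mod_lt _ hS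
    have hw := Nat.div_add_mod w S
    by_cases h : w % S + 1 = S
    · have e : w + 1 = S * (w / S + 1) := by rw [mul_add, mul_one]; omega
      rw [e, Nat.mul_div_cancel_left _ hS, Nat.mul_mod_right, hc2, hc3 _ _ h.ge]
    · have e : w + 1 = (w % S + 1) + S * (w / S) := by omega
      have h2 : w % S + 1 < S := by omega
      rw [e, Nat.add_mul_div_left _ _ hS, Nat.add_mul_mod_self_left, Nat.div_eq_of_lt h2,
        Nat.mod_eq_of_lt h2, zero_add]
  refine ⟨fun w => c (w / S) (w % S), monotone_nat_of_le_succ fun w => ?_, fun k => ?_,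
    fun w => ?_⟩
  · simp only [hstep]
    exact hc1 _ (Nat.le_succ _)
  · simp only [Nat.mul_div_cancel _ hS, Nat.mul_mod_left, hc2]
  · simp only [hstep]
    exact hc4 _ _

end Crest.Agent.R51
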