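import Crest.Agent.R51.Sys
import Crest.Agent.R51.Refine

/-! Cutting runs; counting runs in time windows; refinement of time grids. -/

namespace Crest.Agent.R51

open Finset
open scoped Classical

variable {ι : Type} {P : Finset Pt} {E : Finset Ed} {id : Ed → ι} {i : ℕ}

/-- The number of runs, summed over disjoint time windows.
Proof: for a window `k` and a run `r` meeting it let `e` be the edge of `r` in the window with the
least slope.  Either `e` is the edge of least slope of the whole run (each run is used for at most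
one `k`, since the windows are disjoint), or the edge `e₀` of `r` with the largest slope below `sl e`
has `e₀.2 = e.1` (`link`, `gp.slinj`) and `sl e₀ ≤ lo k < sl e`, so `r` is counted in
`h.mult e.1 (lo k)`, and `e.1 ∈ Ω k`. -/
theorem Sys.sum_nr_win (h : Sys P E id i) (lo hi : ℕ → ℝ) (Ks : Finset ℕ) (Ω : ℕ → Finset Pt)
    (hd : ∀ k ∈ Ks, ∀ k' ∈ Ks, k < k' → hi k ≤ lo k')
    (hΩ : ∀ k ∈ Ks, ∀ e ∈ Crest.Agent.R51.tm E (lo k) (hi k), e.1 ∈ Ω k) :
    ∑ k ∈ Ks, nr (Crest.Agent.R51.tm E (lo k) (hi k)) id ≤ nr E id + i * ∑ k ∈ Ks, #(Ω k) := by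
  have hA : ∑ k ∈ Ks, #(((Crest.Agent.R51.tm E (lo k) (hi k)).image id).filter
      fun r => ¬ ∃ x ∈ E, id x = r ∧ sl x ≤ lo k) ≤ nr E id := by
    have key : ∀ k ∈ Ks, ∀ k' ∈ Ks, k < k' → Disjoint
        (((Crest.Agent.R51.tm E (lo k) (hi k)).image id).filter
          fun r => ¬ ∃ x ∈ E, id x = r ∧ sl x ≤ lo k)
        (((Crest.Agent.R51.tm E (lo k') (hi k')).image id).filter
          fun r => ¬ ∃ x ∈ E, id x = r ∧ sl x ≤ lo k') := by
      intro k hk k' hk' hlt
      rw [disjoint_left]
      intro r hr hr'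
      obtain ⟨e, he, rfl⟩ := mem_image.1 (mem_filter.1 hr).1
      rw [mem_tm] at he
      exact (mem_filter.1 hr').2 ⟨e, he.1, rfl, he.2.2.trans (hd k hk k' hk' hlt)⟩
    rw [← card_biUnion]
    · exact card_le_card (biUnion_subset.2 fun k _ =>
        (filter_subset _ _).trans (image_subset_image (tm_subset _ _ _)))
    · intro k hk k' hk' hne
      rcases lt_or_gt_of_ne hne with hlt | hlt
      · exact key k hk k' hk' hlt
      · exact (key k' hk' k hk hlt).symm
  have hB : ∀ k ∈ Ks, #(((Crest.Agent.R51.tm E (lo k) (hi k)).image id).filter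
      fun r => ∃ x ∈ E, id x = r ∧ sl x ≤ lo k) ≤ i * #(Ω k) := by
    intro k hk
    calc _ ≤ #((Ω k).biUnion fun a => (E.filter fun e => e.2 = a ∧ sl e ≤ lo k ∧
          ∃ e' ∈ E, id e' = id e ∧ e'.1 = a ∧ lo k ≤ sl e').image id) := by
          refine card_le_card fun r hr => ?_
          obtain ⟨hr1, x, hx, hx1, hx2⟩ := mem_filter.1 hr
          obtain ⟨e, he, rfl⟩ := mem_image.1 hr1
          rw [mem_tm] at he
          obtain ⟨e₀, he₀, hmax⟩ := exists_max_image
            (E.filter fun y => id y = id e ∧ sl y ≤ lo k) sl ⟨x, mem_filter.2 ⟨hx, hx1, hx2⟩⟩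
          obtain ⟨k1, k2, k3⟩ := mem_filter.1 he₀
          obtain ⟨y, hy, l1, l2, l3, l4⟩ := h.link e₀ k1 e he.1 k2 (k3.trans_lt he.2.1)
          have l5 : lo k < sl y := lt_of_not_ge fun l6 =>
            l3.not_ge (hmax y (mem_filter.2 ⟨hy, l1.trans k2, l6⟩))
          exact mem_biUnion.2 ⟨y.1, hΩ k hk y (mem_tm.2 ⟨hy, l5, l4.trans he.2.2⟩),
            mem_image.2 ⟨e₀, mem_filter.2 ⟨k1, l2.symm, k3, y, hy, l1, rfl, l5.le⟩, k2⟩⟩
      _ ≤ #(Ω k) * i := card_biUnion_le_card_mul _ _ _ fun a _ => h.mult a (lo k)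
      _ = _ := mul_comm _ _
  rw [mul_sum]
  refine le_trans ?_ (Nat.add_le_add hA (sum_le_sum hB))
  rw [← sum_add_distrib]
  refine sum_le_sum fun k _ => ?_
  rw [add_comm, card_filter_add_card_filter_not]
  exact le_rfl

/-- Removing edges cuts the runs into pieces.
Proof: label `e` by `(id e, #{x ∈ E \ E' | id x = id e ∧ sl x < sl e})`; `Sys.refine` applies (a removed
edge between `e` and `e'` would increase the counter; then the counter is squeezed).  Labels with
counter `0` inject into the runs, a label `(r, c + 1)` is hit by the removed edge `x` of `r` with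
counter `c` (map `x ↦ (id x, counter x + 1)`; take the removed edge of largest slope below `sl e`).
Pass to `ℕ` by `exists_nat_label`, `nr_congr`, `Sys.refine`. -/
theorem Sys.cut (h : Sys P E id i) {E' : Finset Ed} (hE : E' ⊆ E) :
    ∃ id' : Ed → ℕ, Sys P E' id' i ∧ nr E' id' ≤ nr E id + #(E \ E') := by
  obtain ⟨F, hF⟩ : ∃ F : Ed → Finset Ed,
      ∀ e x, x ∈ F e ↔ x ∈ E \ E' ∧ id x = id e ∧ sl x < sl e :=
    ⟨fun e => (E \ E').filter fun x => id x = id e ∧ sl x < sl e, fun e x => mem_filter⟩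
  have hsub : ∀ {e e'}, id e = id e' → sl e ≤ sl e' → F e ⊆ F e' := fun h1 h2 x hx => by
    rw [hF] at hx ⊢
    exact ⟨hx.1, hx.2.1.trans h1, hx.2.2.trans_le h2⟩
  have hs : Sys P E' (fun e => (id e, #(F e))) i := by
    refine h.refine hE _ (fun e _ e' _ hh => congrArg Prod.fst hh)
      fun e _ e' _ hh x hx h1 h2 h3 => ?_
    have a1 : id e = id e' := congrArg Prod.fst hh
    have a2 : #(F e) = #(F e') := congrArg Prod.snd hh
    have a3 := card_le_card (hsub h1.symm h2.le)
    have a4 := card_le_card (hsub (h1.trans a1) h3.le)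
    refine ⟨by_contra fun hx' => ?_, Prod.ext h1 (by dsimp only; omega)⟩
    refine (card_lt_card ⟨hsub a1 (h2.trans h3).le, fun hc => ?_⟩).ne a2
    exact h2.not_gt ((hF e x).1 (hc ((hF e' x).2 ⟨mem_sdiff.2 ⟨hx, hx'⟩, h1.trans a1, h3⟩))).2.2
  have hn : nr E' (fun e => (id e, #(F e))) ≤ nr E id + #(E \ E') := by
    rw [nr_eq]
    calc _ ≤ #((E.image id).image (fun r => (r, 0)) ∪
          (E \ E').image fun x => (id x, #(F x) + 1)) := by
          refine card_le_card fun c hc => ?_
          obtain ⟨e, he, rfl⟩ := mem_image.1 hc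
          rcases (F e).eq_empty_or_nonempty with h0 | h0
          · exact mem_union_left _ (mem_image.2 ⟨id e, mem_image_of_mem id (hE he), by
              rw [h0, card_empty]⟩)
          · obtain ⟨x, hx, hmax⟩ := exists_max_image (F e) sl h0
            obtain ⟨k1, k2, k3⟩ := (hF e x).1 hx
            refine mem_union_right _ (mem_image.2 ⟨x, k1, Prod.ext k2 ?_⟩)
            dsimp only
            rw [← card_insert_of_notMem (a := x) fun hc => lt_irrefl _ ((hF x x).1 hc).2.2]
            congr 1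
            refine Subset.antisymm (insert_subset hx (hsub k2 k3.le)) fun y hy => ?_
            obtain ⟨l1, l2, -⟩ := (hF e y).1 hy
            rcases (hmax y hy).eq_or_lt with l3 | l3
            · exact mem_insert.2 (Or.inl (h.sys_eq (mem_sdiff.1 l1).1 (mem_sdiff.1 k1).1 l3))
            · exact mem_insert_of_mem ((hF x y).2 ⟨l1, l2.trans k2.symm, l3⟩)
      _ ≤ _ := (card_union_le _ _).trans (Nat.add_le_add card_image_le card_image_le)
  obtain ⟨g, hg⟩ := exists_nat_label E' fun e => (id e, #(F e))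
  refine ⟨g, hs.refine Subset.rfl g (fun e he e' he' hh => (hg e he e' he').1 hh)
    fun e he e' _ _ x hx h1 _ _ => ⟨hx, (hg x hx e he).2 h1⟩, ?_⟩
  rwa [nr_congr E' _ g hg]

/-- A run crosses a line at most twice.
Proof: split `E` into the edges with `sl e ≤ θ` and the others (both `Sys.conv`); on the second part
the indicator of `S` is monotone along edges (`f_lt_iff`), on the first part the indicator of `¬ S`
(`f_ge_iff`); `card_switch` with `R = 1`, `nr_mono`. -/
theorem Sys.card_cut_half (h : Sys P E id i) (θ : ℝ) (S : Pt → Prop)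
    (hS : ∀ p p', S p → f θ p ≤ f θ p' → S p') :
    #(E.filter fun e => ¬ (S e.1 ↔ S e.2)) ≤ 2 * nr E id := by
  have h1 : Sys P (E.filter fun e => sl e ≤ θ) id i :=
    h.conv (filter_subset _ _) fun e _ e' he' _ x hx _ _ h3 =>
      mem_filter.2 ⟨hx, h3.le.trans (mem_filter.1 he').2⟩
  have h2 : Sys P (E.filter fun e => θ < sl e) id i :=
    h.conv (filter_subset _ _) fun e he e' _ _ x hx _ h3 _ =>
      mem_filter.2 ⟨hx, (mem_filter.1 he).2.trans h3⟩
  have k1 := h1.card_switch (fun p => if S p then 0 else 1) 1 (fun e he => by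
    have := fun t => hS _ _ t ((f_ge_iff e (h1.sys_lt he) θ).2 (mem_filter.1 he).2)
    split_ifs <;> simp_all) fun e _ => by split_ifs <;> simp
  have k2 := h2.card_switch (fun p => if S p then 1 else 0) 1 (fun e he => by
    have := fun t => hS _ _ t ((f_le_iff e (h2.sys_lt he) θ).2 (mem_filter.1 he).2.le)
    split_ifs <;> simp_all) fun e _ => by split_ifs <;> simp
  have l1 := nr_mono (filter_subset (fun e => sl e ≤ θ) E) id
  have l2 := nr_mono (filter_subset (fun e => θ < sl e) E) id
  refine le_trans (le_trans (card_le_card fun e he => ?_) (card_union_le _ _))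
    ((Nat.add_le_add k1 k2).trans (by omega))
  obtain ⟨he1, he2⟩ := mem_filter.1 he
  rcases le_or_gt (sl e) θ with h3 | h3
  · refine mem_union_left _ (mem_filter.2 ⟨mem_filter.2 ⟨he1, h3⟩, ?_⟩)
    split_ifs <;> simp_all
  · refine mem_union_right _ (mem_filter.2 ⟨mem_filter.2 ⟨he1, h3⟩, ?_⟩)
    split_ifs <;> simp_all

/-- A run crosses the boundary of an `Rset` at most eight times: for points of `P` membership is a
Boolean combination of the four upper sets `j + i' + s < lev P a ·`, `j + i' + s < lev P b ·`,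
`j - s ≤ lev P a ·`, `j - s ≤ lev P b ·`; use `card_cut_half` four times. -/
theorem Sys.card_cut_Rset (h : Sys P E id i) (j : ℤ) (i' s : ℕ) (a b : ℝ) :
    #(E.filter fun e => ¬ (e.1 ∈ Rset P j i' s a b ↔ e.2 ∈ Rset P j i' s a b)) ≤ 8 * nr E id := by
  have hl : ∀ (θ : ℝ) (c : ℤ) (p p' : Pt), c ≤ (lev P θ p : ℤ) → f θ p ≤ f θ p' →
      c ≤ (lev P θ p' : ℤ) := fun θ c p p' h1 h2 => h1.trans (Nat.cast_le.2 (card_le_card
        fun z hz => mem_filter.2 ⟨(mem_filter.1 hz).1, (mem_filter.1 hz).2.trans_le h2⟩))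
  have k1 := h.card_cut_half a _ (hl a (j + i' + s + 1))
  have k2 := h.card_cut_half b _ (hl b (j + i' + s + 1))
  have k3 := h.card_cut_half a _ (hl a (j - s))
  have k4 := h.card_cut_half b _ (hl b (j - s))
  refine le_trans (le_trans (card_le_card fun e he => ?_) ((card_union_le _ _).trans
    (Nat.add_le_add (card_union_le _ _) (card_union_le _ _))))
    ((Nat.add_le_add (Nat.add_le_add k1 k2) (Nat.add_le_add k3 k4)).trans (by omega))
  obtain ⟨he1, he2⟩ := mem_filter.1 he
  obtain ⟨m1, m2, -⟩ := mem_pairs.1 (h.sub he1)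
  simp only [Rset, mem_filter, m1, m2, true_and] at he2
  simp only [mem_union, mem_filter, he1, true_and]
  omega

end Crest.Agent.R51
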