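import Crest.Agent.R51.Level

/-! The window lemma: in a calm window everything happens inside the set `Rset`. -/

namespace Crest.Agent.R51

open Finset
open scoped Classical

variable {P : Finset Pt} {j : ℤ} {i s : ℕ} {a b : ℝ}

/-- A set of edges that contains an edge of each of `r` consecutive levels has `r` elements. -/
theorem Window0_card_ge (S : Finset Ed) (x r : ℕ)
    (h : ∀ l, x ≤ l → l < x + r → ∃ e ∈ S, elev P e = l) : r ≤ #S := by
  calc r = #(Finset.Ico x (x + r)) := by simp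
    _ ≤ #(S.image (elev P)) := by
        apply card_le_card
        intro l hl
        rw [mem_Ico] at hl
        obtain ⟨e, he, h2⟩ := h l hl.1 hl.2
        exact mem_image.2 ⟨e, he, h2⟩
    _ ≤ #S := card_image_le

theorem Window0_deg_ge (hP : GP P) {p : Pt} {j' : ℤ} {i' : ℕ} {x r : ℕ} (hx : j' ≤ x)
    (hx' : (x : ℤ) + r ≤ j' + i')
    (h : ∀ l, x ≤ l → l < x + r → ∃ e ∈ pairs P, Inc p e ∧ elev P e = l ∧ a ≤ sl e ∧ sl e ≤ b) :
    r ≤ deg (tm (band P j' i') a b) p + 1 := by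
  have h1 : #((pairs P).filter fun e => sl e = a) ≤ 1 := by
    rw [card_le_one]
    intro e he e' he'
    rw [mem_filter] at he he'
    exact hP.slinj e he.1 e' he'.1 (he.2.trans he'.2.symm)
  have h2 : r ≤ #(((tm (band P j' i') a b).filter (Inc p)) ∪ ((pairs P).filter fun e => sl e = a)) := by
    apply Window0_card_ge (P := P) _ x r
    intro l hl1 hl2
    obtain ⟨e, he, hinc, hl, ha, hb⟩ := h l hl1 hl2
    refine ⟨e, ?_, hl⟩
    rw [mem_union, mem_filter, mem_filter, mem_tm, mem_band]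
    rcases ha.eq_or_lt with h3 | h3
    · exact Or.inr ⟨he, h3.symm⟩
    · refine Or.inl ⟨⟨⟨he, ?_, ?_⟩, h3, hb⟩, hinc⟩
      · rw [hl]; omega
      · rw [hl]; omega
  have h3 := card_union_le ((tm (band P j' i') a b).filter (Inc p))
    ((pairs P).filter fun e => sl e = a)
  unfold deg
  omega

/-- A point that changes its level by a lot has many swaps in a band: if `t ≤ t'` are in `[a, b]` and
the levels of `p` at these times are on different sides of `r` consecutive levels `x, …, x + r - 1` of the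
band, then `p` has at least `r - 1` swaps in `tm (band P j' i') a b` (`lev_down`, `lev_up`; only one swap can
happen at the time `a`; different levels give different edges). -/
theorem GP.deg_ge (hP : GP P) {p : Pt} (hp : p ∈ P) {j' : ℤ} {i' : ℕ} {t t' : ℝ} (h1 : a ≤ t)
    (h2 : t ≤ t') (h3 : t' ≤ b) {x : ℤ} {r : ℕ} (hx : j' ≤ x) (hx' : x + r ≤ j' + i')
    (h : ((lev P t p : ℤ) ≤ x ∧ x + r ≤ lev P t' p) ∨ ((lev P t' p : ℤ) ≤ x ∧ x + r ≤ lev P t p)) :
    r ≤ deg (tm (band P j' i') a b) p + 1 := by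
  rcases h with ⟨h4, h5⟩ | ⟨h4, h5⟩
  · obtain ⟨y, rfl⟩ : ∃ y : ℕ, x = y := ⟨x.toNat, by omega⟩
    apply Window0_deg_ge hP hx hx'
    intro l hl1 hl2
    obtain ⟨e, he, h6, h7, h8, h9⟩ := hP.lev_up hp h2 (l := l) (by omega) (by omega)
    exact ⟨e, he, Or.inl h6, h7, by linarith, by linarith⟩
  · obtain ⟨y, rfl⟩ : ∃ y : ℕ, x = y := ⟨x.toNat, by omega⟩
    apply Window0_deg_ge hP hx hx'
    intro l hl1 hl2
    obtain ⟨e, he, h6, h7, h8, h9⟩ := hP.lev_down hp h2 (l := l) (by omega) (by omega)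
    exact ⟨e, he, Or.inr h6, h7, by linarith, by linarith⟩

/-- `deg_ge` for two times in any order. -/
theorem Window0_deg_ge' (hP : GP P) {p : Pt} (hp : p ∈ P) {j' : ℤ} {i' : ℕ} {t t' : ℝ} (h1 : a ≤ t)
    (h2 : t ≤ b) (h1' : a ≤ t') (h2' : t' ≤ b) {x : ℤ} {r : ℕ} (hx : j' ≤ x) (hx' : x + r ≤ j' + i')
    (h : (lev P t p : ℤ) ≤ x) (h' : x + r ≤ lev P t' p) :
    r ≤ deg (tm (band P j' i') a b) p + 1 := by
  rcases le_total t t' with h3 | h3
  · exact hP.deg_ge hp h1 h3 h2' hx hx' (Or.inl ⟨h, h'⟩)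
  · exact hP.deg_ge hp h1' h3 h2 hx hx' (Or.inr ⟨h, h'⟩)

/-- Many points of large degree force many edges. -/
theorem Window0_mul_le (E : Finset Ed) (Y : Finset Pt) (d : ℕ) (h : ∀ p ∈ Y, d ≤ deg E p) :
    #Y * d ≤ 2 * #E := by
  calc #Y * d = ∑ _p ∈ Y, d := by simp
    _ ≤ ∑ p ∈ Y, deg E p := sum_le_sum h
    _ ≤ 2 * #(inc E Y) := sum_deg_le E Y
    _ ≤ 2 * #E := Nat.mul_le_mul_left _ (card_le_card (inc_subset E Y))

/-- The set `Rset` is small.  A point of it has its level at `a` or at `b` in `[j - s, j + i + s]` (at most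
`2 (i + 2 s + 2)` points by `card_lev`) or it crosses all these levels and has at least `2 s` swaps in the
wide band (`deg_ge`); by `sum_deg_le` and `Calm` there are at most `s / 100` such points. -/
theorem GP.card_Rset (hP : GP P) (hab : a ≤ b) (hi : i ≤ s) (hs : 10 ≤ s) (hc : Calm P j i s a b) :
    #(Rset P j i s a b) ≤ 10 * s := by
  set A := P.filter fun p => j - s ≤ (lev P a p : ℤ) ∧
    (lev P a p : ℤ) < j - s + (i + 2 * s + 1 : ℕ) with hA
  set B := P.filter fun p => j - s ≤ (lev P b p : ℤ) ∧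
    (lev P b p : ℤ) < j - s + (i + 2 * s + 1 : ℕ) with hB
  set E := tm (band P (j - 2 * s) (i + 4 * s)) a b with hE
  set Y := P.filter fun p => 2 * s ≤ deg E p with hY
  have hA' : #A ≤ i + 2 * s + 1 + 1 := hP.card_lev a _ _
  have hB' : #B ≤ i + 2 * s + 1 + 1 := hP.card_lev b _ _
  have hY' : #Y * (2 * s) ≤ 2 * #E := Window0_mul_le E Y _ fun p hp => (mem_filter.1 hp).2
  have hc' : 100 * #E ≤ s ^ 2 := hc
  have hY'' : #Y ≤ s := by
    by_contra hh
    push Not at hh
    nlinarith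
  have hsub : Rset P j i s a b ⊆ A ∪ B ∪ Y := by
    intro p hp
    unfold Rset at hp
    rw [mem_filter] at hp
    obtain ⟨hp, h1, h2⟩ := hp
    rw [mem_union, mem_union, hA, hB, hY, mem_filter, mem_filter, mem_filter]
    by_cases h3 : j - s ≤ (lev P a p : ℤ) ∧ (lev P a p : ℤ) < j - s + (i + 2 * s + 1 : ℕ)
    · exact Or.inl (Or.inl ⟨hp, h3⟩)
    by_cases h4 : j - s ≤ (lev P b p : ℤ) ∧ (lev P b p : ℤ) < j - s + (i + 2 * s + 1 : ℕ)
    · exact Or.inl (Or.inr ⟨hp, h4⟩)
    refine Or.inr ⟨hp, ?_⟩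
    have h5 := hP.deg_ge hp (j' := j - 2 * s) (i' := i + 4 * s) (a := a) (b := b) le_rfl hab le_rfl
      (x := j - s - 1) (r := i + 2 * s + 2) (by omega) (by push_cast; omega)
      (by push_cast at h3 h4 ⊢; omega)
    rw [← hE] at h5
    omega
  have h1 := card_le_card hsub
  have h2 := card_union_le (A ∪ B) Y
  have h3 := card_union_le A B
  omega

/-- The slope of `(z, w)` lies between the slopes of `(z, p)` and `(p, w)`. -/
theorem Window0_sl_mem {z p w : Pt} (h1 : z.1 < p.1) (h2 : p.1 < w.1) (ha : a < sl (z, p))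
    (hb : sl (z, p) ≤ b) (ha' : a < sl (p, w)) (hb' : sl (p, w) ≤ b) :
    a < sl (z, w) ∧ sl (z, w) ≤ b := by
  have h3 : z.1 < w.1 := h1.trans h2
  constructor
  · rw [← f_lt_iff (z, w) h3]
    exact ((f_lt_iff (z, p) h1 a).2 ha).trans ((f_lt_iff (p, w) h2 a).2 ha')
  · rw [← f_ge_iff (z, w) h3]
    exact ((f_ge_iff (p, w) h2 b).2 hb').trans ((f_ge_iff (z, p) h1 b).2 hb)

/-- In a calm window a point cannot move both down and up through many levels near the band. -/
theorem Window0_core (hP : GP P) (hs : 10 ≤ s) (hc : Calm P j i s a b) {p : Pt} {x : ℕ}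
    (hx : j - s ≤ x) (hx' : (x : ℤ) + (s - 1) ≤ j + i + s + 1)
    (hd : ∀ l, x ≤ l → l < x + (s - 1) →
      ∃ e ∈ pairs P, e.2 = p ∧ elev P e = l ∧ a < sl e ∧ sl e ≤ b)
    (hu : ∀ l, x ≤ l → l < x + (s - 1) →
      ∃ e ∈ pairs P, e.1 = p ∧ elev P e = l ∧ a < sl e ∧ sl e ≤ b) : False := by
  set E := tm (band P (j - 2 * s) (i + 4 * s)) a b with hE
  set SZ := (pairs P).filter fun e => e.2 = p ∧ j - s ≤ (elev P e : ℤ) ∧
    (elev P e : ℤ) ≤ j + i + s ∧ a < sl e ∧ sl e ≤ b with hSZ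
  set SW := (pairs P).filter fun e => e.1 = p ∧ a < sl e ∧ sl e ≤ b with hSW
  have hZ : s - 1 ≤ #SZ := by
    apply Window0_card_ge (P := P) _ x
    intro l hl1 hl2
    obtain ⟨e, he, h1, h2, h3, h4⟩ := hd l hl1 hl2
    refine ⟨e, mem_filter.2 ⟨he, h1, ?_, ?_, h3, h4⟩, h2⟩
    · rw [h2]; omega
    · rw [h2]; omega
  have hW : s - 1 ≤ #SW := by
    apply Window0_card_ge (P := P) _ x
    intro l hl1 hl2
    obtain ⟨e, he, h1, h2, h3, h4⟩ := hu l hl1 hl2
    exact ⟨e, mem_filter.2 ⟨he, h1, h3, h4⟩, h2⟩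
  have hZ' : #(SZ.image Prod.fst) = #SZ := by
    apply card_image_of_injOn
    intro e he e' he' h
    have h1 := (mem_filter.1 (mem_coe.1 he)).2.1
    have h2 := (mem_filter.1 (mem_coe.1 he')).2.1
    exact Prod.ext h (h1.trans h2.symm)
  have hdeg : ∀ z ∈ SZ.image Prod.fst, s - 1 ≤ deg E z := by
    intro z hz
    obtain ⟨e, he, rfl⟩ := mem_image.1 hz
    obtain ⟨hep, h1, h2, h3, h4, h5⟩ := mem_filter.1 he
    obtain ⟨z, p'⟩ := e
    obtain rfl : p' = p := h1
    have hz : z ∈ P ∧ p' ∈ P ∧ z.1 < p'.1 := mem_pairs.1 hep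
    have key : ∀ e' ∈ SW, (z, e'.2) ∈ pairs P ∧ a < sl (z, e'.2) ∧ sl (z, e'.2) ≤ b := by
      intro e' he'
      obtain ⟨hep', h6, h7, h8⟩ := mem_filter.1 he'
      obtain ⟨p'', w⟩ := e'
      obtain rfl : p'' = p' := h6
      have hw := mem_pairs.1 hep'
      exact ⟨mem_pairs.2 ⟨hz.1, hw.2.1, hz.2.2.trans hw.2.2⟩,
        Window0_sl_mem hz.2.2 hw.2.2 h4 h5 h7 h8⟩
    by_cases hall : ∀ e' ∈ SW, (z, e'.2) ∈ band P (j - 2 * s) (i + 4 * s)
    · refine hW.trans ?_
      unfold deg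
      apply card_le_card_of_injOn (fun e' : Ed => ((z, e'.2) : Ed))
      · intro e' he'
        have he'' := mem_coe.1 he'
        exact mem_coe.2 (mem_filter.2 ⟨mem_tm.2 ⟨hall e' he'', (key e' he'').2⟩, Or.inl rfl⟩)
      · intro e₁ he₁ e₂ he₂ h
        have h6 := (mem_filter.1 (mem_coe.1 he₁)).2.1
        have h7 := (mem_filter.1 (mem_coe.1 he₂)).2.1
        exact Prod.ext (h6.trans h7.symm) (Prod.ext_iff.1 h).2
    · push Not at hall
      obtain ⟨e', he', hne⟩ := hall
      obtain ⟨k1, k2, k3⟩ := key e' he'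
      rw [mem_band] at hne
      have hl1 : elev P (z, p') = lev P (sl (z, p')) z := rfl
      have hl2 : elev P (z, e'.2) = lev P (sl (z, e'.2)) z := rfl
      by_cases hlow : (elev P (z, e'.2) : ℤ) < j - 2 * s
      · have h6 := Window0_deg_ge' hP hz.1 (j' := j - 2 * s) (i' := i + 4 * s) k2.le k3 h4.le h5
          (x := j - 2 * s) (r := s) le_rfl (by push_cast; omega) (by rw [← hl2]; omega)
          (by rw [← hl1]; omega)
        rw [← hE] at h6
        show s - 1 ≤ deg E z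
        omega
      · have hhigh : j - 2 * s + (i + 4 * s : ℕ) ≤ (elev P (z, e'.2) : ℤ) := by
          by_contra hh
          exact hne ⟨k1, not_lt.1 hlow, not_le.1 hh⟩
        push_cast at hhigh
        have h6 := Window0_deg_ge' hP hz.1 (j' := j - 2 * s) (i' := i + 4 * s) h4.le h5 k2.le k3
          (x := elev P (z, p')) (r := s) (by omega) (by push_cast; omega) (by rw [← hl1])
          (by rw [← hl2]; omega)
        rw [← hE] at h6
        show s - 1 ≤ deg E z
        omega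
  have h1 := Window0_mul_le E _ _ hdeg
  rw [hZ'] at h1
  have h2 : (s - 1) * (s - 1) ≤ 2 * #E := (Nat.mul_le_mul_right _ hZ).trans h1
  have hc' : 100 * #E ≤ s ^ 2 := hc
  obtain ⟨u, rfl⟩ : ∃ u, s = u + 1 := ⟨s - 1, by omega⟩
  rw [Nat.add_sub_cancel] at h2
  nlinarith

/-- A point that is high at both ends of a calm window stays above the band.
Proof: otherwise `lev θ p ≤ j + i` for some `θ`.  For each level `l ∈ [j + i, j + i + s]`, `lev_down` on `[a, θ]`
gives an edge `(z l, p)` and `lev_up` on `[θ, b]` an edge `(p, w l)`.  The slope of `(z l, w l')` lies between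
`sl (z l, p)` and `sl (p, w l')`.  Every `z l` has at least `s - 1` swaps in the wide band during `(a, b]`:
either all `(z l, w l')` are in the wide band, or at the time of one of them the level of `z l` is
outside the wide band, and `deg_ge` applies to the times `sl (z l, p)` (level `l`) and that time.  So
`(s + 1) (s - 1) ≤ 2 #swaps ≤ s ^ 2 / 50` (`sum_deg_le`), absurd. -/
theorem GP.above (hP : GP P) (hs : 10 ≤ s) (hc : Calm P j i s a b) {p : Pt} (hp : p ∈ P)
    (h1 : j + i + s < (lev P a p : ℤ)) (h2 : j + i + s < (lev P b p : ℤ)) {θ : ℝ} (ha : a ≤ θ)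
    (hb : θ ≤ b) : j + i < (lev P θ p : ℤ) := by
  by_contra hh
  push Not at hh
  obtain ⟨x, hx⟩ : ∃ x : ℕ, j + i = x := ⟨(j + i).toNat, by omega⟩
  refine Window0_core hP hs hc (p := p) (x := x) (by omega) (by omega) ?_ ?_
  · intro l hl1 hl2
    obtain ⟨e, he, h3, h4, h5, h6⟩ := hP.lev_down hp ha (l := l) (by omega) (by omega)
    exact ⟨e, he, h3, h4, h5, h6.trans hb⟩
  · intro l hl1 hl2
    obtain ⟨e, he, h3, h4, h5, h6⟩ := hP.lev_up hp hb (l := l) (by omega) (by omega)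
    refine ⟨e, he, h3, h4, lt_of_le_of_ne (ha.trans h5) fun h7 => ?_, h6.le⟩
    unfold elev at h4
    rw [← h7, h3] at h4
    omega

/-- A point that is low at both ends of a calm window stays below the band.
Proof: otherwise `j - 1 ≤ lev θ p` (`card_tie`).  For each level `l ∈ [j - s, j - 2]`, `lev_up` on `[a, θ]` gives
`(p, w l)` (its time is not `a`, as `l ≠ lev a p`) and `lev_down` on `[θ, b]` gives `(z l, p)`.  As in `above`, every
`z l` has at least `s - 1` swaps in the wide band (`deg_ge` with `r = s`, between the time of `(z l, w l')` and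
the later time `sl (z l, p)`), so `(s - 1) ^ 2 ≤ s ^ 2 / 50`. -/
theorem GP.below (hP : GP P) (hs : 10 ≤ s) (hc : Calm P j i s a b) {p : Pt} (hp : p ∈ P)
    (h1 : (lev P a p : ℤ) < j - s) (h2 : (lev P b p : ℤ) < j - s) {θ : ℝ} (ha : a ≤ θ)
    (hb : θ ≤ b) : (#(P.filter fun z => f θ z ≤ f θ p) : ℤ) ≤ j := by
  by_contra hh
  push Not at hh
  have h3 : #(P.filter fun z => f θ z ≤ f θ p) ≤ lev P θ p + 2 := by
    have h4 : (P.filter fun z => f θ z ≤ f θ p) ⊆
        (P.filter fun z => f θ z < f θ p) ∪ (P.filter fun z => f θ z = f θ p) := by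
      intro z hz
      rw [mem_filter] at hz
      rw [mem_union, mem_filter, mem_filter]
      exact hz.2.lt_or_eq.imp (fun h => ⟨hz.1, h⟩) fun h => ⟨hz.1, h⟩
    have h5 := (card_le_card h4).trans (card_union_le _ _)
    have h6 := hP.card_tie θ (f θ p)
    unfold lev
    omega
  obtain ⟨x, hx⟩ : ∃ x : ℕ, j - s = x := ⟨(j - s).toNat, by omega⟩
  refine Window0_core hP hs hc (p := p) (x := x) (by omega) (by omega) ?_ ?_
  · intro l hl1 hl2
    obtain ⟨e, he, h4, h5, h6, h7⟩ := hP.lev_down hp hb (l := l) (by omega) (by omega)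
    exact ⟨e, he, h4, h5, ha.trans_lt h6, h7⟩
  · intro l hl1 hl2
    obtain ⟨e, he, h4, h5, h6, h7⟩ := hP.lev_up hp ha (l := l) (by omega) (by omega)
    refine ⟨e, he, h4, h5, lt_of_le_of_ne h6 fun h8 => ?_, h7.le.trans hb⟩
    unfold elev at h5
    rw [← h8, h4] at h5
    omega

end Crest.Agent.R51
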