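import Crest.Agent.R51.Level
import Crest.Agent.R51.Window0

/-! The window lemma: in a calm window everything happens inside the set `Rset`. -/

namespace Crest.Agent.R51

open Finset
open scoped Classical

variable {P : Finset Pt} {j : ℤ} {i s : ℕ} {a b : ℝ}

theorem Window_lev_succ_le {p : Pt} (hp : p ∈ P) (θ : ℝ) :
    lev P θ p + 1 ≤ #(P.filter fun z => f θ z ≤ f θ p) := by
  unfold lev
  apply card_lt_card
  refine ⟨fun z hz => ?_, fun h => ?_⟩
  · rw [mem_filter] at hz ⊢
    exact ⟨hz.1, hz.2.le⟩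
  · have := h (mem_filter.2 ⟨hp, le_rfl⟩)
    exact lt_irrefl _ (mem_filter.1 this).2

theorem Window_mem_Rset (hP : GP P) (hs : 10 ≤ s) (hc : Calm P j i s a b) {p : Pt} (hp : p ∈ P)
    {θ : ℝ} (ha : a ≤ θ) (hb : θ ≤ b) (h1 : j ≤ (lev P θ p : ℤ)) (h2 : (lev P θ p : ℤ) < j + i) :
    p ∈ Rset P j i s a b := by
  unfold Rset
  rw [mem_filter]
  refine ⟨hp, fun h => ?_, fun h => ?_⟩
  · have := hP.above hs hc hp h.1 h.2 ha hb
    omega
  · have h3 := hP.below hs hc hp h.1 h.2 ha hb
    have h4 := Window_lev_succ_le hp θ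
    omega

/-- The ends of the edges of the band in a calm window are in `Rset` (`above`, `below`; both ends of `e`
have level `elev e` at the time `sl e`, and at least `elev e + 2` points are weakly below them). -/
theorem GP.mem_Rset (hP : GP P) (hs : 10 ≤ s) (hc : Calm P j i s a b) {e : Ed}
    (he : e ∈ tm (band P j i) a b) : e.1 ∈ Rset P j i s a b ∧ e.2 ∈ Rset P j i s a b := by
  rw [mem_tm, mem_band] at he
  obtain ⟨⟨he, h1, h2⟩, h3, h4⟩ := he
  have hp := mem_pairs.1 he
  refine ⟨Window_mem_Rset hP hs hc hp.1 h3.le h4 h1 h2, ?_⟩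
  rw [elev_eq_snd he] at h1 h2
  exact Window_mem_Rset hP hs hc hp.2.1 h3.le h4 h1 h2

/-- The levels in `P` and in `Rset` are in the band simultaneously. -/
theorem Window_lev_iff (hP : GP P) (hs : 10 ≤ s) (hc : Calm P j i s a b) {p : Pt}
    (hp : p ∈ Rset P j i s a b) {θ : ℝ} (ha : a ≤ θ) (hb : θ ≤ b) {L : ℕ}
    (hL : L = #(P.filter fun z => (lev P a z : ℤ) < j - s ∧ (lev P b z : ℤ) < j - s)) :
    (j ≤ (lev P θ p : ℤ) ∧ (lev P θ p : ℤ) < j + i) ↔
      (j - L ≤ (lev (Rset P j i s a b) θ p : ℤ) ∧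
        (lev (Rset P j i s a b) θ p : ℤ) < j - L + i) := by
  set R := Rset P j i s a b with hR
  set Lo := P.filter fun z => (lev P a z : ℤ) < j - s ∧ (lev P b z : ℤ) < j - s with hLo
  set Hi := P.filter fun z => j + i + s < (lev P a z : ℤ) ∧ j + i + s < (lev P b z : ℤ) with hHi
  have hRP : R ⊆ P := filter_subset _ _
  have hLP : Lo ⊆ P := filter_subset _ _
  have hcov : ∀ z ∈ P, z ∉ Hi → z ∉ Lo → z ∈ R := by
    intro z hz h1 h2
    exact mem_filter.2 ⟨hz, fun h => h1 (mem_filter.2 ⟨hz, h⟩), fun h => h2 (mem_filter.2 ⟨hz, h⟩)⟩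
  have hdis : ∀ z ∈ R, z ∉ Lo := fun z hz h => (mem_filter.1 hz).2.2 (mem_filter.1 h).2
  have hdis' : Disjoint (R.filter fun z => f θ z < f θ p) Lo :=
    disjoint_left.2 fun z hz => hdis z (mem_filter.1 hz).1
  have hun : #((R.filter fun z => f θ z < f θ p) ∪ Lo) = lev R θ p + L := by
    rw [card_union_of_disjoint hdis', hL]
    rfl
  by_cases h1 : ∃ z ∈ Hi, f θ z < f θ p
  · obtain ⟨z₀, hz₀, h2⟩ := h1
    obtain ⟨z, hz, hmin⟩ := exists_min_image Hi (f θ) ⟨z₀, hz₀⟩
    have h3 : f θ z < f θ p := (hmin z₀ hz₀).trans_lt h2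
    have hz' := mem_filter.1 hz
    have h4 := hP.above hs hc hz'.1 hz'.2.1 hz'.2.2 ha hb
    have h5 := lev_mono P θ h3.le
    have h6 : lev P θ z ≤ lev R θ p + L := by
      rw [← hun]
      apply card_le_card
      intro w hw
      rw [mem_filter] at hw
      rw [mem_union, mem_filter]
      by_cases h7 : w ∈ Lo
      · exact Or.inr h7
      · exact Or.inl ⟨hcov w hw.1 (fun h => absurd (hmin w h) (not_le.2 hw.2)) h7, hw.2.trans h3⟩
    omega
  by_cases h2 : ∃ z ∈ Lo, f θ p ≤ f θ z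
  · obtain ⟨z₀, hz₀, h3⟩ := h2
    obtain ⟨z, hz, hmax⟩ := exists_max_image Lo (f θ) ⟨z₀, hz₀⟩
    have h4 : f θ p ≤ f θ z := h3.trans (hmax z₀ hz₀)
    have hz' := mem_filter.1 hz
    have h5 := hP.below hs hc hz'.1 hz'.2.1 hz'.2.2 ha hb
    have h6 : lev P θ p + 1 ≤ #(P.filter fun w => f θ w ≤ f θ z) := by
      refine (Window_lev_succ_le (hRP hp) θ).trans (card_le_card fun w hw => ?_)
      rw [mem_filter] at hw ⊢
      exact ⟨hw.1, hw.2.trans h4⟩
    have h7 : lev R θ p + L + 1 ≤ #(P.filter fun w => f θ w ≤ f θ z) := by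
      rw [← hun]
      apply card_lt_card
      refine ⟨fun w hw => ?_, fun h => ?_⟩
      · rw [mem_union, mem_filter] at hw
        rw [mem_filter]
        rcases hw with hw | hw
        · exact ⟨hRP hw.1, hw.2.le.trans h4⟩
        · exact ⟨hLP hw, hmax w hw⟩
      · have h8 := h (mem_filter.2 ⟨hRP hp, h4⟩)
        rw [mem_union, mem_filter] at h8
        rcases h8 with h8 | h8
        · exact lt_irrefl _ h8.2
        · exact hdis p hp h8
    omega
  · push Not at h1 h2
    have h3 : lev P θ p = lev R θ p + L := by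
      rw [← hun]
      unfold lev
      congr 1
      ext w
      rw [mem_union, mem_filter, mem_filter]
      constructor
      · rintro ⟨hw, h4⟩
        by_cases h7 : w ∈ Lo
        · exact Or.inr h7
        · exact Or.inl ⟨hcov w hw (fun h => absurd (h1 w h) (not_le.2 h4)) h7, h4⟩
      · rintro (⟨hw, h4⟩ | hw)
        · exact ⟨hRP hw, h4⟩
        · exact ⟨hLP hw, h2 w hw⟩
    omega

/-- In a calm window the band of `P` is a band of `Rset`.
Proof: `j' = j - #Lo`, where `Lo` (`Hi`) is the set of points low (high) at both ends; `P` is the union of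
`R`, `Lo`, `Hi` (`Lo` and `Hi` are disjoint).  Let `e ∈ pairs R`, `θ = sl e ∈ (a, b]`.  If no point of `Hi` is strictly below
`e.1` and all points of `Lo` are strictly below, `elev P e = elev R e + #Lo`.  If some `z ∈ Hi` is strictly below
(take the lowest point `z` of `Hi`; the more than `j + i` points below it are in `R ∪ Lo`, those in `R` are
below `e.1`) both `elev P e` and `elev R e + #Lo` are `≥ j + i`.  If some point of `Lo` is not strictly below (take
the highest point `z` of `Lo`; all of `Lo`, the points of `R` below `e.1`, and `e.1`, `e.2` are weakly below `z`)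
both are `< j`. -/
theorem GP.band_Rset (hP : GP P) (hs : 10 ≤ s) (hc : Calm P j i s a b) :
    ∃ j' : ℤ, tm (band P j i) a b = tm (band (Rset P j i s a b) j' i) a b := by
  refine ⟨j - #(P.filter fun z => (lev P a z : ℤ) < j - s ∧ (lev P b z : ℤ) < j - s), ?_⟩
  have hRP : Rset P j i s a b ⊆ P := filter_subset _ _
  ext e
  constructor
  · intro he
    have h1 := hP.mem_Rset hs hc he
    rw [mem_tm, mem_band] at he ⊢
    obtain ⟨⟨he, h2⟩, h3, h4⟩ := he
    exact ⟨⟨mem_pairs.2 ⟨h1.1, h1.2, (mem_pairs.1 he).2.2⟩,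
      (Window_lev_iff hP hs hc h1.1 h3.le h4 rfl).1 h2⟩, h3, h4⟩
  · intro he
    rw [mem_tm, mem_band] at he ⊢
    obtain ⟨⟨he, h2⟩, h3, h4⟩ := he
    exact ⟨⟨pairs_mono hRP he,
      (Window_lev_iff hP hs hc (mem_pairs.1 he).1 h3.le h4 rfl).2 h2⟩, h3, h4⟩

end Crest.Agent.R51
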