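import Crest.Agent.R51.Chains
import Crest.Agent.R51.Part
import Crest.Agent.R51.Window
import Crest.Agent.R51.Sys2
import Crest.Agent.R51.Refine

/-! Dey's bound and its consequences. -/

namespace Crest.Agent.R51

open Finset
open scoped Classical

/-- A finite set of edges lies in one time window. -/
theorem exists_tm_eq (E : Finset Ed) : ∃ a b : ℝ, a ≤ b ∧ tm E a b = E := by
  refine ⟨-(∑ e ∈ E, |sl e|) - 1, ∑ e ∈ E, |sl e|, ?_, ?_⟩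
  · have : 0 ≤ ∑ e ∈ E, |sl e| := sum_nonneg fun e _ => abs_nonneg _
    linarith
  · refine Subset.antisymm (tm_subset _ _ _) fun e he => mem_tm.2 ⟨he, ?_, ?_⟩
    · have h1 : |sl e| ≤ ∑ e ∈ E, |sl e| :=
        single_le_sum (f := fun e => |sl e|) (fun e _ => abs_nonneg _) he
      linarith [neg_abs_le (sl e)]
    · have h1 : |sl e| ≤ ∑ e ∈ E, |sl e| :=
        single_le_sum (f := fun e => |sl e|) (fun e _ => abs_nonneg _) he
      linarith [le_abs_self (sl e)]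

/-- Dey's bound: `exists_chains`, `Sys.card_le` with `Ω = P`, `nr ≤ i #P`, `lam = κ`. -/
theorem GP.dey {P : Finset Pt} (hP : GP P) (j : ℤ) {i : ℕ} (hi : 1 ≤ i) {κ : ℝ} (hκ : 0 < κ)
    (hn : (#P : ℝ) ≤ i * κ ^ 3) : (#(band P j i) : ℝ) ≤ 600 * (i ^ 2 * κ ^ 4) := by
  obtain ⟨id, hS, hnr⟩ := hP.exists_chains j i
  obtain ⟨a, b, -, hab⟩ := exists_tm_eq (band P j i)
  have hΩ : ∀ e ∈ band P j i, e.1 ∈ P ∧ e.2 ∈ P := fun e he =>
    ⟨(mem_pairs.1 (band_subset P j i he)).1, (mem_pairs.1 (band_subset P j i he)).2.1⟩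
  have h1 := hnr a b P (by rw [hab]; exact fun e he => (hΩ e he).1)
  rw [hab] at h1
  have h1' : (nr (band P j i) id : ℝ) ≤ i * #P := by exact_mod_cast h1
  have h2 := hS.card_le hi P hΩ hκ
  have hi' : (0 : ℝ) < i := by exact_mod_cast hi
  have hP0 : (0 : ℝ) ≤ #P := Nat.cast_nonneg _
  have h3 : κ * (i * #P + nr (band P j i) id) ≤ 2 * (i ^ 2 * κ ^ 4) := by
    calc κ * (i * #P + nr (band P j i) id) ≤ κ * (i * (i * κ ^ 3) + i * (i * κ ^ 3)) := by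
          gcongr
          exact h1'.trans (by gcongr)
      _ = _ := by ring
  have h4 : (#P : ℝ) * #P / κ ^ 2 ≤ i ^ 2 * κ ^ 4 := by
    rw [div_le_iff₀ (by positivity)]
    calc (#P : ℝ) * #P ≤ (i * κ ^ 3) * (i * κ ^ 3) := by gcongr
      _ = _ := by ring
  linarith

theorem sw_bounds {g i m : ℕ} {κ : ℝ} (hg : 1 ≤ g) (hi : 1 ≤ i) (hm : 1 ≤ m)
    (hκ : 3 * (m : ℝ) ≤ κ) :
    i ≤ sw g i m κ ∧ 10 ≤ sw g i m κ ∧ (g : ℝ) ^ 3 * (i * κ ^ 3) / m ^ 3 ≤ sw g i m κ ∧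
      (sw g i m κ : ℝ) ≤ 2 * ((g : ℝ) ^ 3 * (i * κ ^ 3) / m ^ 3) := by
  have hg' : (1 : ℝ) ≤ g := by exact_mod_cast hg
  have hi' : (1 : ℝ) ≤ i := by exact_mod_cast hi
  have hm' : (1 : ℝ) ≤ m := by exact_mod_cast hm
  obtain ⟨x, hx⟩ : ∃ x : ℝ, x = (g : ℝ) ^ 3 * (i * κ ^ 3) / m ^ 3 := ⟨_, rfl⟩
  have h27 : 27 * (i : ℝ) ≤ x := by
    rw [hx, le_div_iff₀ (by positivity)]
    have h1 : (3 * (m : ℝ)) ^ 3 ≤ κ ^ 3 := by gcongr
    have h2 : (1 : ℝ) ≤ (g : ℝ) ^ 3 := one_le_pow₀ hg'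
    have h3 : 0 ≤ (i : ℝ) * κ ^ 3 := by
      have : 0 ≤ κ := by linarith
      positivity
    calc 27 * (i : ℝ) * m ^ 3 = i * (3 * (m : ℝ)) ^ 3 := by ring
      _ ≤ i * κ ^ 3 := by gcongr
      _ ≤ _ := by nlinarith
  unfold sw
  rw [← hx]
  have h1 : x ≤ ⌈x⌉₊ := Nat.le_ceil x
  have h2 : (⌈x⌉₊ : ℝ) < x + 1 := Nat.ceil_lt_add_one (by linarith)
  refine ⟨?_, ?_, h1, by linarith⟩
  · have : (i : ℝ) ≤ ⌈x⌉₊ := by linarith
    exact_mod_cast this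
  · have : ((10 : ℕ) : ℝ) ≤ ⌈x⌉₊ := by push_cast; linarith
    exact_mod_cast this

/-- Most windows are calm.  Let `s = sw g i m κ`; the wide band has `i + 4 s ≤ 5 s` levels and
`#P ≤ (i + 4 s) (m / g) ^ 3`, so by `dey` with `κ' = m / g` it has at most `600 · 25 s ^ 2 (m / g) ^ 4` edges; every
window that is not calm contains more than `s ^ 2 / 100` of them (`sum_card_tm_le`). -/
theorem GP.card_not_calm {P : Finset Pt} (hP : GP P) (j : ℤ) {g i m : ℕ} {κ : ℝ} (hg : 1 ≤ g)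
    (hi : 1 ≤ i) (hm : 1 ≤ m) (hκ : 3 * (m : ℝ) ≤ κ) (hn : (#P : ℝ) ≤ i * κ ^ 3) {B : ℕ → ℝ}
    (hB : Monotone B) (Ks : Finset ℕ) :
    (#(Ks.filter fun k => ¬ Calm P j i (sw g i m κ) (B k) (B (k + 1))) : ℝ) ≤
      2000000 * m ^ 4 / g ^ 4 := by
  obtain ⟨h1, h2, h3, -⟩ := sw_bounds hg hi hm hκ
  obtain ⟨s, hs⟩ : ∃ s, s = sw g i m κ := ⟨_, rfl⟩
  rw [← hs] at h1 h2 h3 ⊢
  have hg' : (1 : ℝ) ≤ g := by exact_mod_cast hg
  have hm' : (1 : ℝ) ≤ m := by exact_mod_cast hm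
  have hs' : (10 : ℝ) ≤ s := by exact_mod_cast h2
  have his : (i : ℝ) ≤ s := by exact_mod_cast h1
  have hi0 : (0 : ℝ) ≤ i := Nat.cast_nonneg _
  have hP' : (#P : ℝ) ≤ ((i + 4 * s : ℕ) : ℝ) * ((m : ℝ) / g) ^ 3 := by
    refine hn.trans ?_
    rw [div_le_iff₀ (by positivity)] at h3
    rw [div_pow, ← mul_div_assoc, le_div_iff₀ (by positivity)]
    push_cast
    have : 0 ≤ (m : ℝ) ^ 3 := by positivity
    nlinarith
  have hd := hP.dey (j - 2 * s) (i := i + 4 * s) (by omega) (κ := (m : ℝ) / g) (by positivity) hP'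
  have hd2 : (#(band P (j - 2 * s) (i + 4 * s)) : ℝ) ≤ 15000 * (s ^ 2 * ((m : ℝ) / g) ^ 4) := by
    refine hd.trans ?_
    have h5 : (((i + 4 * s : ℕ) : ℝ)) ≤ 5 * s := by push_cast; linarith
    calc 600 * (((i + 4 * s : ℕ) : ℝ) ^ 2 * ((m : ℝ) / g) ^ 4)
        ≤ 600 * ((5 * s) ^ 2 * ((m : ℝ) / g) ^ 4) := by gcongr
      _ = _ := by ring
  obtain ⟨F, hF⟩ : ∃ F, F = Ks.filter fun k => ¬ Calm P j i s (B k) (B (k + 1)) := ⟨_, rfl⟩
  rw [← hF]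
  have hsum := sum_card_tm_le (band P (j - 2 * s) (i + 4 * s)) B (fun k => B (k + 1)) F
    fun k _ k' _ h => hB h
  have hlow : #F * s ^ 2 ≤ 100 * ∑ k ∈ F, #(tm (band P (j - 2 * s) (i + 4 * s)) (B k) (B (k + 1))) := by
    rw [mul_sum, ← smul_eq_mul, ← sum_const]
    refine sum_le_sum fun k hk => ?_
    rw [hF] at hk
    exact (not_le.1 (mem_filter.1 hk).2).le
  have h6 : #F * s ^ 2 ≤ 100 * #(band P (j - 2 * s) (i + 4 * s)) :=
    hlow.trans (Nat.mul_le_mul_left _ hsum)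
  have h7 : (#F : ℝ) * s ^ 2 ≤ 100 * #(band P (j - 2 * s) (i + 4 * s)) := by exact_mod_cast h6
  have h8 : (#F : ℝ) * s ^ 2 ≤ (2000000 * m ^ 4 / g ^ 4) * s ^ 2 := by
    have : (2000000 * (m : ℝ) ^ 4 / g ^ 4) * s ^ 2 = 2000000 * (s ^ 2 * ((m : ℝ) / g) ^ 4) := by
      rw [div_pow]; ring
    rw [this]
    have : 0 ≤ (s : ℝ) ^ 2 * ((m : ℝ) / g) ^ 4 := by positivity
    linarith
  exact le_of_mul_le_mul_right h8 (by positivity)

/-- A time grid all of whose windows are calm: `exists_tm_eq`, `exists_split` for the wide band `Ew` with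
`K = ⌈200 #Ew / s ^ 2⌉ + 1` windows (each has at most `s ^ 2 / 200 + 1 ≤ s ^ 2 / 100` edges); the band is a
subset of the wide band. -/
theorem GP.exists_calm_grid {P : Finset Pt} (hP : GP P) (j : ℤ) (i : ℕ) {s : ℕ} (hs : 15 ≤ s) :
    ∃ (K : ℕ) (B : ℕ → ℝ), Monotone B ∧
      (K : ℝ) ≤ 200 * #(band P (j - 2 * s) (i + 4 * s)) / s ^ 2 + 2 ∧
      tm (band P j i) (B 0) (B K) = band P j i ∧ ∀ k, Calm P j i s (B k) (B (k + 1)) := by
  obtain ⟨Ew, hEw⟩ : ∃ Ew, Ew = band P (j - 2 * s) (i + 4 * s) := ⟨_, rfl⟩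
  obtain ⟨a, b, hab, htm⟩ := exists_tm_eq Ew
  have hs' : (15 : ℝ) ≤ s := by exact_mod_cast hs
  obtain ⟨x, hx⟩ : ∃ x : ℝ, x = 200 * #Ew / s ^ 2 := ⟨_, rfl⟩
  have hx0 : 0 ≤ x := by rw [hx]; positivity
  have hinj : ∀ e ∈ Ew, ∀ e' ∈ Ew, sl e = sl e' → e = e' := by
    rw [hEw]
    exact fun e he e' he' => hP.slinj e (band_subset _ _ _ he) e' (band_subset _ _ _ he')
  obtain ⟨c, hc, hc0, hcK, hcw⟩ := exists_split hinj hab (S := ⌈x⌉₊ + 1) (by omega)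
  refine ⟨⌈x⌉₊ + 1, c, hc, ?_, ?_, ?_⟩
  · rw [← hEw, ← hx]
    push_cast
    linarith [Nat.ceil_lt_add_one hx0]
  · rw [hc0, hcK _ le_rfl]
    refine Subset.antisymm (tm_subset _ _ _) fun e he => ?_
    have he' : e ∈ Ew := by
      rw [hEw, mem_band]
      rw [mem_band] at he
      refine ⟨he.1, by omega, ?_⟩
      push_cast
      omega
    rw [← htm] at he'
    exact mem_tm.2 ⟨he, (mem_tm.1 he').2⟩
  · intro k
    unfold Calm
    rw [← hEw]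
    have h1 := hcw k
    rw [htm] at h1
    have h2 : (#Ew : ℝ) / ((⌈x⌉₊ + 1 : ℕ) : ℝ) ≤ s ^ 2 / 200 := by
      rw [div_le_div_iff₀ (by positivity) (by norm_num)]
      have h3 : x ≤ ⌈x⌉₊ := Nat.le_ceil x
      have h4 : x * s ^ 2 = 200 * #Ew := by rw [hx]; field_simp
      push_cast
      have : 0 ≤ (s : ℝ) ^ 2 := by positivity
      nlinarith
    have h5 : (100 : ℝ) * #(tm Ew (c k) (c (k + 1))) ≤ s ^ 2 := by nlinarith
    exact_mod_cast h5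

/-- The recursion: a band is covered by bands of sets with at most `10 s` points
(`exists_calm_grid`, `card_tm_eq_sum`, `band_Rset`, `card_Rset`, `GP.mono`). -/
theorem GP.band_le_mul {P : Finset Pt} (hP : GP P) (j : ℤ) {i s : ℕ} (hi : i ≤ s) (hs : 15 ≤ s)
    {τ : ℝ} (hτ : ∀ R : Finset Pt, GP R → #R ≤ 10 * s → ∀ j' : ℤ, (#(band R j' i) : ℝ) ≤ τ) :
    (#(band P j i) : ℝ) ≤ (200 * #(band P (j - 2 * s) (i + 4 * s)) / s ^ 2 + 2) * τ := by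
  obtain ⟨K, B, hB, hK, htm, hc⟩ := hP.exists_calm_grid j i hs
  have hτ0 : 0 ≤ τ := le_trans (Nat.cast_nonneg _) (hτ ∅ (hP.mono (empty_subset _)) (by simp) 0)
  have h1 := card_tm_eq_sum (band P j i) hB (Nat.zero_le K)
  rw [htm] at h1
  have h2 : ∀ k ∈ Finset.Ico 0 K, (#(tm (band P j i) (B k) (B (k + 1))) : ℝ) ≤ τ := by
    intro k _
    obtain ⟨j', hj'⟩ := hP.band_Rset (by omega) (hc k)
    rw [hj']
    refine le_trans ?_ (hτ (Rset P j i s (B k) (B (k + 1))) (hP.mono (filter_subset _ _))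
      (hP.card_Rset (hB (Nat.le_succ k)) hi (by omega) (hc k)) j')
    exact_mod_cast card_le_card (tm_subset _ _ _)
  calc (#(band P j i) : ℝ) = ∑ k ∈ Finset.Ico 0 K, (#(tm (band P j i) (B k) (B (k + 1))) : ℝ) := by
        rw [h1]; push_cast; rfl
    _ ≤ ∑ _k ∈ Finset.Ico 0 K, τ := sum_le_sum h2
    _ = K * τ := by simp
    _ ≤ _ := mul_le_mul_of_nonneg_right hK hτ0

end Crest.Agent.R51
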