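import Crest.Agent.R51.Basic

/-! Levels change by one at a time. -/

namespace Crest.Agent.R51

open Finset
open scoped Classical

variable {P : Finset Pt}

/-- At most two points have the same height at a given time (`xinj`, `slinj`: two points with equal
height form a pair with slope `θ`; three points would give two different pairs). -/
theorem GP.card_tie (hP : GP P) (θ y : ℝ) : #(P.filter fun z => f θ z = y) ≤ 2 := by
  set T := P.filter fun z => f θ z = y with hT
  rcases T.eq_empty_or_nonempty with h | h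
  · rw [h]; simp
  obtain ⟨m, hm, hmin⟩ := exists_min_image T Prod.fst h
  have hm' := mem_filter.1 hm
  have key : ∀ z ∈ T.erase m, (m, z) ∈ pairs P ∧ sl (m, z) = θ := by
    intro z hz
    rw [mem_erase] at hz
    have hz' := mem_filter.1 hz.2
    have h1 : m.1 < z.1 :=
      lt_of_le_of_ne (hmin z hz.2) fun h => hz.1 (hP.xinj m hm'.1 z hz'.1 h).symm
    refine ⟨mem_pairs.2 ⟨hm'.1, hz'.1, h1⟩, le_antisymm ?_ ?_⟩
    · exact (f_ge_iff (m, z) h1 θ).1 (by rw [hm'.2, hz'.2])
    · exact (f_le_iff (m, z) h1 θ).1 (by rw [hm'.2, hz'.2])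
  have h1 : #(T.erase m) ≤ 1 := by
    rw [card_le_one]
    intro z hz w hw
    have h2 := hP.slinj _ (key z hz).1 _ (key w hw).1 ((key z hz).2.trans (key w hw).2.symm)
    exact (Prod.ext_iff.1 h2).2
  rw [card_erase_of_mem hm] at h1
  omega

theorem lev_mono (P : Finset Pt) (θ : ℝ) {p p' : Pt} (h : f θ p ≤ f θ p') :
    lev P θ p ≤ lev P θ p' := by
  apply card_le_card
  intro z hz
  rw [mem_filter] at hz ⊢
  exact ⟨hz.1, hz.2.trans_le h⟩

theorem elev_eq_snd {e : Ed} (he : e ∈ pairs P) : elev P e = lev P (sl e) e.2 := by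
  unfold elev lev
  rw [f_sl e (mem_pairs.1 he).2.2]

/-- At most `t + 1` points have a level in an interval of `t` levels: if `p` is the highest and `p'` the
lowest of them, all but at most two are strictly below `p` and not strictly below `p'`. -/
theorem GP.card_lev (hP : GP P) (θ : ℝ) (x : ℤ) (t : ℕ) :
    #(P.filter fun p => x ≤ (lev P θ p : ℤ) ∧ (lev P θ p : ℤ) < x + t) ≤ t + 1 := by
  set S := P.filter fun p => x ≤ (lev P θ p : ℤ) ∧ (lev P θ p : ℤ) < x + t with hS
  rcases S.eq_empty_or_nonempty with h | h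
  · rw [h]; simp
  obtain ⟨p, hp, hmax⟩ := exists_max_image S (f θ) h
  obtain ⟨p', hp', hmin⟩ := exists_min_image S (f θ) h
  have h1 : lev P θ p' + #(S.filter fun z => f θ z < f θ p) ≤ lev P θ p := by
    unfold lev
    rw [← card_union_of_disjoint]
    · apply card_le_card
      intro z hz
      rw [mem_union, mem_filter, mem_filter] at hz
      rw [mem_filter]
      rcases hz with hz | hz
      · exact ⟨hz.1, hz.2.trans_le (hmin p hp)⟩
      · exact ⟨(mem_filter.1 hz.1).1, hz.2⟩
    · rw [disjoint_left]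
      intro z hz hz'
      exact absurd (hmin z (mem_filter.1 hz').1) (not_le.2 (mem_filter.1 hz).2)
  have h2 : S ⊆ (S.filter fun z => f θ z < f θ p) ∪ (P.filter fun z => f θ z = f θ p) := by
    intro z hz
    rw [mem_union]
    exact (hmax z hz).lt_or_eq.imp (fun h => mem_filter.2 ⟨hz, h⟩)
      fun h => mem_filter.2 ⟨(mem_filter.1 hz).1, h⟩
  have h3 := (card_le_card h2).trans (card_union_le _ _)
  have h4 := hP.card_tie θ (f θ p)
  have h5 := (mem_filter.1 hp).2
  have h6 := (mem_filter.1 hp').2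
  omega

/-- The level of `p` decreases only at the slopes of the pairs with right end `p`. -/
theorem Level0_down_le (hP : GP P) {p : Pt} (hp : p ∈ P) {a b : ℝ} (hab : a ≤ b) :
    lev P a p ≤ lev P b p + #((pairs P).filter fun e => e.2 = p ∧ a < sl e ∧ sl e ≤ b) := by
  refine le_trans ?_ (Nat.add_le_add_left (card_image_le (f := Prod.fst)) _)
  unfold lev
  refine le_trans (card_le_card ?_) (card_union_le _ _)
  intro z hz
  rw [mem_filter] at hz
  rw [mem_union, mem_filter, mem_image]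
  rcases lt_trichotomy z.1 p.1 with h | h | h
  · have h1 := (f_lt_iff (z, p) h a).1 hz.2
    by_cases h2 : b < sl (z, p)
    · exact Or.inl ⟨hz.1, (f_lt_iff (z, p) h b).2 h2⟩
    · exact Or.inr ⟨(z, p), mem_filter.2 ⟨mem_pairs.2 ⟨hz.1, hp, h⟩, rfl, h1, not_lt.1 h2⟩, rfl⟩
  · rw [hP.xinj z hz.1 p hp h] at hz
    exact absurd hz.2 (lt_irrefl _)
  · have h1 := (f_gt_iff (p, z) h a).1 hz.2
    exact Or.inl ⟨hz.1, (f_gt_iff (p, z) h b).2 (h1.trans_le hab)⟩

/-- The level of `p` increases only at the slopes of the pairs with left end `p`. -/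
theorem Level0_up_le (hP : GP P) {p : Pt} (hp : p ∈ P) {a b : ℝ} (hab : a ≤ b) :
    lev P b p ≤ lev P a p + #((pairs P).filter fun e => e.1 = p ∧ a ≤ sl e ∧ sl e < b) := by
  refine le_trans ?_ (Nat.add_le_add_left (card_image_le (f := Prod.snd)) _)
  unfold lev
  refine le_trans (card_le_card ?_) (card_union_le _ _)
  intro z hz
  rw [mem_filter] at hz
  rw [mem_union, mem_filter, mem_image]
  rcases lt_trichotomy z.1 p.1 with h | h | h
  · have h1 := (f_lt_iff (z, p) h b).1 hz.2
    exact Or.inl ⟨hz.1, (f_lt_iff (z, p) h a).2 (hab.trans_lt h1)⟩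
  · rw [hP.xinj z hz.1 p hp h] at hz
    exact absurd hz.2 (lt_irrefl _)
  · have h1 := (f_gt_iff (p, z) h b).1 hz.2
    by_cases h2 : sl (p, z) < a
    · exact Or.inl ⟨hz.1, (f_gt_iff (p, z) h a).2 h2⟩
    · exact Or.inr ⟨(p, z), mem_filter.2 ⟨mem_pairs.2 ⟨hp, hz.1, h⟩, rfl, not_lt.1 h2, h1⟩, rfl⟩

/-- A point that moves down passes through every level.
Proof: `lev θ p = Lf θ + Rt θ` with `Lf θ = #{z left of p | θ < sl (z, p)}` (antitone) and
`Rt θ = #{z right of p | sl (p, z) < θ}` (monotone).  Let `T` be the set of the slopes `sl (z, p)` in `(a, b]`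
(`z` left of `p`).  Take the least `t ∈ T` with `lev t p ≤ l` (the largest element of `T` works, `T ≠ ∅`), and
`t'` the preceding element of `T` or `a`; `Lf t + 1 = Lf t'` as slopes are distinct, so `lev t p = l`.
(An induction on `#T`, shrinking the interval, is an alternative.) -/
theorem GP.lev_down (hP : GP P) {p : Pt} (hp : p ∈ P) {a b : ℝ} (hab : a ≤ b) {l : ℕ}
    (h1 : lev P b p ≤ l) (h2 : l < lev P a p) :
    ∃ e ∈ pairs P, e.2 = p ∧ elev P e = l ∧ a < sl e ∧ sl e ≤ b := by
  induction hn : #((pairs P).filter fun e => e.2 = p ∧ a < sl e ∧ sl e ≤ b)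
    using Nat.strong_induction_on generalizing a with
  | _ n ih =>
  have hne : ((pairs P).filter fun e => e.2 = p ∧ a < sl e ∧ sl e ≤ b).Nonempty := by
    rw [← card_pos]
    have := Level0_down_le hP hp hab
    omega
  obtain ⟨e, he, hmin⟩ := exists_min_image _ sl hne
  obtain ⟨hep, h3, h4, h5⟩ := mem_filter.1 he
  have h6 : #((pairs P).filter fun x => x.2 = p ∧ a < sl x ∧ sl x ≤ sl e) ≤ 1 := by
    rw [card_le_one_iff_subset_singleton]
    refine ⟨e, fun x hx => ?_⟩
    obtain ⟨hx1, hx2, hx3, hx4⟩ := mem_filter.1 hx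
    exact mem_singleton.2 (hP.slinj x hx1 e hep
      (le_antisymm hx4 (hmin x (mem_filter.2 ⟨hx1, hx2, hx3, hx4.trans h5⟩))))
  have h7 := Level0_down_le hP hp h4.le
  by_cases h8 : lev P (sl e) p = l
  · exact ⟨e, hep, h3, by rw [elev_eq_snd hep, h3, h8], h4, h5⟩
  · have h9 : #((pairs P).filter fun x => x.2 = p ∧ sl e < sl x ∧ sl x ≤ b) < n := by
      rw [← hn]
      apply card_lt_card
      refine ⟨fun x hx => ?_, fun h => ?_⟩
      · obtain ⟨hx1, hx2, hx3, hx4⟩ := mem_filter.1 hx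
        exact mem_filter.2 ⟨hx1, hx2, h4.trans hx3, hx4⟩
      · exact lt_irrefl _ (mem_filter.1 (h he)).2.2.1
    obtain ⟨x, hx1, hx2, hx3, hx4, hx5⟩ := ih _ h9 h5 (by omega) rfl
    exact ⟨x, hx1, hx2, hx3, h4.trans hx4, hx5⟩

/-- A point that moves up passes through every level (symmetric to `lev_down`). -/
theorem GP.lev_up (hP : GP P) {p : Pt} (hp : p ∈ P) {a b : ℝ} (hab : a ≤ b) {l : ℕ}
    (h1 : lev P a p ≤ l) (h2 : l < lev P b p) :
    ∃ e ∈ pairs P, e.1 = p ∧ elev P e = l ∧ a ≤ sl e ∧ sl e < b := by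
  induction hn : #((pairs P).filter fun e => e.1 = p ∧ a ≤ sl e ∧ sl e < b)
    using Nat.strong_induction_on generalizing b with
  | _ n ih =>
  have hne : ((pairs P).filter fun e => e.1 = p ∧ a ≤ sl e ∧ sl e < b).Nonempty := by
    rw [← card_pos]
    have := Level0_up_le hP hp hab
    omega
  obtain ⟨e, he, hmax⟩ := exists_max_image _ sl hne
  obtain ⟨hep, h3, h4, h5⟩ := mem_filter.1 he
  have h6 : #((pairs P).filter fun x => x.1 = p ∧ sl e ≤ sl x ∧ sl x < b) ≤ 1 := by
    rw [card_le_one_iff_subset_singleton]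
    refine ⟨e, fun x hx => ?_⟩
    obtain ⟨hx1, hx2, hx3, hx4⟩ := mem_filter.1 hx
    exact mem_singleton.2 (hP.slinj x hx1 e hep
      (le_antisymm (hmax x (mem_filter.2 ⟨hx1, hx2, h4.trans hx3, hx4⟩)) hx3))
  have h7 := Level0_up_le hP hp h5.le
  by_cases h8 : lev P (sl e) p = l
  · exact ⟨e, hep, h3, by unfold elev; rw [h3, h8], h4, h5⟩
  · have h9 : #((pairs P).filter fun x => x.1 = p ∧ a ≤ sl x ∧ sl x < sl e) < n := by
      rw [← hn]
      apply card_lt_card
      refine ⟨fun x hx => ?_, fun h => ?_⟩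
      · obtain ⟨hx1, hx2, hx3, hx4⟩ := mem_filter.1 hx
        exact mem_filter.2 ⟨hx1, hx2, hx3, hx4.trans h5⟩
      · exact lt_irrefl _ (mem_filter.1 (h he)).2.2.2
    obtain ⟨x, hx1, hx2, hx3, hx4, hx5⟩ := ih _ h9 h4 (by omega) rfl
    exact ⟨x, hx1, hx2, hx3, hx4, hx5.trans h5⟩

end Crest.Agent.R51
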