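import Crest.Agent.R51.Basic
import Crest.Agent.R51.Level0

/-! Levels change by one at a time. -/

namespace Crest.Agent.R51

open Finset
open scoped Classical

variable {P : Finset Pt}

/-- Alternation: between two moves down through a level there is a move up.
Proof: `lev (sl e) e.2 = l`; at a time `b'` slightly before `sl e'` (after all smaller slopes of pairs)
the level of `e.2` is `l + 1`; `lev_up`, and the edge found is not `e`. -/
theorem GP.alt_up (hP : GP P) {e e' : Ed} (he : e ∈ pairs P) (he' : e' ∈ pairs P)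
    (h2 : e.2 = e'.2) (hl : elev P e = elev P e') (hs : sl e < sl e') :
    ∃ x ∈ pairs P, x.1 = e.2 ∧ elev P x = elev P e ∧ sl e < sl x ∧ sl x < sl e' := by
  obtain ⟨m, hm, hmax⟩ := exists_max_image ((pairs P).filter fun x => sl x < sl e') sl
    ⟨e, mem_filter.2 ⟨he, hs⟩⟩
  have hm1 : sl m < sl e' := (mem_filter.1 hm).2
  have hm2 : sl e ≤ sl m := hmax e (mem_filter.2 ⟨he, hs⟩)
  have hp := mem_pairs.1 he
  have hp' := mem_pairs.1 he'
  have h3 : lev P (sl e') e'.2 < lev P ((sl m + sl e') / 2) e'.2 := by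
    unfold lev
    apply card_lt_card
    refine ⟨fun z hz => ?_, fun h => ?_⟩
    · rw [mem_filter] at hz ⊢
      refine ⟨hz.1, ?_⟩
      rcases lt_trichotomy z.1 e'.2.1 with h | h | h
      · have h1 := (f_lt_iff (z, e'.2) h _).1 hz.2
        exact (f_lt_iff (z, e'.2) h _).2 (by linarith)
      · rw [hP.xinj z hz.1 _ hp'.2.1 h] at hz
        exact absurd hz.2 (lt_irrefl _)
      · have h1 := (f_gt_iff (e'.2, z) h _).1 hz.2
        have h4 := hmax (e'.2, z) (mem_filter.2 ⟨mem_pairs.2 ⟨hp'.2.1, hz.1, h⟩, h1⟩)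
        exact (f_gt_iff (e'.2, z) h _).2 (by linarith)
    · have h4 := h (mem_filter.2 ⟨hp'.1, (f_lt_iff e' hp'.2.2 _).2 (by linarith)⟩)
      exact lt_irrefl _ ((f_lt_iff e' hp'.2.2 _).1 (mem_filter.1 h4).2)
  rw [← elev_eq_snd he', ← hl, ← h2] at h3
  obtain ⟨x, hx, hx1, hx2, hx3, hx4⟩ := hP.lev_up hp.2.1 (a := sl e) (b := (sl m + sl e') / 2)
    (by linarith) (l := elev P e) (elev_eq_snd he).ge h3
  refine ⟨x, hx, hx1, hx2, lt_of_le_of_ne hx3 fun h => ?_, by linarith⟩
  rw [← hP.slinj e he x hx h] at hx1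
  rw [hx1] at hp
  exact lt_irrefl _ hp.2.2

/-- Alternation: between two moves up through a level there is a move down. -/
theorem GP.alt_down (hP : GP P) {e e' : Ed} (he : e ∈ pairs P) (he' : e' ∈ pairs P)
    (h1 : e.1 = e'.1) (hl : elev P e = elev P e') (hs : sl e < sl e') :
    ∃ x ∈ pairs P, x.2 = e.1 ∧ elev P x = elev P e ∧ sl e < sl x ∧ sl x < sl e' := by
  obtain ⟨m, hm, hmin⟩ := exists_min_image ((pairs P).filter fun x => sl e < sl x) sl
    ⟨e', mem_filter.2 ⟨he', hs⟩⟩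
  have hm1 : sl e < sl m := (mem_filter.1 hm).2
  have hm2 : sl m ≤ sl e' := hmin e' (mem_filter.2 ⟨he', hs⟩)
  have hp := mem_pairs.1 he
  have hp' := mem_pairs.1 he'
  have h3 : lev P (sl e) e.1 < lev P ((sl e + sl m) / 2) e.1 := by
    unfold lev
    apply card_lt_card
    refine ⟨fun z hz => ?_, fun h => ?_⟩
    · rw [mem_filter] at hz ⊢
      refine ⟨hz.1, ?_⟩
      rcases lt_trichotomy z.1 e.1.1 with h | h | h
      · have h2 := (f_lt_iff (z, e.1) h _).1 hz.2
        have h4 := hmin (z, e.1) (mem_filter.2 ⟨mem_pairs.2 ⟨hz.1, hp.1, h⟩, h2⟩)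
        exact (f_lt_iff (z, e.1) h _).2 (by linarith)
      · rw [hP.xinj z hz.1 _ hp.1 h] at hz
        exact absurd hz.2 (lt_irrefl _)
      · have h2 := (f_gt_iff (e.1, z) h _).1 hz.2
        exact (f_gt_iff (e.1, z) h _).2 (by linarith)
    · have h4 := h (mem_filter.2 ⟨hp.2.1, (f_gt_iff e hp.2.2 _).2 (by linarith)⟩)
      exact lt_irrefl _ ((f_gt_iff e hp.2.2 _).1 (mem_filter.1 h4).2)
  obtain ⟨x, hx, hx1, hx2, hx3, hx4⟩ := hP.lev_down hp.1 (a := (sl e + sl m) / 2) (b := sl e')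
    (by linarith) (l := elev P e) (by rw [hl, h1]; rfl) h3
  refine ⟨x, hx, hx1, hx2, by linarith, lt_of_le_of_ne hx4 fun h => ?_⟩
  rw [hP.slinj x hx e' he' h, h1] at hx1
  rw [hx1] at hp'
  exact lt_irrefl _ hp'.2.2

/-- There are at most `n s` edges of level below `s`: for an edge `e` with left end `p` the number of
points `z` right of `p` with `sl (p, z) < sl e` is at most `elev e < s`, and it determines `e`. -/
theorem GP.card_low (hP : GP P) (j : ℤ) (i s : ℕ) (h : j + i ≤ s) : #(band P j i) ≤ #P * s := by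
  rw [← card_range s, ← card_product]
  apply card_le_card_of_injOn
    (fun e : Ed => (e.1, #(P.filter fun z => e.1.1 < z.1 ∧ sl (e.1, z) < sl e)))
  · intro e he
    obtain ⟨he1, -, he3⟩ := mem_band.1 (mem_coe.1 he)
    refine mem_coe.2 (mem_product.2 ⟨(mem_pairs.1 he1).1, mem_range.2 ?_⟩)
    have h1 : #(P.filter fun z => e.1.1 < z.1 ∧ sl (e.1, z) < sl e) ≤ elev P e := by
      apply card_le_card
      intro z hz
      rw [mem_filter] at hz ⊢
      exact ⟨hz.1, (f_gt_iff (e.1, z) hz.2.1 _).2 hz.2.2⟩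
    show #(P.filter fun z => e.1.1 < z.1 ∧ sl (e.1, z) < sl e) < s
    omega
  · have key : ∀ e ∈ pairs P, ∀ e' : Ed, e.1 = e'.1 → sl e < sl e' →
        #(P.filter fun z => e.1.1 < z.1 ∧ sl (e.1, z) < sl e) <
          #(P.filter fun z => e'.1.1 < z.1 ∧ sl (e'.1, z) < sl e') := by
      intro e he e' h1 h2
      rw [← h1]
      have hp := mem_pairs.1 he
      apply card_lt_card
      refine ⟨fun z hz => ?_, fun h => ?_⟩
      · rw [mem_filter] at hz ⊢
        exact ⟨hz.1, hz.2.1, hz.2.2.trans h2⟩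
      · exact lt_irrefl _ (mem_filter.1 (h (mem_filter.2 ⟨hp.2.1, hp.2.2, h2⟩))).2.2
    intro e he e' he' hh
    have he1 := (mem_band.1 (mem_coe.1 he)).1
    have he1' := (mem_band.1 (mem_coe.1 he')).1
    obtain ⟨h1, h2⟩ := Prod.ext_iff.1 hh
    rcases lt_trichotomy (sl e) (sl e') with h3 | h3 | h3
    · exact absurd h2 (key e he1 e' h1 h3).ne
    · exact hP.slinj e he1 e' he1' h3
    · exact absurd h2 (key e' he1' e h1.symm h3).ne'

end Crest.Agent.R51
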