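import Crest.Agent.R51.Part
import Crest.Agent.R51.Level

/-! Edges at a set of points with few swaps. -/

namespace Crest.Agent.R51

open Finset
open scoped Classical

variable {ι : Type} {P : Finset Pt} {E : Finset Ed} {id : Ed → ι} {i : ℕ}

/-- Ranks with respect to a function with few ties, grouped into `h` classes. -/
theorem flem0_rank (Ω : Finset Pt) (g : Pt → ℝ) (hg : ∀ y, #(Ω.filter fun z => g z = y) ≤ 2)
    {h : ℕ} (hh : 1 ≤ h) (hs : h ≤ #Ω) : ∃ r : Pt → ℕ, (∀ p ∈ Ω, r p < h) ∧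
      (∀ p p', g p ≤ g p' → r p ≤ r p') ∧
      ∀ x, (#(Ω.filter fun p => r p = x) : ℝ) ≤ 3 * #Ω / h := by
  have hn : 0 < #Ω := by omega
  set rk : Pt → ℕ := fun p => #(Ω.filter fun z => g z < g p) with hrk
  refine ⟨fun p => rk p * h / #Ω, fun p hp => ?_, fun p p' hpp => ?_, fun x => ?_⟩
  · have h1 : rk p < #Ω := by
      apply card_lt_card
      refine ⟨filter_subset _ _, fun hc => ?_⟩
      exact lt_irrefl _ (mem_filter.1 (hc hp)).2
    rw [Nat.div_lt_iff_lt_mul hn, mul_comm h]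
    exact Nat.mul_lt_mul_of_pos_right h1 hh
  · refine Nat.div_le_div_right (Nat.mul_le_mul_right _ (card_le_card fun z hz => ?_))
    rw [mem_filter] at hz ⊢
    exact ⟨hz.1, hz.2.trans_le hpp⟩
  · set S := Ω.filter fun p => rk p * h / #Ω = x with hS
    have hhR : (0 : ℝ) < h := by exact_mod_cast hh
    rcases S.eq_empty_or_nonempty with h0 | h0
    · rw [h0, card_empty, Nat.cast_zero]
      positivity
    obtain ⟨p, hp, hmax⟩ := exists_max_image S g h0
    obtain ⟨p', hp', hmin⟩ := exists_min_image S g h0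
    have h1 : rk p' + #(S.filter fun z => g z < g p) ≤ rk p := by
      simp only [hrk]
      rw [← card_union_of_disjoint]
      · apply card_le_card
        intro z hz
        rw [mem_union, mem_filter, mem_filter] at hz
        rw [mem_filter]
        rcases hz with hz | hz
        · exact ⟨hz.1, hz.2.trans_le (hmin p hp)⟩
        · exact ⟨(mem_filter.1 hz.1).1, hz.2⟩
      · rw [disjoint_left]
        intro z hz hz'
        exact absurd (hmin z (mem_filter.1 hz').1) (not_le.2 (mem_filter.1 hz).2)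
    have h2 : S ⊆ (S.filter fun z => g z < g p) ∪ (Ω.filter fun z => g z = g p) := by
      intro z hz
      rw [mem_union]
      exact (hmax z hz).lt_or_eq.imp (fun h => mem_filter.2 ⟨hz, h⟩)
        fun h => mem_filter.2 ⟨(mem_filter.1 hz).1, h⟩
    have h3 := (card_le_card h2).trans (card_union_le _ _)
    have h4 := hg (g p)
    have h5 : rk p * h < x * #Ω + #Ω := by
      rw [← (mem_filter.1 hp).2]
      exact Nat.lt_div_mul_add hn
    have h6 : x * #Ω ≤ rk p' * h := by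
      rw [← (mem_filter.1 hp').2]
      exact Nat.div_mul_le_self _ _
    have h7 : #S + rk p' ≤ rk p + 2 := by omega
    have h8 : #S * h ≤ 3 * #Ω := by
      have := Nat.mul_le_mul_right h h7
      rw [add_mul, add_mul] at this
      omega
    rw [le_div_iff₀ hhR]
    exact_mod_cast h8

/-- A grid adapted to a time window: rows by the rank of `f a`, columns by the rank of `-f b` in `Ω`.
`r p = lev Ω a p * h / #Ω`, `c p = #{z ∈ Ω | f b p < f b z} * h / #Ω` (natural division).  Both are monotone along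
edges with slopes in `(a, b]` (`lev_mono`, `f_lt_iff`, `f_ge_iff`); rows and columns have at most `#Ω / h + 2`
points (as in `GP.card_lev`, with `card_tie`); if `r p < r p'` and `c p < c p'` then `f a p < f a p'` and
`f b p' < f b p`, which gives `p.1 < p'.1` (as `a ≤ b`) and `a < sl (p, p') ≤ b`. -/
theorem GP.exists_grid {Ω : Finset Pt} (hΩ : GP Ω) {a b : ℝ} (hab : a ≤ b) {h : ℕ} (hh : 1 ≤ h)
    (hs : h ≤ #Ω) : ∃ r c : Pt → ℕ, (∀ p ∈ Ω, r p < h ∧ c p < h) ∧
      (∀ e ∈ tm (pairs Ω) a b, r e.1 ≤ r e.2 ∧ c e.1 ≤ c e.2) ∧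
      (∀ x, (#(Ω.filter fun p => r p = x) : ℝ) ≤ 3 * #Ω / h) ∧
      (∀ x, (#(Ω.filter fun p => c p = x) : ℝ) ≤ 3 * #Ω / h) ∧
      ∀ p ∈ Ω, ∀ p' ∈ Ω, r p < r p' → c p < c p' → (p, p') ∈ tm (pairs Ω) a b := by
  obtain ⟨r, hr1, hr2, hr3⟩ := flem0_rank Ω (f a) (hΩ.card_tie a) hh hs
  obtain ⟨c, hc1, hc2, hc3⟩ := flem0_rank Ω (fun z => -f b z) (fun y => by
    have := hΩ.card_tie b (-y)
    simpa only [neg_eq_iff_eq_neg] using this) hh hs
  refine ⟨r, c, fun p hp => ⟨hr1 p hp, hc1 p hp⟩, fun e he => ?_, hr3, hc3,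
    fun p hp p' hp' h1 h2 => ?_⟩
  · rw [mem_tm] at he
    have hx := (mem_pairs.1 he.1).2.2
    exact ⟨hr2 _ _ ((f_le_iff e hx a).2 he.2.1.le),
      hc2 _ _ (neg_le_neg ((f_ge_iff e hx b).2 he.2.2))⟩
  · have a1 : f a p < f a p' := by
      by_contra hc
      exact absurd (hr2 _ _ (not_lt.1 hc)) (not_le.2 h1)
    have a2 : f b p' < f b p := by
      by_contra hc
      exact absurd (hc2 _ _ (neg_le_neg (not_lt.1 hc))) (not_le.2 h2)
    have hx : p.1 < p'.1 := by
      by_contra hc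
      have hc := not_lt.1 hc
      unfold f at a1 a2
      nlinarith [mul_nonneg (sub_nonneg.2 hab) (sub_nonneg.2 hc)]
    exact mem_tm.2 ⟨mem_pairs.2 ⟨hp, hp', hx⟩, (f_lt_iff (p, p') hx a).1 a1,
      ((f_gt_iff (p, p') hx b).1 a2).le⟩

/-- Edges inside the rows, for runs that are assigned to one row: `Sys.card_le` for each row `x < h`
(`Sys.fibre`), `∑ x, nr ≤ nr`, `∑ x, #Ω x ≤ #Ω`, `∑ x, (#Ω x) ^ 2 ≤ t #Ω`. -/
theorem Sys.card_rows (hs : Sys P E id i) (hi : 1 ≤ i) (Ω : Finset Pt)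
    (hΩ : ∀ e ∈ E, e.1 ∈ Ω ∧ e.2 ∈ Ω) (r : Pt → ℕ) (hr : ∀ e ∈ E, r e.1 ≤ r e.2) {t : ℝ}
    (ht : ∀ x, (#(Ω.filter fun p => r p = x) : ℝ) ≤ t) (ρ : ι → ℕ) {lam : ℝ} (hl : 0 < lam) :
    (#(E.filter fun e => r e.1 = ρ (id e) ∧ r e.2 = ρ (id e)) : ℝ) ≤
      200 * (lam * (i * #Ω + nr E id) + t * #Ω / lam ^ 2) := by
  set X := Ω.image r with hX
  set F : ℕ → Finset Ed := fun x => E.filter fun e => ρ (id e) = x ∧ (r e.1 : ℝ) = x ∧
    (r e.2 : ℝ) = x ∧ (r e.1 : ℝ) = x ∧ (r e.2 : ℝ) = x with hF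
  set Ωx : ℕ → Finset Pt := fun x => Ω.filter fun p => r p = x with hΩx
  have hsys : ∀ x, Sys P (F x) id i := fun x => by
    have := hs.fibre (fun p => (r p : ℝ)) (fun p => (r p : ℝ))
      (fun e he => by exact_mod_cast hr e he) (fun e he => by exact_mod_cast hr e he) x x
      fun k => ρ k = x
    convert this using 1
    ext e
    simp only [hF, mem_filter]
  have h1 : ∀ x, (#(F x) : ℝ) ≤
      200 * (lam * (i * #(Ωx x) + nr (F x) id) + t * #(Ωx x) / lam ^ 2) := by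
    intro x
    have a := (hsys x).card_le hi (Ωx x) (fun e he => by
      obtain ⟨he1, -, he2, he3, -⟩ := mem_filter.1 he
      exact ⟨mem_filter.2 ⟨(hΩ e he1).1, by exact_mod_cast he2⟩,
        mem_filter.2 ⟨(hΩ e he1).2, by exact_mod_cast he3⟩⟩) hl
    have b : (#(Ωx x) : ℝ) * #(Ωx x) / lam ^ 2 ≤ t * #(Ωx x) / lam ^ 2 := by
      gcongr
      exact ht x
    linarith
  have h2 : #(E.filter fun e => r e.1 = ρ (id e) ∧ r e.2 = ρ (id e)) ≤ ∑ x ∈ X, #(F x) := by
    refine le_trans (card_le_card ?_) card_biUnion_le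
    intro e he
    obtain ⟨he1, he2, he3⟩ := mem_filter.1 he
    refine mem_biUnion.2 ⟨r e.1, mem_image_of_mem _ (hΩ e he1).1, mem_filter.2 ⟨he1, he2.symm, rfl,
      by rw [he3, he2], rfl, by rw [he3, he2]⟩⟩
  have h3 : ∑ x ∈ X, #(Ωx x) = #Ω := (card_eq_sum_card_image r Ω).symm
  have h4 : ∑ x ∈ X, nr (F x) id ≤ nr E id := by
    unfold nr
    rw [← card_biUnion]
    · exact card_le_card (biUnion_subset.2 fun x _ => image_subset_image (filter_subset _ _))
    · intro x _ x' _ hne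
      rw [Function.onFun, disjoint_left]
      intro k hk hk'
      obtain ⟨e, he, rfl⟩ := mem_image.1 hk
      obtain ⟨e', he', hid⟩ := mem_image.1 hk'
      exact hne ((mem_filter.1 he).2.1.symm.trans (hid ▸ (mem_filter.1 he').2.1))
  have h2' : (#(E.filter fun e => r e.1 = ρ (id e) ∧ r e.2 = ρ (id e)) : ℝ) ≤
      ∑ x ∈ X, (#(F x) : ℝ) := by exact_mod_cast h2
  have h3' : ∑ x ∈ X, (#(Ωx x) : ℝ) = #Ω := by exact_mod_cast h3
  have h4' : ∑ x ∈ X, (nr (F x) id : ℝ) ≤ nr E id := by exact_mod_cast h4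
  refine h2'.trans ((sum_le_sum fun x _ => h1 x).trans ?_)
  rw [← mul_sum, sum_add_distrib, ← mul_sum, sum_add_distrib, ← mul_sum, ← sum_div, ← mul_sum, h3']
  gcongr

end Crest.Agent.R51
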