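import Crest.Agent.R51.Part
import Crest.Agent.R51.Level
import Crest.Agent.R51.FLem0

/-! Edges at a set of points with few swaps. -/

namespace Crest.Agent.R51

open Finset
open scoped Classical

variable {ι : Type} {P : Finset Pt} {E : Finset Ed} {id : Ed → ι} {i : ℕ}

/-- The points of `Y` in the cell `(x, y)`. -/
noncomputable def flemCell (Y : Finset Pt) (r c : Pt → ℕ) (x y : ℕ) : Finset Pt :=
  Y.filter fun p => r p = x ∧ c p = y

/-- Edges inside light cells. -/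
theorem flem_light (hs : Sys P E id i) (hi : 1 ≤ i) (Ω Y : Finset Pt)
    (hΩ : ∀ e ∈ E, e.1 ∈ Ω ∧ e.2 ∈ Ω) (r c : Pt → ℕ) (h : ℕ) (hh : ∀ p ∈ Ω, r p < h ∧ c p < h)
    (hr : ∀ e ∈ E, r e.1 ≤ r e.2) (hc : ∀ e ∈ E, c e.1 ≤ c e.2) {g lam : ℝ} (hg : 0 ≤ g)
    (hl : 0 < lam) :
    (#((inc E Y).filter fun e => r e.1 = r e.2 ∧ c e.1 = c e.2 ∧
        (#(flemCell Y r c (r e.1) (c e.1)) : ℝ) ≤ g) : ℝ) ≤
      h ^ 2 * (200 * (lam * (i * #Ω + nr E id) + g * #Ω / lam ^ 2)) := by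
  set Ec : ℕ × ℕ → Finset Ed := fun z => E.filter fun e => True ∧ (r e.1 : ℝ) = z.1 ∧
    (r e.2 : ℝ) = z.1 ∧ (c e.1 : ℝ) = z.2 ∧ (c e.2 : ℝ) = z.2 with hEc
  set T : Finset (ℕ × ℕ) := (range h ×ˢ range h).filter fun z =>
    (#(flemCell Y r c z.1 z.2) : ℝ) ≤ g with hT
  have hsub : ((inc E Y).filter fun e => r e.1 = r e.2 ∧ c e.1 = c e.2 ∧
        (#(flemCell Y r c (r e.1) (c e.1)) : ℝ) ≤ g) ⊆
      T.biUnion fun z => inc (Ec z) (flemCell Y r c z.1 z.2) := by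
    intro e he
    rw [mem_filter, mem_inc] at he
    obtain ⟨⟨heE, heY⟩, h1, h2, h3⟩ := he
    rw [mem_biUnion]
    refine ⟨(r e.1, c e.1), ?_, ?_⟩
    · rw [hT, mem_filter, mem_product, mem_range, mem_range]
      exact ⟨hh _ (hΩ e heE).1, h3⟩
    · rw [mem_inc]
      refine ⟨?_, ?_⟩
      · exact mem_filter.2 ⟨heE, trivial, rfl, by rw [h1], rfl, by rw [h2]⟩
      · rcases heY with hY | hY
        · exact Or.inl (mem_filter.2 ⟨hY, rfl, rfl⟩)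
        · exact Or.inr (mem_filter.2 ⟨hY, h1.symm, h2.symm⟩)
  have hW : (0 : ℝ) ≤ 200 * (lam * (i * #Ω + nr E id) + g * #Ω / lam ^ 2) := by positivity
  have hz : ∀ z ∈ T, (#(inc (Ec z) (flemCell Y r c z.1 z.2)) : ℝ) ≤
      200 * (lam * (i * #Ω + nr E id) + g * #Ω / lam ^ 2) := by
    intro z hzT
    have hz2 : (#(flemCell Y r c z.1 z.2) : ℝ) ≤ g := (mem_filter.1 hzT).2
    have hsys : Sys P (Ec z) id i := by
      have := hs.fibre (fun p => (r p : ℝ)) (fun p => (c p : ℝ))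
        (fun x hx => by exact_mod_cast hr x hx)
        (fun x hx => by exact_mod_cast hc x hx) z.1 z.2 fun _ => True
      simp only [hEc]
      convert this
    have hE : Ec z ⊆ E := filter_subset _ _
    refine (hsys.card_inc_le hi Ω (fun e he => hΩ e (hE he)) _ hl).trans ?_
    have hn : (nr (Ec z) id : ℝ) ≤ nr E id := by exact_mod_cast nr_mono hE id
    gcongr
  have hTc : (#T : ℝ) ≤ h ^ 2 := by
    have : #T ≤ h ^ 2 := by
      refine (card_le_card (filter_subset _ _)).trans ?_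
      rw [card_product, card_range, sq]
    exact_mod_cast this
  calc (#((inc E Y).filter fun e => r e.1 = r e.2 ∧ c e.1 = c e.2 ∧
        (#(flemCell Y r c (r e.1) (c e.1)) : ℝ) ≤ g) : ℝ)
      ≤ ((∑ z ∈ T, #(inc (Ec z) (flemCell Y r c z.1 z.2)) : ℕ) : ℝ) := by
        exact_mod_cast (card_le_card hsub).trans card_biUnion_le
    _ = ∑ z ∈ T, (#(inc (Ec z) (flemCell Y r c z.1 z.2)) : ℝ) := by push_cast; rfl
    _ ≤ #T • (200 * (lam * (i * #Ω + nr E id) + g * #Ω / lam ^ 2) : ℝ) := sum_le_card_nsmul _ _ _ hz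
    _ ≤ _ := by
        rw [nsmul_eq_mul]
        exact mul_le_mul_of_nonneg_right hTc hW

/-- Two strictly comparable heavy cells give many swaps. -/
theorem flem_pair {Ω Y : Finset Pt} (hY : Y ⊆ Ω) (r c : Pt → ℕ) {a b : ℝ}
    (hlt : ∀ p ∈ Ω, ∀ p' ∈ Ω, r p < r p' → c p < c p' → (p, p') ∈ tm (pairs Ω) a b)
    {x y x' y' : ℕ} (hx : x < x') (hy : y < y') {g : ℝ} (hg : 0 ≤ g)
    (h1 : g ≤ #(flemCell Y r c x y)) (h2 : g ≤ #(flemCell Y r c x' y')) :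
    g ^ 2 ≤ #(tm (pairs Y) a b) := by
  have hsub : flemCell Y r c x y ×ˢ flemCell Y r c x' y' ⊆ tm (pairs Y) a b := by
    rintro ⟨p, p'⟩ hp
    rw [mem_product] at hp
    obtain ⟨hp1, hp2, hp3⟩ := mem_filter.1 hp.1
    obtain ⟨hq1, hq2, hq3⟩ := mem_filter.1 hp.2
    have := hlt p (hY hp1) p' (hY hq1) (by simp only at hp2 hq2; omega)
      (by simp only at hp3 hq3; omega)
    rw [mem_tm, mem_pairs] at this ⊢
    exact ⟨⟨hp1, hq1, this.1.2.2⟩, this.2⟩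
  have h3 := card_le_card hsub
  rw [card_product] at h3
  have h4 : (#(flemCell Y r c x y) : ℝ) * #(flemCell Y r c x' y') ≤ #(tm (pairs Y) a b) := by
    exact_mod_cast h3
  calc g ^ 2 = g * g := sq g
    _ ≤ (#(flemCell Y r c x y) : ℝ) * #(flemCell Y r c x' y') :=
        mul_le_mul h1 h2 hg (Nat.cast_nonneg _)
    _ ≤ _ := h4

/-- Edges inside cells no two of which are strictly comparable. -/
theorem flem_rows (hs : Sys P E id i) (hi : 1 ≤ i) (Ω : Finset Pt)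
    (hΩ : ∀ e ∈ E, e.1 ∈ Ω ∧ e.2 ∈ Ω) (r c : Pt → ℕ)
    (hr : ∀ e ∈ E, r e.1 ≤ r e.2) (hc : ∀ e ∈ E, c e.1 ≤ c e.2) {t : ℝ}
    (htr : ∀ x, (#(Ω.filter fun p => r p = x) : ℝ) ≤ t)
    (htc : ∀ x, (#(Ω.filter fun p => c p = x) : ℝ) ≤ t) {F : Finset Ed} (hF : F ⊆ E)
    (hin : ∀ e ∈ F, r e.1 = r e.2 ∧ c e.1 = c e.2)
    (hno : ∀ e ∈ F, ∀ e' ∈ F, ¬ (r e.1 < r e'.1 ∧ c e.1 < c e'.1)) {lam : ℝ} (hl : 0 < lam) :
    (#F : ℝ) ≤ 400 * (lam * (i * #Ω + nr E id) + t * #Ω / lam ^ 2) := by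
  have key : ∀ e ∈ F, ∀ e' ∈ F, id e = id e' → r e.1 = r e'.1 ∨ c e.1 = c e'.1 := by
    have aux : ∀ e ∈ F, ∀ e' ∈ F, id e = id e' → e.1.1 ≤ e'.1.1 →
        r e.1 = r e'.1 ∨ c e.1 = c e'.1 := by
      intro e he e' he' hid hle
      have h1 : (r e.1 : ℝ) ≤ r e'.1 :=
        hs.mono_vert (fun p => (r p : ℝ)) (hF he) (hF he') hid
          (fun x hx _ => by exact_mod_cast hr x hx) (Or.inl rfl) (Or.inl rfl) hle
      have h2 : (c e.1 : ℝ) ≤ c e'.1 :=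
        hs.mono_vert (fun p => (c p : ℝ)) (hF he) (hF he') hid
          (fun x hx _ => by exact_mod_cast hc x hx) (Or.inl rfl) (Or.inl rfl) hle
      have h1' : r e.1 ≤ r e'.1 := by exact_mod_cast h1
      have h2' : c e.1 ≤ c e'.1 := by exact_mod_cast h2
      have h3 := hno e he e' he'
      omega
    intro e he e' he' hid
    rcases le_total e.1.1 e'.1.1 with h | h
    · exact aux e he e' he' hid h
    · exact (aux e' he' e he hid.symm h).imp Eq.symm Eq.symm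
  have hex : ∀ k : ι, ∃ x y : ℕ, ∀ e ∈ F, id e = k → r e.1 = x ∨ c e.1 = y := by
    intro k
    by_cases hk : ∃ e₀ ∈ F, id e₀ = k
    · obtain ⟨e₀, he₀, rfl⟩ := hk
      exact ⟨r e₀.1, c e₀.1, fun e he hid => key e he e₀ he₀ hid⟩
    · exact ⟨0, 0, fun e he hid => absurd ⟨e, he, hid⟩ hk⟩
  choose ρ ρ' hρ using hex
  have hsub : F ⊆ (E.filter fun e => r e.1 = ρ (id e) ∧ r e.2 = ρ (id e)) ∪
      (E.filter fun e => c e.1 = ρ' (id e) ∧ c e.2 = ρ' (id e)) := by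
    intro e he
    rw [mem_union, mem_filter, mem_filter]
    rcases hρ (id e) e he rfl with h | h
    · exact Or.inl ⟨hF he, h, (hin e he).1 ▸ h⟩
    · exact Or.inr ⟨hF he, h, (hin e he).2 ▸ h⟩
  have h1 := hs.card_rows hi Ω hΩ r hr htr ρ hl
  have h2 := hs.card_rows hi Ω hΩ c hc htc ρ' hl
  have h3 : (#F : ℝ) ≤ #(E.filter fun e => r e.1 = ρ (id e) ∧ r e.2 = ρ (id e)) +
      #(E.filter fun e => c e.1 = ρ' (id e) ∧ c e.2 = ρ' (id e)) := by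
    exact_mod_cast (card_le_card hsub).trans (card_union_le _ _)
  linarith

theorem flem_num_light {ε lam h W s : ℝ} (hε : 0 < ε) (hl : 0 < lam) (hh : 0 < h) :
    h ^ 2 * (200 * (ε * lam / (600 * h ^ 2) * W +
      ε ^ 3 / (600 ^ 3 * h ^ 6) * s * s / (ε * lam / (600 * h ^ 2)) ^ 2)) =
      ε / 3 * (lam * W + s ^ 2 / lam ^ 2) := by
  field_simp
  ring

theorem flem_num_rows {ε lam h W s : ℝ} (hε : 0 < ε) (hl : 0 < lam) (hh : 0 < h)
    (hb : 3 * 1200 ^ 3 / ε ^ 3 ≤ h) :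
    400 * (ε * lam / 1200 * W + 3 * s / h * s / (ε * lam / 1200) ^ 2) ≤
      ε / 3 * (lam * W + s ^ 2 / lam ^ 2) := by
  have h1 : 400 * (ε * lam / 1200 * W + 3 * s / h * s / (ε * lam / 1200) ^ 2) =
      ε / 3 * (lam * W) + 1200 ^ 3 / (h * ε ^ 2) * (s ^ 2 / lam ^ 2) := by
    field_simp
    ring
  have h2 : 1200 ^ 3 / (h * ε ^ 2) ≤ ε / 3 := by
    rw [div_le_iff₀ (by positivity)] at hb
    rw [div_le_div_iff₀ (by positivity) (by norm_num)]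
    nlinarith
  have h3 : 0 ≤ s ^ 2 / lam ^ 2 := by positivity
  rw [h1, mul_add]
  have := mul_le_mul_of_nonneg_right h2 h3
  linarith

theorem flem_num_pair {ε lam γ W s X : ℝ} (hε : 0 < ε) (hl : 0 < lam) (hγ : 0 < γ)
    (hX : (γ * s) ^ 2 ≤ X) :
    200 * (ε * lam / 200 * W + s * s / (ε * lam / 200) ^ 2) ≤
      ε * (lam * W) + 200 ^ 3 / (ε * γ) ^ 2 * (X / lam ^ 2) := by
  have h1 : 200 * (ε * lam / 200 * W + s * s / (ε * lam / 200) ^ 2) =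
      ε * (lam * W) + 200 ^ 3 / (ε * γ) ^ 2 * ((γ * s) ^ 2 / lam ^ 2) := by
    field_simp
  rw [h1]
  gcongr

/-- Let `W = i #Ω + nr`, `s = #Ω`, `X = #(tm (pairs Y) a b)`.  Take `h ≥ 3600 · 1200 ^ 2 / ε ^ 3`,
`γ = ε ^ 3 / (600 · 600 ^ 2 h ^ 4)`.  If `E = ∅` or `s < h` (then `#E ≤ s ^ 2 ≤ h W`) we are done.  Take the grid.
* Edges that are not inside a cell: at most `2 h nr` (`card_switch` twice).
* Cells with at most `γ s` points of `Y`: `Sys.card_inc_le` in each cell (`Sys.fibre`, at most `nr` runs, `h ^ 2`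
  cells) with `lam' = ε lam / (600 h ^ 2)`: at most `(ε / 3) (lam W + s ^ 2 / lam ^ 2)`.
* If two heavy cells are strictly comparable then `X ≥ γ ^ 2 s ^ 2`, and `Sys.card_le` with `ε lam / 200` bounds
  `#E` by `ε lam W + 200 ^ 3 X / (ε γ lam) ^ 2`.
* Otherwise the heavy cells that contain an edge of a given run (they are weakly comparable by
  `mono_vert`) are all in one row or all in one column: define `ρ run` as that row if there is one, and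
  `ρ' run` as the column otherwise; `card_rows` twice with `t = 3 s / h` and `lam₃ = ε lam / 1200`. -/
theorem exists_flem {ε : ℝ} (hε : 0 < ε) : ∃ C : ℝ, 0 < C ∧ ∀ (P : Finset Pt) (E : Finset Ed)
    (id : Ed → ℕ) (i : ℕ) (a b : ℝ) (Ω Y : Finset Pt) (lam : ℝ), Sys P E id i → 1 ≤ i →
    (∀ e ∈ E, a < sl e ∧ sl e ≤ b) → (∀ e ∈ E, e.1 ∈ Ω ∧ e.2 ∈ Ω) → Ω ⊆ P → Y ⊆ Ω → 0 < lam →
    (#(inc E Y) : ℝ) ≤ ε * (lam * (i * #Ω + nr E id) + #Ω ^ 2 / lam ^ 2) +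
      C * ((i * #Ω + nr E id) + #(tm (pairs Y) a b) / lam ^ 2) := by
  obtain ⟨h, hh1, hb⟩ : ∃ h : ℕ, 1 ≤ h ∧ 3 * 1200 ^ 3 / ε ^ 3 ≤ (h : ℝ) := by
    refine ⟨⌈3 * 1200 ^ 3 / ε ^ 3⌉₊ + 1, by omega, ?_⟩
    push_cast
    linarith [Nat.le_ceil (3 * 1200 ^ 3 / ε ^ 3)]
  have hh0 : (0 : ℝ) < h := by exact_mod_cast hh1
  obtain ⟨γ, hγ, hγ0⟩ : ∃ γ : ℝ, γ = ε ^ 3 / (600 ^ 3 * h ^ 6) ∧ 0 < γ := ⟨_, rfl, by positivity⟩
  obtain ⟨C₁, hC₁, hC₁0⟩ : ∃ C₁ : ℝ, C₁ = 200 ^ 3 / (ε * γ) ^ 2 ∧ 0 < C₁ :=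
    ⟨_, rfl, by positivity⟩
  refine ⟨2 * h + C₁, by positivity, ?_⟩
  intro P E id i a b Ω Y lam hs hi hab hΩ hΩP hYΩ hl
  obtain ⟨W, hW⟩ : ∃ W : ℝ, W = i * #Ω + nr E id := ⟨_, rfl⟩
  have hi' : (1 : ℝ) ≤ i := by exact_mod_cast hi
  have hs0 : (0 : ℝ) ≤ #Ω := Nat.cast_nonneg _
  have hn0 : (0 : ℝ) ≤ nr E id := Nat.cast_nonneg _
  have hsi : (#Ω : ℝ) ≤ i * #Ω := le_mul_of_one_le_left hs0 hi'
  have hsW : (#Ω : ℝ) ≤ W := by rw [hW]; linarith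
  have hnW : (nr E id : ℝ) ≤ W := by rw [hW]; linarith
  have hW0 : 0 ≤ W := hs0.trans hsW
  have hX0 : (0 : ℝ) ≤ #(tm (pairs Y) a b) / lam ^ 2 := by positivity
  have hA0 : (0 : ℝ) ≤ lam * W := by positivity
  have hB0 : (0 : ℝ) ≤ (#Ω : ℝ) ^ 2 / lam ^ 2 := by positivity
  have hincE : (#(inc E Y) : ℝ) ≤ #E := by exact_mod_cast card_le_card (inc_subset E Y)
  have hεAB : 0 ≤ ε * (lam * W + (#Ω : ℝ) ^ 2 / lam ^ 2) := by positivity
  have hexp : (2 * h + C₁) * (W + #(tm (pairs Y) a b) / lam ^ 2) =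
      2 * (h * W) + 2 * (h * (#(tm (pairs Y) a b) / lam ^ 2)) + C₁ * W +
        C₁ * (#(tm (pairs Y) a b) / lam ^ 2) := by ring
  have p1 : 0 ≤ h * W := by positivity
  have p2 : 0 ≤ h * (#(tm (pairs Y) a b) / lam ^ 2) := by positivity
  have p3 : 0 ≤ C₁ * W := by positivity
  have p4 : 0 ≤ C₁ * (#(tm (pairs Y) a b) / lam ^ 2) := by positivity
  rw [← hW, hexp]
  have hEΩ : E ⊆ tm (pairs Ω) a b := by
    intro e he
    rw [mem_tm, mem_pairs]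
    exact ⟨⟨(hΩ e he).1, (hΩ e he).2, (mem_pairs.1 (hs.sub he)).2.2⟩, hab e he⟩
  rcases E.eq_empty_or_nonempty with hE | ⟨e₀, he₀⟩
  · have : (#E : ℝ) = 0 := by rw [hE]; simp
    linarith
  have hab' : a ≤ b := by linarith [(hab e₀ he₀).1, (hab e₀ he₀).2]
  rcases lt_or_ge #Ω h with hsh | hsh
  · have h1 : #E ≤ #Ω ^ 2 :=
      (card_le_card (hEΩ.trans (tm_subset _ _ _))).trans (card_pairs_le Ω)
    have h2 : (#E : ℝ) ≤ (#Ω : ℝ) ^ 2 := by exact_mod_cast h1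
    have h3 : (#Ω : ℝ) ≤ h := by exact_mod_cast hsh.le
    have h4 : (#Ω : ℝ) ^ 2 ≤ h * W := by
      rw [sq]
      exact mul_le_mul h3 hsW hs0 hh0.le
    linarith
  obtain ⟨r, c, hlt, hmono, htr, htc, hcmp⟩ := (hs.gp.mono hΩP).exists_grid hab' hh1 hsh
  have hr : ∀ e ∈ E, r e.1 ≤ r e.2 := fun e he => (hmono e (hEΩ he)).1
  have hc : ∀ e ∈ E, c e.1 ≤ c e.2 := fun e he => (hmono e (hEΩ he)).2
  have hg0 : 0 ≤ γ * #Ω := by positivity
  set F : Finset Ed := E.filter fun e => r e.1 = r e.2 ∧ c e.1 = c e.2 ∧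
    γ * #Ω ≤ (#(flemCell Y r c (r e.1) (c e.1)) : ℝ) with hF
  by_cases hno : ∀ e ∈ F, ∀ e' ∈ F, ¬ (r e.1 < r e'.1 ∧ c e.1 < c e'.1)
  · have h1 := hs.card_switch r h hr fun e he => (hlt _ (hΩ e he).2).1.le
    have h2 := hs.card_switch c h hc fun e he => (hlt _ (hΩ e he).2).2.le
    have h1' : (#(E.filter fun e => r e.1 ≠ r e.2) : ℝ) ≤ h * nr E id := by exact_mod_cast h1
    have h2' : (#(E.filter fun e => c e.1 ≠ c e.2) : ℝ) ≤ h * nr E id := by exact_mod_cast h2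
    have h3 := flem_light hs hi Ω Y hΩ r c h hlt hr hc hg0
      (lam := ε * lam / (600 * h ^ 2)) (by positivity)
    have h4 := flem_rows hs hi Ω hΩ r c hr hc htr htc (F := F) (filter_subset _ _)
      (fun e he => ⟨(mem_filter.1 he).2.1, (mem_filter.1 he).2.2.1⟩) hno
      (lam := ε * lam / 1200) (by positivity)
    rw [← hW] at h3 h4
    have h5 := flem_num_light (W := W) (s := #Ω) hε hl hh0
    rw [← hγ] at h5
    rw [h5] at h3
    have h6 := h4.trans (flem_num_rows hε hl hh0 hb)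
    have hsub : inc E Y ⊆ (((E.filter fun e => r e.1 ≠ r e.2) ∪
        (E.filter fun e => c e.1 ≠ c e.2)) ∪
        ((inc E Y).filter fun e => r e.1 = r e.2 ∧ c e.1 = c e.2 ∧
          (#(flemCell Y r c (r e.1) (c e.1)) : ℝ) ≤ γ * #Ω)) ∪ F := by
      intro e he
      have heE := inc_subset E Y he
      simp only [mem_union, hF, mem_filter]
      by_cases e1 : r e.1 = r e.2
      · by_cases e2 : c e.1 = c e.2
        · rcases le_total (#(flemCell Y r c (r e.1) (c e.1)) : ℝ) (γ * #Ω) with e3 | e3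
          · exact Or.inl (Or.inr ⟨he, e1, e2, e3⟩)
          · exact Or.inr ⟨heE, e1, e2, e3⟩
        · exact Or.inl (Or.inl (Or.inr ⟨heE, e2⟩))
      · exact Or.inl (Or.inl (Or.inl ⟨heE, e1⟩))
    have h7 : #(inc E Y) ≤ #(E.filter fun e => r e.1 ≠ r e.2) +
        #(E.filter fun e => c e.1 ≠ c e.2) +
        #((inc E Y).filter fun e => r e.1 = r e.2 ∧ c e.1 = c e.2 ∧
          (#(flemCell Y r c (r e.1) (c e.1)) : ℝ) ≤ γ * #Ω) + #F :=
      (card_le_card hsub).trans ((card_union_le _ _).trans (Nat.add_le_add_right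
        ((card_union_le _ _).trans (Nat.add_le_add_right (card_union_le _ _) _)) _))
    have h8 : (#(inc E Y) : ℝ) ≤ #(E.filter fun e => r e.1 ≠ r e.2) +
        #(E.filter fun e => c e.1 ≠ c e.2) +
        #((inc E Y).filter fun e => r e.1 = r e.2 ∧ c e.1 = c e.2 ∧
          (#(flemCell Y r c (r e.1) (c e.1)) : ℝ) ≤ γ * #Ω) + #F := by exact_mod_cast h7
    have h9 : h * (nr E id : ℝ) ≤ h * W := mul_le_mul_of_nonneg_left hnW hh0.le
    have h10 : ε / 3 * (lam * W + (#Ω : ℝ) ^ 2 / lam ^ 2) =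
        ε * (lam * W + (#Ω : ℝ) ^ 2 / lam ^ 2) / 3 := by ring
    rw [h10] at h3 h6
    linarith
  · push Not at hno
    obtain ⟨e, he, e', he', hx, hy⟩ := hno
    have h1 := flem_pair hYΩ r c hcmp hx hy hg0 (mem_filter.1 he).2.2.2 (mem_filter.1 he').2.2.2
    have h2 := hs.card_le hi Ω hΩ (lam := ε * lam / 200) (by positivity)
    rw [← hW] at h2
    have h3 := h2.trans (flem_num_pair hε hl hγ0 h1)
    rw [← hC₁] at h3
    have h4 : 0 ≤ ε * ((#Ω : ℝ) ^ 2 / lam ^ 2) := by positivity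
    rw [mul_add]
    linarith

end Crest.Agent.R51
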