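import Crest.Agent.R51.Level

/-! Pairs with slopes in logarithmically long windows. -/

namespace Crest.Agent.R51

open Finset
open scoped Classical

/-- Counting by fibres. -/
theorem G1a_fib {α β : Type} (S : Finset α) (Z : Finset β) (f : α → β) (hf : ∀ e ∈ S, f e ∈ Z)
    {x : ℝ} (h : ∀ a ∈ Z, ∀ S' : Finset α, (∀ e ∈ S', e ∈ S ∧ f e = a) → (#S' : ℝ) ≤ x) :
    (#S : ℝ) ≤ #Z * x := by
  rw [card_eq_sum_card_fiberwise hf]
  push_cast
  exact (sum_le_card_nsmul _ _ _ fun a ha => h a ha _ fun e he => mem_filter.1 he).trans_eq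
    (nsmul_eq_mul _ _)

/-- Cuts for a real function `u` on a finite set that takes no value more than twice: there are at most
`h` cut points such that all but `3 N ^ 2 / h` ordered pairs are separated by a cut.  (Classes
`ρ p = #{z | u z < u p} * h / #Z`, each of at most `#Z / h + 2` points; the cut for the class `x` is the largest
value of `u` on the points with `ρ ≤ x`; if `#Z < h` take all values of `u` as cuts.) -/
theorem exists_cuts (Z : Finset Pt) (u : Pt → ℝ) (hu : ∀ y, #(Z.filter fun z => u z = y) ≤ 2)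
    {N : ℝ} (hN : (#Z : ℝ) ≤ N) {h : ℕ} (hh : 1 ≤ h) (hhN : (h : ℝ) ≤ N) :
    ∃ T : Finset ℝ, #T ≤ h ∧
      (#((Z ×ˢ Z).filter fun e => ¬ ∃ t ∈ T, (u e.1 ≤ t ∧ t ≤ u e.2) ∨ (u e.2 ≤ t ∧ t ≤ u e.1)) : ℝ)
        ≤ 3 * N ^ 2 / h := by
  have hh' : (0 : ℝ) < h := by exact_mod_cast hh
  obtain ⟨r, hr⟩ : ∃ r : Pt → ℕ, ∀ p, r p = #(Z.filter fun z => u z < u p) := ⟨_, fun _ => rfl⟩
  have rm : ∀ p q, u p ≤ u q → r p ≤ r q := fun p q hpq => by
    rw [hr, hr]
    exact card_le_card fun z hz => mem_filter.2 ⟨(mem_filter.1 hz).1, (mem_filter.1 hz).2.trans_le hpq⟩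
  have key : ∀ x : ℕ, ∃ p : Pt, ∀ z ∈ Z, r z * h / #Z = x → r p * h / #Z = x ∧ u z ≤ u p := by
    intro x
    rcases (Z.filter fun z => r z * h / #Z = x).eq_empty_or_nonempty with h0 | h0
    · exact ⟨0, fun z hz hx => absurd (h0 ▸ mem_filter.2 ⟨hz, hx⟩) (notMem_empty z)⟩
    · obtain ⟨p, hp, hp'⟩ := exists_max_image _ u h0
      exact ⟨p, fun z hz hx => ⟨(mem_filter.1 hp).2, hp' z (mem_filter.2 ⟨hz, hx⟩)⟩⟩
  choose top htop using key
  have sep : ∀ p ∈ Z, ∀ q, r p * h / #Z < r q * h / #Z →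
      ∃ t ∈ (range h).image fun x => u (top x), u p ≤ t ∧ t ≤ u q := by
    intro p hp q hpq
    obtain ⟨h1, h2⟩ := htop _ p hp rfl
    have h3 : r p < #Z := by
      rw [hr]
      exact card_lt_card (filter_ssubset.2 ⟨p, hp, lt_irrefl _⟩)
    refine ⟨_, mem_image_of_mem _ (mem_range.2 (Nat.div_lt_of_lt_mul
      (Nat.mul_lt_mul_of_pos_right h3 hh))), h2, le_of_not_gt fun h4 => ?_⟩
    have := Nat.div_le_div_right (c := #Z) (Nat.mul_le_mul_right h (rm _ _ h4.le))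
    omega
  have cls : ∀ x : ℕ, (#(Z.filter fun z => r z * h / #Z = x) : ℝ) ≤ 3 * N / h := by
    intro x
    rw [le_div_iff₀ hh']
    rcases (Z.filter fun z => r z * h / #Z = x).eq_empty_or_nonempty with h0 | h0
    · rw [h0, card_empty, Nat.cast_zero, zero_mul]
      linarith
    obtain ⟨p, hp, hp'⟩ := exists_min_image _ u h0
    obtain ⟨q, hq, hq'⟩ := exists_max_image _ u h0
    have h1 : #(Z.filter fun z => r z * h / #Z = x) + r p ≤ r q + 2 := by
      rw [hr p, ← card_union_of_disjoint (disjoint_left.2 fun z h1 h2 =>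
        absurd (mem_filter.1 h2).2 (not_lt.2 (hp' z h1))), hr q]
      refine le_trans (card_le_card fun z hz => ?_)
        ((card_union_le _ _).trans (Nat.add_le_add_left (hu (u q)) _))
      have h3 : z ∈ Z ∧ u z ≤ u q := by
        rcases mem_union.1 hz with hz | hz
        · exact ⟨(mem_filter.1 hz).1, hq' z hz⟩
        · exact ⟨(mem_filter.1 hz).1, (mem_filter.1 hz).2.le.trans (hq' p hp)⟩
      rw [mem_union, mem_filter, mem_filter]
      exact h3.2.lt_or_eq.imp (fun h => ⟨h3.1, h⟩) fun h => ⟨h3.1, h⟩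
    have h2 := Nat.lt_div_mul_add (a := r q * h) (card_pos.2 ⟨p, (mem_filter.1 hp).1⟩)
    have h3 := Nat.div_mul_le_self (r p * h) #Z
    rw [(mem_filter.1 hq).2] at h2
    rw [(mem_filter.1 hp).2] at h3
    have h4 := Nat.mul_le_mul_right h h1
    have h5 : #(Z.filter fun z => r z * h / #Z = x) * h ≤ #Z + 2 * h := by
      rw [add_mul, add_mul] at h4
      omega
    have h6 : (#(Z.filter fun z => r z * h / #Z = x) : ℝ) * h ≤ #Z + 2 * h := by exact_mod_cast h5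
    linarith
  refine ⟨(range h).image fun x => u (top x), card_image_le.trans (card_range h).le, ?_⟩
  refine (G1a_fib _ Z Prod.fst (fun e he => (mem_product.1 (mem_filter.1 he).1).1)
    (x := 3 * N / h) fun a ha S hS => le_trans ?_ (cls (r a * h / #Z))).trans ?_
  · refine Nat.cast_le.2 (card_le_card_of_injOn Prod.snd (fun e he => ?_) fun e he e' he' h => ?_)
    · obtain ⟨he, rfl⟩ := hS e he
      obtain ⟨he, hn⟩ := mem_filter.1 he
      obtain ⟨h1, h2⟩ := mem_product.1 he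
      refine mem_filter.2 ⟨h2, le_antisymm (le_of_not_gt fun h => hn ?_) (le_of_not_gt fun h => hn ?_)⟩
      · obtain ⟨t, ht, h3⟩ := sep _ h1 _ h
        exact ⟨t, ht, Or.inl h3⟩
      · obtain ⟨t, ht, h3⟩ := sep _ h2 _ h
        exact ⟨t, ht, Or.inr h3⟩
    · exact Prod.ext ((hS e he).2.trans (hS e' he').2.symm) h
  · have h0 : 0 ≤ 3 * N / h := div_nonneg (by linarith) hh'.le
    calc #Z * (3 * N / h) ≤ N * (3 * N / h) := mul_le_mul_of_nonneg_right hN h0
      _ = _ := by ring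

/-- A point lies in the critical range of at most two windows. -/
theorem G1a_two (W : Finset ℕ) (wl wh : ℕ → ℝ) {a b : ℝ} (hb : 0 < b)
    (h1 : ∀ k ∈ W, 0 ≤ wl k ∧ wl k < wh k ∧ 100 * wl k ≤ wh k)
    (h2 : ∀ k ∈ W, ∀ k' ∈ W, k = k' ∨ wh k ≤ wl k' ∨ wh k' ≤ wl k) :
    #(W.filter fun k => b ≤ 4 * a * wh k ∧ a * wl k ≤ 2 * b) ≤ 2 := by
  rcases (W.filter fun k => b ≤ 4 * a * wh k ∧ a * wl k ≤ 2 * b).eq_empty_or_nonempty with h0 | h0
  · rw [h0]; simp
  obtain ⟨p, hp, hp'⟩ := exists_min_image _ wl h0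
  obtain ⟨q, hq, hq'⟩ := exists_max_image _ wl h0
  refine le_trans (card_le_card fun k hk => ?_) (card_le_two (a := p) (b := q))
  rw [mem_insert, mem_singleton]
  by_contra hc
  rw [not_or] at hc
  have e1 := hp' k hk
  have e2 := hq' k hk
  obtain ⟨kW, -⟩ := mem_filter.1 hk
  obtain ⟨pW, p1, -⟩ := mem_filter.1 hp
  obtain ⟨qW, -, q1⟩ := mem_filter.1 hq
  obtain ⟨k1, k2, k3⟩ := h1 k kW
  obtain ⟨p2, p3, -⟩ := h1 p pW
  have e3 : wh p ≤ wl k :=
    ((h2 k kW p pW).resolve_left hc.1).resolve_left fun h => by linarith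
  have e4 : wh k ≤ wl q :=
    ((h2 k kW q qW).resolve_left hc.2).resolve_right fun h => by linarith [(h1 q qW).2.1]
  have ha : 0 < a := by
    by_contra ha
    nlinarith [mul_nonneg (neg_nonneg.2 (not_lt.1 ha)) (by linarith : 0 ≤ wh p)]
  have e5 := mul_le_mul_of_nonneg_left e3 ha.le
  have e6 := mul_le_mul_of_nonneg_left e4 ha.le
  have e7 := mul_le_mul_of_nonneg_left k3 ha.le
  have e8 := mul_pos ha (by linarith : 0 < wh k)
  linarith

/-- The abstract form.  `T` is a set of ordered pairs `(a, o)`, `A a ≥ 0` is the horizontal and `B a ≥ 0` the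
vertical distance from a cut point, `ρ (a, o)` is the absolute value of the slope seen from `θ`, `w (a, o)` is its
window `[wl k, wh k]`.
* Discard the pairs `e = (a, o)` for which at most `2 C N / m` pairs `(a, o') ∈ T` have `wh (w (a, o')) ≤ wl (w e)`
  [for a fixed `a` these are at most `3 C N / m` pairs: among the discarded ones take one with the largest
  window].  For a kept pair the lower pairs occupy at least three windows, so two of them `k'`, `k''` satisfy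
  `wh k' ≤ wl k''`, `wh k'' ≤ wl k`; hence `0 < wl k` and `B a ≤ B o' ≤ 2 A a · wh k' ≤ A a · wl k / 50`.
* For `o` and `k` let `J o k = {z ∈ Z | B o ≤ 4 A z · wh k ∧ A z · wl k ≤ 4 B o}`.  If `0 < B o`, a point `z` is in `J o k` for at
  most two windows `k` (the middle one of three would have `wh ≤ 16 wl`); so `#(J o k) > C' N / m` for at most
  `2 m / C'` windows.  Discard the pairs with `#(J o (w e)) > C' N / m`: at most `2 C N ^ 2 / C'`, `C' = 8 C / c`.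
  (For a pair kept in the first step `B o > 0`, because `A a · wl k ≤ A a · ρ ≤ 2 B o`.)
* `Y k` is the set of first coordinates of the kept pairs with window `k`. -/
theorem g1_abstract {C c : ℝ} (hC : 0 < C) (hc : 0 < c) : ∃ C' m₀ : ℝ, 0 < C' ∧
    ∀ (Z : Finset Pt) (N m : ℝ) (A B : Pt → ℝ) (T : Finset Ed) (ρ : Ed → ℝ) (w : Ed → ℕ)
      (wl wh : ℕ → ℝ), (#Z : ℝ) ≤ N → m₀ ≤ m → 0 < m → T ⊆ Z ×ˢ Z →
      (∀ e ∈ T, 0 < A e.1 ∧ 0 ≤ B e.1 ∧ B e.1 ≤ B e.2 ∧ B e.2 ≤ 2 * A e.1 * ρ e ∧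
        A e.1 * ρ e ≤ 2 * B e.2 ∧ wl (w e) ≤ ρ e ∧ ρ e ≤ wh (w e)) →
      (∀ e ∈ T, 0 ≤ wl (w e) ∧ wl (w e) < wh (w e) ∧ 100 * wl (w e) ≤ wh (w e)) →
      (∀ e ∈ T, ∀ e' ∈ T, w e = w e' ∨ wh (w e) ≤ wl (w e') ∨ wh (w e') ≤ wl (w e)) →
      (∀ k p, (#(T.filter fun e => w e = k ∧ (e.1 = p ∨ e.2 = p)) : ℝ) ≤ C * N / m) →
      c * N ^ 2 ≤ #T →
      ∃ T' ⊆ T, c / 2 * N ^ 2 ≤ #T' ∧ ∀ e ∈ T', 0 < wl (w e) ∧ 50 * B e.1 ≤ A e.1 * wl (w e) ∧
        (#(Z.filter fun z => A e.1 ≤ 2 * A z ∧ A z ≤ A e.1) : ℝ) ≤ C' * N / m := by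
  refine ⟨8 * C / c, 8 * C / c, by positivity, ?_⟩
  intro Z N m A B T ρ w wl wh hN hm hm0 hT h1 h2 h3 h4 h5
  rcases ((Nat.cast_nonneg _).trans hN).eq_or_lt with rfl | hN0
  · exact ⟨∅, empty_subset _, by simp, fun e he => absurd he (notMem_empty e)⟩
  have hD : 0 ≤ C * N / m := by positivity
  have fib1 : ∀ k p (S : Finset Ed), (∀ e ∈ S, e ∈ T ∧ w e = k ∧ (e.1 = p ∨ e.2 = p)) →
      (#S : ℝ) ≤ C * N / m := fun k p S hS =>
    le_trans (Nat.cast_le.2 (card_le_card fun e he => mem_filter.2 (hS e he))) (h4 k p)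
  obtain ⟨Lw, hLw⟩ : ∃ Lw : Ed → Finset Ed,
    ∀ e, Lw e = T.filter fun e' => e'.1 = e.1 ∧ wh (w e') ≤ wl (w e) := ⟨_, fun _ => rfl⟩
  obtain ⟨J, hJ⟩ : ∃ J : Pt → ℕ → Finset Pt,
    ∀ o k, J o k = Z.filter fun z => B o ≤ 4 * A z * wh k ∧ A z * wl k ≤ 2 * B o :=
    ⟨_, fun _ _ => rfl⟩
  -- first step
  have s1 : (#(T.filter fun e => (#(Lw e) : ℝ) ≤ C * N / m) : ℝ) ≤ #Z * (2 * (C * N / m)) := by
    refine G1a_fib _ Z Prod.fst (fun e he => (mem_product.1 (hT (mem_filter.1 he).1)).1)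
      fun a _ S hS => ?_
    have mS : ∀ e ∈ S, e ∈ T ∧ (#(Lw e) : ℝ) ≤ C * N / m ∧ e.1 = a := fun e he =>
      ⟨(mem_filter.1 (hS e he).1).1, (mem_filter.1 (hS e he).1).2, (hS e he).2⟩
    rcases S.eq_empty_or_nonempty with h0 | h0
    · rw [h0, card_empty, Nat.cast_zero]
      linarith
    obtain ⟨e₀, he₀, hmax⟩ := exists_max_image S (fun e => wl (w e)) h0
    obtain ⟨a1, a2, a3⟩ := mS e₀ he₀
    have b1 := fib1 (w e₀) a (S.filter fun e => w e = w e₀) fun e he =>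
      ⟨(mS e (mem_filter.1 he).1).1, (mem_filter.1 he).2, Or.inl (mS e (mem_filter.1 he).1).2.2⟩
    have b2 : #S ≤ #(S.filter fun e => w e = w e₀) + #(Lw e₀) := by
      refine le_trans (card_le_card fun e he => ?_) (card_union_le _ _)
      obtain ⟨c1, -, c2⟩ := mS e he
      rw [mem_union, hLw, mem_filter, mem_filter]
      rcases h3 e c1 e₀ a1 with h | h | h
      · exact Or.inl ⟨he, h⟩
      · exact Or.inr ⟨c1, c2.trans a3.symm, h⟩
      · exact absurd (h.trans (hmax e he)) (not_le.2 (h2 e₀ a1).2.1)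
    have b3 : (#S : ℝ) ≤ #(S.filter fun e => w e = w e₀) + #(Lw e₀) := by exact_mod_cast b2
    linarith
  have k1 : ∀ e ∈ T, ¬ (#(Lw e) : ℝ) ≤ C * N / m →
      0 < wl (w e) ∧ 50 * B e.1 ≤ A e.1 * wl (w e) := by
    intro e he hn
    have mL : ∀ e' ∈ Lw e, e' ∈ T ∧ e'.1 = e.1 ∧ wh (w e') ≤ wl (w e) := fun e' he' => by
      rwa [hLw, mem_filter] at he'
    have two : ∀ e₁ ∈ Lw e, ∀ e₂ ∈ Lw e, wh (w e₁) ≤ wl (w e₂) →
        0 < wl (w e) ∧ 50 * B e.1 ≤ A e.1 * wl (w e) := by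
      intro e₁ he₁ e₂ he₂ h
      obtain ⟨a1, a2, -⟩ := mL e₁ he₁
      obtain ⟨b1, -, b3⟩ := mL e₂ he₂
      obtain ⟨c1, -, c2, c3, -, -, c4⟩ := h1 e₁ a1
      obtain ⟨d1, d2, -⟩ := h2 e₁ a1
      have d3 := (h2 e₂ b1).2.2
      rw [a2] at c1 c2 c3
      refine ⟨by linarith, ?_⟩
      have := mul_le_mul_of_nonneg_left (by linarith : 100 * ρ e₁ ≤ wl (w e)) c1.le
      linarith
    obtain ⟨e₁, he₁⟩ : (Lw e).Nonempty := card_pos.1 (by
      have : (0 : ℝ) < #(Lw e) := hD.trans_lt (not_le.1 hn)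
      exact_mod_cast this)
    by_contra hc
    refine hn (fib1 (w e₁) e.1 _ fun e₂ he₂ => ⟨(mL e₂ he₂).1, ?_, Or.inl (mL e₂ he₂).2.1⟩)
    rcases h3 e₂ (mL e₂ he₂).1 e₁ (mL e₁ he₁).1 with h | h | h
    · exact h
    · exact absurd (two e₂ he₂ e₁ he₁ h) hc
    · exact absurd (two e₁ he₁ e₂ he₂ h) hc
  -- second step
  have s2 : (#(T.filter fun e => 0 < B e.2 ∧ 8 * C / c * N / m < #(J e.2 (w e))) : ℝ) ≤
      #Z * (c / 4 * N) := by
    refine G1a_fib _ Z Prod.snd (fun e he => (mem_product.1 (hT (mem_filter.1 he).1)).2)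
      fun o _ S hS => ?_
    rcases S.eq_empty_or_nonempty with rfl | ⟨e₀, he₀⟩
    · rw [card_empty, Nat.cast_zero]
      positivity
    have hB : 0 < B o := (hS e₀ he₀).2 ▸ (mem_filter.1 (hS e₀ he₀).1).2.1
    generalize hH : (T.image w).filter (fun k => 8 * C / c * N / m < #(J o k)) = H
    have a1 : ∑ k ∈ T.image w, #(J o k) ≤ #Z * 2 := by
      simp only [hJ]
      refine (sum_card_bipartiteAbove_eq_sum_card_bipartiteBelow
        (fun k z => B o ≤ 4 * A z * wh k ∧ A z * wl k ≤ 2 * B o)).trans_le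
        (sum_le_card_nsmul _ _ _ fun z _ =>
          G1a_two _ wl wh hB (fun k hk => ?_) fun k hk k' hk' => ?_)
      · obtain ⟨e, he, rfl⟩ := mem_image.1 hk
        exact h2 e he
      · obtain ⟨e, he, rfl⟩ := mem_image.1 hk
        obtain ⟨e', he', rfl⟩ := mem_image.1 hk'
        exact h3 e he e' he'
    have a2 : #H * (8 * C / c * N / m) ≤ N * 2 := by
      calc #H * (8 * C / c * N / m) ≤ ∑ k ∈ H, (#(J o k) : ℝ) := by
            rw [← nsmul_eq_mul]
            exact card_nsmul_le_sum _ _ _ fun k hk => (mem_filter.1 (hH ▸ hk)).2.le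
        _ ≤ ∑ k ∈ T.image w, (#(J o k) : ℝ) :=
            sum_le_sum_of_subset_of_nonneg (hH ▸ filter_subset _ _) fun _ _ _ => Nat.cast_nonneg _
        _ ≤ #Z * 2 := by exact_mod_cast a1
        _ ≤ _ := by linarith
    refine (G1a_fib _ H w (fun e he => ?_) (x := C * N / m) fun k _ S' hS' =>
      fib1 k o _ fun e he => ?_).trans ?_
    · obtain ⟨he, rfl⟩ := hS e he
      exact hH ▸ mem_filter.2 ⟨mem_image_of_mem _ (mem_filter.1 he).1, (mem_filter.1 he).2.2⟩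
    · obtain ⟨he, hk⟩ := hS' e he
      exact ⟨(mem_filter.1 (hS e he).1).1, hk, Or.inr (hS e he).2⟩
    · calc #H * (C * N / m) = c / 8 * (#H * (8 * C / c * N / m)) := by field_simp
        _ ≤ c / 8 * (N * 2) := by gcongr
        _ = _ := by ring
  refine ⟨T.filter fun e => ¬ (#(Lw e) : ℝ) ≤ C * N / m ∧
    ¬ (0 < B e.2 ∧ 8 * C / c * N / m < #(J e.2 (w e))), filter_subset _ _, ?_, fun e he => ?_⟩
  · have a1 : #T ≤ #(T.filter fun e => ¬ (#(Lw e) : ℝ) ≤ C * N / m ∧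
        ¬ (0 < B e.2 ∧ 8 * C / c * N / m < #(J e.2 (w e)))) +
        (#(T.filter fun e => (#(Lw e) : ℝ) ≤ C * N / m) +
        #(T.filter fun e => 0 < B e.2 ∧ 8 * C / c * N / m < #(J e.2 (w e)))) := by
      refine le_trans (card_le_card fun e he => ?_)
        ((card_union_le _ _).trans (Nat.add_le_add_left (card_union_le _ _) _))
      simp only [mem_union, mem_filter]
      tauto
    have a2 := (Nat.cast_le (α := ℝ)).2 a1
    rw [Nat.cast_add, Nat.cast_add] at a2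
    have a3 : 2 * (C * N / m) ≤ c / 4 * N := by
      rw [div_le_iff₀ hc] at hm
      rw [← mul_div_assoc, div_le_iff₀ hm0]
      nlinarith
    have a4 : #Z * (2 * (C * N / m)) ≤ N * (c / 4 * N) := by gcongr
    have a5 : #Z * (c / 4 * N) ≤ N * (c / 4 * N) := by gcongr
    linarith
  · obtain ⟨he, n1, n2⟩ := mem_filter.1 he
    obtain ⟨a1, a2⟩ := k1 e he n1
    obtain ⟨c1, -, -, c2, c3, c4, c5⟩ := h1 e he
    have b1 := mul_le_mul_of_nonneg_left c4 c1.le
    have b2 := mul_le_mul_of_nonneg_left c5 c1.le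
    have b3 := mul_pos c1 a1
    refine ⟨a1, a2, le_trans (Nat.cast_le.2 (card_le_card fun z hz => ?_))
      (not_lt.1 fun h => n2 ⟨by linarith, h⟩)⟩
    obtain ⟨hz, z1, z2⟩ := mem_filter.1 hz
    have b4 := mul_le_mul_of_nonneg_right z1 (by linarith : 0 ≤ wh (w e))
    have b5 := mul_le_mul_of_nonneg_right z2 a1.le
    rw [hJ]
    exact mem_filter.2 ⟨hz, by linarith, by linarith⟩

end Crest.Agent.R51
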