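import Crest.Agent.R51.Level
import Crest.Agent.R51.G1a

/-! Pairs with slopes in logarithmically long windows. -/

namespace Crest.Agent.R51

open Finset
open scoped Classical

/-- orientation of an ordered pair -/
def g1Ed (σ : Bool) (e : Ed) : Ed := if σ then e else e.swap

/-- sign -/
def g1Sg (σ : Bool) : ℝ := if σ then -1 else 1

theorem g1Ed_inj (σ : Bool) : Function.Injective (g1Ed σ) := by
  cases σ
  · exact Prod.swap_injective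
  · exact fun _ _ h => h

theorem g1_sl_swap (e : Ed) : sl e.swap = sl e := by
  unfold sl
  rw [← neg_div_neg_eq]
  simp

theorem g1_sl_ed (σ : Bool) (e : Ed) : sl (g1Ed σ e) = sl e := by
  cases σ
  · exact g1_sl_swap e
  · rfl

theorem g1_inc_ed (σ : Bool) (e : Ed) (p : Pt) : Inc p (g1Ed σ e) ↔ e.1 = p ∨ e.2 = p := by
  cases σ
  · exact or_comm
  · rfl

theorem g1_abs_of_sg {σ : Bool} {x : ℝ} (h : 0 ≤ g1Sg σ * x) : |x| = g1Sg σ * x := by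
  cases σ
  · simp only [g1Sg, Bool.false_eq_true, if_false, one_mul] at h ⊢
    exact abs_of_nonneg h
  · simp only [g1Sg, if_true, neg_one_mul] at h ⊢
    exact abs_of_nonpos (by linarith)

theorem g1_abs_sep {σ : Bool} {x y s : ℝ} (h : 0 ≤ g1Sg σ * (x - s)) (h' : g1Sg σ * (y - s) ≤ 0) :
    |y - x| = |x - s| + |y - s| := by
  cases σ
  · simp only [g1Sg, Bool.false_eq_true, if_false, one_mul] at h h'
    rw [abs_of_nonpos (by linarith), abs_of_nonneg h, abs_of_nonpos h']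
    ring
  · simp only [g1Sg, if_true, neg_one_mul] at h h'
    rw [abs_of_nonneg (by linarith), abs_of_nonpos (by linarith), abs_of_nonneg (by linarith)]
    ring

/-- the ordered pairs of a given type -/
noncomputable def g1G (Z : Finset Pt) (H : Finset Ed) (θ : ℝ) (τ : ℝ × ℝ × Bool × Bool) :
    Finset Ed :=
  (Z ×ˢ Z).filter fun e => g1Ed τ.2.2.1 e ∈ H ∧ 0 ≤ g1Sg τ.2.2.1 * (e.1.1 - τ.1) ∧
    g1Sg τ.2.2.1 * (e.2.1 - τ.1) ≤ 0 ∧ 0 ≤ g1Sg τ.2.2.2 * (f θ e.1 - τ.2.1) ∧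
    g1Sg τ.2.2.2 * (f θ e.2 - τ.2.1) ≤ 0 ∧ |e.2.1 - τ.1| ≤ |e.1.1 - τ.1|

theorem g1G_facts {Z : Finset Pt} {H : Finset Ed} (hH : H ⊆ pairs Z) {θ : ℝ}
    {τ : ℝ × ℝ × Bool × Bool} {e : Ed} (he : e ∈ g1G Z H θ τ) :
    0 < |e.1.1 - τ.1| ∧ |f θ e.1 - τ.2.1| + |f θ e.2 - τ.2.1| =
      (|e.1.1 - τ.1| + |e.2.1 - τ.1|) * |sl e - θ| := by
  obtain ⟨-, h1, h2, h3, h4, h5, h6⟩ := mem_filter.1 he
  have hne : e.2.1 - e.1.1 ≠ 0 := by
    have := (mem_pairs.1 (hH h1)).2.2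
    revert this
    cases τ.2.2.1 <;> simp only [g1Ed, Bool.false_eq_true, if_false, if_true, Prod.fst_swap,
      Prod.snd_swap] <;> intro this <;> linarith
  have e1 := g1_abs_sep h2 h3
  have e2 := g1_abs_sep h4 h5
  have e3 : f θ e.2 - f θ e.1 = (e.2.1 - e.1.1) * (sl e - θ) := by
    unfold f sl
    field_simp
    ring
  have e4 := abs_pos.2 hne
  refine ⟨by linarith, ?_⟩
  rw [← e1, ← e2, e3, abs_mul]

theorem g1_cover {Z : Finset Pt} {H : Finset Ed} (hH : H ⊆ pairs Z) (θ : ℝ) (S T : Finset ℝ) :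
    #H ≤ #((Z ×ˢ Z).filter fun e =>
        ¬ ∃ s ∈ S, (e.1.1 ≤ s ∧ s ≤ e.2.1) ∨ (e.2.1 ≤ s ∧ s ≤ e.1.1)) +
      #((Z ×ˢ Z).filter fun e =>
        ¬ ∃ t ∈ T, (f θ e.1 ≤ t ∧ t ≤ f θ e.2) ∨ (f θ e.2 ≤ t ∧ t ≤ f θ e.1)) +
      ∑ τ ∈ S ×ˢ T ×ˢ (univ : Finset Bool) ×ˢ (univ : Finset Bool), #(g1G Z H θ τ) := by
  refine le_trans (card_le_card (t := (((Z ×ˢ Z).filter fun e =>
        ¬ ∃ s ∈ S, (e.1.1 ≤ s ∧ s ≤ e.2.1) ∨ (e.2.1 ≤ s ∧ s ≤ e.1.1)) ∪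
      ((Z ×ˢ Z).filter fun e =>
        ¬ ∃ t ∈ T, (f θ e.1 ≤ t ∧ t ≤ f θ e.2) ∨ (f θ e.2 ≤ t ∧ t ≤ f θ e.1))) ∪
      (S ×ˢ T ×ˢ (univ : Finset Bool) ×ˢ (univ : Finset Bool)).biUnion
        fun τ => (g1G Z H θ τ).image (g1Ed τ.2.2.1)) ?_) ?_
  · intro e he
    obtain ⟨hz1, hz2, hlt⟩ := mem_pairs.1 (hH he)
    have hz : e ∈ Z ×ˢ Z := mem_product.2 ⟨hz1, hz2⟩
    have hz' : e.swap ∈ Z ×ˢ Z := mem_product.2 ⟨hz2, hz1⟩
    rw [mem_union, mem_union, mem_filter, mem_filter]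
    by_cases h1 : ∃ s ∈ S, (e.1.1 ≤ s ∧ s ≤ e.2.1) ∨ (e.2.1 ≤ s ∧ s ≤ e.1.1)
    swap
    · exact Or.inl (Or.inl ⟨hz, h1⟩)
    by_cases h2 : ∃ t ∈ T, (f θ e.1 ≤ t ∧ t ≤ f θ e.2) ∨ (f θ e.2 ≤ t ∧ t ≤ f θ e.1)
    swap
    · exact Or.inl (Or.inr ⟨hz, h2⟩)
    refine Or.inr ?_
    obtain ⟨s, hs, h1⟩ := h1
    obtain ⟨t, ht, h2⟩ := h2
    have h1' : e.1.1 ≤ s ∧ s ≤ e.2.1 := by
      rcases h1 with h1 | h1
      · exact h1
      · exact ⟨by linarith [h1.1], by linarith [h1.2]⟩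
    have key : ∀ σ₁ σ₂ : Bool, ∀ e' : Ed, g1Ed σ₁ e' = e → e' ∈ g1G Z H θ (s, t, σ₁, σ₂) →
        e ∈ (S ×ˢ T ×ˢ (univ : Finset Bool) ×ˢ (univ : Finset Bool)).biUnion
          fun τ => (g1G Z H θ τ).image (g1Ed τ.2.2.1) := by
      intro σ₁ σ₂ e' h3 h4
      exact mem_biUnion.2 ⟨(s, t, σ₁, σ₂), by simp [hs, ht], mem_image.2 ⟨e', h4, h3⟩⟩
    rcases le_total |e.2.1 - s| |e.1.1 - s| with h3 | h3
    · rcases h2 with h2 | h2
      · refine key true true e rfl (mem_filter.2 ⟨hz, he, ?_, ?_, ?_, ?_, h3⟩) <;>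
          simp only [g1Sg, if_true] <;> linarith [h1'.1, h1'.2, h2.1, h2.2]
      · refine key true false e rfl (mem_filter.2 ⟨hz, he, ?_, ?_, ?_, ?_, h3⟩) <;>
          simp only [g1Sg, if_true, Bool.false_eq_true, if_false] <;>
          linarith [h1'.1, h1'.2, h2.1, h2.2]
    · rcases h2 with h2 | h2
      · refine key false false e.swap rfl (mem_filter.2 ⟨hz', he, ?_, ?_, ?_, ?_, h3⟩) <;>
          simp only [g1Sg, Bool.false_eq_true, if_false, Prod.fst_swap, Prod.snd_swap] <;>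
          linarith [h1'.1, h1'.2, h2.1, h2.2]
      · refine key false true e.swap rfl (mem_filter.2 ⟨hz', he, ?_, ?_, ?_, ?_, h3⟩) <;>
          simp only [g1Sg, if_true, Bool.false_eq_true, if_false, Prod.fst_swap, Prod.snd_swap] <;>
          linarith [h1'.1, h1'.2, h2.1, h2.2]
  · refine (card_union_le _ _).trans (add_le_add (card_union_le _ _) ?_)
    exact card_biUnion_le.trans (sum_le_sum fun τ _ => card_image_le)

theorem g1_deg {H T : Finset Ed} {σ : Bool} (hT : ∀ e ∈ T, g1Ed σ e ∈ H) {lo hi : ℕ → ℝ}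
    {w : Ed → ℕ} (hw : ∀ e ∈ T, lo (w e) < sl e ∧ sl e ≤ hi (w e)) (k : ℕ) (p : Pt) :
    #(T.filter fun e => w e = k ∧ (e.1 = p ∨ e.2 = p)) ≤ deg (tm H (lo k) (hi k)) p := by
  refine card_le_card_of_injOn (g1Ed σ) ?_ (g1Ed_inj σ).injOn
  intro e he
  obtain ⟨h1, h2, h3⟩ := mem_filter.1 he
  refine mem_filter.2 ⟨mem_tm.2 ⟨hT e h1, ?_⟩, (g1_inc_ed σ e p).2 h3⟩
  rw [g1_sl_ed, ← h2]
  exact hw e h1

/-- at most two long windows meet an interval `[x, 4 x]` -/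
theorem g1_two {K : Finset ℕ} {wl wh : ℕ → ℝ} {x : ℝ} (hx : 0 < x)
    (h1 : ∀ k ∈ K, 100 * wl k ≤ wh k ∧ x ≤ wh k ∧ wl k ≤ 4 * x)
    (h2 : ∀ k ∈ K, ∀ k' ∈ K, k = k' ∨ wh k ≤ wl k' ∨ wh k' ≤ wl k) : #K ≤ 2 := by
  by_contra hc
  obtain ⟨a, b, d, ha, hb, hd, hab, had, hbd⟩ := two_lt_card_iff.1 (not_le.1 hc)
  obtain ⟨a1, a2, a3⟩ := h1 a ha
  obtain ⟨b1, b2, b3⟩ := h1 b hb
  obtain ⟨d1, d2, d3⟩ := h1 d hd
  rcases (h2 a ha b hb).resolve_left hab with e1 | e1 <;>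
    rcases (h2 a ha d hd).resolve_left had with e2 | e2 <;>
    rcases (h2 b hb d hd).resolve_left hbd with e3 | e3 <;> linarith

/-- counting a set of pairs by first coordinate and window -/
theorem g1_count {T : Finset Ed} {w : Ed → ℕ} {D : ℝ} (I : Finset (ℕ × Pt))
    (hI : ∀ e ∈ T, (w e, e.1) ∈ I)
    (hD : ∀ k p, (#(T.filter fun e => w e = k ∧ (e.1 = p ∨ e.2 = p)) : ℝ) ≤ D) :
    (#T : ℝ) ≤ #I * D := by
  have h1 : #T ≤ ∑ x ∈ I, #(T.filter fun e => w e = x.1 ∧ (e.1 = x.2 ∨ e.2 = x.2)) := by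
    refine le_trans (card_le_card ?_) card_biUnion_le
    intro e he
    exact mem_biUnion.2 ⟨(w e, e.1), hI e he, mem_filter.2 ⟨he, rfl, Or.inl rfl⟩⟩
  calc (#T : ℝ) ≤ ∑ x ∈ I, (#(T.filter fun e => w e = x.1 ∧ (e.1 = x.2 ∨ e.2 = x.2)) : ℝ) := by
        exact_mod_cast h1
    _ ≤ ∑ _x ∈ I, D := sum_le_sum fun x _ => hD x.1 x.2
    _ = #I * D := by rw [sum_const, nsmul_eq_mul]

/-- the pairs with `B o < B a` are few -/
theorem g1_few {Z : Finset Pt} {H : Finset Ed} (hH : H ⊆ pairs Z) {θ : ℝ}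
    {τ : ℝ × ℝ × Bool × Bool} {w : Ed → ℕ} {wl wh : ℕ → ℝ} {D N : ℝ} (hD0 : 0 ≤ D)
    (hN : (#Z : ℝ) ≤ N)
    (h1 : ∀ e ∈ g1G Z H θ τ, 100 * wl (w e) ≤ wh (w e) ∧ wl (w e) ≤ |sl e - θ| ∧
      |sl e - θ| ≤ wh (w e))
    (h2 : ∀ e ∈ g1G Z H θ τ, ∀ e' ∈ g1G Z H θ τ,
      w e = w e' ∨ wh (w e) ≤ wl (w e') ∨ wh (w e') ≤ wl (w e))
    (hD : ∀ k p, (#((g1G Z H θ τ).filter fun e => w e = k ∧ (e.1 = p ∨ e.2 = p)) : ℝ) ≤ D) :
    (#((g1G Z H θ τ).filter fun e => ¬ |f θ e.1 - τ.2.1| ≤ |f θ e.2 - τ.2.1|) : ℝ) ≤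
      2 * N * D := by
  set T := (g1G Z H θ τ).filter fun e => ¬ |f θ e.1 - τ.2.1| ≤ |f θ e.2 - τ.2.1| with hT
  have hsub : T ⊆ g1G Z H θ τ := filter_subset _ _
  have hK : ∀ a : Pt, #((T.filter fun e => e.1 = a).image w) ≤ 2 := by
    intro a
    rcases ((T.filter fun e => e.1 = a).image w).eq_empty_or_nonempty with h | ⟨k₀, hk₀⟩
    · rw [h]; simp
    obtain ⟨e₀, he₀, -⟩ := mem_image.1 hk₀
    obtain ⟨he₀, ha₀⟩ := mem_filter.1 he₀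
    have hA : 0 < |a.1 - τ.1| := ha₀ ▸ (g1G_facts hH (hsub he₀)).1
    have hB : 0 < |f θ a - τ.2.1| :=
      ha₀ ▸ lt_of_le_of_lt (abs_nonneg _) (not_le.1 (mem_filter.1 he₀).2)
    refine g1_two (wl := wl) (wh := wh) (x := |f θ a - τ.2.1| / (2 * |a.1 - τ.1|))
      (by positivity) ?_ ?_
    · intro k hk
      obtain ⟨e, he, rfl⟩ := mem_image.1 hk
      obtain ⟨he, ha⟩ := mem_filter.1 he
      obtain ⟨-, h3⟩ := g1G_facts hH (hsub he)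
      have h4 := not_le.1 (mem_filter.1 he).2
      have h5 := (mem_filter.1 (hsub he)).2.2.2.2.2.2
      obtain ⟨h6, h7, h8⟩ := h1 e (hsub he)
      rw [ha] at h3 h4 h5
      have h9 := abs_nonneg (e.2.1 - τ.1)
      have h10 := abs_nonneg (f θ e.2 - τ.2.1)
      have h11 := abs_nonneg (sl e - θ)
      refine ⟨h6, le_trans ?_ h8, h7.trans ?_⟩
      · rw [div_le_iff₀ (by positivity)]
        nlinarith
      · rw [← mul_div_assoc, le_div_iff₀ (by positivity)]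
        nlinarith
    · intro k hk k' hk'
      obtain ⟨e, he, rfl⟩ := mem_image.1 hk
      obtain ⟨e', he', rfl⟩ := mem_image.1 hk'
      exact h2 e (hsub (mem_filter.1 he).1) e' (hsub (mem_filter.1 he').1)
  have h3 := g1_count (T := T) (w := w) (D := D)
    (Z.biUnion fun a => ((T.filter fun e => e.1 = a).image w).image fun k => (k, a))
    (fun e he => mem_biUnion.2 ⟨e.1, (mem_product.1 (mem_filter.1 (hsub he)).1).1,
      mem_image.2 ⟨w e, mem_image.2 ⟨e, mem_filter.2 ⟨he, rfl⟩, rfl⟩, rfl⟩⟩)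
    (fun k p => le_trans (by exact_mod_cast card_le_card (filter_subset_filter _ hsub)) (hD k p))
  refine h3.trans (mul_le_mul_of_nonneg_right ?_ hD0)
  have h4 : #(Z.biUnion fun a => ((T.filter fun e => e.1 = a).image w).image fun k => (k, a)) ≤
      #Z * 2 := card_biUnion_le_card_mul _ _ _ fun a _ => card_image_le.trans (hK a)
  have h5 : (#(Z.biUnion fun a => ((T.filter fun e => e.1 = a).image w).image
      fun k => (k, a)) : ℝ) ≤ #Z * 2 := by exact_mod_cast h4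
  linarith

/-- two points of the same type whose slope lies in the window are close -/
theorem g1_close {σ₁ : Bool} {s t θ l : ℝ} {e : Ed} (he : e.1.1 < e.2.1) (hl : 0 < l)
    (hs : l ≤ |sl e - θ|) (h1 : 0 ≤ g1Sg σ₁ * (e.1.1 - s)) (h2 : 0 ≤ g1Sg σ₁ * (e.2.1 - s))
    (h5 : 50 * |f θ e.1 - t| ≤ |e.1.1 - s| * l) (h6 : 50 * |f θ e.2 - t| ≤ |e.2.1 - s| * l) :
    ∃ a : Pt, (a = e.1 ∨ a = e.2) ∧ ∀ z : Pt, e.1.1 ≤ z.1 → z.1 ≤ e.2.1 →
      |a.1 - s| ≤ 2 * |z.1 - s| ∧ |z.1 - s| ≤ |a.1 - s| := by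
  have e1 : |f θ e.2 - f θ e.1| = (e.2.1 - e.1.1) * |sl e - θ| := by
    rw [f_sub e he, abs_mul, abs_of_pos (by linarith)]
  have e2 : (e.2.1 - e.1.1) * l ≤ |f θ e.2 - f θ e.1| := by
    rw [e1]
    exact mul_le_mul_of_nonneg_left hs (by linarith)
  have e3 : |f θ e.2 - f θ e.1| ≤ |f θ e.1 - t| + |f θ e.2 - t| := by
    have := abs_sub (f θ e.2 - t) (f θ e.1 - t)
    rw [sub_sub_sub_cancel_right] at this
    linarith
  have e4 : 50 * (e.2.1 - e.1.1) ≤ |e.1.1 - s| + |e.2.1 - s| := by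
    refine le_of_mul_le_mul_right ?_ hl
    nlinarith
  cases σ₁
  · simp only [g1Sg, Bool.false_eq_true, if_false, one_mul] at h1 h2
    rw [abs_of_nonneg h1, abs_of_nonneg h2] at e4
    refine ⟨e.2, Or.inr rfl, fun z hz1 hz2 => ?_⟩
    rw [abs_of_nonneg h2, abs_of_nonneg (by linarith)]
    constructor <;> linarith
  · simp only [g1Sg, if_true, neg_one_mul] at h1 h2
    rw [abs_of_nonpos (by linarith), abs_of_nonpos (by linarith)] at e4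
    refine ⟨e.1, Or.inl rfl, fun z hz1 hz2 => ?_⟩
    rw [abs_of_nonpos (by linarith), abs_of_nonpos (by linarith)]
    constructor <;> linarith

theorem g1_num {c C N m h x y : ℝ} {X₁ X₂ : ℝ} (hc : 0 < c) (hN : 0 < N) (hm : 0 < m)
    (hh : 24 / c ≤ h) (hm' : 64 * h ^ 2 * C / c ≤ m) (hx : x ≤ 3 * N ^ 2 / h)
    (hy : y ≤ 3 * N ^ 2 / h) (h1 : X₁ ≤ 4 * h ^ 2 * (2 * N * (C * N / m)))
    (h2 : X₂ ≤ 4 * h ^ 2 * (c / (8 * h ^ 2) * N ^ 2)) : x + y + (X₁ + X₂) < c * N ^ 2 := by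
  have hh0 : 0 < h := lt_of_lt_of_le (by positivity) hh
  have hN2 : 0 < c * N ^ 2 := by positivity
  have e1 : 3 * N ^ 2 / h ≤ c * N ^ 2 / 8 := by
    rw [div_le_iff₀ hc] at hh
    rw [div_le_div_iff₀ hh0 (by norm_num)]
    nlinarith [sq_nonneg N]
  have e2 : 4 * h ^ 2 * (2 * N * (C * N / m)) ≤ c * N ^ 2 / 8 := by
    rw [div_le_iff₀ hc] at hm'
    have : 4 * h ^ 2 * (2 * N * (C * N / m)) = 8 * h ^ 2 * C * N ^ 2 / m := by ring
    rw [this, div_le_div_iff₀ hm (by norm_num)]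
    nlinarith [sq_nonneg N]
  have e3 : 4 * h ^ 2 * (c / (8 * h ^ 2) * N ^ 2) = c * N ^ 2 / 2 := by
    field_simp
    ring
  linarith

/-- Lemma G1 for windows on one side of `θ`. -/
theorem g1_side {C c : ℝ} (hC : 0 < C) (hc : 0 < c) : ∃ c' C' m₀ : ℝ, 0 < c' ∧ 0 < C' ∧
    ∀ (Z : Finset Pt) (N m : ℝ) (lo hi wl wh : ℕ → ℝ) (Ks : Finset ℕ) (H : Finset Ed) (θ : ℝ),
      GP Z → (#Z : ℝ) ≤ N → m₀ ≤ m → 0 < m → m₀ ≤ N →
      (∀ k ∈ Ks, ∀ x, lo k < x → x ≤ hi k → wl k ≤ |x - θ| ∧ |x - θ| ≤ wh k ∧ wl k < wh k) →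
      (∀ k ∈ Ks, 0 ≤ wl k ∧ 100 * wl k ≤ wh k) →
      (∀ k ∈ Ks, ∀ k' ∈ Ks, k = k' ∨ wh k ≤ wl k' ∨ wh k' ≤ wl k) → H ⊆ pairs Z →
      (∀ e ∈ H, ∃ k ∈ Ks, lo k < sl e ∧ sl e ≤ hi k) →
      (∀ k p, (deg (tm H (lo k) (hi k)) p : ℝ) ≤ C * N / m) → c * N ^ 2 ≤ #H →
      ∃ Y : ℕ → Finset Pt, (∀ k, ∀ p ∈ Y k, ∃ e ∈ tm H (lo k) (hi k), Inc p e) ∧
        c' * N * m ≤ ∑ k ∈ Ks, (#(Y k) : ℝ) ∧
        ∀ k, ∀ e ∈ tm (pairs (Y k)) (lo k) (hi k),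
          (#(Z.filter fun z => e.1.1 ≤ z.1 ∧ z.1 ≤ e.2.1) : ℝ) ≤ C' * N / m := by
  obtain ⟨h, hh⟩ : ∃ h : ℕ, 24 / c ≤ h := exists_nat_ge _
  have hh0 : (0 : ℝ) < h := lt_of_lt_of_le (by positivity) hh
  have hh1 : 1 ≤ h := by exact_mod_cast hh0
  obtain ⟨C', m₁, hC', habs⟩ := g1_abstract (c := c / (8 * h ^ 2)) hC (by positivity)
  refine ⟨c / (8 * h ^ 2) / 2 / C, C', max m₁ (max h (64 * h ^ 2 * C / c)), by positivity, hC',
    ?_⟩
  intro Z N m lo hi wl wh Ks H θ hZ hN hm hm0 hN' hW1 hW2 hW3 hH hwin hdeg hcard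
  have hhN : (h : ℝ) ≤ N := ((le_max_left _ _).trans (le_max_right _ _)).trans hN'
  have hN0 : 0 < N := hh0.trans_le hhN
  have hD0 : 0 ≤ C * N / m := by positivity
  obtain ⟨S, hS, hS'⟩ := exists_cuts Z (fun z => z.1) (fun y => by
    refine le_trans (card_le_one.2 fun a ha b hb => ?_) one_le_two
    rw [mem_filter] at ha hb
    exact hZ.xinj a ha.1 b hb.1 (ha.2.trans hb.2.symm)) hN hh1 hhN
  obtain ⟨T, hT, hT'⟩ := exists_cuts Z (f θ) (hZ.card_tie θ) hN hh1 hhN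
  obtain ⟨wn, hwn⟩ : ∃ wn : ℝ → ℕ, ∀ e ∈ H,
      wn (sl e) ∈ Ks ∧ lo (wn (sl e)) < sl e ∧ sl e ≤ hi (wn (sl e)) := by
    refine ⟨fun x => if hx : ∃ k ∈ Ks, lo k < x ∧ x ≤ hi k then hx.choose else 0, fun e he => ?_⟩
    simp only [dif_pos (hwin e he)]
    exact (hwin e he).choose_spec
  have hG : ∀ τ, ∀ e ∈ g1G Z H θ τ,
      wn (sl e) ∈ Ks ∧ lo (wn (sl e)) < sl e ∧ sl e ≤ hi (wn (sl e)) := by
    intro τ e he
    have := hwn _ (mem_filter.1 he).2.1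
    rwa [g1_sl_ed] at this
  have hGd : ∀ τ, ∀ T₀ ⊆ g1G Z H θ τ, ∀ k p,
      (#(T₀.filter fun e => wn (sl e) = k ∧ (e.1 = p ∨ e.2 = p)) : ℝ) ≤ C * N / m := by
    intro τ T₀ hT₀ k p
    refine le_trans ?_ (hdeg k p)
    exact_mod_cast g1_deg (σ := τ.2.2.1) (w := fun e => wn (sl e))
      (fun e he => (mem_filter.1 (hT₀ he)).2.1) (fun e he => (hG τ e (hT₀ he)).2) k p
  -- a popular type
  obtain ⟨τ, hτ⟩ : ∃ τ : ℝ × ℝ × Bool × Bool, c / (8 * h ^ 2) * N ^ 2 ≤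
      #((g1G Z H θ τ).filter fun e => |f θ e.1 - τ.2.1| ≤ |f θ e.2 - τ.2.1|) := by
    by_contra hcon
    push Not at hcon
    set I := S ×ˢ T ×ˢ (univ : Finset Bool) ×ˢ (univ : Finset Bool) with hI
    have hIc : (#I : ℝ) ≤ 4 * h ^ 2 := by
      have h1 : #I ≤ h * (h * 4) := by
        rw [hI, card_product, card_product, card_product, card_univ, Fintype.card_bool]
        exact Nat.mul_le_mul hS (Nat.mul_le_mul hT le_rfl)
      have h2 : (#I : ℝ) ≤ h * (h * 4) := by exact_mod_cast h1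
      linarith
    have h1 : (#H : ℝ) ≤ _ := Nat.cast_le.2 (g1_cover hH θ S T)
    rw [Nat.cast_add, Nat.cast_add, Nat.cast_sum] at h1
    have h2 : ∑ τ ∈ I, (#(g1G Z H θ τ) : ℝ) =
        ∑ τ ∈ I, (#((g1G Z H θ τ).filter fun e => ¬ |f θ e.1 - τ.2.1| ≤ |f θ e.2 - τ.2.1|) : ℝ) +
        ∑ τ ∈ I, (#((g1G Z H θ τ).filter fun e => |f θ e.1 - τ.2.1| ≤ |f θ e.2 - τ.2.1|) : ℝ) := by
      rw [← sum_add_distrib]
      refine sum_congr rfl fun τ _ => ?_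
      rw [add_comm, ← Nat.cast_add, card_filter_add_card_filter_not]
    rw [h2] at h1
    have h3 : ∑ τ ∈ I, (#((g1G Z H θ τ).filter
        fun e => ¬ |f θ e.1 - τ.2.1| ≤ |f θ e.2 - τ.2.1|) : ℝ) ≤
        4 * h ^ 2 * (2 * N * (C * N / m)) := by
      refine (sum_le_card_nsmul _ _ (2 * N * (C * N / m)) fun τ _ => ?_).trans ?_
      · refine g1_few (w := fun e => wn (sl e)) (wl := wl) (wh := wh) hH hD0 hN (fun e he => ?_)
          (fun e he e' he' => hW3 _ (hG τ e he).1 _ (hG τ e' he').1) (hGd τ _ Subset.rfl)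
        obtain ⟨g1, g2, g3⟩ := hG τ e he
        obtain ⟨g4, g5, -⟩ := hW1 _ g1 _ g2 g3
        exact ⟨(hW2 _ g1).2, g4, g5⟩
      · rw [nsmul_eq_mul]
        exact mul_le_mul_of_nonneg_right hIc (by positivity)
    have h4 : ∑ τ ∈ I, (#((g1G Z H θ τ).filter
        fun e => |f θ e.1 - τ.2.1| ≤ |f θ e.2 - τ.2.1|) : ℝ) ≤
        4 * h ^ 2 * (c / (8 * h ^ 2) * N ^ 2) := by
      refine (sum_le_card_nsmul _ _ (c / (8 * h ^ 2) * N ^ 2) fun τ _ => (hcon τ).le).trans ?_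
      rw [nsmul_eq_mul]
      exact mul_le_mul_of_nonneg_right hIc (by positivity)
    have h5 := g1_num hc hN0 hm0 hh (((le_max_right _ _).trans (le_max_right _ _)).trans hm)
      hS' hT' h3 h4
    linarith
  set T₀ := (g1G Z H θ τ).filter fun e => |f θ e.1 - τ.2.1| ≤ |f θ e.2 - τ.2.1| with hT₀
  have hsub : T₀ ⊆ g1G Z H θ τ := filter_subset _ _
  obtain ⟨T', hT'sub, hT'card, hT'prop⟩ := habs Z N m (fun z => |z.1 - τ.1|)
    (fun z => |f θ z - τ.2.1|) T₀ (fun e => |sl e - θ|) (fun e => wn (sl e)) wl wh hN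
    ((le_max_left _ _).trans hm) hm0 (hsub.trans (filter_subset _ _))
    (fun e he => by
      obtain ⟨g1, g2, g3⟩ := hG τ e (hsub he)
      obtain ⟨g4, g5, -⟩ := hW1 _ g1 _ g2 g3
      obtain ⟨g6, g7⟩ := g1G_facts hH (hsub he)
      have g8 := (mem_filter.1 he).2
      have g9 := (mem_filter.1 (hsub he)).2.2.2.2.2.2
      have h9 := abs_nonneg (e.2.1 - τ.1)
      have h10 := abs_nonneg (f θ e.1 - τ.2.1)
      have h11 := abs_nonneg (sl e - θ)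
      refine ⟨g6, h10, g8, ?_, ?_, g4, g5⟩ <;> nlinarith)
    (fun e he => by
      obtain ⟨g1, g2, g3⟩ := hG τ e (hsub he)
      exact ⟨(hW2 _ g1).1, (hW1 _ g1 _ g2 g3).2.2, (hW2 _ g1).2⟩)
    (fun e he e' he' => hW3 _ (hG τ e (hsub he)).1 _ (hG τ e' (hsub he')).1)
    (hGd τ _ hsub) hτ
  have hsub' : T' ⊆ g1G Z H θ τ := hT'sub.trans hsub
  refine ⟨fun k => (T'.filter fun e => wn (sl e) = k).image Prod.fst, ?_, ?_, ?_⟩
  · intro k p hp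
    obtain ⟨e, he, rfl⟩ := mem_image.1 hp
    obtain ⟨he', hk⟩ := mem_filter.1 he
    refine ⟨g1Ed τ.2.2.1 e, mem_tm.2 ⟨(mem_filter.1 (hsub' he')).2.1, ?_⟩,
      (g1_inc_ed _ _ _).2 (Or.inl rfl)⟩
    rw [g1_sl_ed, ← hk]
    exact (hG τ e (hsub' he')).2
  · have h1 := g1_count (T := T') (w := fun e => wn (sl e)) (D := C * N / m)
      (Ks.biUnion fun k => ((T'.filter fun e => wn (sl e) = k).image Prod.fst).image
        fun a => (k, a))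
      (fun e he => mem_biUnion.2 ⟨wn (sl e), (hG τ e (hsub' he)).1,
        mem_image.2 ⟨e.1, mem_image.2 ⟨e, mem_filter.2 ⟨he, rfl⟩, rfl⟩, rfl⟩⟩)
      (hGd τ _ hsub')
    have h2 : #(Ks.biUnion fun k => ((T'.filter fun e => wn (sl e) = k).image Prod.fst).image
        fun a => (k, a)) ≤ ∑ k ∈ Ks, #((T'.filter fun e => wn (sl e) = k).image Prod.fst) :=
      card_biUnion_le.trans (sum_le_sum fun k _ => card_image_le)
    have h3 : (#(Ks.biUnion fun k => ((T'.filter fun e => wn (sl e) = k).image Prod.fst).image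
        fun a => (k, a)) : ℝ) ≤
        ∑ k ∈ Ks, (#((T'.filter fun e => wn (sl e) = k).image Prod.fst) : ℝ) := by
      exact_mod_cast h2
    have h4 := hT'card.trans (h1.trans (mul_le_mul_of_nonneg_right h3 hD0))
    refine le_of_mul_le_mul_right (le_trans (le_of_eq ?_) h4) (show 0 < C * N / m by positivity)
    field_simp
  · intro k e he
    obtain ⟨he1, he2, he3⟩ := mem_tm.1 he
    obtain ⟨ha, hb, hlt⟩ := mem_pairs.1 he1
    obtain ⟨e₁, he₁, ha⟩ := mem_image.1 ha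
    obtain ⟨e₂, he₂, hb⟩ := mem_image.1 hb
    obtain ⟨he₁, hk₁⟩ := mem_filter.1 he₁
    obtain ⟨he₂, hk₂⟩ := mem_filter.1 he₂
    obtain ⟨p1, p2, p3⟩ := hT'prop e₁ he₁
    obtain ⟨-, q2, q3⟩ := hT'prop e₂ he₂
    obtain ⟨-, -, p4, -⟩ := mem_filter.1 (hsub' he₁)
    obtain ⟨-, -, q4, -⟩ := mem_filter.1 (hsub' he₂)
    have hk : k ∈ Ks := hk₁ ▸ (hG τ e₁ (hsub' he₁)).1
    simp only [ha, hb, hk₁, hk₂] at p1 p2 p3 p4 q2 q3 q4
    obtain ⟨a, ha', hz⟩ := g1_close hlt p1 (hW1 k hk _ he2 he3).1 p4 q4 p2 q2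
    have h1 : #(Z.filter fun z => e.1.1 ≤ z.1 ∧ z.1 ≤ e.2.1) ≤
        #(Z.filter fun z => |a.1 - τ.1| ≤ 2 * |z.1 - τ.1| ∧ |z.1 - τ.1| ≤ |a.1 - τ.1|) := by
      refine card_le_card fun z hz' => ?_
      rw [mem_filter] at hz' ⊢
      exact ⟨hz'.1, hz z hz'.2.1 hz'.2.2⟩
    refine le_trans (Nat.cast_le.2 h1) ?_
    rcases ha' with rfl | rfl
    · exact p3
    · exact q3

/-- Lemma G1.  Let `u = f θ`, so `|sl e - θ| = |Δu| / Δx`.  Take cuts for the abscissa and for `u` (`exists_cuts`,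
`card_tie`) with `h ≥ 24 / c`.  For a pair `e ∈ H` separated by cuts `s` (abscissa) and `t` let `A z = |z.1 - s|`,
`B z = |u z - t|`; `Δx = A e.1 + A e.2`, `|Δu| = B e.1 + B e.2`.  Let `a` be the end with the larger `A` and `o` the other end.
The type of `e` consists of `s`, `t`, whether `a` is the left end, the side of `t` on which `a` lies, and whether
`θ ≤ lo k` or `hi k ≤ θ` for the window `k` of `e`.  For a window put `wl, wh = lo - θ, hi - θ` or `θ - hi, θ - lo`.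
* Pairs with `B o < B a`: then `|sl e - θ| ∈ [B a / (2 A a), 2 B a / A a]`, and for a given type and `a` at most two
  windows meet this interval: at most `8 h ^ 2 · N · 2 C N / m ≤ c N ^ 2 / 4` pairs.
* So some type has at least `c N ^ 2 / (32 h ^ 2)` pairs with `B a ≤ B o`; apply `g1_abstract` to the pairs `(a, o)`.
  `Y k` is the set of the `a` of kept pairs with window `k`; `#T' ≤ ∑ k, #(Y k) C N / m`.
* For `e ∈ tm (pairs (Y k))` both ends are on the same side of both cuts, so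
  `Δx · wl k ≤ |Δu| ≤ max B ≤ max A · wl k / 50`, and every `z` between the ends has `A a / 2 ≤ A z ≤ A a` for the end `a`
  with the larger `A`. -/
theorem g1 {C c : ℝ} (hC : 0 < C) (hc : 0 < c) : ∃ c' C' m₀ : ℝ, 0 < c' ∧ 0 < C' ∧
    ∀ (Z : Finset Pt) (N m : ℝ) (lo hi : ℕ → ℝ) (Ks : Finset ℕ) (H : Finset Ed) (θ : ℝ), GP Z →
      (#Z : ℝ) ≤ N → m₀ ≤ m → 0 < m → m₀ ≤ N → (∀ k k', k < k' → hi k ≤ lo k') →
      (∀ k ∈ Ks, LL θ (lo k) (hi k)) → H ⊆ pairs Z →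
      (∀ e ∈ H, ∃ k ∈ Ks, lo k < sl e ∧ sl e ≤ hi k) →
      (∀ k p, (deg (tm H (lo k) (hi k)) p : ℝ) ≤ C * N / m) → c * N ^ 2 ≤ #H →
      ∃ Y : ℕ → Finset Pt, (∀ k, ∀ p ∈ Y k, ∃ e ∈ tm H (lo k) (hi k), Inc p e) ∧
        c' * N * m ≤ ∑ k ∈ Ks, (#(Y k) : ℝ) ∧
        ∀ k, ∀ e ∈ tm (pairs (Y k)) (lo k) (hi k),
          (#(Z.filter fun z => e.1.1 ≤ z.1 ∧ z.1 ≤ e.2.1) : ℝ) ≤ C' * N / m := by
  obtain ⟨c', C', m₀, hc', hC', hside⟩ := g1_side (c := c / 2) hC (by positivity)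
  refine ⟨c', C', m₀, hc', hC', ?_⟩
  intro Z N m lo hi Ks H θ hZ hN hm hm0 hN' hord hLL hH hwin hdeg hcard
  -- reduction to a subset of the windows
  have key : ∀ (K : Finset ℕ) (wl wh : ℕ → ℝ), K ⊆ Ks →
      (∀ k ∈ K, ∀ x, lo k < x → x ≤ hi k → wl k ≤ |x - θ| ∧ |x - θ| ≤ wh k ∧ wl k < wh k) →
      (∀ k ∈ K, 0 ≤ wl k ∧ 100 * wl k ≤ wh k) →
      (∀ k ∈ K, ∀ k' ∈ K, k = k' ∨ wh k ≤ wl k' ∨ wh k' ≤ wl k) →
      c / 2 * N ^ 2 ≤ #(H.filter fun e => ∃ k ∈ K, lo k < sl e ∧ sl e ≤ hi k) →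
      ∃ Y : ℕ → Finset Pt, (∀ k, ∀ p ∈ Y k, ∃ e ∈ tm H (lo k) (hi k), Inc p e) ∧
        c' * N * m ≤ ∑ k ∈ Ks, (#(Y k) : ℝ) ∧
        ∀ k, ∀ e ∈ tm (pairs (Y k)) (lo k) (hi k),
          (#(Z.filter fun z => e.1.1 ≤ z.1 ∧ z.1 ≤ e.2.1) : ℝ) ≤ C' * N / m := by
    intro K wl wh hK h1 h2 h3 h4
    have hs : ∀ k, tm (H.filter fun e => ∃ k ∈ K, lo k < sl e ∧ sl e ≤ hi k) (lo k) (hi k) ⊆
        tm H (lo k) (hi k) := fun k => tm_mono (filter_subset _ _) le_rfl le_rfl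
    obtain ⟨Y, g1, g2, g3⟩ := hside Z N m lo hi wl wh K _ θ hZ hN hm hm0 hN' h1 h2 h3
      ((filter_subset _ _).trans hH) (fun e he => (mem_filter.1 he).2)
      (fun k p => le_trans (Nat.cast_le.2 (deg_mono (hs k) p)) (hdeg k p)) h4
    refine ⟨Y, fun k p hp => ?_, g2.trans ?_, g3⟩
    · obtain ⟨e, he, hp⟩ := g1 k p hp
      exact ⟨e, hs k he, hp⟩
    · exact sum_le_sum_of_subset_of_nonneg hK fun _ _ _ => Nat.cast_nonneg _
  set K₁ := Ks.filter fun k => θ ≤ lo k ∧ 100 * (lo k - θ) ≤ hi k - θ with hK₁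
  set K₂ := Ks.filter fun k => hi k ≤ θ ∧ 100 * (θ - hi k) ≤ θ - lo k with hK₂
  have hcov : #H ≤ #(H.filter fun e => ∃ k ∈ K₁, lo k < sl e ∧ sl e ≤ hi k) +
      #(H.filter fun e => ∃ k ∈ K₂, lo k < sl e ∧ sl e ≤ hi k) := by
    refine le_trans (card_le_card fun e he => ?_) (card_union_le _ _)
    obtain ⟨k, hk, h1⟩ := hwin e he
    rw [mem_union, mem_filter, mem_filter]
    rcases hLL k hk with h2 | h2
    · exact Or.inl ⟨he, k, mem_filter.2 ⟨hk, h2⟩, h1⟩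
    · exact Or.inr ⟨he, k, mem_filter.2 ⟨hk, h2⟩, h1⟩
  have hcov' : (#H : ℝ) ≤ #(H.filter fun e => ∃ k ∈ K₁, lo k < sl e ∧ sl e ≤ hi k) +
      #(H.filter fun e => ∃ k ∈ K₂, lo k < sl e ∧ sl e ≤ hi k) := by exact_mod_cast hcov
  by_cases h : c / 2 * N ^ 2 ≤ #(H.filter fun e => ∃ k ∈ K₁, lo k < sl e ∧ sl e ≤ hi k)
  · refine key K₁ (fun k => lo k - θ) (fun k => hi k - θ) (filter_subset _ _) ?_ ?_ ?_ h
    · intro k hk x h1 h2
      have h3 := (mem_filter.1 hk).2.1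
      rw [abs_of_nonneg (by linarith)]
      exact ⟨by linarith, by linarith, by linarith⟩
    · intro k hk
      exact ⟨by linarith [(mem_filter.1 hk).2.1], (mem_filter.1 hk).2.2⟩
    · intro k _ k' _
      rcases lt_trichotomy k k' with h1 | h1 | h1
      · exact Or.inr (Or.inl (by linarith [hord k k' h1]))
      · exact Or.inl h1
      · exact Or.inr (Or.inr (by linarith [hord k' k h1]))
  · refine key K₂ (fun k => θ - hi k) (fun k => θ - lo k) (filter_subset _ _) ?_ ?_ ?_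
      (by linarith [not_le.1 h])
    · intro k hk x h1 h2
      have h3 := (mem_filter.1 hk).2.1
      rw [abs_of_nonpos (by linarith)]
      exact ⟨by linarith, by linarith, by linarith⟩
    · intro k hk
      exact ⟨by linarith [(mem_filter.1 hk).2.1], (mem_filter.1 hk).2.2⟩
    · intro k _ k' _
      rcases lt_trichotomy k k' with h1 | h1 | h1
      · exact Or.inr (Or.inr (by linarith [hord k k' h1]))
      · exact Or.inl h1
      · exact Or.inr (Or.inl (by linarith [hord k' k h1]))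

end Crest.Agent.R51
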