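import Crest.Agent.R51.LocReg

/-! Many edges force many swaps. -/

namespace Crest.Agent.R51

open Finset
open scoped Classical

namespace Loc

theorem H_sub (L : Loc) (Ω : ℕ → Finset Pt) (m : ℕ) (Y : ℕ → Finset Pt) :
    L.H Ω m Y ⊆ pairs L.Z := filter_subset _ _

theorem hLem0_div {s r : ℕ} (k : ℕ) (hr : r < s) : (k * s + r) / s = k := by
  rw [add_comm, Nat.add_mul_div_right _ _ (by omega), Nat.div_eq_of_lt hr, zero_add]

theorem hLem0_card (Z S : Finset Pt) (p : Pt) :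
    #((pairs Z).filter fun e => Inc p e ∧ e.1 ∈ S ∧ e.2 ∈ S) ≤ #S := by
  refine card_le_card_of_injOn (fun e => if e.1 = p then e.2 else e.1) (fun e he => ?_)
    fun e he e' he' hh => ?_
  · have k := (mem_filter.1 (mem_coe.1 he)).2
    refine mem_coe.2 ?_
    dsimp only
    split_ifs
    · exact k.2.2
    · exact k.2.1
  · have k := mem_filter.1 (mem_coe.1 he)
    have k' := mem_filter.1 (mem_coe.1 he')
    have l := (mem_pairs.1 k.1).2.2
    have l' := (mem_pairs.1 k'.1).2.2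
    dsimp only at hh
    split_ifs at hh with h1 h2 h2
    · exact Prod.ext (h1.trans h2.symm) hh
    · have h3 := k'.2.1.resolve_left h2
      rw [h1, hh] at l
      rw [h3] at l'
      exact absurd l (not_lt.2 l'.le)
    · have h3 := k.2.1.resolve_left h1
      rw [h2, ← hh] at l'
      rw [h3] at l
      exact absurd l (not_lt.2 l'.le)
    · exact Prod.ext hh ((k.2.1.resolve_left h1).trans (k'.2.1.resolve_left h2).symm)

/-- A pair of `H` lies in a window `k` of scale `m` and has its ends in `Y k` (`parent` with `m' = q`). -/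
theorem mem_H (L : Loc) {Ω : ℕ → Finset Pt} {m : ℕ} (hm : m ∣ L.q) {Y : ℕ → Finset Pt} {e : Ed}
    (he : e ∈ L.H Ω m Y) :
    ∃ k < m ^ 4, L.lo m k < sl e ∧ sl e ≤ L.hi m k ∧ e.1 ∈ Y k ∧ e.2 ∈ Y k := by
  obtain ⟨-, k, hk, r, hr, h1, h2, h3, -⟩ := mem_filter.1 he
  have h4 := L.W_sub_parent hm dvd_rfl _ _ h1
  rw [hLem0_div k hr, mem_W] at h4
  exact ⟨k, hk, h4.2.1, h4.2.2, h2, h3⟩

/-- The degree in `H` in a window of any scale `m₂`, for an end `p` of an edge of `E₂`: a pair `e` of `H` in the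
window `k₂` lies in a finest window `w` with both ends in `Ω w`; `w = k₂ (q / m₂) ^ 4 + r` with `r < (q / m₂) ^ 4`
(`parent`, `win_unique`); by `act_le` there are at most `C q / m₂` such `w`, and for each at most `#(Ω w) ≤ C N / q`
pairs (a pair with an end `p` is determined by its other end). -/
theorem deg_H_le (L : Loc) {Ω : ℕ → Finset Pt} {C : ℝ} (hb : L.Base Ω C) {m₂ : ℕ} (hm₂ : m₂ ∣ L.q)
    {E₂ : Finset Ed} (hr : L.Reg Ω C m₂ E₂) (m : ℕ) (Y : ℕ → Finset Pt) {k₂ : ℕ} {e₂ : Ed}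
    (he₂ : e₂ ∈ L.W E₂ m₂ k₂) {p : Pt} (hp : Inc p e₂) :
    (deg (L.W (L.H Ω m Y) m₂ k₂) p : ℝ) ≤ C ^ 2 * L.N / m₂ := by
  have hq := L.q_posR
  have hm' : 0 < m₂ := Nat.pos_of_dvd_of_pos hm₂ L.q_pos
  have hs : 0 < (L.q / m₂) ^ 4 := pow_pos (Nat.div_pos (Nat.le_of_dvd L.q_pos hm₂) hm') 4
  have hact := hr.act_le k₂ e₂ he₂ p hp
  set s := (L.q / m₂) ^ 4 with hsdef
  set A := (Finset.range s).filter fun r => p ∈ Ω (k₂ * s + r) with hA
  have hsub : (L.W (L.H Ω m Y) m₂ k₂).filter (Inc p) ⊆ A.biUnion fun r =>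
      (pairs L.Z).filter fun e => Inc p e ∧ e.1 ∈ Ω (k₂ * s + r) ∧ e.2 ∈ Ω (k₂ * s + r) := by
    intro e he
    obtain ⟨he, hinc⟩ := mem_filter.1 he
    rw [mem_W] at he
    obtain ⟨h0, k, -, r, -, h1, -, -, h2, h3⟩ := mem_filter.1 he.1
    generalize k * (L.q / m) ^ 4 + r = w at h1 h2 h3
    have h4 := L.mem_W.1 (L.W_sub_parent hm₂ dvd_rfl _ _ h1)
    have h5 : w / s = k₂ := L.win_unique h4.2.1 h4.2.2 he.2.1 he.2.2
    have h6 : k₂ * s + w % s = w := by rw [← h5, Nat.div_add_mod']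
    refine mem_biUnion.2 ⟨w % s, mem_filter.2 ⟨mem_range.2 (Nat.mod_lt _ hs), ?_⟩,
      mem_filter.2 ⟨h0, hinc, ?_⟩⟩
    · rw [h6]
      rcases hinc with rfl | rfl
      · exact h2
      · exact h3
    · rw [h6]
      exact ⟨h2, h3⟩
  have h1 : deg (L.W (L.H Ω m Y) m₂ k₂) p ≤ ∑ r ∈ A, #(Ω (k₂ * s + r)) :=
    (card_le_card hsub).trans (card_biUnion_le.trans (sum_le_sum fun r _ => hLem0_card _ _ _))
  have h2 : (deg (L.W (L.H Ω m Y) m₂ k₂) p : ℝ) ≤ ∑ r ∈ A, (#(Ω (k₂ * s + r)) : ℝ) := by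
    exact_mod_cast h1
  have h3 : 0 ≤ C * L.N / L.q := (Nat.cast_nonneg _).trans (hb.card_le 0)
  refine h2.trans ((sum_le_card_nsmul _ _ _ fun r _ => hb.card_le _).trans ?_)
  rw [nsmul_eq_mul]
  refine (mul_le_mul_of_nonneg_right hact h3).trans (le_of_eq ?_)
  field_simp

end Loc

end Crest.Agent.R51
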