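import Crest.Agent.R51.Basic

/-! Consequences of regularity inside one piece. -/

namespace Crest.Agent.R51

open Finset
open scoped Classical

/-- `Str` gets weaker when the constant decreases (same `ϑ`). -/
theorem Str.mono {Z Y : Finset Pt} {θ u v σ N J c c' : ℝ} (h : Str Z Y θ u v σ N J c) (hc' : 0 < c')
    (hc : c' ≤ c) (hσ : 0 ≤ σ) (hN : 0 ≤ N) (hJ : 0 ≤ J) : Str Z Y θ u v σ N J c' := by
  obtain ⟨ϑ, h0, h1, h2⟩ := h
  have a : J * ϑ / c ≤ J * ϑ / c' := div_le_div_of_nonneg_left (by positivity) hc' hc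
  refine ⟨ϑ, h0, fun p => (h1 p).trans (div_le_div_of_nonneg_left hσ hc' hc), ?_⟩
  rcases h2 with h2 | h2 | h2
  · exact Or.inl (by linarith)
  · exact Or.inr (Or.inl (by linarith))
  · refine Or.inr (Or.inr (le_trans (by gcongr) (h2.trans (Nat.cast_le.2 (card_le_card ?_)))))
    intro e he
    exact mem_filter.2 ⟨(mem_filter.1 he).1, (mem_filter.1 he).2.trans a⟩

namespace Loc

theorem AW.mono {L : Loc} (hb : L.Big 1) {E₀ : Finset Ed} {m k : ℕ} {u v c c' J σ : ℝ}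
    (h : L.AW E₀ m u v c J σ k) (hc' : 0 < c') (hc : c' ≤ c) (hσ : 0 ≤ σ) (hJ : 0 ≤ J) :
    L.AW E₀ m u v c' J σ k := by
  obtain ⟨h1, h2, Y, h3, h4, h5, h6⟩ := h
  have hN := (hb.N_pos le_rfl).le
  have hd := (hb.d_pos le_rfl).le
  exact ⟨h1, h2, Y, h3, le_trans (by gcongr) h4, fun p hp => le_trans (by gcongr) (h5 p hp),
    h6.mono hc' hc hσ hN hJ⟩

variable {L : Loc} {Ω : ℕ → Finset Pt} {C : ℝ} {m : ℕ} {E₀ : Finset Ed}

/-- The degree in `E₀` of any point in a window (zero, or bounded by `deg_le`). -/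
theorem Reg.deg_W_le (h : L.Reg Ω C m E₀) (hb : L.Big 1) (hC : 0 ≤ C) (k : ℕ) (p : Pt) :
    (deg (L.W E₀ m k) p : ℝ) ≤ C * L.d / m := by
  have hd := (hb.d_pos le_rfl).le
  rcases ((L.W E₀ m k).filter (Inc p)).eq_empty_or_nonempty with h0 | ⟨e, he⟩
  · unfold deg
    rw [h0, card_empty, Nat.cast_zero]
    positivity
  · exact le_trans (Nat.cast_le.2 (deg_mono (L.W_mono h.sub _ _) p))
      (h.deg_le k e (mem_filter.1 he).1 p (mem_filter.1 he).2)

theorem locReg_inc (hb : L.Big 1) {F G : Finset Ed} {Y : Finset Pt} (hY : Y ⊆ L.Z)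
    (hF : F ⊆ inc G Y) {x : ℝ} (hx : 0 ≤ x) (h : ∀ p ∈ Y, (deg G p : ℝ) ≤ x * L.d / m) :
    (#F : ℝ) ≤ x * L.M / m := by
  have hd := (hb.d_pos le_rfl).le
  have h1 : (#F : ℝ) ≤ ∑ p ∈ Y, (deg G p : ℝ) := by
    exact_mod_cast (card_le_card hF).trans (card_inc_le_sum_deg G Y)
  have h2 := sum_le_card_nsmul _ _ _ h
  rw [nsmul_eq_mul] at h2
  have h3 : (#Y : ℝ) ≤ L.N := le_trans (Nat.cast_le.2 (card_le_card hY)) L.cardZ'
  calc (#F : ℝ) ≤ #Y * (x * L.d / m) := h1.trans h2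
    _ ≤ L.N * (x * L.d / m) := by gcongr
    _ = x * L.M / m := by rw [← L.N_mul_d]; ring

/-- `card_inc_le_sum_deg` with `Y = Z`, `N_mul_d`. -/
theorem Reg.card_W_le (h : L.Reg Ω C m E₀) (hb : L.Big 1) (hC : 0 ≤ C) (k : ℕ) :
    (#(L.W E₀ m k) : ℝ) ≤ C * L.M / m := by
  exact locReg_inc hb Subset.rfl (fun e he => mem_inc.2
    ⟨he, Or.inl (L.inZ e (h.sub (L.W_subset _ _ _ he))).1⟩) hC fun p _ => h.deg_W_le hb hC k p

/-- Any set of windows that meet `E₀` has at most `C m` elements (`lt_of_mem_W`, `rel`). -/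
theorem Reg.card_le_of_nonempty (h : L.Reg Ω C m E₀) (hm : m ∣ L.q) (Ks : Finset ℕ)
    (hK : ∀ k ∈ Ks, (L.W E₀ m k).Nonempty) : (#Ks : ℝ) ≤ C * m := by
  refine le_trans (Nat.cast_le.2 (card_le_card fun k hk => ?_)) h.rel
  obtain ⟨e, he⟩ := hK k hk
  exact mem_filter.2 ⟨mem_range.2 (L.lt_of_mem_W hm h.sub he), e, he⟩

/-- The edges in a set `Ks` of windows. -/
theorem card_sel_eq (L : Loc) (E : Finset Ed) (m : ℕ) (Ks : Finset ℕ) :
    #(L.sel E m fun k => k ∈ Ks) = ∑ k ∈ Ks, #(L.W E m k) := by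
  rw [← card_biUnion]
  · congr 1
    ext e
    rw [mem_biUnion, mem_sel]
    constructor
    · rintro ⟨h1, k, h2, h3⟩
      exact ⟨k, h2, L.mem_W.2 ⟨h1, h3⟩⟩
    · rintro ⟨k, h1, h2⟩
      exact ⟨(L.mem_W.1 h2).1, k, h1, (L.mem_W.1 h2).2⟩
  · intro k _ k' _ hne
    rw [Function.onFun, disjoint_left]
    intro e he he'
    rw [mem_W] at he he'
    exact hne (L.win_unique he.2.1 he.2.2 he'.2.1 he'.2.2)

theorem W_sel_of (L : Loc) (E : Finset Ed) (m : ℕ) {S : ℕ → Prop} {k : ℕ} (hk : S k) :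
    L.W (L.sel E m S) m k = L.W E m k := by
  ext e
  rw [mem_W, mem_W, mem_sel]
  exact ⟨fun h => ⟨h.1.1, h.2⟩, fun h => ⟨⟨h.1, k, hk, h.2⟩, h.2⟩⟩

theorem W_sel_of_not (L : Loc) (E : Finset Ed) (m : ℕ) {S : ℕ → Prop} {k : ℕ} (hk : ¬ S k) :
    L.W (L.sel E m S) m k = ∅ := by
  refine eq_empty_of_forall_notMem fun e he => ?_
  rw [mem_W, mem_sel] at he
  obtain ⟨⟨-, k', h1, h2, h3⟩, h4, h5⟩ := he
  exact hk (L.win_unique h2 h3 h4 h5 ▸ h1)

/-- The degree is the sum of the degrees in the windows (`card_eq_sum_W` for `E₀.filter (Inc p)`). -/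
theorem deg_eq_sum_W (L : Loc) (hm : m ∣ L.q) (hE : E₀ ⊆ L.E) (p : Pt) :
    deg E₀ p = ∑ k ∈ Finset.range (m ^ 4), deg (L.W E₀ m k) p := by
  unfold deg
  rw [L.card_eq_sum_W hm ((filter_subset _ _).trans hE)]
  refine sum_congr rfl fun k _ => ?_
  congr 1
  ext e
  simp only [mem_W, mem_filter]
  tauto

theorem locReg_sum (hm : m ∣ L.q) {F : Finset Ed} (hF : F ⊆ L.E) (Ks : Finset ℕ)
    (hK : ∀ k < m ^ 4, (L.W F m k).Nonempty → k ∈ Ks) {x : ℝ} (hx : 0 ≤ x)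
    (h : ∀ k, (#(L.W F m k) : ℝ) ≤ x) : (#F : ℝ) ≤ #Ks * x := by
  have h1 : (#F : ℝ) = ∑ k ∈ (Finset.range (m ^ 4)).filter (fun k => (L.W F m k).Nonempty),
      (#(L.W F m k) : ℝ) := by
    rw [L.card_eq_sum_W hm hF, sum_filter_of_ne fun k _ hk => ?_]
    · push_cast; rfl
    · exact card_pos.1 (Nat.pos_of_ne_zero (by exact_mod_cast hk))
  have h2 := sum_le_card_nsmul ((Finset.range (m ^ 4)).filter (fun k => (L.W F m k).Nonempty)) _ _
    fun k _ => h k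
  rw [nsmul_eq_mul] at h2
  refine h1.le.trans (h2.trans (mul_le_mul_of_nonneg_right (Nat.cast_le.2 (card_le_card ?_)) hx))
  intro k hk
  exact hK k (mem_range.1 (mem_filter.1 hk).1) (mem_filter.1 hk).2

theorem Reg.locReg_le (h : L.Reg Ω C m E₀) (hb : L.Big 1) (hm : m ∣ L.q) {F : Finset Ed}
    (hF : F ⊆ E₀) {c : ℝ} (hc : 0 ≤ c) (h' : ∀ k, (#(L.W F m k) : ℝ) ≤ c * L.M / m) :
    (#F : ℝ) ≤ C * c * L.M := by
  have hM := (hb.M_pos le_rfl).le
  have hm0 : (0 : ℝ) < m := by exact_mod_cast Nat.pos_of_dvd_of_pos hm L.q_pos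
  have h1 := locReg_sum hm (hF.trans h.sub) ((Finset.range (m ^ 4)).filter fun k => (L.W E₀ m k).Nonempty)
    (fun k hk hk' => mem_filter.2 ⟨mem_range.2 hk, hk'.mono (L.W_mono hF _ _)⟩) (by positivity) h'
  calc (#F : ℝ) ≤ _ := h1
    _ ≤ C * m * (c * L.M / m) := mul_le_mul_of_nonneg_right h.rel (by positivity)
    _ = C * c * L.M := by field_simp

theorem Reg.card_le (h : L.Reg Ω C m E₀) (hb : L.Big 1) (hC : 0 ≤ C) (hm : m ∣ L.q) :
    (#E₀ : ℝ) ≤ C ^ 2 * L.M := by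
  rw [sq]
  exact h.locReg_le hb hm Subset.rfl hC (h.card_W_le hb hC)

/-- Windows with few edges can be removed: at most `C m` windows meet `E₀`. -/
theorem Reg.card_sdiff_sel (h : L.Reg Ω C m E₀) (hb : L.Big 1) (hC : 0 ≤ C) (hm : m ∣ L.q) {c : ℝ}
    (hc : 0 ≤ c) :
    (#(E₀ \ L.sel E₀ m fun k => c * L.M / m ≤ (#(L.W E₀ m k) : ℝ)) : ℝ) ≤ C * c * L.M := by
  have hM := (hb.M_pos le_rfl).le
  refine h.locReg_le hb hm sdiff_subset hc fun k => ?_
  by_cases hk : c * L.M / m ≤ (#(L.W E₀ m k) : ℝ)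
  · rw [show L.W (E₀ \ L.sel E₀ m fun k => c * L.M / m ≤ (#(L.W E₀ m k) : ℝ)) m k = ∅ from ?_,
      card_empty, Nat.cast_zero]
    · positivity
    refine eq_empty_of_forall_notMem fun e he => ?_
    rw [mem_W, mem_sdiff, mem_sel] at he
    exact he.1.2 ⟨he.1.1, k, hk, he.2⟩
  · exact le_trans (Nat.cast_le.2 (card_le_card (L.W_mono sdiff_subset _ _))) (not_le.1 hk).le

/-- Edges with a poor end are few: at most `C m` windows, `N` points, `c d / m` edges each. -/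
theorem Reg.exists_rich (h : L.Reg Ω C m E₀) (hb : L.Big 1) (hC : 0 ≤ C) (hm : m ∣ L.q) {c : ℝ}
    (hc : 0 ≤ c) : ∃ E₁ ⊆ E₀, (#(E₀ \ E₁) : ℝ) ≤ C * c * L.M ∧ L.Rich c m E₀ E₁ := by
  refine ⟨E₀.filter fun e => ∀ k, e ∈ L.W E₀ m k → ∀ p, Inc p e →
    c * L.d / m ≤ (deg (L.W E₀ m k) p : ℝ), filter_subset _ _, ?_, ?_⟩
  · refine h.locReg_le hb hm sdiff_subset hc fun k => ?_
    refine locReg_inc hb (G := L.W E₀ m k)
      (Y := L.Z.filter fun p => (deg (L.W E₀ m k) p : ℝ) ≤ c * L.d / m) (filter_subset _ _)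
      (fun e he => ?_) hc fun p hp => (mem_filter.1 hp).2
    rw [mem_W, mem_sdiff, mem_filter] at he
    obtain ⟨⟨h1, h2⟩, h3, h4⟩ := he
    simp only [h1, true_and, not_forall, not_le] at h2
    obtain ⟨k', h5, p, h6, h7⟩ := h2
    obtain rfl : k' = k := L.win_unique (L.mem_W.1 h5).2.1 (L.mem_W.1 h5).2.2 h3 h4
    refine mem_inc.2 ⟨h5, ?_⟩
    have hz := L.inZ e (h.sub h1)
    rcases h6 with rfl | rfl
    · exact Or.inl (mem_filter.2 ⟨hz.1, h7.le⟩)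
    · exact Or.inr (mem_filter.2 ⟨hz.2, h7.le⟩)
  · intro k e he p hp
    exact (mem_filter.1 (L.W_subset _ _ _ he)).2 k (L.W_mono (filter_subset _ _) _ _ he) p hp

/-- At most `m / X` windows (of any index) contain more than `X N ^ 2 / m` slopes of pairs (`sum_card_W_le`,
`card_pairs_le`); at most `(2 R + 1) m / X` windows are near one of them, and each has at most `C M / m` edges
of `E₀`. -/
theorem Reg.exists_xreg (h : L.Reg Ω C m E₀) (hb : L.Big 1) (hC : 0 ≤ C) (hm : m ∣ L.q) (R : ℕ)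
    {X : ℝ} (hX : 0 < X) :
    ∃ E₁ ⊆ E₀, (#(E₀ \ E₁) : ℝ) ≤ (2 * R + 1) * C / X * L.M ∧ L.XReg X R m E₁ := by
  have hM := (hb.M_pos le_rfl).le
  have hN := hb.N_pos le_rfl
  have hm0 : (0 : ℝ) < m := by exact_mod_cast Nat.pos_of_dvd_of_pos hm L.q_pos
  refine ⟨L.sel E₀ m fun k => ∀ k', k ≤ k' + R → k' ≤ k + R →
    (#(L.W (pairs L.Z) m k') : ℝ) ≤ X * L.N ^ 2 / m, L.sel_subset _ _ _, ?_, ?_⟩
  · set Hv := (Finset.range (m ^ 4 + R)).filter fun k' =>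
      X * L.N ^ 2 / m ≤ (#(L.W (pairs L.Z) m k') : ℝ) with hHv
    have h1 : (#Hv : ℝ) ≤ m / X := by
      have a1 := card_nsmul_le_sum Hv (fun k' => (#(L.W (pairs L.Z) m k') : ℝ)) _
        fun k hk => (mem_filter.1 hk).2
      have a2 : ∑ k ∈ Hv, (#(L.W (pairs L.Z) m k) : ℝ) ≤ (#L.Z : ℝ) ^ 2 := by
        exact_mod_cast (L.sum_card_W_le _ m Hv).trans (card_pairs_le _)
      have a3 : (#L.Z : ℝ) ^ 2 ≤ L.N ^ 2 := pow_le_pow_left₀ (Nat.cast_nonneg _) L.cardZ' 2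
      rw [nsmul_eq_mul, ← mul_div_assoc, div_le_iff₀ hm0] at a1
      have a4 : #Hv * X * L.N ^ 2 ≤ m * L.N ^ 2 := by
        have := mul_le_mul_of_nonneg_right (a2.trans a3) hm0.le
        linarith
      rw [le_div_iff₀ hX]
      exact le_of_mul_le_mul_right a4 (by positivity)
    have h2 : (#(Hv.biUnion fun k' => Icc (k' - R) (k' + R)) : ℝ) ≤ #Hv * (2 * R + 1) := by
      have : #(Hv.biUnion fun k' => Icc (k' - R) (k' + R)) ≤ #Hv * (2 * R + 1) :=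
        card_biUnion_le_card_mul _ _ _ fun k _ => by rw [Nat.card_Icc]; omega
      exact_mod_cast this
    refine (locReg_sum hm (sdiff_subset.trans h.sub) (Hv.biUnion fun k' => Icc (k' - R) (k' + R))
      (fun k hk he => ?_) (x := C * L.M / m) (by positivity) fun k =>
        le_trans (Nat.cast_le.2 (card_le_card (L.W_mono sdiff_subset _ _)))
          (h.card_W_le hb hC k)).trans ?_
    · obtain ⟨e, he⟩ := he
      rw [mem_W, mem_sdiff, mem_sel] at he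
      have h3 : ¬ ∀ k', k ≤ k' + R → k' ≤ k + R →
          (#(L.W (pairs L.Z) m k') : ℝ) ≤ X * L.N ^ 2 / m := fun h3 => he.1.2 ⟨he.1.1, k, h3, he.2⟩
      simp only [not_forall, not_le] at h3
      obtain ⟨k', b1, b2, b3⟩ := h3
      exact mem_biUnion.2 ⟨k', mem_filter.2 ⟨mem_range.2 (by omega), b3.le⟩,
        mem_Icc.2 ⟨by omega, b1⟩⟩
    · calc _ ≤ m / X * (2 * R + 1) * (C * L.M / m) :=
            mul_le_mul_of_nonneg_right (h2.trans (by gcongr)) (by positivity)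
        _ = _ := by field_simp
  · intro k hk
    by_contra hc
    rw [L.W_sel_of_not _ _ hc] at hk
    exact not_nonempty_empty hk

/-- After the removal of few edges most points keep most of their degree (`sum_deg_le`). -/
theorem card_lose (L : Loc) (hb : L.Big 1) (F : Finset Ed) {η c : ℝ} (hc : 0 < c)
    (hF : (#F : ℝ) ≤ η * L.M) (Y : Finset Pt) :
    (#(Y.filter fun p => c * L.d < (deg F p : ℝ)) : ℝ) ≤ 2 * η / c * L.N := by
  have hd := hb.d_pos le_rfl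
  have a1 := card_nsmul_le_sum (Y.filter fun p => c * L.d < (deg F p : ℝ))
    (fun p => (deg F p : ℝ)) _ fun p hp => (mem_filter.1 hp).2.le
  have a2 : ∑ p ∈ Y.filter fun p => c * L.d < (deg F p : ℝ), (deg F p : ℝ) ≤ 2 * #F := by
    exact_mod_cast (sum_deg_le F _).trans (Nat.mul_le_mul_left 2 (card_le_card (inc_subset _ _)))
  rw [nsmul_eq_mul] at a1
  rw [← L.N_mul_d] at hF
  rw [div_mul_eq_mul_div, le_div_iff₀ hc]
  refine le_of_mul_le_mul_right ?_ hd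
  linarith

end Loc

end Crest.Agent.R51
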