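import Crest.Agent.R51.FLem
import Crest.Agent.R51.Sys2
import Crest.Agent.R51.LocReg
import Crest.Agent.R51.HLem0

/-! Many edges force many swaps. -/

namespace Crest.Agent.R51

open Finset
open scoped Classical

namespace Loc

theorem hlem_div_lt (L : Loc) {m : ℕ} (hm : m ∣ L.q) {w : ℕ} (hw : w < L.q ^ 4) :
    w / (L.q / m) ^ 4 < m ^ 4 := by
  apply Nat.div_lt_of_lt_mul
  rwa [← mul_pow, Nat.div_mul_cancel hm]

theorem hlem_s_pos (L : Loc) {m : ℕ} (hm : m ∣ L.q) : 0 < (L.q / m) ^ 4 :=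
  pow_pos (Nat.div_pos (Nat.le_of_dvd L.q_pos hm) (Nat.pos_of_dvd_of_pos hm L.q_pos)) 4

/-- passing to the finest windows -/
theorem hlem_fine (L : Loc) {Ω : ℕ → Finset Pt} {C : ℝ} {m : ℕ} {E₀ : Finset Ed} (hm : m ∣ L.q)
    (hr : L.Reg Ω C m E₀) (Y : ℕ → Finset Pt) :
    ∑ k ∈ Finset.range (m ^ 4), #(inc (L.W E₀ m k) (Y k)) ≤
      ∑ w ∈ (Finset.range (L.q ^ 4)).filter (fun w => (L.W E₀ L.q w).Nonempty),
        #(inc (L.W L.E L.q w) (Y (w / (L.q / m) ^ 4) ∩ Ω w)) := by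
  rw [← card_biUnion]
  · refine le_trans (card_le_card ?_) card_biUnion_le
    intro e he
    obtain ⟨k, -, he⟩ := mem_biUnion.1 he
    obtain ⟨he1, he2⟩ := mem_inc.1 he
    obtain ⟨he0, hk1, hk2⟩ := L.mem_W.1 he1
    obtain ⟨w, hw, hw1, hw2⟩ := L.exists_win (dvd_refl L.q) (hr.sub he0)
    have hne : (L.W E₀ L.q w).Nonempty := ⟨e, L.mem_W.2 ⟨he0, hw1, hw2⟩⟩
    have heW : e ∈ L.W L.E L.q w := L.mem_W.2 ⟨hr.sub he0, hw1, hw2⟩
    obtain ⟨hΩ1, hΩ2⟩ := hr.cov w hne e heW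
    obtain ⟨hp1, hp2⟩ := L.parent hm (dvd_refl L.q) w
    have hk : k = w / (L.q / m) ^ 4 := L.win_unique hk1 hk2 (hp1.trans_lt hw1) (hw2.trans hp2)
    refine mem_biUnion.2 ⟨w, mem_filter.2 ⟨mem_range.2 hw, hne⟩, mem_inc.2 ⟨heW, ?_⟩⟩
    rw [← hk, mem_inter, mem_inter]
    exact he2.imp (fun h => ⟨h, hΩ1⟩) fun h => ⟨h, hΩ2⟩
  · intro k _ k' _ hne
    rw [Function.onFun, disjoint_left]
    intro e he he'
    obtain ⟨-, h1, h2⟩ := L.mem_W.1 (mem_inc.1 he).1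
    obtain ⟨-, h3, h4⟩ := L.mem_W.1 (mem_inc.1 he').1
    exact hne (L.win_unique h1 h2 h3 h4)

/-- the swapped pairs of the finest windows lie in `H` -/
theorem hlem_swaps (L : Loc) {Ω : ℕ → Finset Pt} {m : ℕ} (hm : m ∣ L.q) (hΩ : ∀ w, Ω w ⊆ L.Z)
    (Y : ℕ → Finset Pt) {R : Finset ℕ} (hR : R ⊆ Finset.range (L.q ^ 4)) :
    ∑ w ∈ R, #(tm (pairs (Y (w / (L.q / m) ^ 4) ∩ Ω w)) (L.lo L.q w) (L.hi L.q w)) ≤
      #(L.H Ω m Y) := by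
  rw [← card_biUnion]
  · refine card_le_card fun e he => ?_
    obtain ⟨w, hw, he⟩ := mem_biUnion.1 he
    obtain ⟨h1, h2, h3⟩ := mem_tm.1 he
    obtain ⟨h4, h5, h6⟩ := mem_pairs.1 h1
    rw [mem_inter] at h4 h5
    have hZ : e ∈ pairs L.Z := mem_pairs.2 ⟨hΩ w h4.2, hΩ w h5.2, h6⟩
    have hw' : w / (L.q / m) ^ 4 * (L.q / m) ^ 4 + w % (L.q / m) ^ 4 = w := Nat.div_add_mod' _ _
    refine mem_filter.2 ⟨hZ, w / (L.q / m) ^ 4, L.hlem_div_lt hm (mem_range.1 (hR hw)),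
      w % (L.q / m) ^ 4, Nat.mod_lt _ (L.hlem_s_pos hm), ?_⟩
    rw [hw']
    exact ⟨L.mem_W.2 ⟨hZ, h2, h3⟩, h4.1, h5.1, h4.2, h5.2⟩
  · intro k _ k' _ hne
    rw [Function.onFun, disjoint_left]
    intro e he he'
    obtain ⟨-, h1, h2⟩ := mem_tm.1 he
    obtain ⟨-, h3, h4⟩ := mem_tm.1 he'
    exact hne (L.win_unique h1 h2 h3 h4)

theorem hlem_num {C c CF M U N lam A B X : ℝ} (hC : 1 ≤ C) (hc : 0 < c) (hCF : 0 < CF)
    (hl : 0 < lam) (hU : 0 < U) (h1 : U * lam = M) (h2 : N ^ 2 / lam ^ 2 = M)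
    (hlam : 12 * CF * C / c ≤ lam) (hA : A ≤ 3 * C * U) (hB : B ≤ C ^ 2 * N ^ 2)
    (h : c * M ≤ c / (2 * (3 * C + C ^ 2)) * (lam * A + B / lam ^ 2) + CF * (A + X / lam ^ 2)) :
    c / (4 * CF) * N ^ 2 ≤ X := by
  have hC0 : 0 < C := by linarith
  have e1 : lam * A ≤ 3 * C * M := by
    rw [← h1]
    nlinarith [mul_le_mul_of_nonneg_left hA hl.le]
  have e2 : B / lam ^ 2 ≤ C ^ 2 * M := by
    rw [← h2, ← mul_div_assoc]
    exact div_le_div_of_nonneg_right hB (by positivity)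
  have e3 : c / (2 * (3 * C + C ^ 2)) * (lam * A + B / lam ^ 2) ≤ c * M / 2 := by
    calc _ ≤ c / (2 * (3 * C + C ^ 2)) * (3 * C * M + C ^ 2 * M) :=
          mul_le_mul_of_nonneg_left (add_le_add e1 e2) (by positivity)
      _ = _ := by field_simp
  have e4 : CF * A ≤ c * M / 4 := by
    rw [div_le_iff₀ hc] at hlam
    have := mul_le_mul_of_nonneg_left hA hCF.le
    have := mul_le_mul_of_nonneg_left hlam hU.le
    rw [← h1]
    nlinarith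
  have e5 : c * M / 4 ≤ CF * (X / lam ^ 2) := by
    rw [mul_add] at h
    linarith
  rw [← h2] at e5
  have e6 : c * (N ^ 2 / lam ^ 2) / 4 = CF * (c / (4 * CF) * N ^ 2 / lam ^ 2) := by field_simp
  rw [e6] at e5
  have e7 := le_of_mul_le_mul_left e5 hCF
  rwa [div_le_div_iff_of_pos_right (by positivity)] at e7

/-- Lemma H.  Apply `exists_flem` (with `ε = c / (2 (3 C + C ^ 2))`) in every finest window `w < q ^ 4` that meets `E₀`,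
to the system `W E q w` with `Ω w` (`cov`), `Y (w / (q / m) ^ 4) ∩ Ω w` and `lam = κ / q`.
`∑ w, (i #(Ω w) + nr) ≤ 3 C U` (`sum_nr_win`, `sum_le`, `i_mul_N`), `∑ w, #(Ω w) ^ 2 ≤ C ^ 2 N ^ 2`, `U_mul`, `N_sq`; the
term `C_F · 3 C U ≤ c M / 4` for `κ / q ≥ Q` large; the sets of swapped pairs for different `w` are disjoint
subsets of `H`.  So `c M / 4 ≤ C_F #H / lam ^ 2`. -/
theorem lemmaH {C c : ℝ} (hC : 1 ≤ C) (hc : 0 < c) : ∃ c' : ℝ, 0 < c' ∧ ∃ Q : ℕ, 1 ≤ Q ∧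
    ∀ (L : Loc) (Ω : ℕ → Finset Pt) (m : ℕ) (E₀ : Finset Ed) (Y : ℕ → Finset Pt), L.Big Q →
      m ∣ L.q → L.Base Ω C → L.Reg Ω C m E₀ →
      c * L.M ≤ ∑ k ∈ Finset.range (m ^ 4), (#(inc (L.W E₀ m k) (Y k)) : ℝ) →
      c' * L.N ^ 2 ≤ #(L.H Ω m Y) := by
  have hC0 : 0 < C := by linarith
  obtain ⟨CF, hCF, hF⟩ := exists_flem (ε := c / (2 * (3 * C + C ^ 2))) (by positivity)
  refine ⟨c / (4 * CF), by positivity, ⌈12 * CF * C / c⌉₊ + 1, by omega, ?_⟩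
  intro L Ω m E₀ Y hbig hm hb hr hsum
  have hQ : 1 ≤ ⌈12 * CF * C / c⌉₊ + 1 := by omega
  have hκ := hbig.κ_pos hQ
  have hq := L.q_posR
  have hl : 0 < L.κ / L.q := by positivity
  have hlam : 12 * CF * C / c ≤ L.κ / L.q := by
    refine le_trans ?_ hbig.le_κq
    push_cast
    linarith [Nat.le_ceil (12 * CF * C / c)]
  set R := (Finset.range (L.q ^ 4)).filter (fun w => (L.W E₀ L.q w).Nonempty) with hR
  have hRs : R ⊆ Finset.range (L.q ^ 4) := filter_subset _ _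
  have hcov : ∀ w ∈ R, ∀ e ∈ L.W L.E L.q w, e.1 ∈ Ω w ∧ e.2 ∈ Ω w := fun w hw =>
    hr.cov w (mem_filter.1 hw).2
  have hΩs : ∑ w ∈ R, (#(Ω w) : ℝ) ≤ C * L.N * L.q :=
    (sum_le_sum_of_subset_of_nonneg hRs fun _ _ _ => Nat.cast_nonneg _).trans hb.sum_le
  have h1 : ∑ k ∈ Finset.range (m ^ 4), (#(inc (L.W E₀ m k) (Y k)) : ℝ) ≤
      ∑ w ∈ R, (#(inc (L.W L.E L.q w) (Y (w / (L.q / m) ^ 4) ∩ Ω w)) : ℝ) := by
    exact_mod_cast L.hlem_fine hm hr Y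
  have h2 := sum_le_sum (s := R) fun w hw => hF L.P (L.W L.E L.q w) L.id L.i (L.lo L.q w)
    (L.hi L.q w) (Ω w) (Y (w / (L.q / m) ^ 4) ∩ Ω w) (L.κ / L.q) (L.sys.tm _ _) L.i_pos
    (fun e he => (L.mem_W.1 he).2) (hcov w hw) ((hb.sub w).trans L.ZP) inter_subset_right hl
  have h3 := hsum.trans (h1.trans h2)
  rw [sum_add_distrib, ← mul_sum, ← mul_sum, sum_add_distrib, sum_add_distrib (s := R)
    (g := fun w => (#(tm (pairs (Y (w / (L.q / m) ^ 4) ∩ Ω w)) (L.lo L.q w) (L.hi L.q w)) : ℝ) /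
      (L.κ / L.q) ^ 2), ← mul_sum, ← sum_div, ← sum_div] at h3
  have h4 : ∑ w ∈ R, (#(tm (pairs (Y (w / (L.q / m) ^ 4) ∩ Ω w)) (L.lo L.q w) (L.hi L.q w)) : ℝ) ≤
      #(L.H Ω m Y) := by exact_mod_cast L.hlem_swaps hm hb.sub Y hRs
  refine le_trans (hlem_num hC hc hCF hl (hbig.U_pos hQ) L.U_mul (L.N_sq hκ) hlam ?_ ?_ h3) h4
  · have h5 : ∑ w ∈ R, (nr (L.W L.E L.q w) L.id : ℝ) ≤
        nr L.E L.id + L.i * ∑ w ∈ R, (#(Ω w) : ℝ) := by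
      exact_mod_cast L.sys.sum_nr_win (L.lo L.q) (L.hi L.q) R Ω
        (fun k _ k' _ h => L.hi_le_lo _ h) fun w hw e he => (hcov w hw e he).1
    have h6 : L.i * ∑ w ∈ R, (#(Ω w) : ℝ) ≤ C * L.U := by
      rw [← L.i_mul_N]
      have := mul_le_mul_of_nonneg_left hΩs (Nat.cast_nonneg (α := ℝ) L.i)
      linarith
    rw [sum_add_distrib, ← mul_sum]
    linarith [hb.nr_le]
  · have hN := hbig.N_pos hQ
    calc ∑ w ∈ R, (#(Ω w) : ℝ) ^ 2 ≤ ∑ w ∈ R, C * L.N / L.q * (#(Ω w) : ℝ) := by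
          refine sum_le_sum fun w _ => ?_
          rw [sq]
          exact mul_le_mul_of_nonneg_right (hb.card_le w) (Nat.cast_nonneg _)
      _ = C * L.N / L.q * ∑ w ∈ R, (#(Ω w) : ℝ) := by rw [mul_sum]
      _ ≤ C * L.N / L.q * (C * L.N * L.q) := mul_le_mul_of_nonneg_left hΩs (by positivity)
      _ = C ^ 2 * L.N ^ 2 := by field_simp

/-- Sets with few swaps meet few edges: otherwise `lemmaH` (for `Y' k = Y k` if `W E₀ m k` is nonempty and `∅`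
otherwise) gives `c' N ^ 2 ≤ #H ≤ C m · N · η N / m`. -/
theorem sparse {C ε : ℝ} (hC : 1 ≤ C) (hε : 0 < ε) : ∃ η : ℝ, 0 < η ∧ ∃ Q : ℕ, 1 ≤ Q ∧
    ∀ (L : Loc) (Ω : ℕ → Finset Pt) (m : ℕ) (E₀ : Finset Ed) (Y : ℕ → Finset Pt), L.Big Q →
      m ∣ L.q → L.Base Ω C → L.Reg Ω C m E₀ → (∀ k, Y k ⊆ L.Z) →
      (∀ k, (L.W E₀ m k).Nonempty → ∀ p, (deg (L.W (pairs (Y k)) m k) p : ℝ) ≤ η * L.N / m) →
      ∑ k ∈ Finset.range (m ^ 4), (#(inc (L.W E₀ m k) (Y k)) : ℝ) ≤ ε * L.M := by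
  have hC0 : 0 < C := by linarith
  obtain ⟨c', hc', Q, hQ, hH⟩ := lemmaH hC hε
  refine ⟨c' / (2 * C), by positivity, Q, hQ, ?_⟩
  intro L Ω m E₀ Y hbig hm hb hr hYZ hdeg
  by_contra hcon
  have hN := hbig.N_pos hQ
  have hm0 : (0 : ℝ) < m := by exact_mod_cast Nat.pos_of_dvd_of_pos hm L.q_pos
  set Y' : ℕ → Finset Pt := fun k => if (L.W E₀ m k).Nonempty then Y k else ∅ with hY'
  have h1 : ∑ k ∈ Finset.range (m ^ 4), (#(inc (L.W E₀ m k) (Y k)) : ℝ) =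
      ∑ k ∈ Finset.range (m ^ 4), (#(inc (L.W E₀ m k) (Y' k)) : ℝ) := by
    refine sum_congr rfl fun k _ => ?_
    by_cases hk : (L.W E₀ m k).Nonempty
    · simp only [hY', if_pos hk]
    · rw [not_nonempty_iff_eq_empty.1 hk]
      simp [inc]
  have h2 := hH L Ω m E₀ Y' hbig hm hb hr (by rw [← h1]; exact (not_le.1 hcon).le)
  set R := (Finset.range (m ^ 4)).filter (fun k => (L.W E₀ m k).Nonempty) with hR
  have h3 : #(L.H Ω m Y') ≤ ∑ k ∈ R, #(L.W (pairs (Y k)) m k) := by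
    refine le_trans (card_le_card fun e he => ?_) card_biUnion_le
    obtain ⟨k, hk, g1, g2, g3, g4⟩ := L.mem_H hm he
    by_cases hk' : (L.W E₀ m k).Nonempty
    · simp only [hY', if_pos hk'] at g3 g4
      exact mem_biUnion.2 ⟨k, mem_filter.2 ⟨mem_range.2 hk, hk'⟩, L.mem_W.2
        ⟨mem_pairs.2 ⟨g3, g4, (mem_pairs.1 (L.H_sub Ω m Y' he)).2.2⟩, g1, g2⟩⟩
    · simp [hY', if_neg hk'] at g3
  have h4 : ∀ k ∈ R, (#(L.W (pairs (Y k)) m k) : ℝ) ≤ L.N * (c' / (2 * C) * L.N / m) := by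
    intro k hk
    have g1 : #(L.W (pairs (Y k)) m k) ≤ ∑ p ∈ L.Z, deg (L.W (pairs (Y k)) m k) p := by
      refine le_trans (card_le_card fun e he => ?_) (card_inc_le_sum_deg _ L.Z)
      exact mem_inc.2 ⟨he, Or.inl (hYZ k (mem_pairs.1 (L.mem_W.1 he).1).1)⟩
    have g2 : (#(L.W (pairs (Y k)) m k) : ℝ) ≤
        ∑ p ∈ L.Z, (deg (L.W (pairs (Y k)) m k) p : ℝ) := by exact_mod_cast g1
    refine g2.trans ((sum_le_card_nsmul _ _ _ fun p _ => hdeg k (mem_filter.1 hk).2 p).trans ?_)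
    rw [nsmul_eq_mul]
    exact mul_le_mul_of_nonneg_right L.cardZ' (by positivity)
  have h5 : (#(L.H Ω m Y') : ℝ) ≤ ∑ k ∈ R, (#(L.W (pairs (Y k)) m k) : ℝ) := by exact_mod_cast h3
  have h6 := h5.trans (sum_le_card_nsmul _ _ _ h4)
  rw [nsmul_eq_mul] at h6
  have h7 := h6.trans (mul_le_mul_of_nonneg_right hr.rel (by positivity))
  have h8 : C * m * (L.N * (c' / (2 * C) * L.N / m)) = c' * L.N ^ 2 / 2 := by field_simp
  have h9 : 0 < c' * L.N ^ 2 := by positivity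
  linarith

end Loc

end Crest.Agent.R51
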