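import Crest.Agent.R51.G1
import Crest.Agent.R51.HLem

/-! Logarithmically long windows carry few edges (one piece). -/

namespace Crest.Agent.R51

open Finset
open scoped Classical

/-- Few pairs have few points between them: for a fixed left end the number of points between
determines the right end. -/
theorem GP.card_close {Z : Finset Pt} (hZ : GP Z) {t : ℝ} (ht : 0 ≤ t) :
    (#((pairs Z).filter fun e =>
      (#(Z.filter fun z => e.1.1 ≤ z.1 ∧ z.1 ≤ e.2.1) : ℝ) ≤ t) : ℝ) ≤ #Z * t := by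
  have h1 : #((pairs Z).filter fun e =>
      (#(Z.filter fun z => e.1.1 ≤ z.1 ∧ z.1 ≤ e.2.1) : ℝ) ≤ t) ≤ #(Z ×ˢ Finset.Icc 1 ⌊t⌋₊) := by
    refine card_le_card_of_injOn
      (fun e => (e.1, #(Z.filter fun z => e.1.1 ≤ z.1 ∧ z.1 ≤ e.2.1))) ?_ ?_
    · intro e he
      obtain ⟨he1, he2⟩ := mem_filter.1 he
      obtain ⟨ha, -, hlt⟩ := mem_pairs.1 he1
      refine mem_product.2 ⟨ha, mem_Icc.2 ⟨?_, Nat.le_floor he2⟩⟩
      exact card_pos.2 ⟨e.1, mem_filter.2 ⟨ha, le_rfl, hlt.le⟩⟩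
    · have key : ∀ e ∈ pairs Z, ∀ e' ∈ pairs Z, e.1 = e'.1 → e.2.1 < e'.2.1 →
          #(Z.filter fun z => e.1.1 ≤ z.1 ∧ z.1 ≤ e.2.1) <
            #(Z.filter fun z => e'.1.1 ≤ z.1 ∧ z.1 ≤ e'.2.1) := by
        intro e _ e' he' h1 h2
        obtain ⟨-, hb, hlt⟩ := mem_pairs.1 he'
        refine card_lt_card ⟨fun z hz => ?_, fun hs => ?_⟩
        · obtain ⟨g1, g2, g3⟩ := mem_filter.1 hz
          exact mem_filter.2 ⟨g1, h1 ▸ g2, g3.trans h2.le⟩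
        · have := (mem_filter.1 (hs (mem_filter.2 ⟨hb, hlt.le, le_rfl⟩))).2.2
          exact absurd h2 (not_lt.2 this)
      intro e he e' he' hee
      have he1 := (mem_filter.1 he).1
      have he1' := (mem_filter.1 he').1
      obtain ⟨g1, g2⟩ := Prod.mk.inj hee
      have g3 : e.2.1 = e'.2.1 := by
        rcases lt_trichotomy e.2.1 e'.2.1 with h | h | h
        · exact absurd g2 (key e he1 e' he1' g1 h).ne
        · exact h
        · exact absurd g2 (key e' he1' e he1 g1.symm h).ne'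
      exact Prod.ext g1 (hZ.xinj _ (mem_pairs.1 he1).2.1 _ (mem_pairs.1 he1').2.1 g3)
  rw [card_product, Nat.card_Icc, Nat.add_sub_cancel] at h1
  calc (#((pairs Z).filter fun e =>
      (#(Z.filter fun z => e.1.1 ≤ z.1 ∧ z.1 ≤ e.2.1) : ℝ) ≤ t) : ℝ) ≤ #Z * (⌊t⌋₊ : ℝ) := by
        exact_mod_cast h1
    _ ≤ #Z * t := mul_le_mul_of_nonneg_left (Nat.floor_le ht) (Nat.cast_nonneg _)

namespace Loc

/-- Suppose `#E₀ > ε M`.  Take `E₁` from `exists_rich` with `c = ε / (2 C)`, and let `Y k` be the set of ends of the edges of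
`W E₁ m k`; then `∑ k, #(inc (W E₀ m k) (Y k)) ≥ #E₁ ≥ ε M / 2`, and `lemmaH` gives `c₁ N ^ 2 ≤ #H`.  Apply `g1` to `H` (`mem_H`;
degrees by `deg_H_le`: a point of positive degree in `W H m k` is in `Y k` by `win_unique`), `Ks` the windows
`k < m ^ 4` that meet `E₀`.  This gives `Y' k ⊆ Y k` with `∑ #(Y' k) ≥ c' N m`, so
`∑ k, #(inc (W E₀ m k) (Y' k)) ≥ c' N m · c d / (2 m)` (`sum_deg_le`, richness).  `lemmaH` again gives `c₂ N ^ 2 ≤ #(H Y')`, but every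
pair of `H Y'` has at most `C' N / m` points between its ends, so `#(H Y') ≤ C' N ^ 2 / m` (`card_close`). -/
theorem gloc {C ε : ℝ} (hC : 1 ≤ C) (hε : 0 < ε) : ∃ mG Q : ℕ, 1 ≤ mG ∧ 1 ≤ Q ∧
    ∀ (L : Loc) (Ω : ℕ → Finset Pt) (m : ℕ) (E₀ : Finset Ed) (θ : ℝ), L.Big Q → mG ≤ m →
      m ∣ L.q → L.Base Ω C → L.Reg Ω C m E₀ →
      (∀ k, (L.W E₀ m k).Nonempty → LL θ (L.lo m k) (L.hi m k)) → (#E₀ : ℝ) ≤ ε * L.M := by
  have hC0 : 0 < C := by linarith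
  obtain ⟨c, hc, hc0⟩ : ∃ c : ℝ, C * c = ε / 2 ∧ 0 < c :=
    ⟨ε / (2 * C), by field_simp, by positivity⟩
  obtain ⟨c₁, hc₁, Q₁, hQ₁, hH₁⟩ := lemmaH (c := ε / 2) hC (by positivity)
  obtain ⟨c', C', m₀, hc', hC', hg⟩ := g1 (C := C ^ 2) (c := c₁) (by positivity) hc₁
  obtain ⟨c₂, hc₂, Q₂, -, hH₂⟩ := lemmaH (c := c' * c / 2) hC (by positivity)
  refine ⟨⌈m₀⌉₊ + ⌈C' / c₂⌉₊ + 1, Q₁ + Q₂ + ⌈m₀⌉₊, by omega, by omega, ?_⟩
  intro L Ω m E₀ θ hb hmG hm hbase hreg hLL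
  by_contra hcon
  rw [not_le] at hcon
  have hb1 : L.Big 1 := hb.mono (by omega)
  have hN := hb1.N_pos le_rfl
  have hd := hb1.d_pos le_rfl
  have hmR : ((⌈m₀⌉₊ + ⌈C' / c₂⌉₊ + 1 : ℕ) : ℝ) ≤ m := by exact_mod_cast hmG
  push_cast at hmR
  have hce₁ := Nat.le_ceil m₀
  have hce₂ := Nat.le_ceil (C' / c₂)
  have hce₃ : (0 : ℝ) ≤ ⌈m₀⌉₊ := Nat.cast_nonneg _
  have hce₄ : (0 : ℝ) ≤ ⌈C' / c₂⌉₊ := Nat.cast_nonneg _
  have hm0 : (0 : ℝ) < m := by linarith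
  have hm₀N : m₀ ≤ L.N := by
    have h1 := (hb.mono (show ⌈m₀⌉₊ ≤ Q₁ + Q₂ + ⌈m₀⌉₊ by omega)).Q_le_κ
    linarith [hb1.κ_le_N le_rfl]
  obtain ⟨E₁, hE₁, hcard, hrich⟩ := hreg.exists_rich hb1 hC0.le hm hc0.le
  rw [hc] at hcard
  obtain ⟨Y, hY⟩ : ∃ Y : ℕ → Finset Pt, ∀ k p, p ∈ Y k ↔ ∃ e ∈ L.W E₁ m k, Inc p e := by
    refine ⟨fun k => (L.W E₁ m k).image Prod.fst ∪ (L.W E₁ m k).image Prod.snd, fun k p => ?_⟩
    simp only [mem_union, mem_image, Inc]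
    constructor
    · rintro (⟨e, he, h⟩ | ⟨e, he, h⟩)
      · exact ⟨e, he, Or.inl h⟩
      · exact ⟨e, he, Or.inr h⟩
    · rintro ⟨e, he, h | h⟩
      · exact Or.inl ⟨e, he, h⟩
      · exact Or.inr ⟨e, he, h⟩
  have h1 : ε / 2 * L.M ≤ ∑ k ∈ Finset.range (m ^ 4), (#(inc (L.W E₀ m k) (Y k)) : ℝ) := by
    have g1 : (#E₀ : ℝ) = #(E₀ \ E₁) + #E₁ := by
      exact_mod_cast (card_sdiff_add_card_eq_card hE₁).symm
    have g2 : (#E₁ : ℝ) = ∑ k ∈ Finset.range (m ^ 4), (#(L.W E₁ m k) : ℝ) := by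
      exact_mod_cast L.card_eq_sum_W hm (hE₁.trans hreg.sub)
    have g3 : ∑ k ∈ Finset.range (m ^ 4), (#(L.W E₁ m k) : ℝ) ≤
        ∑ k ∈ Finset.range (m ^ 4), (#(inc (L.W E₀ m k) (Y k)) : ℝ) := by
      refine sum_le_sum fun k _ => Nat.cast_le.2 (card_le_card fun e he => ?_)
      exact mem_inc.2 ⟨L.W_mono hE₁ m k he, Or.inl ((hY k e.1).2 ⟨e, he, Or.inl rfl⟩)⟩
    linarith
  have h2 := hH₁ L Ω m E₀ Y (hb.mono (by omega)) hm hbase hreg h1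
  have hHY : ∀ k, ∀ e ∈ L.W (L.H Ω m Y) m k, ∀ p, Inc p e → p ∈ Y k := by
    intro k e he p hp
    obtain ⟨g1, g2, g3⟩ := L.mem_W.1 he
    obtain ⟨k', -, g4, g5, g6, g7⟩ := L.mem_H hm g1
    rw [L.win_unique g2 g3 g4 g5]
    rcases hp with rfl | rfl
    · exact g6
    · exact g7
  obtain ⟨Y', hY'1, hY'2, hY'3⟩ := hg L.Z L.N m (L.lo m) (L.hi m)
    ((Finset.range (m ^ 4)).filter fun k => (L.W E₀ m k).Nonempty) (L.H Ω m Y) θ L.gpZ L.cardZ'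
    (by linarith) hm0 hm₀N (fun k k' h => L.hi_le_lo m h)
    (fun k hk => hLL k (mem_filter.1 hk).2) (L.H_sub Ω m Y)
    (fun e he => by
      obtain ⟨k, g1, g2, g3, g4, -⟩ := L.mem_H hm he
      obtain ⟨e₂, he₂, -⟩ := (hY k e.1).1 g4
      exact ⟨k, mem_filter.2 ⟨mem_range.2 g1, e₂, L.W_mono hE₁ m k he₂⟩, g2, g3⟩)
    (fun k p => by
      show (deg (L.W (L.H Ω m Y) m k) p : ℝ) ≤ C ^ 2 * L.N / m
      rcases ((L.W (L.H Ω m Y) m k).filter (Inc p)).eq_empty_or_nonempty with h | ⟨e, he⟩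
      · have : deg (L.W (L.H Ω m Y) m k) p = 0 := by
          unfold deg
          rw [h, card_empty]
        rw [this, Nat.cast_zero]
        positivity
      · obtain ⟨g1, g2⟩ := mem_filter.1 he
        obtain ⟨e₂, he₂, hp⟩ := (hY k p).1 (hHY k e g1 p g2)
        exact L.deg_H_le hbase hm hreg m Y (L.W_mono hE₁ m k he₂) hp)
    h2
  have h3 : ∀ k, (#(Y' k) : ℝ) * (c * L.d / m) ≤ 2 * #(inc (L.W E₀ m k) (Y' k)) := by
    intro k
    have g1 : ∑ p ∈ Y' k, (deg (L.W E₀ m k) p : ℝ) ≤ 2 * #(inc (L.W E₀ m k) (Y' k)) := by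
      exact_mod_cast sum_deg_le (L.W E₀ m k) (Y' k)
    refine le_trans ?_ g1
    rw [← nsmul_eq_mul]
    refine card_nsmul_le_sum _ _ _ fun p hp => ?_
    obtain ⟨e, he, hpe⟩ := hY'1 k p hp
    obtain ⟨e₂, he₂, hp₂⟩ := (hY k p).1 (hHY k e he p hpe)
    exact hrich k e₂ he₂ p hp₂
  have h4 : c' * c / 2 * L.M ≤ ∑ k ∈ Finset.range (m ^ 4), (#(inc (L.W E₀ m k) (Y' k)) : ℝ) := by
    have g1 : ∑ k ∈ (Finset.range (m ^ 4)).filter (fun k => (L.W E₀ m k).Nonempty), (#(Y' k) : ℝ) ≤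
        ∑ k ∈ Finset.range (m ^ 4), (#(Y' k) : ℝ) :=
      sum_le_sum_of_subset_of_nonneg (filter_subset _ _) fun _ _ _ => Nat.cast_nonneg _
    have g2 : (∑ k ∈ Finset.range (m ^ 4), (#(Y' k) : ℝ)) * (c * L.d / m) ≤
        2 * ∑ k ∈ Finset.range (m ^ 4), (#(inc (L.W E₀ m k) (Y' k)) : ℝ) := by
      rw [sum_mul, mul_sum]
      exact sum_le_sum fun k _ => h3 k
    have g3 := mul_le_mul_of_nonneg_right (hY'2.trans g1) (show 0 ≤ c * L.d / m by positivity)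
    have g4 : c' * L.N * m * (c * L.d / m) = 2 * (c' * c / 2 * L.M) := by
      rw [← L.N_mul_d]
      field_simp
    linarith
  have h5 := hH₂ L Ω m E₀ Y' (hb.mono (by omega)) hm hbase hreg h4
  have h6 : (#(L.H Ω m Y') : ℝ) ≤ #L.Z * (C' * L.N / m) := by
    refine le_trans (Nat.cast_le.2 (card_le_card fun e he => ?_))
      (L.gpZ.card_close (t := C' * L.N / m) (by positivity))
    have g0 := L.H_sub Ω m Y' he
    obtain ⟨k, -, g2, g3, g4, g5⟩ := L.mem_H hm he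
    exact mem_filter.2 ⟨g0, hY'3 k e (mem_tm.2
      ⟨mem_pairs.2 ⟨g4, g5, (mem_pairs.1 g0).2.2⟩, g2, g3⟩)⟩
  have h7 : (#L.Z : ℝ) * (C' * L.N / m) ≤ L.N * (C' * L.N / m) :=
    mul_le_mul_of_nonneg_right L.cardZ' (by positivity)
  have h8 : c₂ * L.N ^ 2 ≤ C' / m * L.N ^ 2 := by
    have : L.N * (C' * L.N / m) = C' / m * L.N ^ 2 := by ring
    linarith
  have h9 : c₂ ≤ C' / m := le_of_mul_le_mul_right h8 (by positivity)
  rw [le_div_iff₀ hm0] at h9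
  have h10 : (m : ℝ) ≤ C' / c₂ := by
    rw [le_div_iff₀ hc₂]
    linarith
  linarith

/-- Few substantial windows are logarithmically long: `gloc` for `L.sel E₀ m (· ∈ Ks)` with `ε c` (`Reg.mono`,
`card_sel_eq`, `W_sel_of_not`). -/
theorem gloc_count {C c ε : ℝ} (hC : 1 ≤ C) (hc : 0 < c) (hε : 0 < ε) : ∃ mG Q : ℕ, 1 ≤ mG ∧
    1 ≤ Q ∧ ∀ (L : Loc) (Ω : ℕ → Finset Pt) (m : ℕ) (E₀ : Finset Ed) (θ : ℝ) (Ks : Finset ℕ),
      L.Big Q → mG ≤ m → m ∣ L.q → L.Base Ω C → L.Reg Ω C m E₀ →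
      (∀ k ∈ Ks, c * L.M / m ≤ (#(L.W E₀ m k) : ℝ) ∧ LL θ (L.lo m k) (L.hi m k)) →
      (#Ks : ℝ) ≤ ε * m := by
  obtain ⟨mG, Q, hmG, hQ, h⟩ := gloc (ε := ε * c) hC (by positivity)
  refine ⟨mG, Q, hmG, hQ, ?_⟩
  intro L Ω m E₀ θ Ks hb hm hmq hbase hreg hK
  have hM := hb.M_pos hQ
  have hm0 : (0 : ℝ) < m := by exact_mod_cast (show 0 < m by omega)
  have h1 := h L Ω m (L.sel E₀ m fun k => k ∈ Ks) θ hb hm hmq hbase
    (hreg.mono (L.sel_subset _ _ _)) fun k hk => by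
      by_cases hk' : k ∈ Ks
      · exact (hK k hk').2
      · rw [L.W_sel_of_not E₀ m (S := fun k => k ∈ Ks) hk'] at hk
        exact absurd hk not_nonempty_empty
  rw [L.card_sel_eq, Nat.cast_sum] at h1
  have h2 : (#Ks : ℝ) * (c * L.M / m) ≤ ∑ k ∈ Ks, (#(L.W E₀ m k) : ℝ) := by
    rw [← nsmul_eq_mul]
    exact card_nsmul_le_sum _ _ _ fun k hk => (hK k hk).1
  have h3 : ε * c * L.M = ε * m * (c * L.M / m) := by field_simp
  exact le_of_mul_le_mul_right (by linarith) (show 0 < c * L.M / m by positivity)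

end Loc

end Crest.Agent.R51
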