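import Crest.Agent.R51.Chains
import Crest.Agent.R51.Part
import Crest.Agent.R51.Sys2

/-! Existence of the global data. -/

namespace Crest.Agent.R51

open Finset
open scoped Classical

/-- Construction: `cid` from `exists_chains`; `E = tm (band P j i) (b 0) (b (q ^ 4))` is a system (`Sys.tm`)
with `nr ≤ i #P ≤ V = i ^ 2 κ ^ 3`.  `Sys.partition` with `Ω = Y = P`, `lam = q`, `a = i κ ^ 3 / q ^ 2 ≥ 1` gives
`pc₀` with at most `200 q V` cut edges.  Label `p` by `pc₀ p` and the set of the triples `(g, m, k)`,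
`g ≤ gm`, `m ≤ mm`, `k < m ^ 4`, with `p ∈ Rset …` (`exists_nat_label` on `P`; note that `piece` and `compat` only
concern points of `P`).  Each triple cuts at most `8 V` edges (`card_cut_Rset`) and there are at most
`(gm + 1) (mm + 1) mm ^ 4` triples; `Q = 8 (gm + 1) (mm + 1) ^ 5`.  `rid` comes from `Sys.cut`. -/
theorem exists_glob (C₀ : ℝ) (gm mm : ℕ) : ∃ Q : ℕ, ∀ (P : Finset Pt) (j : ℤ) (i q : ℕ) (κ : ℝ)
    (b : ℕ → ℝ), GP P → 1 ≤ i → 1 ≤ q → (#P : ℝ) ≤ i * κ ^ 3 → Monotone b →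
    (∀ w < q ^ 4, (#(tm (band P j i) (b w) (b (w + 1))) : ℝ) ≤ C₀ * (i ^ 2 * κ ^ 4) / q ^ 4) →
    Q ≤ q → (Q : ℝ) * q ≤ κ →
    ∃ G : Glob, G.P = P ∧ G.j = j ∧ G.i = i ∧ G.q = q ∧ G.κ = κ ∧ G.b = b ∧ G.C₀ = C₀ ∧
      G.gm = gm ∧ G.mm = mm := by
  refine ⟨8 * ((gm + 1) * ((mm + 1) * (mm + 1) ^ 4)), ?_⟩
  intro P j i q κ b hP hi hq hcard hb hfine hQ hQκ
  set Q := 8 * ((gm + 1) * ((mm + 1) * (mm + 1) ^ 4)) with hQdef
  have hQ1 : 1 ≤ Q := Nat.succ_le_of_lt (by positivity)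
  have hq' : (1 : ℝ) ≤ q := by exact_mod_cast hq
  have hi' : (1 : ℝ) ≤ i := by exact_mod_cast hi
  have hQ' : (1 : ℝ) ≤ Q := by exact_mod_cast hQ1
  have hQq : (Q : ℝ) ≤ q := by exact_mod_cast hQ
  have hqκ : (q : ℝ) ≤ κ := le_trans (le_mul_of_one_le_left (by linarith) hQ') hQκ
  have hκ1 : 1 ≤ κ := hq'.trans hqκ
  obtain ⟨cid, csys, cnr⟩ := hP.exists_chains j i
  set E := tm (band P j i) (b 0) (b (q ^ 4)) with hE
  have hsys : Sys P E cid i := csys.tm _ _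
  have hΩ : ∀ e ∈ E, e.1 ∈ P ∧ e.2 ∈ P := fun e he =>
    ⟨(mem_pairs.1 (hsys.sub he)).1, (mem_pairs.1 (hsys.sub he)).2.1⟩
  set V : ℝ := i ^ 2 * κ ^ 3 with hV
  have hV0 : 0 ≤ V := by positivity
  have hiP : (i : ℝ) * #P ≤ V := by
    calc (i : ℝ) * #P ≤ i * (i * κ ^ 3) := mul_le_mul_of_nonneg_left hcard (by linarith)
      _ = V := by rw [hV]; ring
  have hnr : (nr E cid : ℝ) ≤ V := by
    refine le_trans ?_ hiP
    exact_mod_cast cnr _ _ P fun e he => (hΩ e he).1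
  have ha : (1 : ℝ) ≤ i * κ ^ 3 / q ^ 2 := by
    rw [le_div_iff₀ (by positivity), one_mul]
    calc (q : ℝ) ^ 2 ≤ κ ^ 2 := pow_le_pow_left₀ (by linarith) hqκ 2
      _ ≤ κ ^ 3 := pow_le_pow_right₀ hκ1 (by norm_num)
      _ ≤ i * κ ^ 3 := le_mul_of_one_le_left (by positivity) hi'
  obtain ⟨pc₀, hpc₁, hpc₂⟩ := hsys.partition hi P hΩ P hq' ha
    (hcard.trans (le_of_eq (by field_simp)))
  set T : Finset (ℕ × ℕ × ℕ) := range (gm + 1) ×ˢ range (mm + 1) ×ˢ range ((mm + 1) ^ 4) with hT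
  set RS : ℕ × ℕ × ℕ → Finset Pt := fun t => Rset P j i (sw t.1 i t.2.1 κ)
    (b (t.2.2 * (q / t.2.1) ^ 4)) (b ((t.2.2 + 1) * (q / t.2.1) ^ 4)) with hRS
  obtain ⟨pc, hpc⟩ := exists_nat_label P fun p => (pc₀ p, T.filter fun t => p ∈ RS t)
  have hcutN : #(E.filter fun e => pc e.1 ≠ pc e.2) ≤
      #(E.filter fun e => pc₀ e.1 ≠ pc₀ e.2) + Q * nr E cid := by
    have h1 : (E.filter fun e => pc e.1 ≠ pc e.2) ⊆ (E.filter fun e => pc₀ e.1 ≠ pc₀ e.2) ∪
        T.biUnion fun t => E.filter fun e => ¬ (e.1 ∈ RS t ↔ e.2 ∈ RS t) := by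
      intro e he
      obtain ⟨he, hne⟩ := mem_filter.1 he
      by_contra hc
      rw [mem_union, not_or, mem_filter, mem_biUnion] at hc
      refine hne ((hpc _ (hΩ e he).1 _ (hΩ e he).2).2 (Prod.ext ?_ ?_))
      · by_contra h2
        exact hc.1 ⟨he, h2⟩
      · refine filter_congr fun t ht => ?_
        by_contra h2
        exact hc.2 ⟨t, ht, mem_filter.2 ⟨he, h2⟩⟩
    refine (card_le_card h1).trans ((card_union_le _ _).trans (Nat.add_le_add_left ?_ _))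
    refine card_biUnion_le.trans ((sum_le_card_nsmul _ _ (8 * nr E cid) fun t _ =>
      hsys.card_cut_Rset j i _ _ _).trans (le_of_eq ?_))
    rw [hT, card_product, card_product, card_range, card_range, card_range, smul_eq_mul, hQdef]
    ring
  have hcut : (#(E.filter fun e => pc e.1 ≠ pc e.2) : ℝ) ≤ 201 * V * q := by
    have h1 : (#(E.filter fun e => pc e.1 ≠ pc e.2) : ℝ) ≤
        #(E.filter fun e => pc₀ e.1 ≠ pc₀ e.2) + Q * nr E cid := by exact_mod_cast hcutN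
    have h2 : (Q : ℝ) * nr E cid ≤ q * V := mul_le_mul hQq hnr (Nat.cast_nonneg _) (by linarith)
    have h3 : 100 * (q : ℝ) * (i * #P + nr E cid) ≤ 100 * q * (V + V) :=
      mul_le_mul_of_nonneg_left (add_le_add hiP hnr) (by linarith)
    linarith
  have hVq : V ≤ V * q := le_mul_of_one_le_right hV0 hq'
  obtain ⟨rid, rsys, rnr⟩ := hsys.cut (filter_subset (fun e => pc e.1 = pc e.2) E)
  rw [← filter_not] at rnr
  refine ⟨⟨P, j, i, q, κ, b, C₀, gm, mm, pc, cid, rid, hi, hq, hb, hcard, hfine, csys, cnr, rsys,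
    ?_, ?_, fun z => ?_, fun g hg m hm k hk p hp p' hp' hpp h1 => ?_⟩,
    rfl, rfl, rfl, rfl, rfl, rfl, rfl, rfl, rfl⟩
  · have h1 : (nr (E.filter fun e => pc e.1 = pc e.2) rid : ℝ) ≤
        nr E cid + #(E.filter fun e => pc e.1 ≠ pc e.2) := by exact_mod_cast rnr
    linarith
  · linarith
  · rcases (P.filter fun p => pc p = z).eq_empty_or_nonempty with h0 | ⟨p₀, hp₀⟩
    · rw [h0, card_empty, Nat.cast_zero]
      linarith
    · refine le_trans (Nat.cast_le.2 (card_le_card fun p hp => ?_)) (hpc₁ (pc₀ p₀))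
      rw [mem_filter] at hp hp₀ ⊢
      exact ⟨hp.1, congrArg Prod.fst ((hpc p hp.1 p₀ hp₀.1).1 (hp.2.trans hp₀.2.symm))⟩
  · have h2 : (T.filter fun t => p ∈ RS t) = T.filter fun t => p' ∈ RS t :=
      congrArg Prod.snd ((hpc p hp p' hp').1 hpp)
    have h3 : (g, m, k) ∈ T := by
      simp only [hT, mem_product, mem_range]
      exact ⟨by omega, by omega, hk.trans_le (Nat.pow_le_pow_left (by omega) 4)⟩
    have h4 : (g, m, k) ∈ T.filter fun t => p ∈ RS t := mem_filter.2 ⟨h3, h1⟩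
    rw [h2] at h4
    exact (mem_filter.1 h4).2

end Crest.Agent.R51
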