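import Crest.Agent.R51.Sys

/-! The local data of a piece. -/

namespace Crest.Agent.R51

open Finset
open scoped Classical

namespace Glob

variable (G : Glob)

theorem gp : GP G.P := G.csys.gp

theorem Ein_sub : G.Ein ⊆ G.E := filter_subset _ _

theorem E_sub : G.E ⊆ band G.P G.j G.i := tm_subset _ _ _

theorem sysIn : Sys G.P G.Ein G.rid G.i := G.rsys

theorem mem_at' {E : Finset Ed} {z : ℕ} {e : Ed} : e ∈ G.at' E z ↔ e ∈ E ∧ G.pc e.1 = z := by
  simp [at']

theorem mem_Ein {e : Ed} : e ∈ G.Ein ↔ e ∈ G.E ∧ G.pc e.1 = G.pc e.2 := by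
  simp [Ein]

theorem at'_mono {E E' : Finset Ed} (h : E ⊆ E') (z : ℕ) : G.at' E z ⊆ G.at' E' z :=
  filter_subset_filter _ h

/-- A run lies in one piece. -/
theorem pc_eq {e e' : Ed} (he : e ∈ G.Ein) (he' : e' ∈ G.Ein) (h : G.rid e = G.rid e') :
    G.pc e.1 = G.pc e'.1 := by
  have key : ∀ x ∈ G.Ein, ∀ y ∈ G.Ein, G.rid x = G.rid y → sl x < sl y → G.pc x.1 = G.pc y.1 := by
    intro x hx y hy hxy hs
    have h1 := G.sysIn.mono_run (fun p => (G.pc p : ℝ)) hx hy hxy hs fun w hw _ _ _ => by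
      rw [(G.mem_Ein.1 hw).2]
    have h2 := G.sysIn.mono_run (fun p => -(G.pc p : ℝ)) hx hy hxy hs fun w hw _ _ _ => by
      rw [(G.mem_Ein.1 hw).2]
    have h3 : (G.pc x.2 : ℝ) = G.pc y.1 := le_antisymm h1 (by linarith)
    rw [(G.mem_Ein.1 hx).2]
    exact_mod_cast h3
  rcases lt_trichotomy (sl e) (sl e') with h1 | h1 | h1
  · exact key e he e' he' h h1
  · rw [G.gp.slinj e (G.sysIn.sub he) e' (G.sysIn.sub he') h1]
  · exact (key e' he' e he h.symm h1).symm

/-- The piece number `z`. -/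
noncomputable def loc (z : ℕ) : Loc where
  P := G.P
  Z := G.P.filter fun p => G.pc p = z
  E := G.at' G.Ein z
  id := G.rid
  i := G.i
  q := G.q
  κ := G.κ
  b := G.b
  sys := G.sysIn.conv (filter_subset _ _) fun e he _ _ _ x hx h1 _ _ => by
    rw [mem_at'] at he ⊢
    exact ⟨hx, (G.pc_eq hx he.1 h1).trans he.2⟩
  ZP := filter_subset _ _
  inZ e he := by
    rw [mem_at'] at he
    have h1 := mem_pairs.1 (G.sysIn.sub he.1)
    have h2 := (G.mem_Ein.1 he.1).2
    exact ⟨mem_filter.2 ⟨h1.1, he.2⟩, mem_filter.2 ⟨h1.2.1, h2 ▸ he.2⟩⟩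
  i_pos := G.i_pos
  q_pos := G.q_pos
  mono := G.mono
  range e he := (mem_tm.1 (G.Ein_sub (G.mem_at'.1 he).1)).2
  cardZ := G.piece z

theorem loc_big {Q : ℕ} (h : G.Big Q) (z : ℕ) : (G.loc z).Big Q := h

theorem loc_M (z : ℕ) : (G.loc z).M = G.M₀ / G.q ^ 2 := rfl

theorem loc_E (z : ℕ) : (G.loc z).E = G.at' G.Ein z := rfl

/-- A set of edges is the disjoint union of its parts in the pieces. -/
theorem sum_at'_le (E : Finset Ed) (Zs : Finset ℕ) : ∑ z ∈ Zs, #(G.at' E z) ≤ #E := by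
  rw [← card_biUnion]
  · exact card_le_card (biUnion_subset.2 fun _ _ => filter_subset _ _)
  · intro z _ z' _ hne
    rw [Function.onFun, disjoint_left]
    intro e he he'
    exact hne ((G.mem_at'.1 he).2.symm.trans (G.mem_at'.1 he').2)

theorem card_eq_sum_at' (E : Finset Ed) (Zs : Finset ℕ) (h : ∀ e ∈ E, G.pc e.1 ∈ Zs) :
    #E = ∑ z ∈ Zs, #(G.at' E z) :=
  card_eq_sum_card_fiberwise (f := fun e : Ed => G.pc e.1) h

/-- The runs of different pieces are different. -/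
theorem sum_nr_le (Zs : Finset ℕ) :
    ∑ z ∈ Zs, nr (G.at' G.Ein z) G.rid ≤ nr G.Ein G.rid := by
  simp only [nr_eq]
  rw [← card_biUnion]
  · exact card_le_card (biUnion_subset.2 fun _ _ => image_subset_image (filter_subset _ _))
  · intro z _ z' _ hne
    rw [Function.onFun, disjoint_left]
    intro r hr hr'
    obtain ⟨e, he, rfl⟩ := mem_image.1 hr
    obtain ⟨e', he', h⟩ := mem_image.1 hr'
    rw [mem_at'] at he he'
    exact hne (he.2.symm.trans ((G.pc_eq he.1 he'.1 h.symm).trans he'.2))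

end Glob

end Crest.Agent.R51
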