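import Crest.Agent.R51.Level

/-! From separable subsets to edges. -/

namespace Crest.Agent.R51

open Finset
open scoped Classical

/-- `S` is cut off from the rest of `Q` by a line. -/
def Sepa (Q S : Finset Pt) : Prop :=
  ∃ a b c : ℝ, (a ≠ 0 ∨ b ≠ 0) ∧ (∀ p ∈ S, a * p.1 + b * p.2 + c < 0) ∧
    ∀ p ∈ Q, p ∉ S → 0 < a * p.1 + b * p.2 + c

theorem KSets0_mem_pairs {P : Finset Pt} {e : Ed} :
    e ∈ pairs P ↔ e.1 ∈ P ∧ e.2 ∈ P ∧ e.1.1 < e.2.1 := by
  simp [pairs, and_assoc]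

theorem KSets0_f_eq {e : Ed} (h : e.1.1 < e.2.1) {θ : ℝ} : f θ e.1 = f θ e.2 ↔ sl e = θ := by
  have h' : e.2.1 - e.1.1 ≠ 0 := by linarith
  unfold f sl
  rw [div_eq_iff h']
  constructor <;> intro h1 <;> linarith

theorem KSets0_insert {P : Finset Pt} (hP : GP P) {q : Pt} (h1 : ∀ z ∈ P, q.1 ≠ z.1)
    (h2 : ∀ z ∈ P, ∀ e ∈ pairs P, f (sl e) q ≠ f (sl e) z) : GP (insert q P) := by
  have key : ∀ e ∈ pairs (insert q P), e ∈ pairs P ∨
      ∃ z ∈ P, f (sl e) q = f (sl e) z ∧ (e = (q, z) ∧ q.1 < z.1 ∨ e = (z, q) ∧ z.1 < q.1) := by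
    rintro ⟨u, v⟩ he
    obtain ⟨hu, hv, huv⟩ := KSets0_mem_pairs.1 he
    have hf := (KSets0_f_eq huv).2 rfl
    simp only [mem_insert] at hu hv huv hf
    rcases hu with rfl | hu
    · rcases hv with rfl | hv
      · exact absurd huv (lt_irrefl _)
      · exact Or.inr ⟨v, hv, hf, Or.inl ⟨rfl, huv⟩⟩
    · rcases hv with rfl | hv
      · exact Or.inr ⟨u, hu, hf.symm, Or.inr ⟨rfl, huv⟩⟩
      · exact Or.inl (KSets0_mem_pairs.2 ⟨hu, hv, huv⟩)
  constructor
  · intro u hu v hv huv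
    rcases mem_insert.1 hu with hu' | hu' <;> rcases mem_insert.1 hv with hv' | hv'
    · rw [hu', hv']
    · rw [hu'] at huv
      exact absurd huv (h1 v hv')
    · rw [hv'] at huv
      exact absurd huv.symm (h1 u hu')
    · exact hP.xinj u hu' v hv' huv
  · intro e he e' he' h
    rcases key e he with h3 | ⟨z, hz, h3, h4⟩
    · rcases key e' he' with h5 | ⟨z', hz', h5, -⟩
      · exact hP.slinj e h3 e' h5 h
      · rw [← h] at h5
        exact absurd h5 (h2 z' hz' e h3)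
    · rcases key e' he' with h5 | ⟨z', hz', h5, h6⟩
      · rw [h] at h3
        exact absurd h3 (h2 z hz e' h5)
      · rw [← h] at h5
        have h7 : f (sl e) z = f (sl e) z' := h3.symm.trans h5
        rcases lt_trichotomy z.1 z'.1 with h8 | h8 | h8
        · have h9 := (KSets0_f_eq (e := (z, z')) h8).1 h7
          exact absurd (h9 ▸ h3) (h2 z hz (z, z') (KSets0_mem_pairs.2 ⟨hz, hz', h8⟩))
        · obtain rfl := hP.xinj z hz z' hz' h8
          rcases h4 with ⟨rfl, h4⟩ | ⟨rfl, h4⟩ <;> rcases h6 with ⟨rfl, h6⟩ | ⟨rfl, h6⟩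
          · rfl
          · exact absurd h4 (not_lt.2 h6.le)
          · exact absurd h4 (not_lt.2 h6.le)
          · rfl
        · have h9 := (KSets0_f_eq (e := (z', z)) h8).1 h7.symm
          exact absurd (h9 ▸ h3) (h2 z hz (z', z) (KSets0_mem_pairs.2 ⟨hz', hz, h8⟩))

theorem KSets0_quad (θ c : ℝ) : {t : ℝ | t ^ 2 - θ * t = c}.Finite := by
  rcases Set.eq_empty_or_nonempty {t : ℝ | t ^ 2 - θ * t = c} with h | ⟨s, hs⟩
  · rw [h]; exact Set.finite_empty
  · refine (Set.toFinite {s, θ - s}).subset fun t ht => ?_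
    have h1 : t ^ 2 - θ * t = c := ht
    have h2 : s ^ 2 - θ * s = c := hs
    have h3 : (t - s) * (t - (θ - s)) = 0 := by linarith
    rcases mul_eq_zero.1 h3 with h | h
    · exact Or.inl (by linarith)
    · exact Or.inr (show t = θ - s by linarith)

theorem KSets0_new {P : Finset Pt} (hP : GP P) (p : Pt) {ρ : ℝ} (hρ : 0 < ρ) :
    ∃ q : Pt, q ∉ P ∧ |q.1 - p.1| ≤ ρ ∧ |q.2 - p.2| ≤ ρ ∧ GP (insert q P) := by
  have hfin : ((⋃ z ∈ P, {z.1 - p.1}) ∪ ⋃ z ∈ P, ⋃ e ∈ pairs P,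
      {t : ℝ | t ^ 2 - sl e * t = f (sl e) z - f (sl e) p}).Finite :=
    (P.finite_toSet.biUnion fun z _ => Set.finite_singleton _).union
      (P.finite_toSet.biUnion fun z _ => (pairs P).finite_toSet.biUnion fun e _ => KSets0_quad _ _)
  obtain ⟨t, ⟨ht0, ht1⟩, ht⟩ := (Set.Ioo_infinite (lt_min hρ one_pos)).exists_notMem_finite hfin
  have htρ : t ≤ ρ := (ht1.trans_le (min_le_left _ _)).le
  have ht2 : t ≤ 1 := (ht1.trans_le (min_le_right _ _)).le
  simp only [Set.mem_union, Set.mem_iUnion, Set.mem_singleton_iff, Set.mem_ofPred_eq, not_or,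
    not_exists] at ht
  have h1 : ∀ z ∈ P, (p.1 + t, p.2 + t ^ 2).1 ≠ z.1 := fun z hz h =>
    ht.1 z hz (by simp only at h; linarith)
  refine ⟨(p.1 + t, p.2 + t ^ 2), fun h => h1 _ h rfl, ?_, ?_, KSets0_insert hP h1 fun z hz e he h =>
    ht.2 z hz e he ?_⟩
  · simp only [add_sub_cancel_left]
    rwa [abs_of_pos ht0]
  · simp only [add_sub_cancel_left]
    rw [abs_of_nonneg (sq_nonneg t)]
    nlinarith
  · rw [← h]
    unfold f
    ring

theorem KSets0_sepa {Q S : Finset Pt} (hS : S ⊆ Q) (h : Sepa Q S) :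
    ∀ᶠ ρ in nhdsWithin (0 : ℝ) (Set.Ioi 0), ∀ φ : Pt → Pt,
      (∀ p ∈ Q, |(φ p).1 - p.1| ≤ ρ ∧ |(φ p).2 - p.2| ≤ ρ) → Sepa (Q.image φ) (S.image φ) := by
  obtain ⟨a, b, c, hab, h1, h2⟩ := h
  have hne : ∀ p ∈ Q, 0 < |a * p.1 + b * p.2 + c| := fun p hp => by
    by_cases hp' : p ∈ S
    · exact abs_pos.2 (h1 p hp').ne
    · exact abs_pos.2 (h2 p hp hp').ne'
  have hev : ∀ᶠ ρ in nhdsWithin (0 : ℝ) (Set.Ioi 0), ∀ p ∈ Q,
      (|a| + |b|) * ρ < |a * p.1 + b * p.2 + c| := by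
    rw [Filter.eventually_all_finset]
    intro p hp
    refine Filter.Eventually.filter_mono nhdsWithin_le_nhds ?_
    have : Filter.Tendsto (fun ρ : ℝ => (|a| + |b|) * ρ) (nhds 0) (nhds ((|a| + |b|) * 0)) :=
      (continuous_const.mul continuous_id).tendsto 0
    rw [mul_zero] at this
    exact this.eventually (gt_mem_nhds (hne p hp))
  filter_upwards [hev] with ρ hρ φ hφ
  have key : ∀ p ∈ Q, |(a * (φ p).1 + b * (φ p).2 + c) - (a * p.1 + b * p.2 + c)| <
      |a * p.1 + b * p.2 + c| := by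
    intro p hp
    refine lt_of_le_of_lt ?_ (hρ p hp)
    obtain ⟨h3, h4⟩ := hφ p hp
    calc |(a * (φ p).1 + b * (φ p).2 + c) - (a * p.1 + b * p.2 + c)|
        = |a * ((φ p).1 - p.1) + b * ((φ p).2 - p.2)| := by congr 1; ring
      _ ≤ |a| * |(φ p).1 - p.1| + |b| * |(φ p).2 - p.2| := by
          rw [← abs_mul, ← abs_mul]; exact abs_add_le _ _
      _ ≤ |a| * ρ + |b| * ρ := by gcongr
      _ = (|a| + |b|) * ρ := by ring
  refine ⟨a, b, c, hab, fun q hq => ?_, fun q hq hq' => ?_⟩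
  · obtain ⟨p, hp, rfl⟩ := mem_image.1 hq
    have h3 := key p (hS hp)
    rw [abs_of_neg (h1 p hp)] at h3
    linarith [(abs_lt.1 h3).2]
  · obtain ⟨p, hp, rfl⟩ := mem_image.1 hq
    have hp' : p ∉ S := fun h => hq' (mem_image_of_mem _ h)
    have h3 := key p hp
    rw [abs_of_pos (h2 p hp hp')] at h3
    linarith [(abs_lt.1 h3).1]

/-- Perturbation into general position.  Induction on `Q`: the new point `p` is moved to `p + (t, t ^ 2)` with `t ∈ (0, min ρ 1)` outside a finite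
set: the abscissa must be new, for an old point `z` and an old pair `e` we need `f (sl e) (p + (t, t ^ 2)) ≠ f (sl e) z` (a quadratic equation in `t`
has at most two solutions; this also covers two new pairs with the same slope: then `p'` is on the line of an old pair). -/
theorem exists_perturb (Q : Finset Pt) {ρ : ℝ} (hρ : 0 < ρ) : ∃ φ : Pt → Pt,
    Set.InjOn φ Q ∧ (∀ p ∈ Q, |(φ p).1 - p.1| ≤ ρ ∧ |(φ p).2 - p.2| ≤ ρ) ∧ GP (Q.image φ) := by
  induction Q using Finset.induction_on with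
  | empty =>
    refine ⟨id, by simp, by simp, ?_⟩
    constructor <;> simp [pairs]
  | insert p Q hp ih =>
    obtain ⟨φ, h1, h2, h3⟩ := ih
    obtain ⟨q, hq1, hq2, hq3, hq4⟩ := KSets0_new h3 p hρ
    have hup : ∀ z ∈ Q, Function.update φ p q z = φ z := fun z hz =>
      Function.update_of_ne (fun h : z = p => hp (h ▸ hz)) _ _
    refine ⟨Function.update φ p q, ?_, fun z hz => ?_, ?_⟩
    · intro u hu v hv huv
      rcases mem_insert.1 (mem_coe.1 hu) with hu' | hu' <;>
        rcases mem_insert.1 (mem_coe.1 hv) with hv' | hv'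
      · rw [hu', hv']
      · rw [hu', Function.update_self, hup v hv'] at huv
        exact absurd (huv ▸ mem_image_of_mem φ hv') hq1
      · rw [hv', Function.update_self, hup u hu'] at huv
        exact absurd (huv ▸ mem_image_of_mem φ hu') hq1
      · rw [hup u hu', hup v hv'] at huv
        exact h1 hu' hv' huv
    · rcases mem_insert.1 hz with rfl | hz
      · rw [Function.update_self]
        exact ⟨hq2, hq3⟩
      · rw [hup z hz]
        exact h2 z hz
    · rw [image_insert, Function.update_self, image_congr (g := φ) fun z hz => hup z hz]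
      exact hq4

/-- Separable sets survive a small perturbation: choose a line for each separable `S` (finitely many strict inequalities), take `ρ`
small, and map `S` to `S.image φ`. -/
theorem exists_gp (Q : Finset Pt) (k : ℕ) : ∃ P : Finset Pt, GP P ∧ #P = #Q ∧
    #((Q.powersetCard k).filter (Sepa Q)) ≤ #((P.powersetCard k).filter (Sepa P)) := by
  have hev : ∀ᶠ ρ in nhdsWithin (0 : ℝ) (Set.Ioi 0), ∀ S ∈ (Q.powersetCard k).filter (Sepa Q),
      ∀ φ : Pt → Pt, (∀ p ∈ Q, |(φ p).1 - p.1| ≤ ρ ∧ |(φ p).2 - p.2| ≤ ρ) →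
        Sepa (Q.image φ) (S.image φ) := by
    rw [Filter.eventually_all_finset]
    intro S hS
    obtain ⟨h1, h2⟩ := mem_filter.1 hS
    exact KSets0_sepa (mem_powersetCard.1 h1).1 h2
  obtain ⟨ρ, hρ1, hρ2⟩ := (hev.and self_mem_nhdsWithin).exists
  obtain ⟨φ, h1, h2, h3⟩ := exists_perturb Q hρ2
  refine ⟨Q.image φ, h3, card_image_of_injOn h1, ?_⟩
  refine card_le_card_of_injOn (fun S => S.image φ) (fun S hS => ?_) fun S hS S' hS' h => ?_
  · have h4 := mem_powersetCard.1 (mem_filter.1 hS).1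
    refine mem_coe.2 (mem_filter.2 ⟨mem_powersetCard.2 ⟨image_subset_image h4.1, ?_⟩,
      hρ1 S hS φ h2⟩)
    rw [card_image_of_injOn (h1.mono (coe_subset.2 h4.1)), h4.2]
  · have h4 := (mem_powersetCard.1 (mem_filter.1 hS).1).1
    have h5 := (mem_powersetCard.1 (mem_filter.1 hS').1).1
    have h6 : φ '' S = φ '' S' := by
      rw [← coe_image, ← coe_image]
      exact congrArg _ h
    exact coe_injective ((h1.image_eq_image_iff (coe_subset.2 h4) (coe_subset.2 h5)).1 h6)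

end Crest.Agent.R51
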