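import Crest.Agent.R51.Level
import Crest.Agent.R51.KSets0

/-! From separable subsets to edges. -/

namespace Crest.Agent.R51

open Finset
open scoped Classical

/-- A lower set with a point to the left of an outside point comes from an edge. -/
theorem KSets_edge {P S : Finset Pt} (hP : GP P) (hS : S ⊆ P) {θ c : ℝ} (h1 : ∀ p ∈ S, f θ p < c)
    (h2 : ∀ p ∈ P, p ∉ S → c < f θ p) (h3 : ∃ p ∈ S, ∃ z ∈ P, z ∉ S ∧ p.1 < z.1) :
    ∃ e ∈ pairs P, e.1 ∈ S ∧ (P.filter fun z => f (sl e) z < f (sl e) e.1) = S.erase e.1 := by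
  obtain ⟨p, hp, z, hz, hzS, hpz⟩ := h3
  obtain ⟨e, he, hmin⟩ := exists_min_image ((pairs P).filter fun e => e.1 ∈ S ∧ e.2 ∉ S) sl
    ⟨(p, z), mem_filter.2 ⟨mem_pairs.2 ⟨hS hp, hz, hpz⟩, hp, hzS⟩⟩
  obtain ⟨he1, he2, he3⟩ := mem_filter.1 he
  have he' := mem_pairs.1 he1
  have hθ : θ < sl e := (f_lt_iff e he'.2.2 θ).1 ((h1 _ he2).trans (h2 _ he'.2.1 he3))
  have key : ∀ s ∈ S, ∀ w ∈ P, w ∉ S → (s, w) ≠ e → f (sl e) s < f (sl e) w := by
    intro s hs w hw hwS hne
    rcases lt_trichotomy s.1 w.1 with h | h | h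
    · have hm : (s, w) ∈ pairs P := mem_pairs.2 ⟨hS hs, hw, h⟩
      have hle := hmin (s, w) (mem_filter.2 ⟨hm, hs, hwS⟩)
      exact (f_lt_iff (s, w) h _).2
        (lt_of_le_of_ne hle fun h' => hne (hP.slinj _ hm _ he1 h'.symm))
    · exact absurd (hP.xinj s (hS hs) w hw h ▸ hs) hwS
    · have h4 : sl (w, s) < θ := (f_gt_iff (w, s) h θ).1 ((h1 _ hs).trans (h2 _ hw hwS))
      exact (f_gt_iff (w, s) h _).2 (h4.trans hθ)
  refine ⟨e, he1, he2, ?_⟩
  ext w
  simp only [mem_filter, mem_erase]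
  constructor
  · rintro ⟨hw, hlt⟩
    refine ⟨fun h => by simp [h] at hlt, ?_⟩
    by_contra hwS
    by_cases h : (e.1, w) = e
    · have h5 : w = e.2 := congrArg Prod.snd h
      rw [h5, f_sl e he'.2.2] at hlt
      exact lt_irrefl _ hlt
    · exact lt_asymm hlt (key _ he2 w hw hwS h)
  · rintro ⟨hne, hw⟩
    refine ⟨hS hw, ?_⟩
    rw [← f_sl e he'.2.2]
    exact key w hw e.2 he'.2.1 he3 fun h => hne (congrArg Prod.fst h)

/-- Lower `k`-sets.  If some `p ∈ S` is to the left of some `z ∈ P \ S`, take such a pair `e = (p, z)` of least slope `t > θ`; at the time `t` all points of `S` are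
weakly below all other points, so (`card_tie`) the points strictly below `p` are exactly `S \ {p}`: `elev e = k - 1` and `e` determines `S`.  Otherwise
`S` consists of the `k` rightmost points (at most one such `S`: two such sets are comparable). -/
theorem GP.card_lower {P : Finset Pt} (hP : GP P) (k : ℕ) :
    #((P.powersetCard (k + 1)).filter fun S => ∃ θ c : ℝ, (∀ p ∈ S, f θ p < c) ∧
      ∀ p ∈ P, p ∉ S → c < f θ p) ≤ #(band P k 1) + 1 := by
  have hsub : ((P.powersetCard (k + 1)).filter fun S => ∃ θ c : ℝ, (∀ p ∈ S, f θ p < c) ∧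
      ∀ p ∈ P, p ∉ S → c < f θ p) ⊆
      (band P k 1).image (fun e => insert e.1 (P.filter fun z => f (sl e) z < f (sl e) e.1)) ∪
      (P.powersetCard (k + 1)).filter fun S => ¬ ∃ p ∈ S, ∃ z ∈ P, z ∉ S ∧ p.1 < z.1 := by
    intro S hS
    obtain ⟨hS1, θ, c, h1, h2⟩ := mem_filter.1 hS
    obtain ⟨hSP, hcard⟩ := mem_powersetCard.1 hS1
    by_cases h3 : ∃ p ∈ S, ∃ z ∈ P, z ∉ S ∧ p.1 < z.1
    · obtain ⟨e, he, heS, hE⟩ := KSets_edge hP hSP h1 h2 h3
      refine mem_union_left _ (mem_image.2 ⟨e, mem_band.2 ⟨he, ?_⟩, ?_⟩)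
      · have : elev P e = k := by
          unfold elev lev
          rw [hE, card_erase_of_mem heS, hcard]
          rfl
        rw [this]
        push_cast
        omega
      · rw [hE, insert_erase heS]
    · exact mem_union_right _ (mem_filter.2 ⟨hS1, h3⟩)
  refine (card_le_card hsub).trans ((card_union_le _ _).trans (add_le_add card_image_le ?_))
  rw [card_le_one]
  intro S hS S' hS'
  obtain ⟨hS1, h⟩ := mem_filter.1 hS
  obtain ⟨hS1', h'⟩ := mem_filter.1 hS'
  obtain ⟨hSP, hc⟩ := mem_powersetCard.1 hS1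
  obtain ⟨hSP', hc'⟩ := mem_powersetCard.1 hS1'
  by_contra hne
  obtain ⟨a, ha, ha'⟩ : ∃ a ∈ S, a ∉ S' := by
    by_contra hcon
    push Not at hcon
    exact hne (eq_of_subset_of_card_le hcon (by omega))
  obtain ⟨b, hb, hb'⟩ : ∃ b ∈ S', b ∉ S := by
    by_contra hcon
    push Not at hcon
    exact hne (eq_of_subset_of_card_le hcon (by omega)).symm
  rcases lt_trichotomy a.1 b.1 with hab | hab | hab
  · exact h ⟨a, ha, b, hSP' hb, hb', hab⟩
  · exact hb' (hP.xinj a (hSP ha) b (hSP' hb) hab ▸ ha)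
  · exact h' ⟨b, hb, a, hSP ha, ha', hab⟩

/-- The separating line can be taken non-vertical. -/
theorem KSets_nonvert {P S : Finset Pt} (hS : S ⊆ P) (h : Sepa P S) :
    ∃ a b c : ℝ, b ≠ 0 ∧ (∀ p ∈ S, a * p.1 + b * p.2 + c < 0) ∧
      ∀ p ∈ P, p ∉ S → 0 < a * p.1 + b * p.2 + c := by
  obtain ⟨a, b, c, -, h1, h2⟩ := h
  have hev : ∀ᶠ b' in nhds b, ∀ p ∈ P, (p ∈ S → a * p.1 + b' * p.2 + c < 0) ∧
      (p ∉ S → 0 < a * p.1 + b' * p.2 + c) := by
    rw [Filter.eventually_all_finset]
    intro p hp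
    have hc : Continuous fun b' : ℝ => a * p.1 + b' * p.2 + c := by fun_prop
    by_cases hpS : p ∈ S
    · filter_upwards [hc.continuousAt.eventually_lt continuousAt_const (h1 p hpS)] with b' hb'
      exact ⟨fun _ => hb', fun h => absurd hpS h⟩
    · filter_upwards [continuousAt_const.eventually_lt hc.continuousAt (h2 p hp hpS)] with b' hb'
      exact ⟨fun h => absurd h hpS, fun _ => hb'⟩
  have hne : ∀ᶠ b' in nhdsWithin b {b}ᶜ, b' ≠ 0 := by
    by_cases hb : b = 0
    · subst hb
      exact self_mem_nhdsWithin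
    · exact nhdsWithin_le_nhds (isOpen_ne.mem_nhds hb)
  obtain ⟨b', hb1, hb2⟩ := (hne.and (nhdsWithin_le_nhds hev)).exists
  exact ⟨a, b', c, hb1, fun p hp => (hb2 p (hS hp)).1 hp, fun p hp => (hb2 p hp).2⟩

/-- The mirror image. -/
def KSets_mir (p : Pt) : Pt := (p.1, -p.2)

theorem KSets_mir_inj : Function.Injective KSets_mir := by
  rintro ⟨a, b⟩ ⟨c, d⟩ h
  simpa [KSets_mir] using h

theorem KSets_gp {P : Finset Pt} (hP : GP P) : GP (P.image KSets_mir) := by
  constructor
  · intro p hp q hq h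
    obtain ⟨p, hp', rfl⟩ := mem_image.1 hp
    obtain ⟨q, hq', rfl⟩ := mem_image.1 hq
    rw [hP.xinj p hp' q hq' h]
  · rintro ⟨p, q⟩ he ⟨p', q'⟩ he' h
    obtain ⟨h1, h2, h3⟩ := mem_pairs.1 he
    obtain ⟨h1', h2', h3'⟩ := mem_pairs.1 he'
    obtain ⟨p, hp, rfl⟩ := mem_image.1 h1
    obtain ⟨q, hq, rfl⟩ := mem_image.1 h2
    obtain ⟨p', hp', rfl⟩ := mem_image.1 h1'
    obtain ⟨q', hq', rfl⟩ := mem_image.1 h2'
    have e1 : ∀ u v : Pt, sl (KSets_mir u, KSets_mir v) = -sl (u, v) := by
      intro u v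
      simp only [sl, KSets_mir]
      ring
    rw [e1, e1, neg_inj] at h
    have := hP.slinj (p, q) (mem_pairs.2 ⟨hp, hq, h3⟩) (p', q') (mem_pairs.2 ⟨hp', hq', h3'⟩) h
    rw [Prod.mk.injEq] at this
    rw [this.1, this.2]

/-- A separating line can be taken with `b ≠ 0` (perturb `b`).  For `b > 0` the set is a lower set (`θ = -a / b`), for `b < 0` its mirror image is a
lower set of the mirror image `P'` of `P` under `(x, y) ↦ (x, -y)`, which is in general position. -/
theorem GP.card_sepa {P : Finset Pt} (hP : GP P) (k : ℕ) : ∃ P' : Finset Pt, GP P' ∧ #P' = #P ∧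
    #((P.powersetCard (k + 1)).filter (Sepa P)) ≤ #(band P k 1) + #(band P' k 1) + 2 := by
  refine ⟨P.image KSets_mir, KSets_gp hP, card_image_of_injective _ KSets_mir_inj, ?_⟩
  have hA := hP.card_lower k
  have hB := (KSets_gp hP).card_lower k
  set A := (P.powersetCard (k + 1)).filter fun S => ∃ θ c : ℝ, (∀ p ∈ S, f θ p < c) ∧
      ∀ p ∈ P, p ∉ S → c < f θ p with hAdef
  set B := ((P.image KSets_mir).powersetCard (k + 1)).filter fun S => ∃ θ c : ℝ,
      (∀ p ∈ S, f θ p < c) ∧ ∀ p ∈ P.image KSets_mir, p ∉ S → c < f θ p with hBdef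
  have hsub : (P.powersetCard (k + 1)).filter (Sepa P) ⊆
      A ∪ B.image fun S => S.image KSets_mir := by
    intro S hS
    obtain ⟨hS1, hsep⟩ := mem_filter.1 hS
    obtain ⟨hSP, hcard⟩ := mem_powersetCard.1 hS1
    obtain ⟨a, b, c, hb, h1, h2⟩ := KSets_nonvert hSP hsep
    rcases lt_or_gt_of_ne hb with hb | hb
    · refine mem_union_right _ (mem_image.2 ⟨S.image KSets_mir, mem_filter.2 ⟨?_, a / b, c / b,
        ?_, ?_⟩, ?_⟩)
      · exact mem_powersetCard.2 ⟨image_subset_image hSP, by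
          rw [card_image_of_injective _ KSets_mir_inj, hcard]⟩
      · intro p hp
        obtain ⟨p, hp', rfl⟩ := mem_image.1 hp
        have h3 := h1 p hp'
        have e : c / b - f (a / b) (KSets_mir p) = (a * p.1 + b * p.2 + c) / b := by
          simp only [f, KSets_mir]
          field_simp
          ring
        have := div_pos_of_neg_of_neg h3 hb
        linarith
      · intro p hp hpS
        obtain ⟨p, hp', rfl⟩ := mem_image.1 hp
        have h3 := h2 p hp' fun h => hpS (mem_image_of_mem _ h)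
        have e : c / b - f (a / b) (KSets_mir p) = (a * p.1 + b * p.2 + c) / b := by
          simp only [f, KSets_mir]
          field_simp
          ring
        have := div_neg_of_pos_of_neg h3 hb
        linarith
      · rw [image_image]
        have : KSets_mir ∘ KSets_mir = id := by
          funext p
          simp [KSets_mir]
        rw [this, image_id]
    · refine mem_union_left _ (mem_filter.2 ⟨hS1, -a / b, -c / b, ?_, ?_⟩)
      · intro p hp
        have e : f (-a / b) p - -c / b = (a * p.1 + b * p.2 + c) / b := by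
          simp only [f]
          field_simp
          ring
        have := div_neg_of_neg_of_pos (h1 p hp) hb
        linarith
      · intro p hp hpS
        have e : f (-a / b) p - -c / b = (a * p.1 + b * p.2 + c) / b := by
          simp only [f]
          field_simp
          ring
        have := div_pos (h2 p hp hpS) hb
        linarith
  have := (card_le_card hsub).trans ((card_union_le _ _).trans (add_le_add le_rfl card_image_le))
  omega

end Crest.Agent.R51
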