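import Crest.Agent.R51.RegA2

/-! Regularisation, second part: almost all edges are typical at any given scale. -/

namespace Crest.Agent.R51

open Finset
open scoped Classical

namespace Glob

theorem RegB_base_mono {L : Loc} (hb : L.Big 3) {Ω : ℕ → Finset Pt} {C C' : ℝ} (h : L.Base Ω C)
    (hC : C ≤ C') : L.Base Ω C' := by
  have hN := hb.N_pos (by norm_num)
  have hU := hb.U_pos (by norm_num)
  have hq := L.q_posR
  exact ⟨h.sub, h.nr_le.trans (by gcongr), fun w => (h.card_le w).trans (by gcongr),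
    h.sum_le.trans (by gcongr)⟩

theorem RegB_W_sub (G : Glob) (z m k : ℕ) : (G.loc z).W (G.loc z).E m k ⊆ G.Wd m k :=
  tm_mono ((filter_subset _ _).trans (G.Ein_sub.trans G.E_sub)) le_rfl le_rfl

theorem RegB_card_biUnion {α β : Type} [DecidableEq β] (s : Finset α) (t : α → Finset β) :
    (#(s.biUnion t) : ℝ) ≤ ∑ a ∈ s, (#(t a) : ℝ) := by
  exact_mod_cast card_biUnion_le

theorem RegB_exists_g (C₀ : ℝ) {δ : ℝ} (hδ : 0 < δ) :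
    ∃ g : ℕ, 1 ≤ g ∧ ∀ C ≤ C₀, 2000000 * C / (g : ℝ) ^ 4 ≤ δ := by
  refine ⟨⌈2000000 * C₀ / δ⌉₊ + 1, by omega, fun C hC => ?_⟩
  have h1 := Nat.le_ceil (2000000 * C₀ / δ)
  set g : ℕ := ⌈2000000 * C₀ / δ⌉₊ + 1 with hg
  have h2 : (1 : ℝ) ≤ g := by rw [hg]; push_cast; linarith [Nat.cast_nonneg (α := ℝ) ⌈2000000 * C₀ / δ⌉₊]
  have h3 : 2000000 * C₀ / δ ≤ g := by rw [hg]; push_cast; linarith
  have h4 : (g : ℝ) ≤ g ^ 4 := le_self_pow₀ h2 (by norm_num)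
  rw [div_le_iff₀ hδ] at h3
  rw [div_le_iff₀ (by positivity)]
  nlinarith

/-- Proof: choose `g` with `2000000 C₀ / g ^ 4 ≤ ε / 10`, then `C₁` (`exists_typical`), `C₂` (`heavy_points`), `C₃`
(`heavy_runs` with `C₁`), all for `ε / 10`; `C` is the maximum; `Q ≥ 3` with `300 / Q ≤ ε / 10` (the cut edges:
`G.cut`, `300 i ^ 2 κ ^ 3 q ≤ (300 / Q) M₀`); `Ω = G.Om g`.  `E₀` is the set of `e ∈ Ein` with `pc e.1 ∈ Zs` such that
its window `k` of scale `m` and its window of scale `q` are calm (`sum_not_calm` twice), `e` has no heavy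
end in `Wd m k`, and `k` is not heavy for the piece.  Use `loc_lo`, `loc_hi`, `Loc.exists_win`, `Loc.win_unique`
(every `e ∈ G.E` lies in exactly one window `k < m ^ 4`, `exists_win`); `W (loc z).E m k ⊆ Wd m k`; `cov` is `mem_Rs`
at the scale `q`; `Base` and `Reg` are monotone in `C`. -/
theorem reg (C₀ : ℝ) {ε : ℝ} (hε : 0 < ε) : ∃ (g : ℕ) (C : ℝ) (Q : ℕ), 1 ≤ C ∧ ∀ G : Glob,
    G.C₀ ≤ C₀ → g ≤ G.gm → G.Big Q → ∃ Ω : ℕ → ℕ → Finset Pt, ∀ m, m ∣ G.q → m ≤ G.mm →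
      ∃ E₀ ⊆ G.Ein, (#(G.E \ E₀) : ℝ) ≤ ε * G.M₀ ∧ ∃ Zs : Finset ℕ, (#Zs : ℝ) ≤ C * G.q ^ 2 ∧
        (∀ e ∈ E₀, G.pc e.1 ∈ Zs) ∧
        ∀ z ∈ Zs, (G.loc z).Base (Ω z) C ∧ (G.loc z).Reg (Ω z) C m (G.at' E₀ z) := by
  have hδ : 0 < ε / 10 := by positivity
  obtain ⟨g, hg, hg'⟩ := RegB_exists_g C₀ hδ
  obtain ⟨C₁, hC₁, H₁⟩ := exists_typical hδ hg
  obtain ⟨C₂, hC₂, H₂⟩ := heavy_points C₀ hδ hg
  obtain ⟨C₃, hC₃, H₃⟩ := heavy_runs hδ hC₁ hg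
  refine ⟨g, max C₁ (max C₂ C₃), ⌈300 / (ε / 10)⌉₊ + 3, le_max_of_le_left hC₁, ?_⟩
  set C := max C₁ (max C₂ C₃) with hC
  have h1C : C₁ ≤ C := le_max_left _ _
  have h2C : C₂ ≤ C := le_max_of_le_right (le_max_left _ _)
  have h3C : C₃ ≤ C := le_max_of_le_right (le_max_right _ _)
  intro G hG₀ hgm hbig
  have hb : G.Big 3 := (G.loc_big hbig 0).mono (by omega)
  have hq : (0 : ℝ) < G.q := (G.loc 0).q_posR
  have hκ : 0 < G.κ := (G.loc_big hb 0).κ_pos (by norm_num)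
  have hM : 0 ≤ G.M₀ := by unfold M₀; positivity
  refine ⟨G.Om g, fun m hm hmm => ?_⟩
  have hm0 : (0 : ℝ) < m := by exact_mod_cast Nat.pos_of_dvd_of_pos hm G.q_pos
  obtain ⟨Zs, hZ1, hZ2, hZ3⟩ := H₁ G hgm hb m hm hmm
  have hH₂ := H₂ G hG₀ hb m hm
  have hH₃ := H₃ G hb m hm Zs hZ1 fun z hz => ⟨(hZ3 z hz).1.nr_le, (hZ3 z hz).2⟩
  set B0 := G.E.filter fun e => G.pc e.1 ≠ G.pc e.2 with hB0
  set B1 := G.Ein.filter fun e => G.pc e.1 ∉ Zs with hB1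
  set B2 := ((Finset.range (m ^ 4)).filter fun k => ¬ G.Ca g m k).biUnion (G.Wd m) with hB2
  set B3 := ((Finset.range (G.q ^ 4)).filter fun k => ¬ G.Ca g G.q k).biUnion (G.Wd G.q) with hB3
  set B4 := ((Finset.range (m ^ 4)).filter fun k => G.Ca g m k).biUnion fun k =>
    (G.Wd m k).filter fun e => ∃ p, Inc p e ∧
      (C₂ * (G.i * G.κ) / m < (deg (G.Wd m k) p : ℝ) ∨
        C₂ * G.q / m < (#((Finset.range ((G.q / m) ^ 4)).filter fun r =>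
          G.Ca g G.q (k * (G.q / m) ^ 4 + r) ∧
            p ∈ G.Rs g G.q (k * (G.q / m) ^ 4 + r)) : ℝ)) with hB4
  set B5 := Zs.biUnion fun z => ((G.Kz g m z).filter fun k =>
    C₃ * (G.loc z).U / m < (nr ((G.loc z).W (G.loc z).E m k) G.rid : ℝ)).biUnion fun k =>
      (G.loc z).W (G.loc z).E m k with hB5
  have c0 : (#B0 : ℝ) ≤ ε / 10 * G.M₀ := by
    refine le_trans G.cut ?_
    have h1 := hbig.2
    have h2 := Nat.le_ceil (300 / (ε / 10))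
    push_cast at h1
    rw [div_le_iff₀ hδ] at h2
    have h3 : 300 * (G.q : ℝ) ≤ ε / 10 * G.κ := by nlinarith
    calc 300 * ((G.i : ℝ) ^ 2 * G.κ ^ 3) * G.q = (G.i : ℝ) ^ 2 * G.κ ^ 3 * (300 * G.q) := by ring
      _ ≤ (G.i : ℝ) ^ 2 * G.κ ^ 3 * (ε / 10 * G.κ) := by gcongr
      _ = ε / 10 * G.M₀ := by unfold M₀; ring
  have c2 : (#B2 : ℝ) ≤ ε / 10 * G.M₀ :=
    (RegB_card_biUnion _ _).trans ((G.sum_not_calm hb hg hm).trans
      (mul_le_mul_of_nonneg_right (hg' _ hG₀) hM))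
  have c3 : (#B3 : ℝ) ≤ ε / 10 * G.M₀ :=
    (RegB_card_biUnion _ _).trans ((G.sum_not_calm hb hg dvd_rfl).trans
      (mul_le_mul_of_nonneg_right (hg' _ hG₀) hM))
  have c4 : (#B4 : ℝ) ≤ ε / 10 * G.M₀ := (RegB_card_biUnion _ _).trans hH₂
  have c5 : (#B5 : ℝ) ≤ ε / 10 * G.M₀ :=
    (RegB_card_biUnion _ _).trans ((sum_le_sum fun z _ => RegB_card_biUnion _ _).trans hH₃)
  obtain ⟨E₀, hE₀⟩ : ∃ E₀ : Finset Ed, E₀ = G.E \ (B0 ∪ B1 ∪ B2 ∪ B3 ∪ B4 ∪ B5) := ⟨_, rfl⟩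
  have hmem : ∀ e ∈ E₀, e ∈ G.E ∧ e ∉ B0 ∧ e ∉ B1 ∧ e ∉ B2 ∧ e ∉ B3 ∧ e ∉ B4 ∧ e ∉ B5 := by
    intro e he
    rw [hE₀, mem_sdiff] at he
    simp only [mem_union, not_or] at he
    tauto
  have hsub : E₀ ⊆ G.Ein := by
    intro e he
    obtain ⟨h1, h2, -⟩ := hmem e he
    refine G.mem_Ein.2 ⟨h1, ?_⟩
    by_contra h3
    exact h2 (mem_filter.2 ⟨h1, h3⟩)
  refine ⟨E₀, hsub, ?_, Zs, hZ1.trans (by gcongr), ?_, fun z hz => ⟨?_, ?_⟩⟩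
  · have h1 : G.E \ E₀ ⊆ B0 ∪ B1 ∪ B2 ∪ B3 ∪ B4 ∪ B5 := by
      intro e he
      rw [hE₀, mem_sdiff, mem_sdiff] at he
      by_contra h
      exact he.2 ⟨he.1, h⟩
    have h2 : #(G.E \ E₀) ≤ #B0 + #B1 + #B2 + #B3 + #B4 + #B5 := by
      have := card_le_card h1
      have := card_union_le (B0 ∪ B1 ∪ B2 ∪ B3 ∪ B4) B5
      have := card_union_le (B0 ∪ B1 ∪ B2 ∪ B3) B4
      have := card_union_le (B0 ∪ B1 ∪ B2) B3
      have := card_union_le (B0 ∪ B1) B2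
      have := card_union_le B0 B1
      omega
    have h3 : (#(G.E \ E₀) : ℝ) ≤ #B0 + #B1 + #B2 + #B3 + #B4 + #B5 := by exact_mod_cast h2
    have h4 : 0 ≤ ε * G.M₀ := by positivity
    linarith
  · intro e he
    by_contra h
    exact (hmem e he).2.2.1 (mem_filter.2 ⟨hsub he, h⟩)
  · exact RegB_base_mono (G.loc_big hb z) (hZ3 z hz).1 h1C
  have hsz : G.at' E₀ z ⊆ (G.loc z).E := G.at'_mono hsub z
  have hlt : ∀ {m' k : ℕ}, m' ∣ G.q → ∀ {x : Ed}, x ∈ (G.loc z).W (G.at' E₀ z) m' k →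
      k < m' ^ 4 ∧ x ∈ E₀ ∧ x ∈ (G.loc z).W (G.loc z).E m' k ∧ x ∈ G.Wd m' k := by
    intro m' k hm' x hx
    have h1 := (G.loc z).W_mono hsz m' k hx
    exact ⟨(G.loc z).lt_of_mem_W hm' hsz hx, (G.mem_at'.1 ((G.loc z).W_subset _ _ _ hx)).1, h1,
      G.RegB_W_sub z m' k h1⟩
  have hca : ∀ {k : ℕ} {x : Ed}, x ∈ (G.loc z).W (G.at' E₀ z) m k → G.Ca g m k := by
    intro k x hx
    obtain ⟨h1, h2, -, h4⟩ := hlt hm hx
    by_contra h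
    exact (hmem x h2).2.2.2.1 (mem_biUnion.2 ⟨k, mem_filter.2 ⟨mem_range.2 h1, h⟩, h4⟩)
  have hK : ∀ {k : ℕ} {x : Ed}, x ∈ (G.loc z).W (G.at' E₀ z) m k → k ∈ G.Kz g m z := by
    intro k x hx
    obtain ⟨h1, -, h3, -⟩ := hlt hm hx
    exact mem_filter.2 ⟨mem_range.2 h1, hca hx, x, h3⟩
  have hlight : ∀ {k : ℕ} {x : Ed}, x ∈ (G.loc z).W (G.at' E₀ z) m k → ∀ p, Inc p x →
      (deg (G.Wd m k) p : ℝ) ≤ C₂ * (G.i * G.κ) / m ∧
        (#((Finset.range ((G.q / m) ^ 4)).filter fun r =>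
          G.Ca g G.q (k * (G.q / m) ^ 4 + r) ∧
            p ∈ G.Rs g G.q (k * (G.q / m) ^ 4 + r)) : ℝ) ≤ C₂ * G.q / m := by
    intro k x hx p hp
    obtain ⟨h1, h2, -, h4⟩ := hlt hm hx
    by_contra h
    rw [not_and_or, not_le, not_le] at h
    exact (hmem x h2).2.2.2.2.2.1 (mem_biUnion.2 ⟨k, mem_filter.2 ⟨mem_range.2 h1, hca hx⟩,
      mem_filter.2 ⟨h4, p, hp, h⟩⟩)
  refine ⟨hsz, ?_, ?_, ?_, ?_, ?_⟩
  · rintro w ⟨x, hx⟩ e he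
    obtain ⟨h1, h2, -, h4⟩ := hlt dvd_rfl hx
    have h5 : G.Ca g G.q w := by
      by_contra h
      exact (hmem x h2).2.2.2.2.1 (mem_biUnion.2 ⟨w, mem_filter.2 ⟨mem_range.2 h1, h⟩, h4⟩)
    have h6 := G.mem_Rs hb hg dvd_rfl h5 (G.RegB_W_sub z _ w he)
    have h7 := (G.loc z).inZ e ((G.loc z).W_subset _ _ _ he)
    unfold Om
    rw [if_pos ⟨h1, h5⟩, mem_inter, mem_inter]
    exact ⟨⟨h7.1, h6.1⟩, h7.2, h6.2⟩
  · refine le_trans ?_ ((hZ3 z hz).2.trans (by gcongr))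
    refine Nat.cast_le.2 (card_le_card fun k hk => ?_)
    obtain ⟨x, hx⟩ := (mem_filter.1 hk).2
    exact hK hx
  · intro k e he p hp
    have h1 : (deg ((G.loc z).W (G.loc z).E m k) p : ℝ) ≤ deg (G.Wd m k) p :=
      Nat.cast_le.2 (deg_mono (G.RegB_W_sub z m k) p)
    refine h1.trans ((hlight he p hp).1.trans ?_)
    show C₂ * (G.i * G.κ) / m ≤ C * (G.i * G.κ) / m
    gcongr
  · rintro k ⟨x, hx⟩
    obtain ⟨-, h2, h3, -⟩ := hlt hm hx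
    have hU := (G.loc_big hb z).U_pos (by norm_num)
    have h4 : (nr ((G.loc z).W (G.loc z).E m k) G.rid : ℝ) ≤ C₃ * (G.loc z).U / m := by
      by_contra h
      exact (hmem x h2).2.2.2.2.2.2 (mem_biUnion.2 ⟨z, hz, mem_biUnion.2
        ⟨k, mem_filter.2 ⟨hK hx, not_le.1 h⟩, h3⟩⟩)
    exact h4.trans (by gcongr)
  · intro k e he p hp
    refine le_trans ?_ ((hlight he p hp).2.trans ?_)
    · refine Nat.cast_le.2 (card_le_card fun r hr => ?_)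
      obtain ⟨h1, h2⟩ := mem_filter.1 hr
      refine mem_filter.2 ⟨h1, ?_⟩
      unfold Om at h2
      split_ifs at h2 with h3
      · exact ⟨h3.2, (mem_inter.1 h2).2⟩
      · exact absurd h2 (notMem_empty _)
    · show C₂ * G.q / m ≤ C * G.q / m
      gcongr

end Glob

end Crest.Agent.R51
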