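import Crest.Agent.R51.GLoc
import Crest.Agent.R51.RegB
import Crest.Agent.R51.GlobEx

/-! Logarithmically long windows carry few edges (whole band). -/

namespace Crest.Agent.R51

open Finset
open scoped Classical

/-- Take `(g, C, Q₁)` from `Glob.reg 1001 (ε / 2)`, `(mG, Q₂)` from `gloc` with `ε / (2 C)`, `Q₃` from
`exists_glob 1001 g m`; `Q` the maximum, `q = m Q`, `κ₀ = Q q`.  Refine the grid `B` by `exists_refine` with `S = Q ^ 4` (so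
`b (k (q / m) ^ 4) = B k`; a finest window has at most `1000 M₀ / q ^ 4 + 1 ≤ 1001 M₀ / q ^ 4` edges as `q ≤ κ`).  With `E₀`, `Zs`
from `reg` let `E₁` be the set of edges of `E₀` in windows `k ∈ Ks`.  The sum is the number of edges of `G.E` in these
windows, at most `#(G.E \ E₀) + ∑ z ∈ Zs, #(at' E₁ z) ≤ ε M₀ / 2 + C q ^ 2 · ε M₀ / (2 C q ^ 2)`. -/
theorem propG {ε : ℝ} (hε : 0 < ε) : ∃ mG : ℕ, 1 ≤ mG ∧ ∀ m, mG ≤ m → ∃ κ₀ : ℝ,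
    ∀ (P : Finset Pt) (j : ℤ) (i : ℕ) (κ : ℝ) (B : ℕ → ℝ) (Ks : Finset ℕ) (θ : ℝ), GP P → 1 ≤ i →
      κ₀ ≤ κ → (#P : ℝ) ≤ i * κ ^ 3 → Monotone B →
      (∀ k < m ^ 4, (#(tm (band P j i) (B k) (B (k + 1))) : ℝ) ≤ 1000 * (i ^ 2 * κ ^ 4) / m ^ 4) →
      (∀ k ∈ Ks, k < m ^ 4 ∧ LL θ (B k) (B (k + 1))) →
      ∑ k ∈ Ks, (#(tm (band P j i) (B k) (B (k + 1))) : ℝ) ≤ ε * (i ^ 2 * κ ^ 4) := by
  obtain ⟨g, C, Q₁, hC, H₁⟩ := Glob.reg 1001 (ε := ε / 2) (by positivity)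
  have hC0 : 0 < C := by linarith
  obtain ⟨mG, Q₂, hmG, hQ₂, H₂⟩ := Loc.gloc hC (ε := ε / (2 * C)) (by positivity)
  refine ⟨mG, hmG, fun m hm => ?_⟩
  obtain ⟨Q₃, H₃⟩ := exists_glob 1001 g m
  obtain ⟨Q, hQ⟩ : ∃ Q, Q = Q₁ + Q₂ + Q₃ := ⟨_, rfl⟩
  have hQ0 : 0 < Q := by omega
  have hm0 : 0 < m := by omega
  have hQq : Q ≤ m * Q := Nat.le_mul_of_pos_left _ hm0
  refine ⟨(Q : ℝ) * (m * Q : ℕ), ?_⟩
  intro P j i κ B Ks θ hP hi hκ hcard hB hwin hKs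
  obtain ⟨b, hb1, hb2, hb3⟩ := exists_refine (E := band P j i)
    (fun e he e' he' => hP.slinj e (band_subset _ _ _ he) e' (band_subset _ _ _ he')) hB
    (S := Q ^ 4) (Nat.one_le_pow _ _ hQ0)
  have hQR : (1 : ℝ) ≤ Q := by exact_mod_cast hQ0
  have hmR : (1 : ℝ) ≤ m := by exact_mod_cast hm0
  have hiR : (1 : ℝ) ≤ i := by exact_mod_cast hi
  have hqR : (0 : ℝ) < (m * Q : ℕ) := by positivity
  have hqκ : ((m * Q : ℕ) : ℝ) ≤ κ := le_trans (le_mul_of_one_le_left hqR.le hQR) hκ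
  have hfine : ∀ w < (m * Q) ^ 4, (#(tm (band P j i) (b w) (b (w + 1))) : ℝ) ≤
      1001 * (i ^ 2 * κ ^ 4) / ((m * Q : ℕ) : ℝ) ^ 4 := by
    intro w hw
    have h1 : w / Q ^ 4 < m ^ 4 := by
      rw [Nat.div_lt_iff_lt_mul (pow_pos hQ0 4), ← mul_pow]
      exact hw
    have h2 := hwin _ h1
    have h3 : ((m * Q : ℕ) : ℝ) ^ 4 ≤ i ^ 2 * κ ^ 4 := by
      calc ((m * Q : ℕ) : ℝ) ^ 4 ≤ κ ^ 4 := pow_le_pow_left₀ hqR.le hqκ 4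
        _ = 1 * κ ^ 4 := (one_mul _).symm
        _ ≤ i ^ 2 * κ ^ 4 := by gcongr; exact one_le_pow₀ hiR
    have h4 : (1 : ℝ) ≤ i ^ 2 * κ ^ 4 / ((m * Q : ℕ) : ℝ) ^ 4 := by
      rw [le_div_iff₀ (by positivity), one_mul]
      exact h3
    calc (#(tm (band P j i) (b w) (b (w + 1))) : ℝ)
        ≤ #(tm (band P j i) (B (w / Q ^ 4)) (B (w / Q ^ 4 + 1))) / ((Q ^ 4 : ℕ) : ℝ) + 1 := hb3 w
      _ ≤ 1000 * (i ^ 2 * κ ^ 4) / m ^ 4 / ((Q ^ 4 : ℕ) : ℝ) +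
          i ^ 2 * κ ^ 4 / ((m * Q : ℕ) : ℝ) ^ 4 := by gcongr
      _ = 1001 * (i ^ 2 * κ ^ 4) / ((m * Q : ℕ) : ℝ) ^ 4 := by
          push_cast
          field_simp
          ring
  have hbig : ∀ Q' : ℕ, Q' ≤ Q → Q' ≤ m * Q ∧ (Q' : ℝ) * (m * Q : ℕ) ≤ κ := fun Q' h =>
    ⟨h.trans hQq, le_trans (by gcongr) hκ⟩
  obtain ⟨G, rfl, rfl, rfl, hGq, rfl, rfl, hG₀, hgm, hmm⟩ := H₃ P j i (m * Q) κ b hP hi
    (Nat.mul_pos hm0 hQ0) hcard hb1 hfine (hbig Q₃ (by omega)).1 (hbig Q₃ (by omega)).2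
  rw [← hGq] at hbig
  have hdvd : m ∣ G.q := ⟨Q, hGq⟩
  have hlo : ∀ z k, (G.loc z).lo m k = B k := by
    intro z k
    rw [← hb2 k]
    show G.b (k * (G.q / m) ^ 4) = _
    rw [hGq, Nat.mul_div_cancel_left _ hm0]
  have hhi : ∀ z k, (G.loc z).hi m k = B (k + 1) := fun z k => hlo z (k + 1)
  obtain ⟨Ω, hΩ⟩ := H₁ G hG₀.le hgm.ge (hbig Q₁ (by omega))
  obtain ⟨E₀, hE₀, h1, Zs, h2, h3, h4⟩ := hΩ m hdvd hmm.ge
  set E₁ := (G.loc 0).sel E₀ m fun k => k ∈ Ks with hE₁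
  have hE₁₀ : E₁ ⊆ E₀ := (G.loc 0).sel_subset _ _ _
  have h5 : ∀ z ∈ Zs, (#(G.at' E₁ z) : ℝ) ≤ ε / (2 * C) * (G.M₀ / G.q ^ 2) := by
    intro z hz
    refine H₂ (G.loc z) (Ω z) m _ θ (hbig Q₂ (by omega)) hm hdvd (h4 z hz).1
      ((h4 z hz).2.mono (G.at'_mono hE₁₀ z)) ?_
    rintro k ⟨e, he⟩
    obtain ⟨he1, he2, he3⟩ := (G.loc z).mem_W.1 he
    obtain ⟨-, k', hk', he4, he5⟩ := (G.loc 0).mem_sel.1 (G.mem_at'.1 he1).1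
    obtain rfl : k = k' := (G.loc z).win_unique he2 he3 he4 he5
    rw [hlo, hhi]
    exact (hKs k hk').2
  have hq : (0 : ℝ) < G.q := (G.loc 0).q_posR
  have hM : 0 ≤ G.M₀ := by unfold Glob.M₀; positivity
  have h6 : (#E₁ : ℝ) ≤ ε / 2 * G.M₀ := by
    rw [G.card_eq_sum_at' E₁ Zs fun e he => h3 e (hE₁₀ he)]
    push_cast
    calc ∑ z ∈ Zs, (#(G.at' E₁ z) : ℝ) ≤ #Zs • (ε / (2 * C) * (G.M₀ / G.q ^ 2)) :=
          sum_le_card_nsmul _ _ _ h5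
      _ = #Zs * (ε / (2 * C) * (G.M₀ / G.q ^ 2)) := nsmul_eq_mul _ _
      _ ≤ C * G.q ^ 2 * (ε / (2 * C) * (G.M₀ / G.q ^ 2)) := by gcongr
      _ = ε / 2 * G.M₀ := by field_simp
  have h7 : (G.loc 0).sel (band G.P G.j G.i) m (fun k => k ∈ Ks) ⊆ (G.E \ E₀) ∪ E₁ := by
    intro e he
    obtain ⟨he1, k, hk, he2, he3⟩ := (G.loc 0).mem_sel.1 he
    rw [mem_union, mem_sdiff]
    by_cases h : e ∈ E₀
    · exact Or.inr ((G.loc 0).mem_sel.2 ⟨h, k, hk, he2, he3⟩)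
    · refine Or.inl ⟨mem_tm.2 ⟨he1, ?_, ?_⟩, h⟩
      · exact lt_of_le_of_lt (((G.loc 0).lo_zero m).ge.trans
          ((G.loc 0).lo_mono m (Nat.zero_le k))) he2
      · exact he3.trans (((G.loc 0).hi_le_lo m (hKs k hk).1).trans ((G.loc 0).lo_top hdvd).le)
  have h8 := (card_le_card h7).trans (card_union_le _ _)
  rw [(G.loc 0).card_sel_eq] at h8
  have h9 : ∑ k ∈ Ks, (#((G.loc 0).W (band G.P G.j G.i) m k) : ℝ) ≤ #(G.E \ E₀) + #E₁ := by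
    exact_mod_cast h8
  calc ∑ k ∈ Ks, (#(tm (band G.P G.j G.i) (B k) (B (k + 1))) : ℝ)
      = ∑ k ∈ Ks, (#((G.loc 0).W (band G.P G.j G.i) m k) : ℝ) := by
        refine sum_congr rfl fun k _ => ?_
        unfold Loc.W
        rw [hlo, hhi]
    _ ≤ ε / 2 * G.M₀ + ε / 2 * G.M₀ := h9.trans (add_le_add h1 h6)
    _ = ε * (G.i ^ 2 * G.κ ^ 4) := by unfold Glob.M₀; ring

end Crest.Agent.R51
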