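import Crest.Agent.R51.R2
import Crest.Agent.R51.GLoc

/-! A large set of bounded width with light atoms. -/

namespace Crest.Agent.R51

open Finset
open scoped Classical

namespace Loc

/-- Let `c_s = c ^ 2 / (4 C)`, `c_H` from `lemmaH C (c ^ 2 / 4)`, `(ε, m₀)` from `exists_proper (C ^ 2) c_H`, `mG ≥ m₀` from
`gloc_count C c_s ε`.  Let `E₁ = L.sel E₀ mG (substantial: c_s M / mG ≤ #(W E₀ mG k))`, `Y k` the set of points of `Z₂` that are ends of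
edges of `W E₁ m k`.  `#(inc E₀ Z₂) ≥ c ^ 2 M / 2` (`sum_deg_le`), so `∑ k, #(inc (W E₁ m k) (Y k)) = #(inc E₁ Z₂) ≥ c ^ 2 M / 4`
(`card_sdiff_sel`, `card_eq_sum_W`), and `lemmaH` for `E₁` gives a dense `H`.  To apply `exists_proper` at the scale `mG` every pair `e` of `H`
must lie in a substantial window in which its ends are ends of edges of `E₀`: as `mG ∣ m`, the window `k` of scale `m` of `e`
(`mem_H`) and the edges of `W E₁ m k` lie in the parent window (`W_sub_parent`, `win_unique`); degrees by `deg_H_le` at the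
scale `mG`; `Ks` is the set of substantial windows (`card_le_of_nonempty`, `gloc_count`).  `Z₃ = Γ`.  Atoms: the pairs `(a, o)`, `a` in
an atom, have slopes in `[0, 1]` within `4 δ` of a fixed one (`sl_atom`), so they lie in at most ten windows of scale `m`
(`card_long_windows`), each with at most `C ^ 2 N / m` pairs at `o` (`deg_H_le` at the scale `m`). -/
theorem proper {C c : ℝ} (hC : 1 ≤ C) (hc : 0 < c) : ∃ (mG Q : ℕ) (c' : ℝ), 1 ≤ mG ∧ 1 ≤ Q ∧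
    0 < c' ∧ ∀ (L : Loc) (Ω : ℕ → Finset Pt) (m : ℕ) (E₀ : Finset Ed) (δ : ℝ) (Z₂ : Finset Pt),
      L.Big Q → mG ∣ m → m ∣ L.q → L.Base Ω C → L.Reg Ω C mG E₀ → L.Reg Ω C m E₀ → 0 < δ →
      (∀ k, (L.W E₀ m k).Nonempty → 0 ≤ L.lo m k ∧ L.hi m k ≤ 1 ∧ δ ≤ L.hi m k - L.lo m k) →
      Z₂ ⊆ L.Z → c * L.N ≤ #Z₂ → (∀ p ∈ Z₂, c * L.d ≤ (deg E₀ p : ℝ)) →
      ∃ Z₃ ⊆ Z₂, ∃ D : ℝ, 0 < D ∧ c' * L.N ≤ #Z₃ ∧ (∀ p ∈ Z₃, ∀ p' ∈ Z₃, p'.1 - p.1 ≤ D) ∧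
        ∀ p, (amass Z₃ (δ * D) p : ℝ) ≤ 10 * C ^ 2 * L.N / m := by
  have hC0 : 0 < C := by linarith
  obtain ⟨cH, hcH, QH, hQH, hH⟩ := lemmaH hC (c := c ^ 2 / 4) (by positivity)
  obtain ⟨ε, m₀, hε, hP⟩ := exists_proper (C := C ^ 2) (by positivity) hcH
  obtain ⟨mG', QG, hmG', hQG, hg⟩ := gloc_count hC (c := c ^ 2 / (4 * C)) (by positivity) hε
  obtain ⟨m₁, hm₁⟩ := exists_nat_ge m₀
  set mG := max mG' m₁ with hmGd
  have hmG1 : 1 ≤ mG := hmG'.trans (le_max_left _ _)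
  have hmGR : (0 : ℝ) < mG := by exact_mod_cast hmG1
  obtain ⟨c', hc', hP'⟩ := hP mG (hm₁.trans (by exact_mod_cast le_max_right mG' m₁)) hmGR
  refine ⟨mG, max QH QG, c', hmG1, hQH.trans (le_max_left _ _), hc', ?_⟩
  intro L Ω m E₀ δ Z₂ hbQ hmm hm hbase hregG hreg hδ hwin hZ₂ hZc hdeg
  have hb : L.Big 1 := hbQ.mono (hQH.trans (le_max_left _ _))
  have hN := hb.N_pos le_rfl
  have hd := hb.d_pos le_rfl
  have hM := hb.M_pos le_rfl
  have hmG : mG ∣ L.q := hmm.trans hm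
  have hm0 : 0 < m := Nat.pos_of_dvd_of_pos hm L.q_pos
  have hmR : (0 : ℝ) < m := by exact_mod_cast hm0
  have h1 := hregG.card_sdiff_sel hb hC0.le hmG (c := c ^ 2 / (4 * C)) (by positivity)
  set E₁ := L.sel E₀ mG fun k => c ^ 2 / (4 * C) * L.M / mG ≤ (#(L.W E₀ mG k) : ℝ) with hE₁
  have hE₁0 : E₁ ⊆ E₀ := L.sel_subset _ _ _
  set Y : ℕ → Finset Pt := fun k => Z₂.filter fun p => ∃ e ∈ L.W E₁ m k, Inc p e with hY
  have h2 : c ^ 2 * L.M ≤ 2 * #(inc E₀ Z₂) := by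
    have a1 : ∑ p ∈ Z₂, (deg E₀ p : ℝ) ≤ 2 * #(inc E₀ Z₂) := by exact_mod_cast sum_deg_le E₀ Z₂
    refine le_trans ?_ a1
    calc c ^ 2 * L.M = c * L.N * (c * L.d) := by rw [← L.N_mul_d]; ring
      _ ≤ #Z₂ * (c * L.d) := by gcongr
      _ = ∑ p ∈ Z₂, c * L.d := by simp
      _ ≤ _ := sum_le_sum hdeg
  have h3 : (#(inc E₀ Z₂) : ℝ) ≤ #(inc E₁ Z₂) + #(E₀ \ E₁) := by
    have : inc E₀ Z₂ ⊆ inc E₁ Z₂ ∪ (E₀ \ E₁) := by
      intro e he
      rw [mem_inc] at he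
      by_cases a : e ∈ E₁
      · exact mem_union_left _ (mem_inc.2 ⟨a, he.2⟩)
      · exact mem_union_right _ (mem_sdiff.2 ⟨he.1, a⟩)
    exact_mod_cast (card_le_card this).trans (card_union_le _ _)
  have h4 : (#(inc E₁ Z₂) : ℝ) ≤ ∑ k ∈ Finset.range (m ^ 4), (#(inc (L.W E₁ m k) (Y k)) : ℝ) := by
    rw [L.card_eq_sum_W hm ((inc_subset _ _).trans (hE₁0.trans hreg.sub))]
    push_cast
    refine sum_le_sum fun k _ => Nat.cast_le.2 (card_le_card fun e he => ?_)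
    obtain ⟨a1, a2⟩ := L.mem_W.1 he
    rw [mem_inc] at a1 ⊢
    have hw : e ∈ L.W E₁ m k := L.mem_W.2 ⟨a1.1, a2⟩
    exact ⟨hw, a1.2.imp (fun a => mem_filter.2 ⟨a, e, hw, Or.inl rfl⟩)
      fun a => mem_filter.2 ⟨a, e, hw, Or.inr rfl⟩⟩
  have h5 : c ^ 2 / 4 * L.M ≤ ∑ k ∈ Finset.range (m ^ 4), (#(inc (L.W E₁ m k) (Y k)) : ℝ) := by
    have e1 : C * (c ^ 2 / (4 * C)) * L.M = c ^ 2 * L.M / 4 := by field_simp
    rw [e1] at h1
    linarith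
  have hHc := hH L Ω m E₁ Y (hbQ.mono (le_max_left _ _)) hm hbase (hreg.mono hE₁0) h5
  set H := L.H Ω m Y with hHd
  set Ks := (Finset.range (mG ^ 4)).filter fun k =>
    c ^ 2 / (4 * C) * L.M / mG ≤ (#(L.W E₀ mG k) : ℝ) with hKs
  have hKsC : (#Ks : ℝ) ≤ C ^ 2 * mG := by
    have : (#Ks : ℝ) ≤ C * mG := by
      refine hregG.card_le_of_nonempty hmG _ fun k hk => ?_
      rw [← card_pos]
      have : (0 : ℝ) < #(L.W E₀ mG k) := lt_of_lt_of_le (by positivity) (mem_filter.1 hk).2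
      exact_mod_cast this
    refine this.trans ?_
    gcongr
    nlinarith
  have hpar : ∀ {k : ℕ} {x : ℝ}, L.lo m k < x → x ≤ L.hi m k →
      L.lo mG (k / (m / mG) ^ 4) < x ∧ x ≤ L.hi mG (k / (m / mG) ^ 4) := fun {k x} a1 a2 =>
    ⟨lt_of_le_of_lt (L.parent hmm hm k).1 a1, a2.trans (L.parent hmm hm k).2⟩
  obtain ⟨o, D, Γ, hD, hΓc, hΓ⟩ := hP' L.Z L.N (L.lo mG) (L.hi mG) Ks H hN L.cardZ'
    (fun _ _ h => L.hi_le_lo mG h) hKsC (L.H_sub Ω m Y)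
    (by
      intro e he
      obtain ⟨k, -, a1, a2, a3, -⟩ := L.mem_H hm he
      obtain ⟨-, e₂, he₂, -⟩ := mem_filter.1 a3
      obtain ⟨b1, b2, b3⟩ := L.mem_W.1 he₂
      obtain ⟨b4, k₂, b5, b6, b7⟩ := L.mem_sel.1 b1
      have e1 : k / (m / mG) ^ 4 = k₂ := L.win_unique (hpar b2 b3).1 (hpar b2 b3).2 b6 b7
      refine ⟨k₂, mem_filter.2 ⟨mem_range.2 (L.lt_of_mem_W hmG hregG.sub
        (L.mem_W.2 ⟨b4, b6, b7⟩)), b5⟩, ?_⟩
      rw [← e1]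
      exact hpar a1 a2)
    (by
      intro k p
      rcases ((L.W H mG k).filter (Inc p)).eq_empty_or_nonempty with h0 | ⟨e, he⟩
      · have : deg (tm H (L.lo mG k) (L.hi mG k)) p = 0 := by
          unfold deg
          exact card_eq_zero.2 h0
        rw [this]
        push_cast
        positivity
      · obtain ⟨he1, he2⟩ := mem_filter.1 he
        obtain ⟨a0, a5, a6⟩ := L.mem_W.1 he1
        obtain ⟨k', -, a1, a2, a3, a4⟩ := L.mem_H hm a0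
        have hp : p ∈ Y k' := by
          rcases he2 with h | h
          · exact h ▸ a3
          · exact h ▸ a4
        obtain ⟨-, e₂, he₂, hi⟩ := mem_filter.1 hp
        obtain ⟨b1, b2, b3⟩ := L.mem_W.1 he₂
        have e1 : k' / (m / mG) ^ 4 = k := L.win_unique (hpar a1 a2).1 (hpar a1 a2).2 a5 a6
        have hw : e₂ ∈ L.W E₀ mG k := by
          rw [← e1]
          exact L.mem_W.2 ⟨hE₁0 b1, hpar b2 b3⟩
        exact L.deg_H_le hbase hmG hregG m Y hw hi)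
    (fun θ => hg L Ω mG E₀ θ _ (hbQ.mono (le_max_right _ _)) (le_max_left _ _) hmG hbase hregG
      fun k hk => ⟨(mem_filter.1 (mem_filter.1 hk).1).2, (mem_filter.1 hk).2⟩)
    hHc
  refine ⟨Γ, fun a ha => ?_, D, hD, hΓc, fun p hp p' hp' => ?_, fun p => ?_⟩
  · obtain ⟨k, -, -, -, a3, -⟩ := L.mem_H hm (hΓ a ha).1
    exact (mem_filter.1 a3).1
  · linarith [(hΓ p hp).2.2, (hΓ p' hp').2.1]
  · unfold amass
    set A := Γ.filter fun z => ⌊z.1 / (δ * D)⌋ = ⌊p.1 / (δ * D)⌋ ∧ ⌊z.2 / (δ * D)⌋ = ⌊p.2 / (δ * D)⌋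
      with hA
    rcases A.eq_empty_or_nonempty with h0 | ⟨a', ha'⟩
    · rw [h0]
      simp only [card_empty, Nat.cast_zero]
      positivity
    have hw : ∀ a ∈ Γ, ∃ k < m ^ 4, L.lo m k < sl (a, o) ∧ sl (a, o) ≤ L.hi m k ∧ o ∈ Y k ∧
        0 ≤ L.lo m k ∧ L.hi m k ≤ 1 ∧ δ ≤ L.hi m k - L.lo m k := by
      intro a ha
      obtain ⟨k, a0, a1, a2, -, a4⟩ := L.mem_H hm (hΓ a ha).1
      obtain ⟨-, e₂, he₂, -⟩ := mem_filter.1 a4
      exact ⟨k, a0, a1, a2, a4, hwin k ⟨e₂, L.W_mono hE₁0 m k he₂⟩⟩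
    obtain ⟨ha'1, ha'2⟩ := mem_filter.1 ha'
    have hs : |sl (a', o)| ≤ 1 := by
      obtain ⟨k, -, a1, a2, -, a4, a5, -⟩ := hw a' ha'1
      rw [abs_le]
      constructor <;> linarith
    set K := (Finset.range (m ^ 4)).filter fun k => o ∈ Y k ∧ δ ≤ L.hi m k - L.lo m k ∧
      ∃ s, L.lo m k < s ∧ s ≤ L.hi m k ∧ |s - sl (a', o)| ≤ 4 * δ with hK
    have hK10 : #K ≤ 10 := card_long_windows (L.lo m) (L.hi m) (fun _ _ h => L.hi_le_lo m h) hδ K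
      fun k hk => (mem_filter.1 hk).2.2
    have a1 : #A ≤ #(K.biUnion fun k => (L.W H m k).filter (Inc o)) := by
      refine card_le_card_of_injOn (fun a => (a, o)) ?_ ?_
      · intro a ha
        obtain ⟨ha1, ha2⟩ := mem_filter.1 (mem_coe.1 ha)
        obtain ⟨k, b0, b1, b2, b3, -, -, b6⟩ := hw a ha1
        refine mem_coe.2 (mem_biUnion.2 ⟨k, mem_filter.2 ⟨mem_range.2 b0, b3, b6, sl (a, o), b1, b2, ?_⟩,
          mem_filter.2 ⟨L.mem_W.2 ⟨(hΓ a ha1).1, b1, b2⟩, Or.inr rfl⟩⟩)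
        exact sl_atom hD hδ (hΓ a ha1).2.1 (hΓ a' ha'1).2.1 hs (ha2.1.trans ha'2.1.symm)
          (ha2.2.trans ha'2.2.symm)
      · intro a _ b _ h
        exact congrArg Prod.fst h
    have a2 : (#A : ℝ) ≤ ∑ k ∈ K, (deg (L.W H m k) o : ℝ) := by
      exact_mod_cast a1.trans card_biUnion_le
    calc (#A : ℝ) ≤ ∑ k ∈ K, (deg (L.W H m k) o : ℝ) := a2
      _ ≤ ∑ k ∈ K, C ^ 2 * L.N / m := by
        refine sum_le_sum fun k hk => ?_
        obtain ⟨-, e₂, he₂, hi⟩ := mem_filter.1 (mem_filter.1 hk).2.1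
        exact L.deg_H_le hbase hm hreg m Y (L.W_mono hE₁0 m k he₂) hi
      _ = #K * (C ^ 2 * L.N / m) := by simp
      _ ≤ 10 * (C ^ 2 * L.N / m) := by gcongr; exact_mod_cast hK10
      _ = _ := by ring

end Loc

end Crest.Agent.R51
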