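import Crest.Agent.R51.Basic

/-! Choice of the length scale of the windows; triples of windows. -/

namespace Crest.Agent.R51

open Finset
open scoped Classical

namespace Loc

end Loc

theorem R6_card_filter {α : Type} (s : Finset α) (p : α → Prop) [DecidablePred p] :
    (#(s.filter p) : ℝ) = ∑ a ∈ s, if p a then (1 : ℝ) else 0 := by
  rw [Finset.card_filter]
  push_cast
  rfl

theorem R6_count (Z : Finset Pt) (A B D : Finset ℕ) (good : Pt → ℕ → Prop) :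
    ∑ k ∈ B, ∑ k₀ ∈ A, ∑ k₂ ∈ D, (#(Z.filter fun p => good p k₀ ∧ good p k ∧ good p k₂) : ℝ) =
      ∑ p ∈ Z, (#(A.filter (good p)) : ℝ) * (#(B.filter (good p)) : ℝ) *
        (#(D.filter (good p)) : ℝ) := by
  simp only [R6_card_filter]
  have h1 : ∀ p ∈ Z, (∑ a ∈ A, if good p a then (1 : ℝ) else 0) *
      (∑ a ∈ B, if good p a then (1 : ℝ) else 0) * (∑ a ∈ D, if good p a then (1 : ℝ) else 0) =
      ∑ k ∈ B, ∑ k₀ ∈ A, ∑ k₂ ∈ D,
        if good p k₀ ∧ good p k ∧ good p k₂ then (1 : ℝ) else 0 := by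
    intro p _
    rw [mul_comm (∑ a ∈ A, if good p a then (1 : ℝ) else 0), Finset.sum_mul_sum, Finset.sum_mul]
    refine Finset.sum_congr rfl fun k _ => ?_
    rw [Finset.sum_mul]
    refine Finset.sum_congr rfl fun k₀ _ => ?_
    rw [Finset.mul_sum]
    refine Finset.sum_congr rfl fun k₂ _ => ?_
    by_cases h0 : good p k₀ <;> by_cases h1 : good p k <;> by_cases h2 : good p k₂ <;>
      simp [h0, h1, h2]
  rw [Finset.sum_congr rfl h1, Finset.sum_comm (s := Z)]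
  refine Finset.sum_congr rfl fun k _ => ?_
  rw [Finset.sum_comm (s := Z)]
  refine Finset.sum_congr rfl fun k₀ _ => ?_
  rw [Finset.sum_comm (s := Z)]

/-- Many windows of the middle family belong to a triple with many common points.
Proof: `∑ k₁, S k₁ ≥ c N (c m) ^ 3` for `S k₁ = ∑ k₀, ∑ k₂, #common ≤ (C m) ^ 2 N`; the `k₁` with `S k₁ ≥ c ^ 4 N m ^ 2 / (2 C)` are at
least `c ^ 4 m / (2 C ^ 2)`, and each has a pair `(k₀, k₂)` with at least `c ^ 4 N / (2 C ^ 3)` common points. -/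
theorem exists_triples {C c : ℝ} (hC : 0 < C) (hc : 0 < c) : ∃ c' : ℝ, 0 < c' ∧
    ∀ (Z : Finset Pt) (N m : ℝ) (K : Fin 3 → Finset ℕ) (good : Pt → ℕ → Prop), 0 < N → 0 < m →
      (#Z : ℝ) ≤ N → c * N ≤ #Z → (∀ x, (#(K x) : ℝ) ≤ C * m) →
      (∀ p ∈ Z, ∀ x, c * m ≤ (#((K x).filter (good p)) : ℝ)) →
      ∃ KA ⊆ K 1, c' * m ≤ #KA ∧ ∀ k ∈ KA, ∃ k₀ ∈ K 0, ∃ k₂ ∈ K 2,
        c' * N ≤ (#(Z.filter fun p => good p k₀ ∧ good p k ∧ good p k₂) : ℝ) := by
  refine ⟨min (c ^ 4 / (2 * C ^ 3)) (c ^ 4 / (2 * C ^ 2)), lt_min (by positivity) (by positivity), ?_⟩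
  intro Z N m K good hN hm hZ hZ' hK hg
  set T : ℕ → ℕ → ℕ → ℝ := fun k₀ k k₂ =>
    (#(Z.filter fun p => good p k₀ ∧ good p k ∧ good p k₂) : ℝ) with hT
  set c₁ : ℝ := c ^ 4 / (2 * C ^ 3) with hc₁
  have hc₁0 : 0 < c₁ := by positivity
  set G : ℕ → Prop := fun k => ∃ k₀ ∈ K 0, ∃ k₂ ∈ K 2, c₁ * N ≤ T k₀ k k₂ with hG
  refine ⟨(K 1).filter G, filter_subset _ _, ?_, ?_⟩
  · have hTle : ∀ k₀ k k₂, T k₀ k k₂ ≤ N := by
      intro k₀ k k₂
      refine le_trans ?_ hZ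
      simp only [hT]
      exact_mod_cast card_le_card (filter_subset _ _)
    have hdbl : ∀ (k : ℕ) (t : ℝ), 0 ≤ t → (∀ k₀ ∈ K 0, ∀ k₂ ∈ K 2, T k₀ k k₂ ≤ t) →
        ∑ k₀ ∈ K 0, ∑ k₂ ∈ K 2, T k₀ k k₂ ≤ (C * m) ^ 2 * t := by
      intro k t ht h
      calc ∑ k₀ ∈ K 0, ∑ k₂ ∈ K 2, T k₀ k k₂ ≤ ∑ k₀ ∈ K 0, ∑ k₂ ∈ K 2, t :=
            Finset.sum_le_sum fun k₀ h0 => Finset.sum_le_sum fun k₂ h2 => h k₀ h0 k₂ h2
        _ = (#(K 0) : ℝ) * ((#(K 2) : ℝ) * t) := by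
            simp only [Finset.sum_const, nsmul_eq_mul]
        _ ≤ (C * m) * ((C * m) * t) := by
            apply mul_le_mul (hK 0) (mul_le_mul_of_nonneg_right (hK 2) ht) (by positivity)
              (by positivity)
        _ = (C * m) ^ 2 * t := by ring
    have hlow : c * N * (c * m) ^ 3 ≤ ∑ k ∈ K 1, ∑ k₀ ∈ K 0, ∑ k₂ ∈ K 2, T k₀ k k₂ := by
      simp only [hT]
      rw [R6_count]
      calc c * N * (c * m) ^ 3 ≤ (#Z : ℝ) * (c * m) ^ 3 :=
            mul_le_mul_of_nonneg_right hZ' (by positivity)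
        _ = ∑ p ∈ Z, (c * m) ^ 3 := by simp only [Finset.sum_const, nsmul_eq_mul]
        _ ≤ _ := by
            refine Finset.sum_le_sum fun p hp => ?_
            have hcm : 0 ≤ c * m := by positivity
            have e : (c * m) ^ 3 = (c * m) * (c * m) * (c * m) := by ring
            rw [e]
            exact mul_le_mul (mul_le_mul (hg p hp 0) (hg p hp 1) hcm (Nat.cast_nonneg _))
              (hg p hp 2) hcm (by positivity)
    have hup : ∑ k ∈ K 1, ∑ k₀ ∈ K 0, ∑ k₂ ∈ K 2, T k₀ k k₂ ≤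
        (#((K 1).filter G) : ℝ) * ((C * m) ^ 2 * N) + (C * m) * ((C * m) ^ 2 * (c₁ * N)) := by
      rw [← Finset.sum_filter_add_sum_filter_not (K 1) G]
      apply add_le_add
      · calc ∑ k ∈ (K 1).filter G, ∑ k₀ ∈ K 0, ∑ k₂ ∈ K 2, T k₀ k k₂ ≤
              ∑ k ∈ (K 1).filter G, (C * m) ^ 2 * N :=
              Finset.sum_le_sum fun k _ => hdbl k N hN.le fun k₀ _ k₂ _ => hTle k₀ k k₂
          _ = _ := by simp only [Finset.sum_const, nsmul_eq_mul]
      · calc ∑ k ∈ (K 1).filter (fun k => ¬ G k), ∑ k₀ ∈ K 0, ∑ k₂ ∈ K 2, T k₀ k k₂ ≤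
              ∑ k ∈ (K 1).filter (fun k => ¬ G k), (C * m) ^ 2 * (c₁ * N) := by
              refine Finset.sum_le_sum fun k hk => hdbl k _ (by positivity) ?_
              intro k₀ h0 k₂ h2
              have hk' := (mem_filter.1 hk).2
              by_contra hcon
              exact hk' ⟨k₀, h0, k₂, h2, (not_le.1 hcon).le⟩
          _ = (#((K 1).filter (fun k => ¬ G k)) : ℝ) * ((C * m) ^ 2 * (c₁ * N)) := by
              simp only [Finset.sum_const, nsmul_eq_mul]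
          _ ≤ _ := by
              apply mul_le_mul_of_nonneg_right _ (by positivity)
              refine le_trans ?_ (hK 1)
              exact_mod_cast card_le_card (filter_subset _ _)
    have e1 : (C * m) * ((C * m) ^ 2 * (c₁ * N)) = c * N * (c * m) ^ 3 / 2 := by
      rw [hc₁]
      field_simp
    have e2 : c * N * (c * m) ^ 3 / 2 = (c ^ 4 / (2 * C ^ 2) * m) * ((C * m) ^ 2 * N) := by
      field_simp
    have h3 : (c ^ 4 / (2 * C ^ 2) * m) * ((C * m) ^ 2 * N) ≤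
        (#((K 1).filter G) : ℝ) * ((C * m) ^ 2 * N) := by
      rw [← e2]
      linarith only [hlow, hup, e1]
    have h4 := le_of_mul_le_mul_right h3 (by positivity)
    exact le_trans (mul_le_mul_of_nonneg_right (min_le_right _ _) hm.le) h4
  · intro k hk
    obtain ⟨k₀, h0, k₂, h2, h⟩ := (mem_filter.1 hk).2
    exact ⟨k₀, h0, k₂, h2, le_trans (mul_le_mul_of_nonneg_right (min_le_left _ _) hN.le) h⟩

end Crest.Agent.R51
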