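import Crest.Agent.R51.LocReg
import Crest.Agent.R51.R6

/-! Choice of the length scale of the windows; triples of windows. -/

namespace Crest.Agent.R51

open Finset
open scoped Classical

theorem r1_pigeon {α : Type*} (G : Finset α) (n : ℕ) (f : α → ℕ) (hf : ∀ g ∈ G, f g ≤ n) :
    ∃ b, #G ≤ #(G.filter fun g => f g = b) * (n + 1) := by
  obtain ⟨b, -, hb⟩ := exists_max_image (Finset.range (n + 1)) (fun b => #(G.filter fun g => f g = b))
    ⟨0, by simp⟩
  refine ⟨b, ?_⟩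
  have := card_le_mul_card_image_of_maps_to (s := G) (t := Finset.range (n + 1)) (f := f)
    (fun g hg => mem_range.2 (Nat.lt_succ_of_le (hf g hg))) _ hb
  simpa using this

/-- Blocks of `u` consecutive elements in the order of `len`. -/
theorem r1_blocks (Ks : Finset ℕ) (len : ℕ → ℝ) {u : ℕ} (hu : 1 ≤ u) : ∃ bl : ℕ → ℕ,
    (∀ k, bl k * u ≤ #Ks) ∧ (∀ β, #(Ks.filter fun k => bl k = β) ≤ u) ∧
      ∀ k ∈ Ks, ∀ k' ∈ Ks, bl k < bl k' → len k ≤ len k' := by
  let key : ℕ → ℝ ×ₗ ℕ := fun k => toLex (len k, k)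
  have hkey : Function.Injective key := fun k k' h => congrArg (fun z => (ofLex z).2) h
  let rk : ℕ → ℕ := fun k => #(Ks.filter fun k' => key k' < key k)
  have hrk : ∀ k ∈ Ks, ∀ k', key k < key k' → rk k < rk k' := by
    intro k hk k' h
    refine card_lt_card ⟨fun j hj => ?_, fun hsub => ?_⟩
    · rw [mem_filter] at hj ⊢
      exact ⟨hj.1, hj.2.trans h⟩
    · exact lt_irrefl _ (mem_filter.1 (hsub (mem_filter.2 ⟨hk, h⟩))).2
  refine ⟨fun k => rk k / u, fun k => (Nat.div_mul_le_self _ _).trans (card_filter_le _ _),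
    fun β => ?_, fun k hk k' hk' h => ?_⟩
  · have : #(Ks.filter fun k => rk k / u = β) ≤ #(Finset.Ico (β * u) (β * u + u)) := by
      refine card_le_card_of_injOn rk ?_ ?_
      · intro k hk
        have hk' := (mem_filter.1 (mem_coe.1 hk)).2
        rw [mem_coe, mem_Ico, ← hk']
        exact ⟨Nat.div_mul_le_self _ _, Nat.lt_div_mul_add hu⟩
      · intro k hk k' hk' h
        have h1 := (mem_filter.1 (mem_coe.1 hk)).1
        have h2 := (mem_filter.1 (mem_coe.1 hk')).1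
        rcases lt_trichotomy (key k) (key k') with e | e | e
        · exact absurd h (hrk k h1 k' e).ne
        · exact hkey e
        · exact absurd h (hrk k' h2 k e).ne'
    simpa using this
  · by_contra hc
    have h1 : key k' < key k := Prod.Lex.toLex_lt_toLex.2 (Or.inl (not_le.1 hc))
    have h2 : rk k' / u ≤ rk k / u := Nat.div_le_div_right (hrk k' hk' k h1).le
    exact absurd h (not_lt.2 h2)

namespace Loc

theorem r1_sum_le_sel (L : Loc) {m : ℕ} (hm : m ∣ L.q) {F : Finset Ed} (hF : F ⊆ L.E) (S : ℕ → Prop)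
    {K : Finset ℕ} (hK : K ⊆ Finset.range (m ^ 4)) (hS : ∀ k ∈ K, S k) (p : Pt) :
    ∑ k ∈ K, deg (L.W F m k) p ≤ deg (L.sel F m S) p := by
  rw [L.deg_eq_sum_W hm ((L.sel_subset F m S).trans hF) p]
  refine le_trans (le_of_eq ?_) (sum_le_sum_of_subset hK)
  exact sum_congr rfl fun k hk => by rw [L.W_sel_of F m (hS k hk)]

/-- A length `δ` such that many points are rich in windows of length `≤ δ` in each of three time intervals,
and rich in windows of length `≥ δ`.
Proof: let `Ks` be the set of windows that meet `E₀` (`#Ks ≤ C m`), `u = ⌊c m / (4 C)⌋₊ ≥ c m / (8 C) ≥ 1`.  Order `Ks` by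
`(length, index)`; `rk k` is the number of smaller elements, `bl k = rk k / u ≤ 8 C ^ 2 / c`; at most `u` windows have the same
`bl`.  For `p ∈ Z₁` and `x` let `β x p` be the least `β` such that the degree of `p` in `F x` in windows with `bl ≤ β` is at least
`c d / 2` (`deg_eq_sum_W`), and `β p` the maximum over `x`, attained at `x₀`.  The degree of `p` in `F x₀` in windows with `bl > β p`
is at least `c d - c d / 2 - u C d / m ≥ c d / 4` (`deg_W_le`).  Pigeonhole on `β p`; `δ` is the largest length of a window in `Ks` with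
`bl ≤ β` (positive, as these windows contain edges). -/
theorem exists_delta {C c : ℝ} (hC : 1 ≤ C) (hc : 0 < c) : ∃ (c' : ℝ) (m₀ : ℕ), 0 < c' ∧
    ∀ (L : Loc) (Ω : ℕ → Finset Pt) (m : ℕ) (E₀ : Finset Ed) (F : Fin 3 → Finset Ed)
      (Z₁ : Finset Pt), L.Big 1 → m₀ ≤ m → m ∣ L.q → L.Reg Ω C m E₀ → (∀ x, F x ⊆ E₀) →
      c * L.N ≤ #Z₁ → (∀ p ∈ Z₁, ∀ x, c * L.d ≤ (deg (F x) p : ℝ)) →
      ∃ δ : ℝ, 0 < δ ∧ ∃ Z₂ ⊆ Z₁, c' * L.N ≤ #Z₂ ∧ ∀ p ∈ Z₂,
        (∀ x, c' * L.d ≤ (deg (L.sel (F x) m fun k => L.hi m k - L.lo m k ≤ δ) p : ℝ)) ∧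
        c' * L.d ≤ (deg (L.sel E₀ m fun k => δ ≤ L.hi m k - L.lo m k) p : ℝ) := by
  have hC0 : 0 < C := by linarith
  obtain ⟨B₀, hB₀⟩ := exists_nat_ge (8 * C ^ 2 / c)
  obtain ⟨m₀, hm₀⟩ := exists_nat_ge (8 * C / c)
  refine ⟨min (c / 4) (c / (B₀ + 1)), m₀, by positivity, ?_⟩
  intro L Ω m E₀ F Z₁ hb hmm hm hreg hF hZ hdeg
  have hN := hb.N_pos le_rfl
  have hd := hb.d_pos le_rfl
  have hm0 : 0 < m := Nat.pos_of_dvd_of_pos hm L.q_pos
  have hmR : (0 : ℝ) < m := by exact_mod_cast hm0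
  set Ks := (Finset.range (m ^ 4)).filter fun k => (L.W E₀ m k).Nonempty with hKs
  have hKsC : (#Ks : ℝ) ≤ C * m := hreg.rel
  have hy : 2 ≤ c * m / (4 * C) := by
    have : (m₀ : ℝ) ≤ m := by exact_mod_cast hmm
    have h2 := hm₀.trans this
    rw [div_le_iff₀ hc] at h2
    rw [le_div_iff₀ (by positivity)]
    linarith
  set u : ℕ := ⌊c * m / (4 * C)⌋₊ with hu
  have hu1 : (u : ℝ) ≤ c * m / (4 * C) := Nat.floor_le (by positivity)
  have hu2 : c * m / (8 * C) ≤ u := by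
    have h1 := Nat.lt_floor_add_one (c * m / (4 * C))
    have h2 : c * m / (8 * C) = c * m / (4 * C) / 2 := by field_simp; norm_num
    rw [h2]
    linarith
  have hu3 : 1 ≤ u := Nat.le_floor (by push_cast; linarith)
  obtain ⟨bl, hbl1, hbl2, hbl3⟩ := r1_blocks Ks (fun k => L.hi m k - L.lo m k) hu3
  have hblB : ∀ k, bl k ≤ B₀ := by
    intro k
    have h1 : (bl k : ℝ) * u ≤ C * m := le_trans (by exact_mod_cast hbl1 k) hKsC
    have h2 : (bl k : ℝ) * (c * m / (8 * C)) ≤ C * m := le_trans (by gcongr) h1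
    have h3 : (bl k : ℝ) ≤ 8 * C ^ 2 / c := by
      rw [le_div_iff₀ hc]
      rw [← mul_div_assoc, div_le_iff₀ (by positivity)] at h2
      refine le_of_mul_le_mul_right ?_ hmR
      nlinarith
    exact_mod_cast h3.trans hB₀
  have hFE : ∀ x, F x ⊆ L.E := fun x => (hF x).trans hreg.sub
  have htot : ∀ x p, deg (F x) p = ∑ k ∈ Ks, deg (L.W (F x) m k) p := by
    intro x p
    rw [L.deg_eq_sum_W hm (hFE x) p]
    refine (sum_subset (filter_subset _ _) fun k hk hk' => ?_).symm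
    have h1 : ¬ (L.W E₀ m k).Nonempty := fun h => hk' (mem_filter.2 ⟨hk, h⟩)
    have h2 : L.W (F x) m k = ∅ :=
      not_nonempty_iff_eq_empty.1 fun h => h1 (h.mono (L.W_mono (hF x) m k))
    simp [h2, deg]
  let g : Fin 3 → Pt → ℕ → ℝ := fun x p β =>
    ∑ k ∈ Ks.filter (fun k => bl k < β), (deg (L.W (F x) m k) p : ℝ)
  have hex : ∀ p ∈ Z₁, ∃ β, β ≤ B₀ ∧ (∀ x, c * L.d / 2 ≤ g x p (β + 1)) ∧
      ∃ x, g x p β < c * L.d / 2 := by
    intro p hp
    have h1 : ∀ x, c * L.d / 2 ≤ g x p (B₀ + 1) := by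
      intro x
      have : Ks.filter (fun k => bl k < B₀ + 1) = Ks :=
        filter_true_of_mem fun k _ => Nat.lt_succ_of_le (hblB k)
      simp only [g, this]
      have h2 := hdeg p hp x
      rw [htot] at h2
      push_cast at h2
      nlinarith
    have h2 : ∃ β, ∀ x, c * L.d / 2 ≤ g x p (β + 1) := ⟨B₀, h1⟩
    refine ⟨Nat.find h2, Nat.find_min' h2 h1, Nat.find_spec h2, ?_⟩
    rcases Nat.eq_zero_or_pos (Nat.find h2) with h0 | h0
    · refine ⟨0, ?_⟩
      simp only [g, h0]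
      simp
      positivity
    · have h3 := Nat.find_min h2 (m := Nat.find h2 - 1) (by omega)
      push Not at h3
      obtain ⟨x, hx⟩ := h3
      rw [Nat.sub_add_cancel h0] at hx
      exact ⟨x, hx⟩
  choose! βp hβ1 hβ2 hβ3 using hex
  obtain ⟨β, hβ⟩ := r1_pigeon Z₁ B₀ βp hβ1
  set Z₂ := Z₁.filter fun p => βp p = β with hZ₂
  have hZ₂c : c / (B₀ + 1) * L.N ≤ #Z₂ := by
    have : (#Z₁ : ℝ) ≤ #Z₂ * (B₀ + 1) := by exact_mod_cast hβ
    rw [div_mul_eq_mul_div, div_le_iff₀ (by positivity)]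
    linarith
  obtain ⟨p₀, hp₀⟩ : Z₂.Nonempty := by
    rw [← card_pos]
    have : (0 : ℝ) < #Z₂ := lt_of_lt_of_le (by positivity) hZ₂c
    exact_mod_cast this
  have hne : (Ks.filter fun k => bl k < β + 1).Nonempty := by
    by_contra hc'
    have h1 := hβ2 p₀ (mem_filter.1 hp₀).1 0
    rw [(mem_filter.1 hp₀).2] at h1
    simp only [g, not_nonempty_iff_eq_empty.1 hc', sum_empty] at h1
    have : 0 < c * L.d / 2 := by positivity
    linarith
  obtain ⟨k₀, hk₀, hmax⟩ := exists_max_image _ (fun k => L.hi m k - L.lo m k) hne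
  have hk₀' := mem_filter.1 hk₀
  have hcm1 : min (c / 4) (c / (B₀ + 1)) ≤ c / 4 := min_le_left _ _
  refine ⟨L.hi m k₀ - L.lo m k₀, ?_, Z₂, filter_subset _ _, ?_, fun p hp => ⟨fun x => ?_, ?_⟩⟩
  · obtain ⟨e, he⟩ := (mem_filter.1 hk₀'.1).2
    rw [L.mem_W] at he
    linarith [he.2.1, he.2.2]
  · refine le_trans ?_ hZ₂c
    gcongr
    exact min_le_right _ _
  · have h1 := hβ2 p (mem_filter.1 hp).1 x
    rw [(mem_filter.1 hp).2] at h1
    have h2 := L.r1_sum_le_sel hm (hFE x) (fun k => L.hi m k - L.lo m k ≤ L.hi m k₀ - L.lo m k₀)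
      (K := Ks.filter fun k => bl k < β + 1) ((filter_subset _ _).trans (filter_subset _ _)) hmax p
    have h3 : g x p (β + 1) ≤ (deg (L.sel (F x) m
        fun k => L.hi m k - L.lo m k ≤ L.hi m k₀ - L.lo m k₀) p : ℝ) := by
      simp only [g]
      exact_mod_cast h2
    refine le_trans ?_ (h1.trans h3)
    calc _ ≤ c / 4 * L.d := by gcongr
      _ ≤ c * L.d / 2 := by nlinarith
  · obtain ⟨x, hx⟩ := hβ3 p (mem_filter.1 hp).1
    rw [(mem_filter.1 hp).2] at hx
    have h1 := hdeg p (mem_filter.1 hp).1 x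
    rw [htot] at h1
    push_cast at h1
    have hsplit : ∑ k ∈ Ks, (deg (L.W (F x) m k) p : ℝ) ≤ g x p β +
        ∑ k ∈ Ks.filter (fun k => bl k = β), (deg (L.W (F x) m k) p : ℝ) +
        ∑ k ∈ Ks.filter (fun k => β < bl k), (deg (L.W (F x) m k) p : ℝ) := by
      simp only [g, sum_filter, ← sum_add_distrib]
      refine sum_le_sum fun k _ => ?_
      rcases lt_trichotomy (bl k) β with h | h | h
      · simp [h, h.ne, not_lt.2 h.le]
      · simp [h]
      · simp [h, h.ne', not_lt.2 h.le]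
    have h2 : ∑ k ∈ Ks.filter (fun k => bl k = β), (deg (L.W (F x) m k) p : ℝ) ≤ c * L.d / 4 := by
      calc ∑ k ∈ Ks.filter (fun k => bl k = β), (deg (L.W (F x) m k) p : ℝ)
          ≤ ∑ k ∈ Ks.filter (fun k => bl k = β), C * L.d / m := by
            refine sum_le_sum fun k _ => le_trans ?_ (hreg.deg_W_le hb hC0.le k p)
            exact_mod_cast deg_mono (L.W_mono (hF x) m k) p
        _ = #(Ks.filter fun k => bl k = β) * (C * L.d / m) := by simp
        _ ≤ u * (C * L.d / m) := by gcongr; exact hbl2 β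
        _ ≤ c * m / (4 * C) * (C * L.d / m) := by gcongr
        _ = c * L.d / 4 := by field_simp
    have h3 := L.r1_sum_le_sel hm hreg.sub (fun k => L.hi m k₀ - L.lo m k₀ ≤ L.hi m k - L.lo m k)
      (K := Ks.filter fun k => β < bl k) ((filter_subset _ _).trans (filter_subset _ _))
      (fun k hk => hbl3 k₀ hk₀'.1 k (mem_filter.1 hk).1
        (lt_of_le_of_lt (Nat.le_of_lt_succ hk₀'.2) (mem_filter.1 hk).2)) p
    have h4 : ∑ k ∈ Ks.filter (fun k => β < bl k), (deg (L.W (F x) m k) p : ℝ) ≤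
        (deg (L.sel E₀ m fun k => L.hi m k₀ - L.lo m k₀ ≤ L.hi m k - L.lo m k) p : ℝ) := by
      refine le_trans ?_ (Nat.cast_le.2 h3)
      push_cast
      exact sum_le_sum fun k _ => by exact_mod_cast deg_mono (L.W_mono (hF x) m k) p
    calc _ ≤ c / 4 * L.d := by gcongr
      _ ≤ _ := by linarith

end Loc

end Crest.Agent.R51
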