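import Crest.Agent.R51.Basic

/-! A dense graph of pairs has many edges of the same horizontal length at one point. -/

namespace Crest.Agent.R51

open Finset
open scoped Classical

/-- Slopes from a far point `o` to the points of a grid square of side `δ D` differ by at most `4 δ`:
`|sl (a, o) - sl (a', o)| ≤ (|Δy| + |sl (a', o)| |Δx|) / (o.1 - a.1)`. -/
theorem sl_atom {o a a' : Pt} {D δ : ℝ} (hD : 0 < D) (hδ : 0 < δ) (ha : D / 2 ≤ o.1 - a.1)
    (ha' : D / 2 ≤ o.1 - a'.1) (hs : |sl (a', o)| ≤ 1)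
    (hx : ⌊a.1 / (δ * D)⌋ = ⌊a'.1 / (δ * D)⌋) (hy : ⌊a.2 / (δ * D)⌋ = ⌊a'.2 / (δ * D)⌋) :
    |sl (a, o) - sl (a', o)| ≤ 4 * δ := by
  have hδD : 0 < δ * D := by positivity
  have key : ∀ s t : ℝ, ⌊s / (δ * D)⌋ = ⌊t / (δ * D)⌋ → |s - t| ≤ δ * D := by
    intro s t h
    have h1 := Int.abs_sub_lt_one_of_floor_eq_floor h
    rw [← sub_div, abs_div, abs_of_pos hδD, div_lt_one hδD] at h1
    exact h1.le
  have h1 := key _ _ hx
  have h2 := key _ _ hy
  have hΔ : 0 < o.1 - a.1 := by linarith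
  have hΔ' : 0 < o.1 - a'.1 := by linarith
  set s' := sl (a', o) with hs'
  have e1 : o.2 - a'.2 = s' * (o.1 - a'.1) := by
    rw [hs']
    unfold sl
    field_simp
  have e2 : sl (a, o) - s' = (s' * (a.1 - a'.1) - (a.2 - a'.2)) / (o.1 - a.1) := by
    unfold sl
    field_simp
    linarith
  rw [e2, abs_div, abs_of_pos hΔ, div_le_iff₀ hΔ]
  have h3 : |s' * (a.1 - a'.1) - (a.2 - a'.2)| ≤ |s'| * |a.1 - a'.1| + |a.2 - a'.2| := by
    rw [← abs_mul]
    exact abs_sub _ _
  have h4 : |s'| * |a.1 - a'.1| ≤ 1 * (δ * D) := by gcongr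
  nlinarith

/-- At most ten disjoint windows of length at least `δ` meet an interval of length `8 δ`. -/
theorem card_long_windows (lo hi : ℕ → ℝ) (h : ∀ k k', k < k' → hi k ≤ lo k') {δ x : ℝ}
    (hδ : 0 < δ) (Ks : Finset ℕ)
    (hK : ∀ k ∈ Ks, δ ≤ hi k - lo k ∧ ∃ s, lo k < s ∧ s ≤ hi k ∧ |s - x| ≤ 4 * δ) : #Ks ≤ 10 := by
  have h1 : #Ks ≤ #(Finset.Icc (0 : ℤ) 9) := by
    apply card_le_card_of_injOn (fun k => ⌊(min (hi k) (x + 5 * δ) - (x - 4 * δ)) / δ⌋)
    · intro k hk
      obtain ⟨-, s, -, h2, h3⟩ := hK k hk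
      rw [abs_le] at h3
      rw [coe_Icc, Set.mem_Icc]
      constructor
      · apply Int.floor_nonneg.2
        apply div_nonneg _ hδ.le
        have : x - 4 * δ ≤ min (hi k) (x + 5 * δ) := le_min (by linarith) (by linarith)
        linarith
      · have : (min (hi k) (x + 5 * δ) - (x - 4 * δ)) / δ ≤ (9 : ℤ) := by
          rw [div_le_iff₀ hδ]
          push_cast
          linarith [min_le_right (hi k) (x + 5 * δ)]
        exact (Int.floor_mono this).trans (Int.floor_intCast _).le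
    · have key : ∀ k ∈ Ks, ∀ k' ∈ Ks, k < k' → ⌊(min (hi k) (x + 5 * δ) - (x - 4 * δ)) / δ⌋ <
          ⌊(min (hi k') (x + 5 * δ) - (x - 4 * δ)) / δ⌋ := by
        intro k _ k' hk' hkk
        obtain ⟨h0, s, h1, -, h3⟩ := hK k' hk'
        rw [abs_le] at h3
        have h4 := h k k' hkk
        have h5 : min (hi k) (x + 5 * δ) + δ ≤ min (hi k') (x + 5 * δ) :=
          le_min (by linarith [min_le_left (hi k) (x + 5 * δ)])
            (by linarith [min_le_left (hi k) (x + 5 * δ)])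
        have h6 : (min (hi k) (x + 5 * δ) - (x - 4 * δ)) / δ + 1 ≤
            (min (hi k') (x + 5 * δ) - (x - 4 * δ)) / δ := by
          rw [div_add_one hδ.ne']
          gcongr ?_ / δ
          linarith
        have h7 := Int.floor_mono h6
        rw [Int.floor_add_one] at h7
        omega
      intro k hk k' hk' he
      rcases lt_trichotomy k k' with h1 | h1 | h1
      · exact absurd he (key k hk k' hk' h1).ne
      · exact h1
      · exact absurd he.symm (key k' hk' k hk h1).ne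
  simpa using h1

end Crest.Agent.R51
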