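import Crest.Agent.R51.Basic
import Crest.Agent.R51.R3

/-! A dense graph of pairs has many edges of the same horizontal length at one point. -/

namespace Crest.Agent.R51

open Finset
open scoped Classical

theorem R2_dyadic {Δ T : ℝ} (h1 : T ≤ 200 * Δ) (h2 : Δ ≤ T) (_hT : 0 < T) :
    ∃ j ∈ Finset.range 8, T / 2 ^ j / 2 ≤ Δ ∧ Δ ≤ T / 2 ^ j := by
  by_cases c0 : T / 2 ≤ Δ
  · exact ⟨0, by simp, by norm_num; linarith, by norm_num; linarith⟩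
  by_cases c1 : T / 4 ≤ Δ
  · exact ⟨1, by simp, by norm_num; linarith, by norm_num; linarith⟩
  by_cases c2 : T / 8 ≤ Δ
  · exact ⟨2, by simp, by norm_num; linarith, by norm_num; linarith⟩
  by_cases c3 : T / 16 ≤ Δ
  · exact ⟨3, by simp, by norm_num; linarith, by norm_num; linarith⟩
  by_cases c4 : T / 32 ≤ Δ
  · exact ⟨4, by simp, by norm_num; linarith, by norm_num; linarith⟩
  by_cases c5 : T / 64 ≤ Δ
  · exact ⟨5, by simp, by norm_num; linarith, by norm_num; linarith⟩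
  by_cases c6 : T / 128 ≤ Δ
  · exact ⟨6, by simp, by norm_num; linarith, by norm_num; linarith⟩
  · exact ⟨7, by simp, by norm_num; linarith, by norm_num; linarith⟩

theorem R2_one {Δ S w : ℝ} (hw : 0 < w) (hS : 0 < S) (h1 : w * Δ ≤ S) (h2 : S ≤ 200 * (w * Δ)) :
    ∃ j ∈ Finset.range 8, 0 < S / w / 2 ^ j ∧ S / w / 2 ^ j / 2 ≤ Δ ∧ Δ ≤ S / w / 2 ^ j := by
  obtain ⟨j, hj, h⟩ := R2_dyadic (Δ := Δ) (T := S / w)
    (by rw [div_le_iff₀ hw]; linarith) (by rw [le_div_iff₀ hw]; linarith) (by positivity)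
  exact ⟨j, hj, by positivity, h⟩

theorem R2_geo {θ lo₁ hi₁ lo₂ hi₂ : ℝ} {a o₁ o₂ : Pt} (h₁ : a.1 < o₁.1) (h₂ : a.1 < o₂.1)
    (l₁ : lo₁ < sl (a, o₁)) (u₁ : sl (a, o₁) ≤ hi₁) (l₂ : lo₂ < sl (a, o₂)) (u₂ : sl (a, o₂) ≤ hi₂)
    (hθ₁ : hi₁ ≤ θ) (hθ₂ : θ ≤ lo₂) (n₁ : ¬ LL θ lo₁ hi₁) (n₂ : ¬ LL θ lo₂ hi₂) :
    (∃ j ∈ Finset.range 8, 0 < (f θ o₂ - f θ o₁) / (θ - hi₁) / 2 ^ j ∧
        (f θ o₂ - f θ o₁) / (θ - hi₁) / 2 ^ j / 2 ≤ o₁.1 - a.1 ∧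
        o₁.1 - a.1 ≤ (f θ o₂ - f θ o₁) / (θ - hi₁) / 2 ^ j) ∨
      ∃ j ∈ Finset.range 8, 0 < (f θ o₂ - f θ o₁) / (lo₂ - θ) / 2 ^ j ∧
        (f θ o₂ - f θ o₁) / (lo₂ - θ) / 2 ^ j / 2 ≤ o₂.1 - a.1 ∧
        o₂.1 - a.1 ≤ (f θ o₂ - f θ o₁) / (lo₂ - θ) / 2 ^ j := by
  have e₁ := f_sub (a, o₁) h₁ θ
  have e₂ := f_sub (a, o₂) h₂ θ
  simp only at e₁ e₂
  have m₁ : θ - lo₁ < 100 * (θ - hi₁) := by
    by_contra hc
    exact n₁ (Or.inr ⟨hθ₁, not_lt.1 hc⟩)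
  have m₂ : hi₂ - θ < 100 * (lo₂ - θ) := by
    by_contra hc
    exact n₂ (Or.inl ⟨hθ₂, not_lt.1 hc⟩)
  have d₁ : 0 < o₁.1 - a.1 := by linarith
  have d₂ : 0 < o₂.1 - a.1 := by linarith
  have w₁ : 0 < θ - hi₁ := by linarith
  have w₂ : 0 < lo₂ - θ := by linarith
  set Δ₁ := o₁.1 - a.1
  set Δ₂ := o₂.1 - a.1
  set s₁ := sl (a, o₁)
  set s₂ := sl (a, o₂)
  have hS : f θ o₂ - f θ o₁ = Δ₂ * (s₂ - θ) + Δ₁ * (θ - s₁) := by linarith
  have a₁ : (θ - hi₁) * Δ₁ ≤ Δ₁ * (θ - s₁) := by nlinarith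
  have a₂ : (lo₂ - θ) * Δ₂ ≤ Δ₂ * (s₂ - θ) := by nlinarith
  have b₁ : Δ₁ * (θ - s₁) ≤ 100 * ((θ - hi₁) * Δ₁) := by nlinarith
  have b₂ : Δ₂ * (s₂ - θ) ≤ 100 * ((lo₂ - θ) * Δ₂) := by nlinarith
  have p₁ : 0 < (θ - hi₁) * Δ₁ := mul_pos w₁ d₁
  have p₂ : 0 < (lo₂ - θ) * Δ₂ := mul_pos w₂ d₂
  rcases le_total (Δ₂ * (s₂ - θ)) (Δ₁ * (θ - s₁)) with h | h
  · exact Or.inl (R2_one w₁ (by linarith) (by linarith) (by linarith))
  · exact Or.inr (R2_one w₂ (by linarith) (by linarith) (by linarith))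

/-- A median window. -/
theorem R2_median {α : Type} (X : Finset α) (κ : α → ℕ) {r : ℝ} (hr : 0 < r)
    (hX : r ≤ #X) (hf : ∀ k, (#(X.filter fun x => κ x = k) : ℝ) ≤ r) :
    ∃ k₀, (∃ x ∈ X, κ x = k₀) ∧ r ≤ #(X.filter fun x => κ x ≤ k₀) ∧
      (#X : ℝ) ≤ #(X.filter fun x => k₀ < κ x) + 2 * r := by
  have hex : ∃ k, r ≤ #(X.filter fun x => κ x ≤ k) := by
    refine ⟨X.sup κ, ?_⟩
    rw [filter_true_of_mem fun x hx => le_sup hx]
    exact hX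
  set k₀ := Nat.find hex with hk₀
  have h1 : r ≤ #(X.filter fun x => κ x ≤ k₀) := Nat.find_spec hex
  have h2 : (#(X.filter fun x => κ x < k₀) : ℝ) < r := by
    rcases Nat.eq_zero_or_pos k₀ with h0 | h0
    · rw [h0]
      simpa using hr
    · have := Nat.find_min hex (m := k₀ - 1) (by omega)
      rw [not_le] at this
      refine lt_of_le_of_lt ?_ this
      exact_mod_cast card_le_card fun x hx => by
        rw [mem_filter] at hx ⊢
        exact ⟨hx.1, by omega⟩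
  refine ⟨k₀, ?_, h1, ?_⟩
  · by_contra hc
    push Not at hc
    have : (X.filter fun x => κ x ≤ k₀) ⊆ X.filter fun x => κ x < k₀ := fun x hx => by
      rw [mem_filter] at hx ⊢
      exact ⟨hx.1, lt_of_le_of_ne hx.2 (hc x hx.1)⟩
    have h3 : (#(X.filter fun x => κ x ≤ k₀) : ℝ) ≤ #(X.filter fun x => κ x < k₀) := by
      exact_mod_cast card_le_card this
    linarith
  · have h3 : X ⊆ (X.filter fun x => k₀ < κ x) ∪
        ((X.filter fun x => κ x < k₀) ∪ X.filter fun x => κ x = k₀) := fun x hx => by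
      simp only [mem_union, mem_filter]
      rcases lt_trichotomy (κ x) k₀ with h | h | h
      · exact Or.inr (Or.inl ⟨hx, h⟩)
      · exact Or.inr (Or.inr ⟨hx, h⟩)
      · exact Or.inl ⟨hx, h⟩
    have h4 := (card_le_card h3).trans ((card_union_le _ _).trans
      (Nat.add_le_add_left (card_union_le _ _) _))
    have h5 : (#X : ℝ) ≤ #(X.filter fun x => k₀ < κ x) +
        (#(X.filter fun x => κ x < k₀) + #(X.filter fun x => κ x = k₀)) := by exact_mod_cast h4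
    linarith [hf k₀]

/-- Few elements have a label in a small set. -/
theorem R2_bad {α : Type} (X : Finset α) (κ : α → ℕ) (B : Finset ℕ) {t : ℝ}
    (hf : ∀ k, (#(X.filter fun x => κ x = k) : ℝ) ≤ t) :
    (#(X.filter fun x => κ x ∈ B) : ℝ) ≤ #B * t := by
  have h1 : (X.filter fun x => κ x ∈ B) ⊆ B.biUnion fun k => X.filter fun x => κ x = k :=
    fun x hx => by
      rw [mem_filter] at hx
      exact mem_biUnion.2 ⟨κ x, hx.2, mem_filter.2 ⟨hx.1, rfl⟩⟩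
  have h2 := (card_le_card h1).trans card_biUnion_le
  calc (#(X.filter fun x => κ x ∈ B) : ℝ) ≤ ∑ k ∈ B, (#(X.filter fun x => κ x = k) : ℝ) := by
        exact_mod_cast h2
    _ ≤ ∑ _k ∈ B, t := sum_le_sum fun k _ => hf k
    _ = #B * t := by rw [sum_const, nsmul_eq_mul]

/-- Removing the elements with a bad label. -/
theorem R2_remove {α : Type} (X : Finset α) (κ : α → ℕ) (B : Finset ℕ) (p : α → Prop)
    [DecidablePred p] :
    (#(X.filter p) : ℝ) ≤ #(X.filter fun x => p x ∧ κ x ∉ B) + #(X.filter fun x => κ x ∈ B) := by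
  have h1 : X.filter p ⊆ (X.filter fun x => p x ∧ κ x ∉ B) ∪ X.filter fun x => κ x ∈ B :=
    fun x hx => by
      rw [mem_filter] at hx
      simp only [mem_union, mem_filter]
      by_cases h : κ x ∈ B
      · exact Or.inr ⟨hx.1, h⟩
      · exact Or.inl ⟨hx.1, hx.2, h⟩
  exact_mod_cast (card_le_card h1).trans (card_union_le _ _)

/-- Averaging. -/
theorem R2_avg {ι α : Type} (I : Finset ι) (A : Finset α) (R : ι → α → Prop) {t B : ℝ}
    (ht : 0 < t) (hA : A.Nonempty) (hB : (#I : ℝ) ≤ B)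
    (h : ∀ a ∈ A, t ≤ #(I.filter fun x => R x a)) :
    ∃ x ∈ I, t * #A ≤ B * #(A.filter (R x)) := by
  have hI : I.Nonempty := by
    obtain ⟨a, ha⟩ := hA
    have h1 := h a ha
    have h2 : 0 < #(I.filter fun x => R x a) := by exact_mod_cast lt_of_lt_of_le ht h1
    exact (card_pos.1 h2).mono (filter_subset _ _)
  have h1 : ∑ x ∈ I, (#(A.filter (R x)) : ℝ) = ∑ a ∈ A, (#(I.filter fun x => R x a) : ℝ) := by
    simp only [card_filter]
    push_cast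
    exact sum_comm
  obtain ⟨x, hx, hmax⟩ := exists_max_image I (fun x => (#(A.filter (R x)) : ℝ)) hI
  refine ⟨x, hx, ?_⟩
  calc t * #A = ∑ _a ∈ A, t := by rw [sum_const, nsmul_eq_mul, mul_comm]
    _ ≤ ∑ a ∈ A, (#(I.filter fun x => R x a) : ℝ) := sum_le_sum h
    _ = ∑ x ∈ I, (#(A.filter (R x)) : ℝ) := h1.symm
    _ ≤ ∑ _y ∈ I, (#(A.filter (R x)) : ℝ) := sum_le_sum hmax
    _ = #I * (#(A.filter (R x)) : ℝ) := by rw [sum_const, nsmul_eq_mul]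
    _ ≤ B * #(A.filter (R x)) := by gcongr

/-- Many points have a large right degree. -/
theorem R2_good {c N : ℝ} (hc : 0 < c) (hN : 0 < N) {Z : Finset Pt} {H : Finset Ed}
    (hZ : (#Z : ℝ) ≤ N) (hH : H ⊆ pairs Z) (hcard : c * N ^ 2 ≤ #H) :
    c * N / 2 ≤ #(Z.filter fun a => c * N / 2 ≤ #(Z.filter fun o => (a, o) ∈ H)) := by
  set A := Z.filter fun a => c * N / 2 ≤ #(Z.filter fun o => (a, o) ∈ H) with hA
  have h1 : H ⊆ Z.biUnion fun a => (Z.filter fun o => (a, o) ∈ H).image fun o => (a, o) :=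
    fun e he => by
      have := mem_pairs.1 (hH he)
      exact mem_biUnion.2 ⟨e.1, this.1, mem_image.2 ⟨e.2, mem_filter.2 ⟨this.2.1, he⟩, rfl⟩⟩
  have h2 : #H ≤ ∑ a ∈ Z, #(Z.filter fun o => (a, o) ∈ H) :=
    (card_le_card h1).trans (card_biUnion_le.trans (sum_le_sum fun a _ => card_image_le))
  have h3 : (#H : ℝ) ≤ ∑ a ∈ Z, (#(Z.filter fun o => (a, o) ∈ H) : ℝ) := by exact_mod_cast h2
  have h4 : ∑ a ∈ Z, (#(Z.filter fun o => (a, o) ∈ H) : ℝ) ≤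
      ∑ a ∈ Z, ((if a ∈ A then N else 0) + c * N / 2) := by
    refine sum_le_sum fun a ha => ?_
    split_ifs with h
    · have : (#(Z.filter fun o => (a, o) ∈ H) : ℝ) ≤ #Z := by
        exact_mod_cast card_le_card (filter_subset _ _)
      have : 0 < c * N / 2 := by positivity
      linarith
    · have : ¬ c * N / 2 ≤ #(Z.filter fun o => (a, o) ∈ H) := fun h' =>
        h (mem_filter.2 ⟨ha, h'⟩)
      linarith [not_le.1 this]
  have h5 : ∑ a ∈ Z, ((if a ∈ A then N else 0) + c * N / 2) = #A * N + #Z * (c * N / 2) := by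
    rw [sum_add_distrib, sum_ite_mem, inter_eq_right.2 (filter_subset _ _), sum_const, sum_const,
      nsmul_eq_mul, nsmul_eq_mul]
  have h6 : #Z * (c * N / 2) ≤ N * (c * N / 2) := by gcongr
  have h7 : c * N / 2 * N ≤ #A * N := by nlinarith
  exact le_of_mul_le_mul_right h7 hN

/-- The index set of the averaging. -/
abbrev R2Idx : Type := (Pt × Pt) × (ℕ × ℕ) × (Bool × ℕ)

/-- The right end that belongs to an index. -/
def R2o (x : R2Idx) : Pt := if x.2.2.1 then x.1.1 else x.1.2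

/-- The length that belongs to an index. -/
noncomputable def R2D (lo hi : ℕ → ℝ) (x : R2Idx) : ℝ :=
  (f (hi x.2.1.1) x.1.2 - f (hi x.2.1.1) x.1.1) /
    (if x.2.2.1 then hi x.2.1.1 - hi x.2.1.2 else lo x.2.1.2 - hi x.2.1.1) / 2 ^ x.2.2.2

/-- The relation between an index and a point. -/
def R2R (lo hi : ℕ → ℝ) (H : Finset Ed) (x : R2Idx) (a : Pt) : Prop :=
  0 < R2D lo hi x ∧ (a, R2o x) ∈ H ∧ R2D lo hi x / 2 ≤ (R2o x).1 - a.1 ∧
    (R2o x).1 - a.1 ≤ R2D lo hi x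

theorem R2_point {C c m N : ℝ} (hC : 0 < C) (hc : 0 < c) (hm : 0 < m) (hN : 0 < N)
    (hm₀ : 8 * C / c ≤ m) {Z : Finset Pt} {lo hi : ℕ → ℝ} {Ks : Finset ℕ} {H : Finset Ed}
    (hw : ∀ k k', k < k' → hi k ≤ lo k') (hH : H ⊆ pairs Z)
    (hK : ∀ e ∈ H, ∃ k ∈ Ks, lo k < sl e ∧ sl e ≤ hi k)
    (hdeg : ∀ k p, (deg (tm H (lo k) (hi k)) p : ℝ) ≤ C * N / m)
    (hLL : ∀ θ, (#(Ks.filter fun k => LL θ (lo k) (hi k)) : ℝ) ≤ c / (16 * C) * m) {a : Pt}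
    (ha : c * N / 2 ≤ #(Z.filter fun o => (a, o) ∈ H)) :
    (c * N / 16) ^ 2 ≤ #(((Z ×ˢ Z) ×ˢ (Ks ×ˢ Ks) ×ˢ ((univ : Finset Bool) ×ˢ Finset.range 8)).filter
      fun x => R2R lo hi H x a) := by
  set X := Z.filter fun o => (a, o) ∈ H with hX
  have hκ : ∀ o : Pt, ∃ k : ℕ, (a, o) ∈ H → k ∈ Ks ∧ lo k < sl (a, o) ∧ sl (a, o) ≤ hi k := by
    intro o
    by_cases h : (a, o) ∈ H
    · obtain ⟨k, hk⟩ := hK _ h
      exact ⟨k, fun _ => hk⟩
    · exact ⟨0, fun h' => absurd h' h⟩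
  choose κ hκ using hκ
  have hκX : ∀ o ∈ X, κ o ∈ Ks ∧ lo (κ o) < sl (a, o) ∧ sl (a, o) ≤ hi (κ o) :=
    fun o ho => hκ o (mem_filter.1 ho).2
  have hf : ∀ k, (#(X.filter fun o => κ o = k) : ℝ) ≤ C * N / m := by
    intro k
    refine le_trans ?_ (hdeg k a)
    have : #(X.filter fun o => κ o = k) ≤ deg (tm H (lo k) (hi k)) a := by
      refine card_le_card_of_injOn (fun o => (a, o)) ?_ ?_
      · intro o ho
        rw [mem_coe, mem_filter] at ho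
        have h1 := hκX o ho.1
        rw [ho.2] at h1
        rw [mem_coe, mem_filter, mem_tm]
        exact ⟨⟨(mem_filter.1 ho.1).2, h1.2⟩, Or.inl rfl⟩
      · intro o _ o' _ h
        exact (Prod.ext_iff.1 h).2
    exact_mod_cast this
  have hr : C * N / m ≤ c * N / 8 := by
    rw [div_le_iff₀ hc] at hm₀
    rw [div_le_iff₀ hm]
    nlinarith
  have hcN : 0 < c * N := by positivity
  obtain ⟨k₀, ⟨o₀, ho₀, hk₀⟩, h1, h2⟩ := R2_median X κ (r := c * N / 8) (by positivity)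
    (by linarith) fun k => (hf k).trans hr
  have hk₀K : k₀ ∈ Ks := hk₀ ▸ (hκX o₀ ho₀).1
  have hlh : lo k₀ ≤ hi k₀ := by
    have := hκX o₀ ho₀
    rw [hk₀] at this
    linarith [this.2.1, this.2.2]
  set B := Ks.filter fun k => LL (hi k₀) (lo k) (hi k) with hB
  have hbad : (#(X.filter fun o => κ o ∈ B) : ℝ) ≤ c * N / 16 := by
    calc (#(X.filter fun o => κ o ∈ B) : ℝ) ≤ #B * (C * N / m) := R2_bad X κ B hf
      _ ≤ c / (16 * C) * m * (C * N / m) := by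
        gcongr
        exact hLL _
      _ = c * N / 16 := by field_simp
  have h3 := R2_remove X κ B fun o => κ o ≤ k₀
  have h4 := R2_remove X κ B fun o => k₀ < κ o
  set N₁ := X.filter fun o => κ o ≤ k₀ ∧ κ o ∉ B with hN₁
  set N₂ := X.filter fun o => k₀ < κ o ∧ κ o ∉ B with hN₂
  have c₁ : c * N / 16 ≤ #N₁ := by
    have : c * N / 8 ≤ (#N₁ : ℝ) + #(X.filter fun o => κ o ∈ B) := by
      exact le_trans h1 h3
    linarith
  have c₂ : c * N / 16 ≤ #N₂ := by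
    have : (#(X.filter fun o => k₀ < κ o) : ℝ) ≤ (#N₂ : ℝ) + #(X.filter fun o => κ o ∈ B) := by
      exact h4
    linarith
  have hsub : N₁ ×ˢ N₂ ⊆
      (((Z ×ˢ Z) ×ˢ (Ks ×ˢ Ks) ×ˢ ((univ : Finset Bool) ×ˢ Finset.range 8)).filter
        fun x => R2R lo hi H x a).image Prod.fst := by
    rintro ⟨o₁, o₂⟩ ho
    rw [mem_product] at ho
    obtain ⟨ho₁, ho₂⟩ := ho
    rw [mem_filter] at ho₁ ho₂
    simp only at ho₁ ho₂
    have w₁ := hκX o₁ ho₁.1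
    have w₂ := hκX o₂ ho₂.1
    have z₁ := mem_filter.1 ho₁.1
    have z₂ := mem_filter.1 ho₂.1
    have hθ₁ : hi (κ o₁) ≤ hi k₀ := by
      rcases eq_or_lt_of_le ho₁.2.1 with h | h
      · rw [h]
      · exact (hw _ _ h).trans hlh
    have n₁ : ¬ LL (hi k₀) (lo (κ o₁)) (hi (κ o₁)) := fun h => ho₁.2.2 (mem_filter.2 ⟨w₁.1, h⟩)
    have n₂ : ¬ LL (hi k₀) (lo (κ o₂)) (hi (κ o₂)) := fun h => ho₂.2.2 (mem_filter.2 ⟨w₂.1, h⟩)
    rcases R2_geo (mem_pairs.1 (hH z₁.2)).2.2 (mem_pairs.1 (hH z₂.2)).2.2 w₁.2.1 w₁.2.2 w₂.2.1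
      w₂.2.2 hθ₁ (hw _ _ ho₂.2.1) n₁ n₂ with ⟨j, hj, h⟩ | ⟨j, hj, h⟩
    · refine mem_image.2 ⟨((o₁, o₂), (k₀, κ o₁), (true, j)), mem_filter.2 ⟨?_, ?_⟩, rfl⟩
      · simp only [mem_product, mem_univ, true_and]
        exact ⟨⟨z₁.1, z₂.1⟩, ⟨hk₀K, w₁.1⟩, hj⟩
      · exact ⟨h.1, z₁.2, h.2.1, h.2.2⟩
    · refine mem_image.2 ⟨((o₁, o₂), (k₀, κ o₂), (false, j)), mem_filter.2 ⟨?_, ?_⟩, rfl⟩
      · simp only [mem_product, mem_univ, true_and]
        exact ⟨⟨z₁.1, z₂.1⟩, ⟨hk₀K, w₂.1⟩, hj⟩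
      · exact ⟨h.1, z₂.2, h.2.1, h.2.2⟩
  have h5 := (card_le_card hsub).trans card_image_le
  rw [card_product] at h5
  calc (c * N / 16) ^ 2 = (c * N / 16) * (c * N / 16) := sq _
    _ ≤ (#N₁ : ℝ) * #N₂ := by gcongr
    _ ≤ _ := by exact_mod_cast h5

/-- Take `ε = c / (16 C)`, `m₀ = 8 C / c`.  At least `c N / 2` points `a` are the left end of at least `c N / 2` pairs of `H`.  For such
`a` let `k₀` be the first window such that at least `c N / 8` of these pairs lie in windows `≤ k₀`; then at least `c N / 4` lie in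
windows `> k₀`.  Let `θ = hi k₀`.  At most `ε m · C N / m = c N / 16` pairs lie in windows that are `LL θ`; so there are windows
`k₁ ≤ k₀ < k₂` in `Ks`, not `LL θ`, each with at least `c₁ N` pairs at `a`, `c₁ = c / (16 C m)`.  Pigeonhole over `(k₀, k₁, k₂) ∈ Ks ^ 3`,
and then over the right ends `(o₁, o₂) ∈ Z ^ 2`: there are fixed `k₀, k₁, k₂, o₁, o₂` and at least `c₂ N` points `a` with `(a, o₁) ∈ H` in the
window `k₁` and `(a, o₂) ∈ H` in the window `k₂`.  Let `w₁ = θ - hi k₁ > 0`, `w₂ = lo k₂ - θ > 0` (not `LL`), `Δᵢ = oᵢ.1 - a.1`; by `f_sub`,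
`S = f θ o₂ - f θ o₁ = (sl₂ - θ) Δ₂ + (θ - sl₁) Δ₁` with `wᵢ ≤ |slᵢ - θ| ≤ 100 wᵢ`.  So `wᵢ Δᵢ ≤ S` for both `i` and `S ≤ 200 wᵢ Δᵢ` for one `i`.
Pigeonhole over `i` and over the eight dyadic intervals that cover `[S / (200 wᵢ), S / wᵢ]`. -/
theorem exists_proper {C c : ℝ} (hC : 0 < C) (hc : 0 < c) : ∃ ε m₀ : ℝ, 0 < ε ∧ ∀ m : ℝ, m₀ ≤ m →
    0 < m → ∃ c' : ℝ, 0 < c' ∧ ∀ (Z : Finset Pt) (N : ℝ) (lo hi : ℕ → ℝ) (Ks : Finset ℕ)
      (H : Finset Ed), 0 < N → (#Z : ℝ) ≤ N → (∀ k k', k < k' → hi k ≤ lo k') →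
      (#Ks : ℝ) ≤ C * m → H ⊆ pairs Z → (∀ e ∈ H, ∃ k ∈ Ks, lo k < sl e ∧ sl e ≤ hi k) →
      (∀ k p, (deg (tm H (lo k) (hi k)) p : ℝ) ≤ C * N / m) →
      (∀ θ, (#(Ks.filter fun k => LL θ (lo k) (hi k)) : ℝ) ≤ ε * m) → c * N ^ 2 ≤ #H →
      ∃ (o : Pt) (D : ℝ) (Γ : Finset Pt), 0 < D ∧ c' * N ≤ #Γ ∧
        ∀ a ∈ Γ, (a, o) ∈ H ∧ D / 2 ≤ o.1 - a.1 ∧ o.1 - a.1 ≤ D := by
  refine ⟨c / (16 * C), 8 * C / c, by positivity, fun m hm₀ hm => ?_⟩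
  refine ⟨(c / 16) ^ 2 * (c / 2) / (16 * (C * m) ^ 2), by positivity, ?_⟩
  intro Z N lo hi Ks H hN hZ hw hKs hH hK hdeg hLL hcard
  have hA := R2_good hc hN hZ hH hcard
  set A := Z.filter fun a => c * N / 2 ≤ #(Z.filter fun o => (a, o) ∈ H) with hAdef
  have hcN : 0 < c * N / 2 := by positivity
  have hne : A.Nonempty := by
    have : 0 < #A := by exact_mod_cast lt_of_lt_of_le hcN hA
    exact card_pos.1 this
  have hI : (#((Z ×ˢ Z) ×ˢ (Ks ×ˢ Ks) ×ˢ ((univ : Finset Bool) ×ˢ Finset.range 8)) : ℝ) ≤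
      N ^ 2 * (16 * (C * m) ^ 2) := by
    simp only [card_product, card_univ, Fintype.card_bool, card_range]
    push_cast
    calc (#Z : ℝ) * #Z * (#Ks * #Ks * 16) ≤ N * N * ((C * m) * (C * m) * 16) := by gcongr
      _ = N ^ 2 * (16 * (C * m) ^ 2) := by ring
  obtain ⟨x, -, hx⟩ := R2_avg _ A (R2R lo hi H) (t := (c * N / 16) ^ 2) (by positivity) hne hI
    fun a ha => by
      convert R2_point hC hc hm hN hm₀ hw hH hK hdeg hLL (mem_filter.1 ha).2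
  have hΓ : (c / 16) ^ 2 * (c / 2) / (16 * (C * m) ^ 2) * N ≤ #(A.filter (R2R lo hi H x)) := by
    rw [div_mul_eq_mul_div, div_le_iff₀ (by positivity)]
    have h1 : (c * N / 16) ^ 2 * (c * N / 2) ≤ (c * N / 16) ^ 2 * #A := by gcongr
    have h2 : N ^ 2 * ((c / 16) ^ 2 * (c / 2) * N) ≤
        N ^ 2 * (#(A.filter (R2R lo hi H x)) * (16 * (C * m) ^ 2)) := by
      calc N ^ 2 * ((c / 16) ^ 2 * (c / 2) * N) = (c * N / 16) ^ 2 * (c * N / 2) := by ring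
        _ ≤ N ^ 2 * (16 * (C * m) ^ 2) * #(A.filter (R2R lo hi H x)) := h1.trans hx
        _ = _ := by ring
    exact le_of_mul_le_mul_left h2 (by positivity)
  have hpos : (0 : ℝ) < #(A.filter (R2R lo hi H x)) := lt_of_lt_of_le (by positivity) hΓ
  obtain ⟨a₀, ha₀⟩ : (A.filter (R2R lo hi H x)).Nonempty := card_pos.1 (by exact_mod_cast hpos)
  exact ⟨R2o x, R2D lo hi x, A.filter (R2R lo hi H x), (mem_filter.1 ha₀).2.1, hΓ,
    fun a ha => (mem_filter.1 ha).2.2⟩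

end Crest.Agent.R51
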