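import Crest.Agent.R51.Basic

/-! Strips in the direction of an active window are heavy. -/

namespace Crest.Agent.R51

open Finset
open scoped Classical

/-- The grid square of side `δ` that contains `p`. -/
noncomputable def atom (δ : ℝ) (p : Pt) : ℤ × ℤ := (⌊p.1 / δ⌋, ⌊p.2 / δ⌋)

/-- Atoms in which `Y` is relatively sparse contain few points of `Y`: sum over the atoms. -/
theorem card_sparse_atoms (Z Y : Finset Pt) (δ : ℝ) {B : ℝ} (hB : 0 < B) :
    (#(Y.filter fun p => B * amass Y δ p < amass Z δ p) : ℝ) ≤ #Z / B := by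
  rw [le_div_iff₀ hB]
  set V := Y.filter fun p => B * amass Y δ p < amass Z δ p with hV
  have h1 : (#V : ℝ) = ∑ t ∈ V.image (atom δ), (#(V.filter fun p => atom δ p = t) : ℝ) := by
    exact_mod_cast card_eq_sum_card_image (atom δ) V
  have h2 : ∑ t ∈ V.image (atom δ), (#(Z.filter fun p => atom δ p = t) : ℝ) ≤ #Z := by
    have : ∑ t ∈ V.image (atom δ), #(Z.filter fun p => atom δ p = t) ≤ #Z := by
      rw [← card_biUnion]
      · exact card_le_card (biUnion_subset.2 fun p _ => filter_subset _ _)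
      · intro p _ q _ hpq
        rw [Function.onFun, disjoint_filter]
        intro e _ h1 h2
        exact hpq (h1.symm.trans h2)
    exact_mod_cast this
  rw [h1, sum_mul]
  refine le_trans (sum_le_sum fun t ht => ?_) h2
  obtain ⟨p, hp, rfl⟩ := mem_image.1 ht
  have h3 := (mem_filter.1 hp).2
  have h4 : (#(V.filter fun z => atom δ z = atom δ p) : ℝ) ≤ amass Y δ p := by
    refine Nat.cast_le.2 (card_le_card fun z hz => ?_)
    obtain ⟨z1, z2⟩ := mem_filter.1 hz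
    exact mem_filter.2 ⟨(mem_filter.1 z1).1, congrArg Prod.fst z2, congrArg Prod.snd z2⟩
  have h5 : (amass Z δ p : ℝ) ≤ #(Z.filter fun z => atom δ z = atom δ p) := by
    refine Nat.cast_le.2 (card_le_card fun z hz => ?_)
    obtain ⟨z1, z2⟩ := mem_filter.1 hz
    exact mem_filter.2 ⟨z1, Prod.ext z2.1 z2.2⟩
  have h6 := mul_le_mul_of_nonneg_right h4 hB.le
  linarith

/-- Atoms near a point lie in its strips: if `|f θ z j - f θ p| ≤ δ` for points `z j` in different atoms, the atoms are disjoint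
and lie in the seven strips around `p` (inside an atom `f θ` varies by less than `2 δ`). -/
theorem sum_amass_le (Y : Finset Pt) {θ δ : ℝ} (hδ : 0 < δ) (h0 : 0 ≤ θ) (h1 : θ ≤ 1) (p : Pt)
    (V : Finset Pt) (hV : ∀ z ∈ V, |f θ z - f θ p| ≤ δ)
    (hinj : ∀ z ∈ V, ∀ z' ∈ V, atom δ z = atom δ z' → z = z') :
    ∑ z ∈ V, amass Y δ z ≤ smass Y θ δ p := by
  unfold amass smass
  rw [← card_biUnion]
  · refine card_le_card (biUnion_subset.2 fun z hz y hy => ?_)
    obtain ⟨y1, y2, y3⟩ := mem_filter.1 hy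
    refine mem_filter.2 ⟨y1, ?_⟩
    have a1 := abs_lt.1 (Int.abs_sub_lt_one_of_floor_eq_floor y2)
    have a2 := abs_lt.1 (Int.abs_sub_lt_one_of_floor_eq_floor y3)
    have a3 : |f θ z / δ - f θ p / δ| ≤ 1 := by
      rw [← sub_div, abs_div, abs_of_pos hδ, div_le_one hδ]; exact hV z hz
    have a4 := abs_le.1 a3
    have a5 : f θ y / δ - f θ z / δ = (y.2 / δ - z.2 / δ) - θ * (y.1 / δ - z.1 / δ) := by
      unfold f; ring
    have a6 : θ * (y.1 / δ - z.1 / δ) ≤ 1 := by nlinarith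
    have a7 : -1 ≤ θ * (y.1 / δ - z.1 / δ) := by nlinarith
    have b1 := Int.floor_le (f θ y / δ)
    have b2 := Int.lt_floor_add_one (f θ y / δ)
    have b3 := Int.floor_le (f θ p / δ)
    have b4 := Int.lt_floor_add_one (f θ p / δ)
    have c1 : ((⌊f θ y / δ⌋ - ⌊f θ p / δ⌋ : ℤ) : ℝ) < ((4 : ℤ) : ℝ) := by push_cast; linarith
    have c2 : ((-4 : ℤ) : ℝ) < ((⌊f θ y / δ⌋ - ⌊f θ p / δ⌋ : ℤ) : ℝ) := by push_cast; linarith
    have c3 := Int.cast_lt.1 c1
    have c4 := Int.cast_lt.1 c2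
    rw [abs_le]
    omega
  · intro z hz z' hz' hne
    rw [Function.onFun, disjoint_filter]
    intro y _ e1 e2
    exact hne (hinj z hz z' hz' (Prod.ext (e1.1.symm.trans e2.1) (e1.2.symm.trans e2.2)))

/-- The weights of the atoms visited by one run.  If `a z = amass Y δ z ≥ a₀ > 0` and `B (∑ a) ^ 2 ≤ a z · N` for all `z ∈ V` then, with `z₀`
minimising `a`, `∑ √(a z / N) ≤ ∑ a z / √(a z₀ N) ≤ 1 / √B` and `#V ≤ ∑ a / a z₀ ≤ √(N / (B a₀))`. -/
theorem sum_sqrt_le {α : Type} (V : Finset α) (a : α → ℝ) {a₀ B N : ℝ} (ha₀ : 0 < a₀) (hB : 0 < B)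
    (hN : 0 < N) (h1 : ∀ z ∈ V, a₀ ≤ a z) (h2 : ∀ z ∈ V, B * (∑ y ∈ V, a y) ^ 2 ≤ a z * N) :
    ∑ z ∈ V, √(a z / N) ≤ 1 / √B ∧ (#V : ℝ) ≤ √(N / (B * a₀)) := by
  rcases V.eq_empty_or_nonempty with rfl | hV
  · simp only [sum_empty, card_empty, Nat.cast_zero]
    exact ⟨by positivity, by positivity⟩
  obtain ⟨z₀, hz₀, hmin⟩ := exists_min_image V a hV
  have hz0 : 0 < a z₀ := ha₀.trans_le (h1 z₀ hz₀)
  have hS : 0 ≤ ∑ y ∈ V, a y := sum_nonneg fun y hy => (ha₀.trans_le (h1 y hy)).le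
  have hsq : 0 < √(a z₀ * N) := Real.sqrt_pos.2 (by positivity)
  have hB' : 0 < √B := Real.sqrt_pos.2 hB
  have k1 : √B * ∑ y ∈ V, a y ≤ √(a z₀ * N) := by
    refine Real.le_sqrt_of_sq_le ?_
    rw [mul_pow, Real.sq_sqrt hB.le]
    exact h2 z₀ hz₀
  constructor
  · have k2 : ∀ z ∈ V, √(a z / N) ≤ a z / √(a z₀ * N) := by
      intro z hz
      have hz' := hmin z hz
      refine Real.sqrt_le_iff.2 ⟨div_nonneg (hz0.le.trans hz') hsq.le, ?_⟩
      rw [div_pow, Real.sq_sqrt (by positivity), div_le_div_iff₀ hN (by positivity)]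
      have := mul_le_mul_of_nonneg_left hz' (show 0 ≤ a z * N by nlinarith)
      nlinarith
    refine (sum_le_sum k2).trans ?_
    rw [← sum_div, div_le_div_iff₀ hsq hB']
    linarith
  · have k3 := card_nsmul_le_sum V a _ hmin
    rw [nsmul_eq_mul] at k3
    refine Real.le_sqrt_of_sq_le ?_
    rw [le_div_iff₀ (by positivity)]
    have k4 : (#V * a z₀) ^ 2 ≤ (∑ y ∈ V, a y) ^ 2 := pow_le_pow_left₀ (by positivity) k3 2
    have k5 : B * (#V * a z₀) ^ 2 ≤ a z₀ * N :=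
      (mul_le_mul_of_nonneg_left k4 hB.le).trans (h2 z₀ hz₀)
    have k6 : B * #V ^ 2 * a z₀ ≤ N := le_of_mul_le_mul_right (by linarith) hz0
    have k7 := mul_le_mul_of_nonneg_left (h1 z₀ hz₀) (show 0 ≤ B * (#V : ℝ) ^ 2 by positivity)
    linarith

namespace Loc

end Loc

end Crest.Agent.R51
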