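import Crest.Agent.R51.R5bX1
import Crest.Agent.R51.Part

/-! Edges inside atoms. -/

namespace Crest.Agent.R51

open Finset
open scoped Classical

namespace Loc

variable (L : Loc)

/-- The window of scale `m` that contains the slope of `e`. -/
noncomputable def R5b_wn (m : ℕ) (e : Ed) : ℕ :=
  if h : ∃ k, L.lo m k < sl e ∧ sl e ≤ L.hi m k then h.choose else 0

theorem R5b_wn_eq {m k : ℕ} {e : Ed} (h1 : L.lo m k < sl e) (h2 : sl e ≤ L.hi m k) :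
    L.R5b_wn m e = k := by
  have h : ∃ k, L.lo m k < sl e ∧ sl e ≤ L.hi m k := ⟨k, h1, h2⟩
  unfold R5b_wn
  rw [dif_pos h]
  exact L.win_unique h.choose_spec.1 h.choose_spec.2 h1 h2

/-- The edges inside the atom `α` of the runs that visit `α`. -/
noncomputable def R5b_F (m : ℕ) (Ks : Finset ℕ) (Y : ℕ → Finset Pt) (δ : ℝ) (α : ℤ × ℤ) :
    Finset Ed :=
  Ks.biUnion fun k => (L.W L.E m k).filter fun e => atom δ e.1 = α ∧ atom δ e.2 = α ∧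
    α ∈ R5b_vis (L.W L.E m k) L.id (Y k) δ (L.id e)

theorem R5b_mem_F {m : ℕ} {Ks : Finset ℕ} {Y : ℕ → Finset Pt} {δ : ℝ} {α : ℤ × ℤ} {e : Ed} :
    e ∈ L.R5b_F m Ks Y δ α ↔ ∃ k ∈ Ks, e ∈ L.W L.E m k ∧ atom δ e.1 = α ∧ atom δ e.2 = α ∧
      α ∈ R5b_vis (L.W L.E m k) L.id (Y k) δ (L.id e) := by
  simp only [R5b_F, mem_biUnion, mem_filter]

theorem R5b_sys {m : ℕ} {Ks : Finset ℕ} (Y : ℕ → Finset Pt) {δ : ℝ} (hδ : 0 < δ)
    (h0 : ∀ k ∈ Ks, 0 ≤ L.lo m k) (α : ℤ × ℤ) :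
    Sys L.P (L.R5b_F m Ks Y δ α) (fun e => (L.id e, L.R5b_wn m e)) L.i := by
  refine L.sys.refine ?_ _ ?_ ?_
  · intro e he
    obtain ⟨k, -, he, -⟩ := L.R5b_mem_F.1 he
    exact L.W_subset _ _ _ he
  · intro e _ e' _ hh
    exact congrArg Prod.fst hh
  · intro e he e' he' hh x hx hid h1 h2
    obtain ⟨k, hk, he, a1, a2, a3⟩ := L.R5b_mem_F.1 he
    obtain ⟨k', hk', he', b1, b2, b3⟩ := L.R5b_mem_F.1 he'
    rw [mem_W] at he he'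
    have w1 := L.R5b_wn_eq he.2.1 he.2.2
    have w2 := L.R5b_wn_eq he'.2.1 he'.2.2
    have hid' : L.id e = L.id e' := congrArg Prod.fst hh
    have hw : L.R5b_wn m e = L.R5b_wn m e' := congrArg Prod.snd hh
    have hkk : k = k' := w1.symm.trans (hw.trans w2)
    subst hkk
    have hx1 : L.lo m k < sl x := by linarith [he.2.1]
    have hx2 : sl x ≤ L.hi m k := by linarith [he'.2.2]
    have hk0 := h0 k hk
    have c1 := R5b_atom_run L.sys hδ he.1 hx hid.symm h1 (by linarith [he.2.1])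
    have c2 := R5b_atom_edge hδ (mem_pairs.1 (L.sys.sub hx)).2.2 (by linarith : 0 ≤ sl x)
    have c3 := R5b_atom_run L.sys hδ hx he'.1 (hid.trans hid') h2 (by linarith)
    rw [a2] at c1
    rw [b1] at c3
    refine ⟨L.R5b_mem_F.2 ⟨k, hk, L.mem_W.2 ⟨hx, hx1, hx2⟩, le_antisymm (c2.trans c3) c1,
      le_antisymm c3 (c1.trans c2), hid ▸ a3⟩, ?_⟩
    simp only [hid, L.R5b_wn_eq hx1 hx2, w1]

theorem R5b_nr_F (m : ℕ) (Ks : Finset ℕ) (Y : ℕ → Finset Pt) (δ : ℝ) (α : ℤ × ℤ) :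
    nr (L.R5b_F m Ks Y δ α) (fun e => (L.id e, L.R5b_wn m e)) ≤
      ∑ k ∈ Ks, #(((L.W L.E m k).image L.id).filter fun r =>
        α ∈ R5b_vis (L.W L.E m k) L.id (Y k) δ r) := by
  rw [nr_eq]
  refine le_trans (card_le_card (t := Ks.biUnion fun k =>
    (((L.W L.E m k).image L.id).filter fun r =>
        α ∈ R5b_vis (L.W L.E m k) L.id (Y k) δ r).image fun r => (r, k)) ?_)
    (le_trans card_biUnion_le (sum_le_sum fun k _ => card_image_le))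
  intro x hx
  obtain ⟨e, he, rfl⟩ := mem_image.1 hx
  obtain ⟨k, hk, he, -, -, a3⟩ := L.R5b_mem_F.1 he
  rw [mem_biUnion]
  refine ⟨k, hk, mem_image.2 ⟨L.id e, mem_filter.2 ⟨mem_image_of_mem _ he, a3⟩, ?_⟩⟩
  rw [mem_W] at he
  rw [L.R5b_wn_eq he.2.1 he.2.2]

theorem R5b_inner_le (m : ℕ) (Ks : Finset ℕ) (Y : ℕ → Finset Pt) (δ : ℝ) (Z₃ : Finset Pt)
    (hY : ∀ k, Y k ⊆ Z₃) :
    ∑ k ∈ Ks, #((L.W L.E m k).filter fun e => (e.1 ∈ Y k ∨ e.2 ∈ Y k) ∧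
        atom δ e.1 = atom δ e.2) ≤
      ∑ α ∈ Z₃.image (atom δ),
        #(btw (L.R5b_F m Ks Y δ α) (R5b_cell Z₃ δ α) (R5b_cell L.Z δ α)) := by
  rw [← card_biUnion]
  · refine le_trans (card_le_card ?_) card_biUnion_le
    intro e he
    obtain ⟨k, hk, he⟩ := mem_biUnion.1 he
    rw [mem_filter] at he
    obtain ⟨he, h1, h2⟩ := he
    have hZ := L.inZ e (L.W_subset _ _ _ he)
    rw [mem_biUnion]
    rcases h1 with h1 | h1
    · refine ⟨atom δ e.1, mem_image_of_mem _ (hY k h1), mem_btw.2 ⟨L.R5b_mem_F.2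
        ⟨k, hk, he, rfl, h2.symm, R5b_mem_vis.2 ⟨e.1, h1, ⟨e, he, rfl, Or.inl rfl⟩, rfl⟩⟩,
        Or.inl ⟨R5b_mem_cell.2 ⟨hY k h1, rfl⟩, R5b_mem_cell.2 ⟨hZ.2, h2.symm⟩⟩⟩⟩
    · refine ⟨atom δ e.2, mem_image_of_mem _ (hY k h1), mem_btw.2 ⟨L.R5b_mem_F.2
        ⟨k, hk, he, h2, rfl, R5b_mem_vis.2 ⟨e.2, h1, ⟨e, he, rfl, Or.inr rfl⟩, rfl⟩⟩,
        Or.inr ⟨R5b_mem_cell.2 ⟨hZ.1, h2⟩, R5b_mem_cell.2 ⟨hY k h1, rfl⟩⟩⟩⟩
  · intro k _ k' _ hne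
    rw [Function.onFun, disjoint_left]
    intro e he he'
    rw [mem_filter, mem_W] at he he'
    exact hne (L.win_unique he.1.2.1 he.1.2.2 he'.1.2.1 he'.1.2.2)

/-- The bound for one atom. -/
theorem R5b_atom_bound (hb : L.Big 1) {m : ℕ} {Ks : Finset ℕ} (Y : ℕ → Finset Pt) {δ t : ℝ}
    (hδ : 0 < δ) (ht : 0 < t) (h0 : ∀ k ∈ Ks, 0 ≤ L.lo m k) (Z₃ : Finset Pt) (hZ : Z₃ ⊆ L.Z)
    {α : ℤ × ℤ} (hα : α ∈ Z₃.image (atom δ)) :
    (#(btw (L.R5b_F m Ks Y δ α) (R5b_cell Z₃ δ α) (R5b_cell L.Z δ α)) : ℝ) ≤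
      200 * ((t * (L.κ / L.q) * L.i + L.N / (t * (L.κ / L.q)) ^ 2) * #(R5b_cell L.Z δ α) +
        t * (L.κ / L.q) * ∑ k ∈ Ks, √((#(R5b_cell Z₃ δ α) : ℝ) / L.N) *
          #(((L.W L.E m k).image L.id).filter fun r =>
            α ∈ R5b_vis (L.W L.E m k) L.id (Y k) δ r)) := by
  have hN := hb.N_pos le_rfl
  have hκ := hb.κ_pos le_rfl
  have hq := L.q_posR
  have hi := L.i_posR
  set a : ℝ := ((#(R5b_cell Z₃ δ α) : ℕ) : ℝ) with ha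
  have ha0 : 0 < a := by
    obtain ⟨z, hz, rfl⟩ := mem_image.1 hα
    have : 0 < #(R5b_cell Z₃ δ (atom δ z)) := card_pos.2 ⟨z, R5b_mem_cell.2 ⟨hz, rfl⟩⟩
    rw [ha]
    exact_mod_cast this
  have ha1 : a ≤ L.N := by
    refine le_trans ?_ L.cardZ'
    rw [ha]
    exact_mod_cast card_le_card ((filter_subset _ _).trans hZ)
  set w := √(a / L.N) with hw
  have hw0 : 0 < w := Real.sqrt_pos.2 (div_pos ha0 hN)
  have hw1 : w ≤ 1 := Real.sqrt_le_one.2 ((div_le_one hN).2 ha1)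
  have hw2 : w ^ 2 = a / L.N := Real.sq_sqrt (div_pos ha0 hN).le
  set s := t * (L.κ / L.q) with hs
  have hs0 : 0 < s := by positivity
  have main := (L.R5b_sys Y hδ h0 α).card_btw_le L.i_pos (R5b_cell L.Z δ α) (by
    intro e he
    obtain ⟨k, -, he, a1, a2, -⟩ := L.R5b_mem_F.1 he
    have hZ := L.inZ e (L.W_subset _ _ _ he)
    exact ⟨R5b_mem_cell.2 ⟨hZ.1, a1⟩, R5b_mem_cell.2 ⟨hZ.2, a2⟩⟩)
    (R5b_cell Z₃ δ α) (R5b_cell L.Z δ α) (lam := s * w) (by positivity)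
  refine main.trans ?_
  have hnr : (nr (L.R5b_F m Ks Y δ α) (fun e => (L.id e, L.R5b_wn m e)) : ℝ) ≤
      ∑ k ∈ Ks, (#(((L.W L.E m k).image L.id).filter fun r =>
        α ∈ R5b_vis (L.W L.E m k) L.id (Y k) δ r) : ℝ) := by
    exact_mod_cast L.R5b_nr_F m Ks Y δ α
  rw [← mul_sum]
  set n : ℝ := ((nr (L.R5b_F m Ks Y δ α) (fun e => (L.id e, L.R5b_wn m e)) : ℕ) : ℝ)
  set n' : ℝ := ∑ k ∈ Ks, (#(((L.W L.E m k).image L.id).filter fun r =>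
        α ∈ R5b_vis (L.W L.E m k) L.id (Y k) δ r) : ℝ)
  set c : ℝ := ((#(R5b_cell L.Z δ α) : ℕ) : ℝ)
  have hc : 0 ≤ c := Nat.cast_nonneg _
  have e1 : a * c / (s * w) ^ 2 = L.N / s ^ 2 * c := by
    rw [mul_pow, hw2]
    field_simp
  rw [← ha, e1]
  have e2 : s * w * (L.i * c) ≤ s * L.i * c := by
    calc s * w * (L.i * c) ≤ s * 1 * (L.i * c) := by gcongr
      _ = s * L.i * c := by ring
  have e3 : s * w * n ≤ s * (w * n') := by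
    rw [mul_assoc]
    gcongr
  nlinarith

end Loc

end Crest.Agent.R51
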