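import Crest.Agent.R51.HLem
import Crest.Agent.R51.R5a
import Crest.Agent.R51.R5bX2

/-! Strips in the direction of an active window are heavy. -/

namespace Crest.Agent.R51

open Finset
open scoped Classical

namespace Loc

/-- The edges at bad points that leave their atom, in one window. -/
theorem R5b_leave_win (L : Loc) (m k : ℕ) {δ x : ℝ} (hδ : 0 < δ) (h0 : 0 ≤ L.lo m k)
    (Y : Finset Pt) (hx : ∀ r, (#(R5b_vis (L.W L.E m k) L.id Y δ r) : ℝ) ≤ x) :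
    (#((L.W L.E m k).filter fun e => (e.1 ∈ Y ∨ e.2 ∈ Y) ∧ atom δ e.1 ≠ atom δ e.2) : ℝ) ≤
      2 * x * nr (L.W L.E m k) L.id := by
  have hs : Sys L.P (L.W L.E m k) L.id L.i := L.sys.tm _ _
  have h1 : #((L.W L.E m k).filter fun e => (e.1 ∈ Y ∨ e.2 ∈ Y) ∧ atom δ e.1 ≠ atom δ e.2) ≤
      ∑ r ∈ (L.W L.E m k).image L.id, #((L.W L.E m k).filter fun e => L.id e = r ∧
        (e.1 ∈ Y ∨ e.2 ∈ Y) ∧ atom δ e.1 ≠ atom δ e.2) := by
    refine le_trans (card_le_card ?_) card_biUnion_le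
    intro e he
    rw [mem_filter] at he
    exact mem_biUnion.2 ⟨L.id e, mem_image_of_mem _ he.1, mem_filter.2 ⟨he.1, rfl, he.2⟩⟩
  have h2 : ∀ r ∈ (L.W L.E m k).image L.id, (#((L.W L.E m k).filter fun e => L.id e = r ∧
        (e.1 ∈ Y ∨ e.2 ∈ Y) ∧ atom δ e.1 ≠ atom δ e.2) : ℝ) ≤ 2 * x := by
    intro r _
    have h3 := R5b_leave hs hδ (fun e he => by linarith [(L.mem_W.1 he).2.1]) Y r
    have h4 : (#((L.W L.E m k).filter fun e => L.id e = r ∧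
        (e.1 ∈ Y ∨ e.2 ∈ Y) ∧ atom δ e.1 ≠ atom δ e.2) : ℝ) ≤
        2 * #(R5b_vis (L.W L.E m k) L.id Y δ r) := by
      have h5 : #((L.W L.E m k).filter fun e => L.id e = r ∧
        (e.1 ∈ Y ∨ e.2 ∈ Y) ∧ atom δ e.1 ≠ atom δ e.2) ≤
          2 * #(R5b_vis (L.W L.E m k) L.id Y δ r) := by convert h3
      exact_mod_cast h5
    linarith [hx r]
  calc _ ≤ ∑ r ∈ (L.W L.E m k).image L.id, (#((L.W L.E m k).filter fun e => L.id e = r ∧
        (e.1 ∈ Y ∨ e.2 ∈ Y) ∧ atom δ e.1 ≠ atom δ e.2) : ℝ) := by exact_mod_cast h1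
    _ ≤ ∑ r ∈ (L.W L.E m k).image L.id, 2 * x := sum_le_sum h2
    _ = 2 * x * nr (L.W L.E m k) L.id := by
      rw [sum_const, nsmul_eq_mul, nr_eq, mul_comm]

/-- The edges at bad points inside their atoms. -/
theorem R5b_inner (L : Loc) (hb : L.Big 1) {m : ℕ} {Ks : Finset ℕ} (Y : ℕ → Finset Pt)
    {δ t x : ℝ} (hδ : 0 < δ) (ht : 0 < t) (h0 : ∀ k ∈ Ks, 0 ≤ L.lo m k) (Z₃ : Finset Pt)
    (hZ : Z₃ ⊆ L.Z) (hY : ∀ k, Y k ⊆ Z₃)
    (hx : ∀ k ∈ Ks, ∀ r, ∑ α ∈ R5b_vis (L.W L.E m k) L.id (Y k) δ r,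
      √((#(R5b_cell Z₃ δ α) : ℝ) / L.N) ≤ x) :
    ∑ k ∈ Ks, (#((L.W L.E m k).filter fun e => (e.1 ∈ Y k ∨ e.2 ∈ Y k) ∧
        atom δ e.1 = atom δ e.2) : ℝ) ≤
      200 * (t * L.M / L.q + L.M / t ^ 2 +
        t * (L.κ / L.q) * x * ∑ k ∈ Ks, (nr (L.W L.E m k) L.id : ℝ)) := by
  have hN := hb.N_pos le_rfl
  have hκ := hb.κ_pos le_rfl
  have hq := L.q_posR
  have hi := L.i_posR
  have h1 : ∑ k ∈ Ks, (#((L.W L.E m k).filter fun e => (e.1 ∈ Y k ∨ e.2 ∈ Y k) ∧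
        atom δ e.1 = atom δ e.2) : ℝ) ≤ ∑ α ∈ Z₃.image (atom δ),
        (#(btw (L.R5b_F m Ks Y δ α) (R5b_cell Z₃ δ α) (R5b_cell L.Z δ α)) : ℝ) := by
    exact_mod_cast L.R5b_inner_le m Ks Y δ Z₃ hY
  refine h1.trans ((sum_le_sum fun α hα => L.R5b_atom_bound hb Y hδ ht h0 Z₃ hZ hα).trans ?_)
  rw [← mul_sum, sum_add_distrib, ← mul_sum, ← mul_sum, sum_comm]
  have h2 : ∑ α ∈ Z₃.image (atom δ), (#(R5b_cell L.Z δ α) : ℝ) ≤ L.N := by
    refine le_trans ?_ L.cardZ'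
    exact_mod_cast R5b_sum_cell L.Z δ _
  have h3 : ∀ k ∈ Ks, ∑ α ∈ Z₃.image (atom δ), √((#(R5b_cell Z₃ δ α) : ℝ) / L.N) *
      (#(((L.W L.E m k).image L.id).filter fun r =>
        α ∈ R5b_vis (L.W L.E m k) L.id (Y k) δ r) : ℝ) ≤ x * nr (L.W L.E m k) L.id := by
    intro k hk
    calc _ = ∑ α ∈ Z₃.image (atom δ), ∑ r ∈ (L.W L.E m k).image L.id,
          if α ∈ R5b_vis (L.W L.E m k) L.id (Y k) δ r then
            √((#(R5b_cell Z₃ δ α) : ℝ) / L.N) else 0 := by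
          refine sum_congr rfl fun α _ => ?_
          rw [← sum_filter, sum_const, nsmul_eq_mul, mul_comm]
      _ = ∑ r ∈ (L.W L.E m k).image L.id, ∑ α ∈ Z₃.image (atom δ),
          if α ∈ R5b_vis (L.W L.E m k) L.id (Y k) δ r then
            √((#(R5b_cell Z₃ δ α) : ℝ) / L.N) else 0 := sum_comm
      _ ≤ ∑ r ∈ (L.W L.E m k).image L.id, x := by
          refine sum_le_sum fun r _ => le_trans ?_ (hx k hk r)
          rw [← sum_filter]
          exact sum_le_sum_of_subset_of_nonneg (fun α hα => (mem_filter.1 hα).2)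
            fun _ _ _ => Real.sqrt_nonneg _
      _ = x * nr (L.W L.E m k) L.id := by
          rw [sum_const, nsmul_eq_mul, nr_eq, mul_comm]
  have h4 := sum_le_sum h3
  rw [← mul_sum] at h4
  have e1 : (t * (L.κ / L.q) * L.i + L.N / (t * (L.κ / L.q)) ^ 2) * L.N =
      t * L.M / L.q + L.M / t ^ 2 := by
    unfold N M
    field_simp
  have h5 : (t * (L.κ / L.q) * L.i + L.N / (t * (L.κ / L.q)) ^ 2) *
      ∑ α ∈ Z₃.image (atom δ), (#(R5b_cell L.Z δ α) : ℝ) ≤ t * L.M / L.q + L.M / t ^ 2 := by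
    rw [← e1]
    gcongr
  have h6 := mul_le_mul_of_nonneg_left h4 (show 0 ≤ t * (L.κ / L.q) by positivity)
  rw [mul_assoc _ x]
  linarith

/-- Points whose strip in the direction of the window is light compared with their atom, but not very light, meet few
edges.  Let `δ = δ' D`, `Ks` the windows meeting `E₀`, `Y k` the bad points.  Consider `E* = L.sel L.E m (· ∈ Ks)` with the labels
`(id e, window of e)` (a system by `Sys.refine`), with `∑ k ∈ Ks, nr (W E m k) ≤ C m · C U / m` labels.  A *visit* is a triple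
`(r, k, α)` such that an edge of the run `r` in the window `k` has an end in `Y k` in the atom `α`.
* Two vertices in `Z₃` of a run in the window `k` have `|Δ f (lo k)| ≤ δ' D` (`Sys.sl_mem`, `f_sub`); so by `sum_amass_le`, `sum_sqrt_le`
  (`a₀ = B η ^ 2 N / m ^ 2`) the visits of `(r, k)` have `∑ √(a α / N) ≤ 1 / √B` and are at most `m / (B η)` in number.
* Edges at a bad point that leave its atom: at most two per visit (both coordinates are monotone along the runs, as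
  the slopes are in `[0, 1]`; `Sys.mono_vert`): at most `2 C ^ 2 U m / (B η) ≤ ε M / 4` for `κ / q ≥ Q` large.
* For each atom `α` containing a point of `Z₃`, `Sys.card_btw_le` for the edges with both ends in `α` of the runs that visit `α`
  (`Sys.fibre` with `φ = ⌊· / δ⌋`), `Ω = Y₂ = Z ∩ α`, `Y₁ = Z₃ ∩ α`, `lam = t (κ / q) √(a α / N)`: the sum is at most
  `200 (t M / q + t C ^ 2 M / √B + B' M / t ^ 2)`.  Choose `t`, then `B`, then `Q`. -/
theorem heavy_strips_aux {C B' ε : ℝ} (hC : 1 ≤ C) (hB' : 0 < B') (hε : 0 < ε) : ∃ B : ℝ, 1 ≤ B ∧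
    ∀ η : ℝ, 0 < η → ∀ m : ℕ, ∃ Q : ℕ, 1 ≤ Q ∧ ∀ (L : Loc) (Ω : ℕ → Finset Pt) (E₀ : Finset Ed)
      (δ' D : ℝ) (Z₃ : Finset Pt), L.Big Q → m ∣ L.q → L.Reg Ω C m E₀ → 0 < δ' → 0 < D →
      (∀ k, (L.W E₀ m k).Nonempty → 0 ≤ L.lo m k ∧ L.hi m k ≤ 1 ∧ L.hi m k - L.lo m k ≤ δ') →
      Z₃ ⊆ L.Z → (∀ p ∈ Z₃, ∀ p' ∈ Z₃, p'.1 - p.1 ≤ D) →
      (∀ p ∈ Z₃, (amass L.Z (δ' * D) p : ℝ) ≤ B' * amass Z₃ (δ' * D) p) →
      ∑ k ∈ Finset.range (m ^ 4), (#(inc (L.W E₀ m k) (Z₃.filter fun p =>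
        η * L.N / m ≤ (smass Z₃ (L.lo m k) (δ' * D) p : ℝ) ∧
        B * (smass Z₃ (L.lo m k) (δ' * D) p : ℝ) ^ 2 < amass Z₃ (δ' * D) p * L.N)) : ℝ) ≤
        ε * L.M := by
  set t : ℝ := 800 / ε + 1 with ht
  have ht0 : 0 < t := by positivity
  set b : ℝ := 800 * t * C ^ 2 / ε + 1 with hb
  have hb1 : 1 ≤ b := by
    have : 0 ≤ 800 * t * C ^ 2 / ε := by positivity
    linarith
  have hB1 : 1 ≤ b ^ 2 := one_le_pow₀ hb1
  refine ⟨b ^ 2, hB1, fun η hη m =>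
    ⟨⌈8 * C ^ 2 * m / (b ^ 2 * η * ε)⌉₊ + ⌈800 * t / ε⌉₊ + 1, by omega, ?_⟩⟩
  intro L Ω E₀ δ' D Z₃ hBig hm hreg hδ hD hwin hZ hdiam _
  have hb1' : L.Big 1 := hBig.mono (by omega)
  have hN := hb1'.N_pos le_rfl
  have hκ := hb1'.κ_pos le_rfl
  have hM := hb1'.M_pos le_rfl
  have hU := hb1'.U_pos le_rfl
  have hq := L.q_posR
  have hm0 : (0 : ℝ) < m := by exact_mod_cast Nat.pos_of_dvd_of_pos hm L.q_pos
  have hQ1 : 8 * C ^ 2 * m / (b ^ 2 * η * ε) ≤ L.κ / L.q :=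
    (Nat.le_ceil _).trans (hBig.mono (by omega)).le_κq
  have hQ2 : 800 * t / ε ≤ L.q := by
    refine (Nat.le_ceil _).trans ?_
    exact_mod_cast (hBig.mono (show ⌈800 * t / ε⌉₊ ≤ _ by omega)).1
  have hδ0 : 0 < δ' * D := mul_pos hδ hD
  set Y : ℕ → Finset Pt := fun k => Z₃.filter fun p =>
        η * L.N / m ≤ (smass Z₃ (L.lo m k) (δ' * D) p : ℝ) ∧
        b ^ 2 * (smass Z₃ (L.lo m k) (δ' * D) p : ℝ) ^ 2 < amass Z₃ (δ' * D) p * L.N with hY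
  set Ks := (Finset.range (m ^ 4)).filter fun k => (L.W E₀ m k).Nonempty with hKs
  have hKc : (#Ks : ℝ) ≤ C * m := hreg.rel
  have hK : ∀ k ∈ Ks, (L.W E₀ m k).Nonempty := fun k hk => (mem_filter.1 hk).2
  have hYZ : ∀ k, Y k ⊆ Z₃ := fun k => filter_subset _ _
  have hvis : ∀ k ∈ Ks, ∀ r, ∑ α ∈ R5b_vis (L.W L.E m k) L.id (Y k) (δ' * D) r,
      √((#(R5b_cell Z₃ (δ' * D) α) : ℝ) / L.N) ≤ 1 / b ∧
      (#(R5b_vis (L.W L.E m k) L.id (Y k) (δ' * D) r) : ℝ) ≤ m / (b ^ 2 * η) := by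
    intro k hk r
    obtain ⟨w0, w1, w2⟩ := hwin k (hK k hk)
    have := R5b_visits (L.sys.tm (L.lo m k) (L.hi m k)) (θ := L.lo m k)
      (a₀ := b ^ 2 * η ^ 2 * L.N / m ^ 2) (B := b ^ 2) (N := L.N) hδ hD w0
      ((L.lo_le_hi m k).trans w1)
      (fun e he => ⟨(mem_tm.1 he).2.1, by linarith [(mem_tm.1 he).2.2]⟩) Z₃ (Y k)
      (fun p hp p' hp' => hdiam p (hYZ k hp) p' (hYZ k hp')) (by positivity) (by positivity) hN
      (by
        intro p hp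
        obtain ⟨-, h1, h2⟩ := mem_filter.1 hp
        have h3 : (η * L.N / m) ^ 2 ≤ (smass Z₃ (L.lo m k) (δ' * D) p : ℝ) ^ 2 := by gcongr
        have h4 : b ^ 2 * η ^ 2 * L.N / m ^ 2 * L.N = b ^ 2 * (η * L.N / m) ^ 2 := by
          field_simp
        refine le_of_mul_le_mul_right ?_ hN
        rw [h4]
        exact le_trans (by gcongr) h2.le)
      (fun p hp => (mem_filter.1 hp).2.2.le) r
    rw [Real.sqrt_sq (by linarith)] at this
    refine ⟨this.1, this.2.trans (le_of_eq ?_)⟩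
    rw [Real.sqrt_eq_iff_mul_self_eq (by positivity) (by positivity)]
    field_simp
  have hnr : ∑ k ∈ Ks, (nr (L.W L.E m k) L.id : ℝ) ≤ C ^ 2 * L.U := by
    calc _ ≤ ∑ k ∈ Ks, C * L.U / m := sum_le_sum fun k hk => hreg.nr_le k (hK k hk)
      _ = #Ks * (C * L.U / m) := by rw [sum_const, nsmul_eq_mul]
      _ ≤ C * m * (C * L.U / m) := by gcongr
      _ = C ^ 2 * L.U := by field_simp
  have h1 : ∑ k ∈ Finset.range (m ^ 4), (#(inc (L.W E₀ m k) (Y k)) : ℝ) =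
      ∑ k ∈ Ks, (#(inc (L.W E₀ m k) (Y k)) : ℝ) := by
    symm
    refine sum_subset (filter_subset _ _) ?_
    intro k hk hk'
    have : L.W E₀ m k = ∅ := by
      by_contra hne
      exact hk' (mem_filter.2 ⟨hk, nonempty_iff_ne_empty.2 hne⟩)
    rw [this]
    simp [inc]
  have h2 : ∀ k ∈ Ks, (#(inc (L.W E₀ m k) (Y k)) : ℝ) ≤
      #((L.W L.E m k).filter fun e => (e.1 ∈ Y k ∨ e.2 ∈ Y k) ∧
        atom (δ' * D) e.1 = atom (δ' * D) e.2) +
      #((L.W L.E m k).filter fun e => (e.1 ∈ Y k ∨ e.2 ∈ Y k) ∧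
        atom (δ' * D) e.1 ≠ atom (δ' * D) e.2) := by
    intro k _
    have : #(inc (L.W E₀ m k) (Y k)) ≤
      #((L.W L.E m k).filter fun e => (e.1 ∈ Y k ∨ e.2 ∈ Y k) ∧
        atom (δ' * D) e.1 = atom (δ' * D) e.2) +
      #((L.W L.E m k).filter fun e => (e.1 ∈ Y k ∨ e.2 ∈ Y k) ∧
        atom (δ' * D) e.1 ≠ atom (δ' * D) e.2) := by
      refine le_trans (card_le_card ?_) (card_union_le _ _)
      intro e he
      rw [mem_inc] at he
      have h3 := L.W_mono hreg.sub m k he.1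
      rw [mem_union]
      by_cases h4 : atom (δ' * D) e.1 = atom (δ' * D) e.2
      · exact Or.inl (mem_filter.2 ⟨h3, he.2, h4⟩)
      · exact Or.inr (mem_filter.2 ⟨h3, he.2, h4⟩)
    exact_mod_cast this
  have h3 := L.R5b_inner hb1' Y hδ0 ht0 (fun k hk => (hwin k (hK k hk)).1) Z₃ hZ hYZ
    fun k hk r => (hvis k hk r).1
  have h4 := sum_le_sum fun k (hk : k ∈ Ks) => L.R5b_leave_win m k hδ0 (hwin k (hK k hk)).1 (Y k)
    fun r => (hvis k hk r).2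
  rw [← mul_sum] at h4
  have b1 : 2 * (m / (b ^ 2 * η)) * ∑ k ∈ Ks, (nr (L.W L.E m k) L.id : ℝ) ≤ ε * L.M / 4 := by
    calc _ ≤ 2 * (m / (b ^ 2 * η)) * (C ^ 2 * L.U) := by gcongr
      _ = ε / 4 * L.U * (8 * C ^ 2 * m / (b ^ 2 * η * ε)) := by field_simp; ring
      _ ≤ ε / 4 * L.U * (L.κ / L.q) := by gcongr
      _ = ε * L.M / 4 := by rw [← L.U_mul]; ring
  have b2 : 200 * (t * L.M / L.q) ≤ ε * L.M / 4 := by
    calc _ = ε * L.M / 4 * (800 * t / ε / L.q) := by field_simp; ring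
      _ ≤ ε * L.M / 4 * 1 := by gcongr; exact (div_le_one hq).2 hQ2
      _ = _ := mul_one _
  have b3 : 200 * (L.M / t ^ 2) ≤ ε * L.M / 4 := by
    have h5 : 800 / ε ≤ t ^ 2 := by
      have : 0 < 800 / ε := by positivity
      nlinarith
    calc _ = ε * L.M / 4 * (800 / ε / t ^ 2) := by field_simp; ring
      _ ≤ ε * L.M / 4 * 1 := by gcongr; exact (div_le_one (by positivity)).2 h5
      _ = _ := mul_one _
  have b4 : 200 * (t * (L.κ / L.q) * (1 / b) * ∑ k ∈ Ks, (nr (L.W L.E m k) L.id : ℝ)) ≤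
      ε * L.M / 4 := by
    calc _ ≤ 200 * (t * (L.κ / L.q) * (1 / b) * (C ^ 2 * L.U)) := by gcongr
      _ = ε * (L.U * (L.κ / L.q)) / 4 * (800 * t * C ^ 2 / ε / b) := by field_simp; ring
      _ ≤ ε * (L.U * (L.κ / L.q)) / 4 * 1 := by
        gcongr
        exact (div_le_one (by positivity)).2 (by linarith)
      _ = _ := by rw [L.U_mul, mul_one]
  have h5 := sum_le_sum h2
  rw [sum_add_distrib] at h5
  refine h1.trans_le ?_
  linarith

end Loc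

end Crest.Agent.R51
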