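import Crest.Agent.R51.HLem
import Crest.Agent.R51.R5a
import Crest.Agent.R51.R5b

/-! Strips in the direction of an active window are heavy. -/

namespace Crest.Agent.R51

open Finset
open scoped Classical

/-- The other ends of the pairs swapped in a short window lie in the strips around `p`. -/
theorem R5_deg_le {Y Z : Finset Pt} (hY : Y ⊆ Z) {θ θ' δ' D : ℝ} (hδ : 0 < δ') (hD : 0 < D)
    (hθ : θ' - θ ≤ δ') (hZ : ∀ p ∈ Z, ∀ p' ∈ Z, p'.1 - p.1 ≤ D) (p : Pt) :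
    deg (tm (pairs Y) θ θ') p ≤ smass Z θ (δ' * D) p := by
  have hδD : 0 < δ' * D := mul_pos hδ hD
  unfold deg smass
  refine card_le_card_of_injOn (fun e : Ed => if e.1 = p then e.2 else e.1) ?_ ?_
  · intro e he
    obtain ⟨he1, he2⟩ := mem_filter.1 (mem_coe.1 he)
    obtain ⟨he3, he4, he5⟩ := mem_tm.1 he1
    obtain ⟨h1, h2, h3⟩ := mem_pairs.1 he3
    have hx := hZ _ (hY h1) _ (hY h2)
    have hf := f_sub e h3 θ
    have a1 : 0 ≤ f θ e.2 - f θ e.1 := by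
      rw [hf]
      exact mul_nonneg (by linarith) (by linarith)
    have a2 : f θ e.2 - f θ e.1 ≤ δ' * D := by
      rw [hf, mul_comm δ']
      exact mul_le_mul hx (by linarith) (by linarith) hD.le
    have b1 : ⌊f θ e.1 / (δ' * D)⌋ ≤ ⌊f θ e.2 / (δ' * D)⌋ :=
      Int.floor_mono (div_le_div_of_nonneg_right (by linarith) hδD.le)
    have b2 : ⌊f θ e.2 / (δ' * D)⌋ ≤ ⌊f θ e.1 / (δ' * D)⌋ + 1 := by
      rw [← Int.floor_add_one]
      apply Int.floor_mono
      rw [div_add_one hδD.ne']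
      exact div_le_div_of_nonneg_right (by linarith) hδD.le
    refine mem_coe.2 (mem_filter.2 ?_)
    by_cases h : e.1 = p
    · simp only [h, if_true]
      rw [h] at b1 b2
      exact ⟨hY h2, abs_le.2 ⟨by omega, by omega⟩⟩
    · have h' : e.2 = p := he2.resolve_left h
      simp only [h, if_false]
      rw [h'] at b1 b2
      exact ⟨hY h1, abs_le.2 ⟨by omega, by omega⟩⟩
  · intro e he e' he' h
    obtain ⟨he1, he2⟩ := mem_filter.1 (mem_coe.1 he)
    obtain ⟨he1', he2'⟩ := mem_filter.1 (mem_coe.1 he')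
    have h3 := (mem_pairs.1 (mem_tm.1 he1).1).2.2
    have h3' := (mem_pairs.1 (mem_tm.1 he1').1).2.2
    by_cases a : e.1 = p <;> by_cases b : e'.1 = p <;> simp only [a, b, if_true, if_false] at h
    · exact Prod.ext (a.trans b.symm) h
    · rw [a, h] at h3
      rw [he2'.resolve_left b] at h3'
      exact absurd h3 (lt_asymm h3')
    · rw [he2.resolve_left a, h] at h3
      rw [b] at h3'
      exact absurd h3 (lt_asymm h3')
    · exact Prod.ext h ((he2.resolve_left a).trans (he2'.resolve_left b).symm)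

namespace Loc

/-- Points with light strips meet few edges: `sparse` (for the points with `smass < η N / m`: a pair of such points with slope in
the window `k` has `|Δ f (lo k)| ≤ δ' D`, so the other end is counted by `smass`) and `heavy_strips_aux`. -/
theorem heavy_strips {C B' ε : ℝ} (hC : 1 ≤ C) (hB' : 0 < B') (hε : 0 < ε) : ∃ B : ℝ, 1 ≤ B ∧
    ∀ m : ℕ, ∃ Q : ℕ, 1 ≤ Q ∧ ∀ (L : Loc) (Ω : ℕ → Finset Pt) (E₀ : Finset Ed)
      (δ' D : ℝ) (Z₃ : Finset Pt), L.Big Q → m ∣ L.q → L.Base Ω C → L.Reg Ω C m E₀ → 0 < δ' →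
      0 < D →
      (∀ k, (L.W E₀ m k).Nonempty → 0 ≤ L.lo m k ∧ L.hi m k ≤ 1 ∧ L.hi m k - L.lo m k ≤ δ') →
      Z₃ ⊆ L.Z → (∀ p ∈ Z₃, ∀ p' ∈ Z₃, p'.1 - p.1 ≤ D) →
      (∀ p ∈ Z₃, (amass L.Z (δ' * D) p : ℝ) ≤ B' * amass Z₃ (δ' * D) p) →
      ∑ k ∈ Finset.range (m ^ 4), (#(inc (L.W E₀ m k) (Z₃.filter fun p =>
        B * (smass Z₃ (L.lo m k) (δ' * D) p : ℝ) ^ 2 < amass Z₃ (δ' * D) p * L.N)) : ℝ) ≤
        ε * L.M := by
  obtain ⟨B, hB, hA⟩ := heavy_strips_aux hC hB' (half_pos hε)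
  obtain ⟨η, hη, Q₁, hQ₁, hS⟩ := sparse hC (half_pos hε)
  refine ⟨B, hB, fun m => ?_⟩
  obtain ⟨Q₂, hQ₂, hA⟩ := hA η hη m
  refine ⟨max Q₁ Q₂, le_max_of_le_left hQ₁, ?_⟩
  intro L Ω E₀ δ' D Z₃ hbig hm hb hr hδ hD hw hZ hx ha
  have hN := hbig.N_pos (le_max_of_le_left hQ₁)
  have h1 := hA L Ω E₀ δ' D Z₃ (hbig.mono (le_max_right _ _)) hm hr hδ hD hw hZ hx ha
  have h2 := hS L Ω m E₀
    (fun k => Z₃.filter fun p => (smass Z₃ (L.lo m k) (δ' * D) p : ℝ) < η * L.N / m)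
    (hbig.mono (le_max_left _ _)) hm hb hr (fun k => (filter_subset _ _).trans hZ) (by
      intro k hk p
      rcases Nat.eq_zero_or_pos (deg (L.W (pairs (Z₃.filter fun p =>
        (smass Z₃ (L.lo m k) (δ' * D) p : ℝ) < η * L.N / m)) m k) p) with h0 | h0
      · rw [h0, Nat.cast_zero]
        positivity
      · obtain ⟨e, he⟩ := card_pos.1 h0
        obtain ⟨he1, he2⟩ := mem_filter.1 he
        obtain ⟨h3, h4, -⟩ := mem_pairs.1 (L.mem_W.1 he1).1
        have hp : (smass Z₃ (L.lo m k) (δ' * D) p : ℝ) < η * L.N / m := by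
          rcases he2 with h | h
          · rw [← h]; exact (mem_filter.1 h3).2
          · rw [← h]; exact (mem_filter.1 h4).2
        refine le_trans ?_ hp.le
        exact_mod_cast R5_deg_le (filter_subset _ _) hδ hD (hw k hk).2.2 hx p)
  refine le_trans ?_ ((add_le_add h1 h2).trans (le_of_eq (by ring)))
  rw [← sum_add_distrib]
  refine sum_le_sum fun k _ => ?_
  rw [← Nat.cast_add, Nat.cast_le]
  refine le_trans (card_le_card ?_) (card_union_le _ _)
  intro e he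
  simp only [mem_union, mem_inc, mem_filter] at he ⊢
  obtain ⟨he1, h | h⟩ := he
  · rcases le_or_gt (η * L.N / m) (smass Z₃ (L.lo m k) (δ' * D) e.1 : ℝ) with h' | h'
    · exact Or.inl ⟨he1, Or.inl ⟨h.1, h', h.2⟩⟩
    · exact Or.inr ⟨he1, Or.inl ⟨h.1, h'⟩⟩
  · rcases le_or_gt (η * L.N / m) (smass Z₃ (L.lo m k) (δ' * D) e.2 : ℝ) with h' | h'
    · exact Or.inl ⟨he1, Or.inr ⟨h.1, h', h.2⟩⟩
    · exact Or.inr ⟨he1, Or.inr ⟨h.1, h'⟩⟩

end Loc

end Crest.Agent.R51
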