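import Crest.Agent.R51.Sys
import Crest.Agent.R51.R5a

/-! Visits of runs in atoms. -/

namespace Crest.Agent.R51

open Finset
open scoped Classical

variable {ι : Type} {P : Finset Pt} {E : Finset Ed} {id : Ed → ι} {i : ℕ}

/-- The points of `Z` in an atom. -/
noncomputable def R5b_cell (Z : Finset Pt) (δ : ℝ) (α : ℤ × ℤ) : Finset Pt :=
  Z.filter fun z => atom δ z = α

theorem R5b_amass (Z : Finset Pt) (δ : ℝ) (p : Pt) :
    amass Z δ p = #(R5b_cell Z δ (atom δ p)) := by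
  unfold amass R5b_cell atom
  congr 1
  ext z
  simp [Prod.ext_iff]

theorem R5b_mem_cell {Z : Finset Pt} {δ : ℝ} {α : ℤ × ℤ} {z : Pt} :
    z ∈ R5b_cell Z δ α ↔ z ∈ Z ∧ atom δ z = α := by
  simp [R5b_cell]

theorem R5b_sum_cell (Z : Finset Pt) (δ : ℝ) (A : Finset (ℤ × ℤ)) :
    ∑ α ∈ A, #(R5b_cell Z δ α) ≤ #Z := by
  rw [← card_biUnion]
  · exact card_le_card (biUnion_subset.2 fun _ _ => filter_subset _ _)
  · intro a _ b _ hab
    rw [Function.onFun, disjoint_left]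
    intro z h1 h2
    rw [R5b_mem_cell] at h1 h2
    exact hab (h1.2.symm.trans h2.2)

/-- The atoms in which the run `r` has a vertex in `Y`. -/
noncomputable def R5b_vis (E : Finset Ed) (id : Ed → ι) (Y : Finset Pt) (δ : ℝ) (r : ι) :
    Finset (ℤ × ℤ) :=
  (Y.filter fun p => ∃ e ∈ E, id e = r ∧ Inc p e).image (atom δ)

theorem R5b_mem_vis {Y : Finset Pt} {δ : ℝ} {r : ι} {α : ℤ × ℤ} :
    α ∈ R5b_vis E id Y δ r ↔ ∃ p ∈ Y, (∃ e ∈ E, id e = r ∧ Inc p e) ∧ atom δ p = α := by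
  simp only [R5b_vis, mem_image, mem_filter, and_assoc]

theorem R5b_atom_le {δ : ℝ} (hδ : 0 < δ) {p q : Pt} (h1 : p.1 ≤ q.1) (h2 : p.2 ≤ q.2) :
    atom δ p ≤ atom δ q := by
  unfold atom
  rw [Prod.mk_le_mk]
  exact ⟨Int.floor_le_floor (by gcongr), Int.floor_le_floor (by gcongr)⟩

theorem R5b_y_le {e : Ed} (h : e.1.1 < e.2.1) (hs : 0 ≤ sl e) : e.1.2 ≤ e.2.2 := by
  have := (f_le_iff e h 0).2 hs
  simpa [f] using this

theorem R5b_atom_edge {δ : ℝ} (hδ : 0 < δ) {e : Ed} (h : e.1.1 < e.2.1) (hs : 0 ≤ sl e) :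
    atom δ e.1 ≤ atom δ e.2 :=
  R5b_atom_le hδ h.le (R5b_y_le h hs)

theorem R5b_atom_run (h : Sys P E id i) {δ : ℝ} (hδ : 0 < δ) {e e' : Ed} (he : e ∈ E)
    (he' : e' ∈ E) (hid : id e = id e') (hsl : sl e < sl e') (hs : 0 ≤ sl e) :
    atom δ e.2 ≤ atom δ e'.1 := by
  refine R5b_atom_le hδ (h.x_le he he' hid hsl) ?_
  refine h.mono_run (fun p => p.2) he he' hid hsl ?_
  intro x hx _ h1 _
  exact R5b_y_le (mem_pairs.1 (h.sub hx)).2.2 (by linarith)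

/-- Edges of a run at a point of `Y` that leave the atom. -/
theorem R5b_leave (h : Sys P E id i) {δ : ℝ} (hδ : 0 < δ) (hs : ∀ e ∈ E, 0 ≤ sl e)
    (Y : Finset Pt) (r : ι) :
    #(E.filter fun e => id e = r ∧ (e.1 ∈ Y ∨ e.2 ∈ Y) ∧ atom δ e.1 ≠ atom δ e.2) ≤
      2 * #(R5b_vis E id Y δ r) := by
  have key : ∀ e ∈ E, ∀ e' ∈ E, id e = id e' → sl e < sl e' →
      atom δ e.1 ≠ atom δ e.2 → atom δ e'.1 ≠ atom δ e'.2 →
      atom δ e.1 ≠ atom δ e'.1 ∧ atom δ e.2 ≠ atom δ e'.2 := by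
    intro e he e' he' hid hsl h1 h2
    have a1 := R5b_atom_edge hδ (mem_pairs.1 (h.sub he)).2.2 (hs e he)
    have a2 := R5b_atom_edge hδ (mem_pairs.1 (h.sub he')).2.2 (hs e' he')
    have a3 := R5b_atom_run h hδ he he' hid hsl (hs e he)
    constructor
    · intro h3
      exact h1 (le_antisymm a1 (h3 ▸ a3))
    · intro h3
      exact h2 (le_antisymm a2 (h3 ▸ a3))
  have key2 : ∀ e ∈ E, ∀ e' ∈ E, id e = id e' →
      atom δ e.1 ≠ atom δ e.2 → atom δ e'.1 ≠ atom δ e'.2 →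
      (atom δ e.1 = atom δ e'.1 ∨ atom δ e.2 = atom δ e'.2) → e = e' := by
    intro e he e' he' hid h1 h2 h3
    rcases lt_trichotomy (sl e) (sl e') with h4 | h4 | h4
    · have := key e he e' he' hid h4 h1 h2
      tauto
    · exact h.gp.slinj e (h.sub he) e' (h.sub he') h4
    · have := key e' he' e he hid.symm h4 h2 h1
      rcases h3 with h3 | h3
      · exact absurd h3.symm this.1
      · exact absurd h3.symm this.2
  have c1 : #(E.filter fun e => id e = r ∧ e.1 ∈ Y ∧ atom δ e.1 ≠ atom δ e.2) ≤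
      #(R5b_vis E id Y δ r) := by
    refine card_le_card_of_injOn (fun e => atom δ e.1) ?_ ?_
    · intro e he
      rw [mem_coe, mem_filter] at he
      exact mem_coe.2 (R5b_mem_vis.2 ⟨e.1, he.2.2.1, ⟨e, he.1, he.2.1, Or.inl rfl⟩, rfl⟩)
    · intro e he e' he' hh
      rw [mem_coe, mem_filter] at he he'
      exact key2 e he.1 e' he'.1 (he.2.1.trans he'.2.1.symm) he.2.2.2 he'.2.2.2 (Or.inl hh)
  have c2 : #(E.filter fun e => id e = r ∧ e.2 ∈ Y ∧ atom δ e.1 ≠ atom δ e.2) ≤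
      #(R5b_vis E id Y δ r) := by
    refine card_le_card_of_injOn (fun e => atom δ e.2) ?_ ?_
    · intro e he
      rw [mem_coe, mem_filter] at he
      exact mem_coe.2 (R5b_mem_vis.2 ⟨e.2, he.2.2.1, ⟨e, he.1, he.2.1, Or.inr rfl⟩, rfl⟩)
    · intro e he e' he' hh
      rw [mem_coe, mem_filter] at he he'
      exact key2 e he.1 e' he'.1 (he.2.1.trans he'.2.1.symm) he.2.2.2 he'.2.2.2 (Or.inr hh)
  refine le_trans (card_le_card ?_) (le_trans (card_union_le _ _) (le_trans (add_le_add c1 c2)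
    (by omega)))
  intro e he
  rw [mem_filter] at he
  rw [mem_union, mem_filter, mem_filter]
  rcases he.2.2.1 with h1 | h1
  · exact Or.inl ⟨he.1, he.2.1, h1, he.2.2.2⟩
  · exact Or.inr ⟨he.1, he.2.1, h1, he.2.2.2⟩

theorem R5b_mem_P (h : Sys P E id i) {e : Ed} (he : e ∈ E) {p : Pt} (hp : Inc p e) : p ∈ P := by
  have := mem_pairs.1 (h.sub he)
  rcases hp with rfl | rfl
  · exact this.1
  · exact this.2.1

/-- Two vertices of a run in a short window have close heights. -/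
theorem R5b_close (h : Sys P E id i) {θ δ' D : ℝ} (hδ : 0 < δ') (hD : 0 < D)
    (hs : ∀ e ∈ E, θ < sl e ∧ sl e ≤ θ + δ') {e e' : Ed} (he : e ∈ E) (he' : e' ∈ E)
    (hid : id e = id e') {u v : Pt} (hu : Inc u e) (hv : Inc v e') (h1 : v.1 - u.1 ≤ D)
    (h2 : u.1 - v.1 ≤ D) : |f θ v - f θ u| ≤ δ' * D := by
  have aux : ∀ {e e' : Ed}, e ∈ E → e' ∈ E → id e = id e' → ∀ {u v : Pt}, Inc u e → Inc v e' →
      v.1 - u.1 ≤ D → u.1 < v.1 → |f θ v - f θ u| ≤ δ' * D := by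
    intro e e' he he' hid u v hu hv h1 huv
    have h3 := h.sl_mem he he' hid (fun x hx _ => hs x hx) hu hv huv
    have h4 := f_sub (u, v) huv θ
    simp only at h4
    rw [h4, abs_of_nonneg (mul_nonneg (by linarith) (by linarith [h3.1])), mul_comm δ']
    exact mul_le_mul h1 (by linarith [h3.2]) (by linarith [h3.1]) hD.le
  rcases lt_trichotomy u.1 v.1 with h3 | h3 | h3
  · exact aux he he' hid hu hv h1 h3
  · have := h.gp.xinj u (R5b_mem_P h he hu) v (R5b_mem_P h he' hv) h3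
    subst this
    rw [sub_self, abs_zero]
    positivity
  · rw [abs_sub_comm]
    exact aux he' he hid.symm hv hu h2 h3

/-- The weights of the visits of one run. -/
theorem R5b_visits (h : Sys P E id i) {θ δ' D a₀ B N : ℝ} (hδ : 0 < δ') (hD : 0 < D)
    (h0 : 0 ≤ θ) (h1 : θ ≤ 1) (hs : ∀ e ∈ E, θ < sl e ∧ sl e ≤ θ + δ') (Z Y : Finset Pt)
    (hY : ∀ p ∈ Y, ∀ p' ∈ Y, p'.1 - p.1 ≤ D) (ha₀ : 0 < a₀) (hB : 0 < B) (hN : 0 < N)
    (hY1 : ∀ p ∈ Y, a₀ ≤ (amass Z (δ' * D) p : ℝ))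
    (hY2 : ∀ p ∈ Y, B * (smass Z θ (δ' * D) p : ℝ) ^ 2 ≤ amass Z (δ' * D) p * N) (r : ι) :
    ∑ α ∈ R5b_vis E id Y (δ' * D) r, √((#(R5b_cell Z (δ' * D) α) : ℝ) / N) ≤ 1 / √B ∧
      (#(R5b_vis E id Y (δ' * D) r) : ℝ) ≤ √(N / (B * a₀)) := by
  set δ := δ' * D with hδdef
  have hδ0 : 0 < δ := mul_pos hδ hD
  set T := Y.filter fun p => ∃ e ∈ E, id e = r ∧ Inc p e with hT
  obtain ⟨V, hVT, hinj, himg⟩ := Finset.exists_subset_injOn_image_eq_of_surjOn (f := atom δ)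
    (T : Set Pt) (T.image (atom δ)) (by
      intro α hα
      rw [coe_image] at hα
      exact hα)
  have hvis : R5b_vis E id Y δ r = V.image (atom δ) := himg.symm
  have hVm : ∀ z ∈ V, z ∈ Y ∧ ∃ e ∈ E, id e = r ∧ Inc z e := fun z hz =>
    mem_filter.1 (mem_coe.1 (hVT (mem_coe.2 hz)))
  have hsum : ∀ z ∈ V, ∑ y ∈ V, amass Z δ y ≤ smass Z θ δ z := by
    intro z hz
    refine sum_amass_le Z hδ0 h0 h1 z V ?_ (fun a ha b hb hab => hinj ha hb hab)
    intro y hy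
    obtain ⟨hz1, e, he, hr, hze⟩ := hVm z hz
    obtain ⟨hy1, e', he', hr', hye⟩ := hVm y hy
    exact R5b_close h hδ hD hs he he' (hr.trans hr'.symm) hze hye (hY z hz1 y hy1) (hY y hy1 z hz1)
  have main := sum_sqrt_le V (fun z => (amass Z δ z : ℝ)) ha₀ hB hN
    (fun z hz => hY1 z (hVm z hz).1) (by
      intro z hz
      refine le_trans ?_ (hY2 z (hVm z hz).1)
      have h3 : (∑ y ∈ V, (amass Z δ y : ℝ)) ≤ smass Z θ δ z := by exact_mod_cast hsum z hz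
      have h4 : 0 ≤ ∑ y ∈ V, (amass Z δ y : ℝ) := sum_nonneg fun _ _ => Nat.cast_nonneg _
      gcongr)
  rw [hvis, sum_image (fun a ha b hb hab => hinj ha hb hab), card_image_of_injOn hinj]
  refine ⟨le_trans (le_of_eq ?_) main.1, main.2⟩
  refine sum_congr rfl fun z _ => ?_
  rw [R5b_amass]

end Crest.Agent.R51
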