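import Crest.Agent.R51.R5a

/-! From heavy strips in three directions to linear growth. -/

namespace Crest.Agent.R51

open Finset
open scoped Classical

theorem r7a_fiber {α β : Type} [DecidableEq β] (V : Finset α) (T : Finset β) (g : α → β) (hg : ∀ p ∈ V, g p ∈ T)
    {a : ℝ} (ha : 0 ≤ a) (h : ∀ p ∈ V, (#(V.filter fun z => g z = g p) : ℝ) ≤ a) :
    (#V : ℝ) ≤ #T * a := by
  rw [card_eq_sum_card_fiberwise (f := g) (t := T) fun p hp => mem_coe.2 (hg p (mem_coe.1 hp))]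
  push_cast
  rw [← nsmul_eq_mul]
  refine sum_le_card_nsmul _ _ _ fun b _ => ?_
  rcases (V.filter fun z => g z = b).eq_empty_or_nonempty with h0 | ⟨p, hp⟩
  · rw [h0]; simpa using ha
  · obtain ⟨h1, h2⟩ := mem_filter.1 hp
    subst h2
    exact h p h1

theorem r7a_floor {x y δ D : ℝ} (hδ : 0 < δ) (hD : 0 ≤ D) (h : |x - y| ≤ D * δ) :
    ⌊x / δ⌋ ∈ Icc (⌊y / δ⌋ - (⌊D⌋₊ + 1)) (⌊y / δ⌋ + (⌊D⌋₊ + 1)) := by
  have h1 : |x / δ - y / δ| ≤ D := by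
    rw [← sub_div, abs_div, abs_of_pos hδ, div_le_iff₀ hδ]; exact h
  obtain ⟨h2, h3⟩ := abs_le.1 h1
  have a1 := Int.floor_le (x / δ)
  have a2 := Int.lt_floor_add_one (x / δ)
  have a3 := Int.floor_le (y / δ)
  have a4 := Int.lt_floor_add_one (y / δ)
  have a5 := Nat.lt_floor_add_one D
  rw [mem_Icc]
  constructor
  · have : ((⌊y / δ⌋ - (⌊D⌋₊ + 1) : ℤ) : ℝ) < ((⌊x / δ⌋ + 1 : ℤ) : ℝ) := by push_cast; linarith
    have := Int.cast_lt.1 this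
    omega
  · have : ((⌊x / δ⌋ : ℤ) : ℝ) < ((⌊y / δ⌋ + (⌊D⌋₊ + 1) + 1 : ℤ) : ℝ) := by push_cast; linarith
    have := Int.cast_lt.1 this
    omega

/-- A parallelogram contains few points in light atoms: if `|Δ f θ₁|, |Δ f θ₂| ≤ A δ` then `|Δx| ≤ 4000 A δ`, `|Δy| ≤ 4001 A δ`, so the set
meets at most `(8002 A + 3) ^ 2` atoms. -/
theorem card_cell_le (Z V : Finset Pt) (hV : V ⊆ Z) {θ₁ θ₂ δ A a : ℝ} (hδ : 0 < δ) (hA : 0 ≤ A)
    (ha : 0 ≤ a) (h1 : |θ₁| ≤ 1) (h12 : 1 / 2000 ≤ |θ₁ - θ₂|)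
    (hd : ∀ p ∈ V, ∀ p' ∈ V, |f θ₁ p - f θ₁ p'| ≤ A * δ ∧ |f θ₂ p - f θ₂ p'| ≤ A * δ)
    (hm : ∀ p ∈ V, (amass Z δ p : ℝ) ≤ a) : (#V : ℝ) ≤ (8002 * A + 3) ^ 2 * a := by
  rcases V.eq_empty_or_nonempty with rfl | ⟨p₀, hp₀⟩
  · simp only [card_empty, Nat.cast_zero]; positivity
  have hxy : ∀ p ∈ V, |p.1 - p₀.1| ≤ 4001 * A * δ ∧ |p.2 - p₀.2| ≤ 4001 * A * δ := by
    intro p hp
    obtain ⟨d1, d2⟩ := hd p hp p₀ hp₀
    have hAδ : 0 ≤ A * δ := by positivity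
    have e1 : (θ₁ - θ₂) * (p.1 - p₀.1) = (f θ₂ p - f θ₂ p₀) - (f θ₁ p - f θ₁ p₀) := by
      unfold f; ring
    have e2 : |θ₁ - θ₂| * |p.1 - p₀.1| ≤ 2 * (A * δ) := by
      rw [← abs_mul, e1]
      exact (abs_sub _ _).trans (by linarith)
    have e3 := mul_le_mul_of_nonneg_right h12 (abs_nonneg (p.1 - p₀.1))
    have e4 : |p.1 - p₀.1| ≤ 4000 * (A * δ) := by linarith
    have e5 : p.2 - p₀.2 = (f θ₁ p - f θ₁ p₀) + θ₁ * (p.1 - p₀.1) := by unfold f; ring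
    have e6 : |θ₁ * (p.1 - p₀.1)| ≤ |p.1 - p₀.1| := by
      rw [abs_mul]; exact mul_le_of_le_one_left (abs_nonneg _) h1
    refine ⟨by linarith, ?_⟩
    rw [e5]
    exact (abs_add_le _ _).trans (by linarith)
  set K : ℕ := ⌊4001 * A⌋₊ with hK
  have hK' : (K : ℝ) ≤ 4001 * A := Nat.floor_le (by positivity)
  have h := r7a_fiber V (Icc (⌊p₀.1 / δ⌋ - (K + 1)) (⌊p₀.1 / δ⌋ + (K + 1)) ×ˢ
    Icc (⌊p₀.2 / δ⌋ - (K + 1)) (⌊p₀.2 / δ⌋ + (K + 1))) (atom δ) (fun p hp => mem_product.2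
      ⟨r7a_floor hδ (by positivity) (hxy p hp).1, r7a_floor hδ (by positivity) (hxy p hp).2⟩) ha
    (fun p hp => le_trans (by
      unfold amass
      refine Nat.cast_le.2 (card_le_card fun z hz => ?_)
      obtain ⟨z1, z2⟩ := mem_filter.1 hz
      exact mem_filter.2 ⟨hV z1, congrArg Prod.fst z2, congrArg Prod.snd z2⟩) (hm p hp))
  have hc : ∀ t : ℤ, #(Icc (t - (K + 1)) (t + (K + 1))) = 2 * K + 3 := by
    intro t; rw [Int.card_Icc]; omega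
  rw [card_product, hc, hc] at h
  refine h.trans (mul_le_mul_of_nonneg_right ?_ ha)
  push_cast
  rw [← sq]
  exact pow_le_pow_left₀ (by positivity) (by linarith) 2

theorem r7a_strips (Z : Finset Pt) (g : Pt → ℤ) (I : Finset ℤ) :
    ∑ n ∈ I, (#(Z.filter fun z => |g z - n| ≤ 3) : ℝ) ≤ 7 * #Z := by
  have h : ∑ n ∈ I, #(Z.filter fun z => |g z - n| ≤ 3) ≤ #Z * 7 := by
    simp only [card_filter]
    rw [sum_comm, ← smul_eq_mul]
    refine sum_le_card_nsmul _ _ _ fun z _ => ?_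
    rw [← card_filter]
    have : #(Icc (g z - 3) (g z + 3)) = 7 := by rw [Int.card_Icc]; omega
    rw [← this]
    refine card_le_card fun n hn => ?_
    have := abs_le.1 (mem_filter.1 hn).2
    exact mem_Icc.2 ⟨by omega, by omega⟩
  rw [mul_comm]
  exact_mod_cast h

/-- Few strips are heavy: every point of `Z` is counted by seven strips. -/
theorem card_heavy_strips (Z V : Finset Pt) (θ δ : ℝ) {μ : ℝ} (hμ : 0 < μ)
    (h : ∀ p ∈ V, μ ≤ (smass Z θ δ p : ℝ)) :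
    (#(V.image fun p => ⌊f θ p / δ⌋) : ℝ) ≤ 7 * #Z / μ := by
  rw [le_div_iff₀ hμ]
  refine le_trans ?_ (r7a_strips Z (fun p => ⌊f θ p / δ⌋) (V.image fun p => ⌊f θ p / δ⌋))
  rw [← nsmul_eq_mul]
  refine card_nsmul_le_sum _ _ _ fun n hn => ?_
  obtain ⟨p, hp, rfl⟩ := mem_image.1 hn
  exact h p hp

theorem r7a_geom (J : Finset ℕ) {x : ℝ} (hx : 0 ≤ x) (h : ∀ j ∈ J, (1 / 2 : ℝ) ^ j ≤ x) :
    ∑ j ∈ J, (1 / 2 : ℝ) ^ j ≤ 2 * x := by
  rcases J.eq_empty_or_nonempty with rfl | hJ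
  · simp only [sum_empty]; positivity
  have h1 : J ⊆ Ico (J.min' hJ) (J.max' hJ + 1) := fun j hj =>
    mem_Ico.2 ⟨J.min'_le j hj, Nat.lt_succ_of_le (J.le_max' j hj)⟩
  have h2 := geom_sum_Ico_le_of_lt_one (x := (1 / 2 : ℝ)) (m := J.min' hJ) (n := J.max' hJ + 1)
    (by norm_num) (by norm_num)
  have h3 := h _ (J.min'_mem hJ)
  have h4 := sum_le_sum_of_subset_of_nonneg (f := fun j => (1 / 2 : ℝ) ^ j) h1
    fun _ _ _ => by positivity
  norm_num at h2 h3 h4 ⊢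
  linarith

/-- The weighted number of strips used by the levels. -/
theorem r7a_sum {B N δ θ : ℝ} (hB : 1 ≤ B) (hN : 0 < N) (Z Y₀ : Finset Pt) (hZ : (#Z : ℝ) ≤ N)
    (lv : Pt → ℕ) (h1 : ∀ p ∈ Y₀, N / 4 ^ (lv p + 1) ≤ amass Z δ p)
    (h2 : ∀ p ∈ Y₀, amass Z δ p * N ≤ B * (smass Z θ δ p : ℝ) ^ 2) (J : Finset ℕ) :
    ∑ j ∈ J, (#((Y₀.filter fun p => lv p = j).image fun p => ⌊f θ p / δ⌋) : ℝ) * (1 / 2) ^ j ≤
      28 * B := by
  set I := Y₀.image fun p => ⌊f θ p / δ⌋ with hI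
  have e1 : ∀ j, (#((Y₀.filter fun p => lv p = j).image fun p => ⌊f θ p / δ⌋) : ℝ) * (1 / 2) ^ j =
      ∑ n ∈ I, if n ∈ (Y₀.filter fun p => lv p = j).image fun p => ⌊f θ p / δ⌋
        then (1 / 2 : ℝ) ^ j else 0 := by
    intro j
    rw [← sum_filter, filter_mem_eq_inter, inter_eq_right.2 (image_subset_image (filter_subset _ _)),
      sum_const, nsmul_eq_mul]
  simp only [e1]
  rw [sum_comm]
  have e2 : ∀ n ∈ I, (∑ j ∈ J, if n ∈ (Y₀.filter fun p => lv p = j).image fun p => ⌊f θ p / δ⌋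
      then (1 / 2 : ℝ) ^ j else 0) ≤
      4 * B / N * #(Z.filter fun z => |⌊f θ z / δ⌋ - n| ≤ 3) := by
    intro n _
    rw [← sum_filter]
    refine (r7a_geom _ (x := 2 * B / N * #(Z.filter fun z => |⌊f θ z / δ⌋ - n| ≤ 3))
      (by positivity) fun j hj => ?_).trans (le_of_eq (by ring))
    obtain ⟨p, hp, rfl⟩ := mem_image.1 (mem_filter.1 hj).2
    obtain ⟨hp0, rfl⟩ := mem_filter.1 hp
    clear hp
    have hp := hp0
    have a1 := mul_le_mul_of_nonneg_right (h1 p hp) hN.le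
    have a2 : (B : ℝ) * (smass Z θ δ p : ℝ) ^ 2 ≤ (B * smass Z θ δ p) ^ 2 := by
      rw [mul_pow]
      exact mul_le_mul_of_nonneg_right (by nlinarith) (by positivity)
    have a3 : (N * (1 / 2) ^ (lv p + 1)) ^ 2 = N / 4 ^ (lv p + 1) * N := by
      rw [mul_pow, ← pow_mul, mul_comm (lv p + 1) 2, pow_mul]
      norm_num
      rw [one_div, inv_pow]; ring
    have a4 : N * (1 / 2) ^ (lv p + 1) ≤ B * smass Z θ δ p :=
      le_of_pow_le_pow_left₀ two_ne_zero (by positivity) (by rw [a3]; linarith [h2 p hp])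
    rw [pow_succ] at a4
    rw [div_mul_eq_mul_div, le_div_iff₀ hN]
    unfold smass at a4
    linarith
  refine (sum_le_sum e2).trans ?_
  rw [← mul_sum]
  have e3 := r7a_strips Z (fun p => ⌊f θ p / δ⌋) I
  calc 4 * B / N * _ ≤ 4 * B / N * (7 * N) :=
        mul_le_mul_of_nonneg_left (e3.trans (by linarith)) (by positivity)
    _ = 28 * B := by field_simp; ring

/-- One mass level of atoms carries many points.  Let `V j` be the set of points of `Y₀` with `N / 4 ^ (j + 1) < amass ≤ N / 4 ^ j` (`amass ≥ 1`, so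
finitely many levels), `u j`, `v j` the numbers of strips `⌊f θ₁ · / δ⌋`, `⌊f θ₂ · / δ⌋` that meet `V j`.  A strip `n` used at the level `j` has mass
`s n = #{z ∈ Z | |⌊f θ z / δ⌋ - n| ≤ 3} ≥ N / (2 ^ (j + 1) B)`, so `∑ j, u j / 2 ^ j ≤ ∑ n, ∑ j with 1 / 2 ^ j ≤ 2 B s n / N, 1 / 2 ^ j ≤ ∑ n, 4 B s n / N ≤ 28 B`.
By `card_cell_le` (`A = 1`), `#(V j) ≤ u j v j · 8005 ^ 2 N / 4 ^ j`, so `√(#(V j) / N) ≤ 8005 (u j + v j) / (2 · 2 ^ j)` and `∑ j, √(#(V j) / N) ≤ 8005 · 28 B`.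
As `∑ j, #(V j) / N ≥ c`, some `j` has `√(#(V j) / N) ≥ c / (8005 · 28 B)`.  Take `T = 2 ^ j`. -/
theorem exists_level {B c : ℝ} (hB : 1 ≤ B) (hc : 0 < c) : ∃ c' : ℝ, 0 < c' ∧
    ∀ (Z Y₀ : Finset Pt) (N δ θ₁ θ₂ : ℝ), 0 < N → (#Z : ℝ) ≤ N → Y₀ ⊆ Z → c * N ≤ #Y₀ → 0 < δ →
      |θ₁| ≤ 1 → 1 / 2000 ≤ |θ₁ - θ₂| →
      (∀ p ∈ Y₀, amass Z δ p * N ≤ B * (smass Z θ₁ δ p : ℝ) ^ 2 ∧
        amass Z δ p * N ≤ B * (smass Z θ₂ δ p : ℝ) ^ 2) →
      ∃ T : ℝ, 1 ≤ T ∧ ∃ Y₁ ⊆ Y₀, c' * N ≤ #Y₁ ∧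
        ∀ p ∈ Y₁, N / (4 * T ^ 2) ≤ (amass Z δ p : ℝ) ∧ (amass Z δ p : ℝ) ≤ N / T ^ 2 := by
  set ε : ℝ := c / (2 * (8005 * (28 * B))) with hε
  have hε0 : 0 < ε := by positivity
  refine ⟨ε ^ 2, by positivity, ?_⟩
  intro Z Y₀ N δ θ₁ θ₂ hN hZ hY hcN hδ h1 h12 hs
  have hlv : ∀ p ∈ Y₀, ∃ j : ℕ, N / 4 ^ (j + 1) ≤ amass Z δ p ∧ (amass Z δ p : ℝ) ≤ N / 4 ^ j := by
    intro p hp
    have a1 : 0 < amass Z δ p := card_pos.2 ⟨p, mem_filter.2 ⟨hY hp, rfl, rfl⟩⟩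
    have a2 : (0 : ℝ) < amass Z δ p := by exact_mod_cast a1
    have a3 : (amass Z δ p : ℝ) ≤ N :=
      le_trans (Nat.cast_le.2 (card_le_card (filter_subset _ _))) hZ
    obtain ⟨j, b1, b2⟩ := exists_nat_pow_near (x := N / amass Z δ p) (y := (4 : ℝ))
      ((one_le_div a2).2 a3) (by norm_num)
    rw [le_div_iff₀ a2] at b1
    rw [div_lt_iff₀ a2] at b2
    refine ⟨j, ?_, ?_⟩
    · rw [div_le_iff₀ (by positivity)]; linarith
    · rw [le_div_iff₀ (by positivity)]; linarith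
  choose! lv hl1 hl2 using hlv
  by_contra hcon
  have hsmall : ∀ j : ℕ, (#(Y₀.filter fun p => lv p = j) : ℝ) ≤ ε ^ 2 * N := by
    intro j
    by_contra hj
    refine hcon ⟨2 ^ j, one_le_pow₀ (by norm_num), _, filter_subset _ _, (not_le.1 hj).le, ?_⟩
    intro p hp
    obtain ⟨hp0, rfl⟩ := mem_filter.1 hp
    clear hp
    have hp := hp0
    have e : ((2 : ℝ) ^ lv p) ^ 2 = 4 ^ lv p := by
      rw [← pow_mul, mul_comm, pow_mul]; norm_num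
    rw [e, ← pow_succ']
    exact ⟨hl1 p hp, hl2 p hp⟩
  have s1 := r7a_sum (θ := θ₁) hB hN Z Y₀ hZ lv hl1 (fun p hp => (hs p hp).1) (Y₀.image lv)
  have s2 := r7a_sum (θ := θ₂) hB hN Z Y₀ hZ lv hl1 (fun p hp => (hs p hp).2) (Y₀.image lv)
  have key : ∀ j : ℕ, (#(Y₀.filter fun p => lv p = j) : ℝ) ≤ ε * N * (8005 / 2) *
      ((#((Y₀.filter fun p => lv p = j).image fun p => ⌊f θ₁ p / δ⌋) : ℝ) * (1 / 2) ^ j +
        (#((Y₀.filter fun p => lv p = j).image fun p => ⌊f θ₂ p / δ⌋) : ℝ) * (1 / 2) ^ j) := by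
    intro j
    have fl : ∀ x y : ℝ, ⌊x / δ⌋ = ⌊y / δ⌋ → |x - y| ≤ 1 * δ := by
      intro x y hxy
      have := Int.abs_sub_lt_one_of_floor_eq_floor hxy
      rw [← sub_div, abs_div, abs_of_pos hδ, div_lt_iff₀ hδ] at this
      exact this.le
    have b := r7a_fiber (Y₀.filter fun p => lv p = j)
      (((Y₀.filter fun p => lv p = j).image fun p => ⌊f θ₁ p / δ⌋) ×ˢ
        ((Y₀.filter fun p => lv p = j).image fun p => ⌊f θ₂ p / δ⌋))
      (fun p => (⌊f θ₁ p / δ⌋, ⌊f θ₂ p / δ⌋))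
      (fun p hp => mem_product.2 ⟨mem_image_of_mem _ hp, mem_image_of_mem _ hp⟩)
      (a := (8002 * 1 + 3) ^ 2 * (N / 4 ^ j)) (by positivity) (fun p hp => by
        refine card_cell_le Z _ ((filter_subset _ _).trans ((filter_subset _ _).trans hY)) hδ
          zero_le_one (by positivity) h1 h12 (fun z hz z' hz' => ?_) fun z hz => ?_
        · have e := (mem_filter.1 hz).2.trans (mem_filter.1 hz').2.symm
          exact ⟨fl _ _ (congrArg Prod.fst e), fl _ _ (congrArg Prod.snd e)⟩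
        · obtain ⟨hz0, e⟩ := mem_filter.1 (mem_filter.1 hz).1
          rw [← e]
          exact hl2 z hz0)
    rw [card_product] at b
    push_cast at b
    have b0 := hsmall j
    have u0 : (0 : ℝ) ≤ #((Y₀.filter fun p => lv p = j).image fun p => ⌊f θ₁ p / δ⌋) :=
      Nat.cast_nonneg _
    have v0 : (0 : ℝ) ≤ #((Y₀.filter fun p => lv p = j).image fun p => ⌊f θ₂ p / δ⌋) :=
      Nat.cast_nonneg _
    generalize (#((Y₀.filter fun p => lv p = j).image fun p => ⌊f θ₁ p / δ⌋) : ℝ) = u at b u0 ⊢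
    generalize (#((Y₀.filter fun p => lv p = j).image fun p => ⌊f θ₂ p / δ⌋) : ℝ) = v at b v0 ⊢
    have x0 : (0 : ℝ) ≤ #(Y₀.filter fun p => lv p = j) := Nat.cast_nonneg _
    generalize (#(Y₀.filter fun p => lv p = j) : ℝ) = x at b b0 x0 ⊢
    have e : N / 4 ^ j = N * ((1 / 2) ^ j) ^ 2 := by
      rw [← pow_mul, mul_comm j 2, pow_mul]
      norm_num
      rw [one_div, inv_pow]; ring
    rw [e] at b
    have t0 : (0 : ℝ) < (1 / 2) ^ j := by positivity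
    generalize ((1 / 2 : ℝ) ^ j) = t at b t0 ⊢
    have b1 : x ≤ N * (8005 / 2 * (u * t + v * t)) ^ 2 := by
      have := mul_nonneg hN.le (sq_nonneg (u * t - v * t))
      nlinarith
    have b2 := mul_le_mul b0 b1 x0 (by positivity)
    refine le_of_pow_le_pow_left₀ two_ne_zero (by positivity) ?_
    calc x ^ 2 = x * x := sq x
      _ ≤ _ := b2
      _ = _ := by ring
  have hcard : (#Y₀ : ℝ) = ∑ j ∈ Y₀.image lv, (#(Y₀.filter fun p => lv p = j) : ℝ) := by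
    exact_mod_cast card_eq_sum_card_image lv Y₀
  have h3 := sum_le_sum (s := Y₀.image lv) fun j _ => key j
  rw [← hcard, ← mul_sum, sum_add_distrib] at h3
  have h4 : ε * N * (8005 / 2) * (28 * B + 28 * B) = c * N / 2 := by
    rw [hε]; field_simp; ring
  have h5 := mul_le_mul_of_nonneg_left (add_le_add s1 s2)
    (show 0 ≤ ε * N * (8005 / 2) by positivity)
  have h6 : 0 < c * N := by positivity
  linarith

end Crest.Agent.R51
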