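import Crest.Agent.R51.AddMain
import Crest.Agent.R51.R5a
import Crest.Agent.R51.R7a

/-! From heavy strips in three directions to linear growth. -/

namespace Crest.Agent.R51

open Finset
open scoped Classical

theorem R7_floor (a b : ℝ) : |((⌊a⌋ - ⌊b⌋ : ℤ) : ℝ) - (a - b)| ≤ 1 := by
  have h1 := Int.floor_le a
  have h2 := Int.lt_floor_add_one a
  have h3 := Int.floor_le b
  have h4 := Int.lt_floor_add_one b
  push_cast
  rw [abs_le]
  constructor <;> linarith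

theorem R7_fl {t δ : ℝ} (hδ : 0 < δ) (ht1 : 1 / 2000 ≤ |t|) (ht2 : |t| ≤ 2000) (a b : ℝ) :
    |a - b| ≤ 2000 * (((|⌊t * a / δ⌋ - ⌊t * b / δ⌋| : ℤ) : ℝ) + 1) * δ ∧
    (((|⌊t * a / δ⌋ - ⌊t * b / δ⌋| : ℤ) : ℝ) - 1) * δ ≤ 2000 * |a - b| := by
  have h1 := R7_floor (t * a / δ) (t * b / δ)
  have h2 : |t * a / δ - t * b / δ| = |t| * |a - b| / δ := by
    rw [← sub_div, ← mul_sub, abs_div, abs_mul, abs_of_pos hδ]
  rw [Int.cast_abs]
  generalize ((⌊t * a / δ⌋ - ⌊t * b / δ⌋ : ℤ) : ℝ) = n at h1 ⊢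
  have h3 : |t| * |a - b| / δ ≤ |n| + 1 := by
    rw [← h2]
    have := abs_sub_abs_le_abs_sub (t * a / δ - t * b / δ) n
    rw [abs_sub_comm (t * a / δ - t * b / δ) n] at this
    linarith
  have h4 : |n| - 1 ≤ |t| * |a - b| / δ := by
    rw [← h2]
    have := abs_sub_abs_le_abs_sub n (t * a / δ - t * b / δ)
    linarith
  rw [div_le_iff₀ hδ] at h3
  rw [le_div_iff₀ hδ] at h4
  have h5 := abs_nonneg (a - b)
  constructor
  · nlinarith [mul_le_mul_of_nonneg_right ht1 h5]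
  · nlinarith [mul_le_mul_of_nonneg_right ht2 h5]

theorem R7_card_image_le {α : Type} (V : Finset α) (a b : α → ℤ) (K : ℕ)
    (h : ∀ p ∈ V, ∀ p' ∈ V, a p = a p' → |b p - b p'| ≤ (K : ℤ)) :
    #(V.image b) ≤ (2 * K + 1) * #(V.image a) := by
  have h1 : V.image b ⊆ (V.image a).biUnion fun n => (V.filter fun p => a p = n).image b := by
    intro y hy
    obtain ⟨p, hp, rfl⟩ := mem_image.1 hy
    exact mem_biUnion.2 ⟨a p, mem_image_of_mem _ hp,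
      mem_image_of_mem _ (mem_filter.2 ⟨hp, rfl⟩)⟩
  refine (card_le_card h1).trans ?_
  rw [mul_comm]
  refine card_biUnion_le_card_mul _ _ _ fun n hn => ?_
  obtain ⟨p₀, hp₀, rfl⟩ := mem_image.1 hn
  have h2 : (V.filter fun p => a p = a p₀).image b ⊆ Finset.Icc (b p₀ - K) (b p₀ + K) := by
    intro y hy
    obtain ⟨p, hp, rfl⟩ := mem_image.1 hy
    rw [mem_filter] at hp
    have := abs_le.1 (h p hp.1 p₀ hp₀ hp.2)
    rw [Finset.mem_Icc]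
    constructor <;> linarith [this.1, this.2]
  refine (card_le_card h2).trans ?_
  rw [Int.card_Icc]
  omega

theorem R7_card_pre {α β : Type} [DecidableEq β] (V : Finset α) (π : α → β) (S : Finset β) :
    (#(V.filter fun p => π p ∈ S) : ℝ) = ∑ g ∈ S, (#(V.filter fun p => π p = g) : ℝ) := by
  rw [← Nat.cast_sum, Finset.sum_card_fiberwise_eq_card_filter]

theorem R7_card_pre_le {α β : Type} [DecidableEq β] (V : Finset α) (π : α → β) (S : Finset β) {a : ℝ}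
    (h : ∀ g ∈ S, (#(V.filter fun p => π p = g) : ℝ) ≤ a) :
    (#(V.filter fun p => π p ∈ S) : ℝ) ≤ #S * a := by
  rw [R7_card_pre]
  simpa using sum_le_card_nsmul S _ a h

theorem R7_card_pre_ge {α β : Type} [DecidableEq β] (V : Finset α) (π : α → β) (S : Finset β) {a : ℝ}
    (h : ∀ g ∈ S, a ≤ (#(V.filter fun p => π p = g) : ℝ)) :
    #S * a ≤ (#(V.filter fun p => π p ∈ S) : ℝ) := by
  rw [R7_card_pre]
  simpa using card_nsmul_le_sum S _ a h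

/-- The values with a large fibre. -/
theorem R7_dense {α β : Type} [DecidableEq β] (V : Finset α) (π : α → β) {a b n M : ℝ} (ha : 0 ≤ a)
    (hn : n ≤ #V) (hM : (#(V.image π) : ℝ) ≤ M) (hab : M * a ≤ n / 2)
    (h : ∀ g, (#(V.filter fun p => π p = g) : ℝ) ≤ b) :
    n / 2 ≤ #((V.image π).filter fun g => a ≤ (#(V.filter fun p => π p = g) : ℝ)) * b := by
  set G := (V.image π).filter fun g => a ≤ (#(V.filter fun p => π p = g) : ℝ) with hG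
  set G' := (V.image π).filter fun g => ¬ a ≤ (#(V.filter fun p => π p = g) : ℝ) with hG'
  have h1 : (#(V.filter fun p => π p ∈ G) : ℝ) ≤ #G * b := R7_card_pre_le V π G fun g _ => h g
  have h2 : (#(V.filter fun p => π p ∈ G') : ℝ) ≤ #G' * a :=
    R7_card_pre_le V π G' fun g hg => (not_le.1 (mem_filter.1 hg).2).le
  have h3 : (#G' : ℝ) ≤ M := le_trans (by exact_mod_cast card_le_card (filter_subset _ _)) hM
  have h4 : V ⊆ (V.filter fun p => π p ∈ G) ∪ (V.filter fun p => π p ∈ G') := by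
    intro p hp
    rw [mem_union]
    by_cases hc : a ≤ (#(V.filter fun p' => π p' = π p) : ℝ)
    · exact Or.inl (mem_filter.2 ⟨hp, mem_filter.2 ⟨mem_image_of_mem _ hp, hc⟩⟩)
    · exact Or.inr (mem_filter.2 ⟨hp, mem_filter.2 ⟨mem_image_of_mem _ hp, hc⟩⟩)
  have h5 : (#V : ℝ) ≤ #(V.filter fun p => π p ∈ G) + #(V.filter fun p => π p ∈ G') := by
    exact_mod_cast (card_le_card h4).trans (card_union_le _ _)
  have h6 : (#G' : ℝ) * a ≤ M * a := mul_le_mul_of_nonneg_right h3 ha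
  linarith

/-- Ordered pairs of points over a set of pairs of values. -/
theorem R7_card_pairs_ge {α β : Type} [DecidableEq β] (V : Finset α) (π : α → β) (Γ : Finset (β × β)) {a : ℝ}
    (ha : 0 ≤ a) (h : ∀ γ ∈ Γ, a ≤ (#(V.filter fun p => π p = γ.1) : ℝ) ∧
      a ≤ (#(V.filter fun p => π p = γ.2) : ℝ)) :
    #Γ * a ^ 2 ≤ (#((V ×ˢ V).filter fun e => (π e.1, π e.2) ∈ Γ) : ℝ) := by
  have := R7_card_pre_ge (V ×ˢ V) (fun e : α × α => (π e.1, π e.2)) Γ (a := a ^ 2) ?_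
  · convert this
  intro γ hγ
  have h1 : ((V ×ˢ V).filter fun e : α × α => (π e.1, π e.2) = γ) =
      (V.filter fun p => π p = γ.1) ×ˢ (V.filter fun p => π p = γ.2) := by
    ext e
    simp only [mem_filter, mem_product, Prod.ext_iff]
    tauto
  have h2 : a ^ 2 ≤ (#((V.filter fun p => π p = γ.1) ×ˢ (V.filter fun p => π p = γ.2)) : ℝ) := by
    rw [card_product, Nat.cast_mul, sq]
    exact mul_le_mul (h γ hγ).1 (h γ hγ).2 ha (Nat.cast_nonneg _)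
  rw [← h1] at h2
  convert h2

theorem R7_f_diff (θ₀ θ₁ : ℝ) (p p' : Pt) :
    (f θ₀ p' - f θ₀ p) - (f θ₁ p' - f θ₁ p) = (θ₁ - θ₀) * (p'.1 - p.1) := by
  unfold f
  ring

theorem R7_sl_le {e : Ed} (he : e.1.1 < e.2.1) {θ w : ℝ}
    (h : |f θ e.2 - f θ e.1| ≤ w * |e.2.1 - e.1.1|) : |sl e - θ| ≤ w := by
  rw [f_sub e he, abs_mul, mul_comm] at h
  exact le_of_mul_le_mul_right h (abs_pos.2 (by linarith))

/-- The degree of a point is at most twice the number of possible neighbours. -/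
theorem R7_deg_le (E : Finset Ed) (p : Pt) (W : Finset Pt)
    (h : ∀ e ∈ E, (e.1 = p → e.2 ∈ W) ∧ (e.2 = p → e.1 ∈ W)) : deg E p ≤ 2 * #W := by
  have h1 : E.filter (Inc p) ⊆ (W.image fun z => (p, z)) ∪ (W.image fun z => (z, p)) := by
    intro e he
    rw [mem_filter] at he
    rw [mem_union]
    rcases he.2 with h2 | h2
    · exact Or.inl (mem_image.2 ⟨e.2, (h e he.1).1 h2, by rw [← h2]⟩)
    · exact Or.inr (mem_image.2 ⟨e.1, (h e he.1).2 h2, by rw [← h2]⟩)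
  have h2 := (card_le_card h1).trans (card_union_le _ _)
  have h3 : #(W.image fun z => (p, z)) ≤ #W := card_image_le
  have h4 : #(W.image fun z => (z, p)) ≤ #W := card_image_le
  unfold deg
  omega

/-- An element of `pairs` arises from at most two ordered pairs. -/
theorem R7_card_le_two (Z : Finset Pt) (F : Finset Ed) (θ w : ℝ)
    (h : ∀ e ∈ F, e.1 ∈ Z ∧ e.2 ∈ Z ∧ e.1.1 ≠ e.2.1 ∧ |f θ e.2 - f θ e.1| ≤ w * |e.2.1 - e.1.1|) :
    #F ≤ 2 * #((pairs Z).filter fun e => |sl e - θ| ≤ w) := by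
  set P := (pairs Z).filter fun e => |sl e - θ| ≤ w with hP
  have h1 : F ⊆ P ∪ P.image Prod.swap := by
    intro e he
    obtain ⟨h1, h2, h3, h4⟩ := h e he
    rw [mem_union]
    rcases lt_or_gt_of_ne h3 with h5 | h5
    · exact Or.inl (mem_filter.2 ⟨mem_pairs.2 ⟨h1, h2, h5⟩, R7_sl_le h5 h4⟩)
    · refine Or.inr (mem_image.2 ⟨e.swap, mem_filter.2 ⟨mem_pairs.2 ⟨h2, h1, h5⟩, ?_⟩, rfl⟩)
      refine R7_sl_le (e := e.swap) h5 ?_
      simp only [Prod.fst_swap, Prod.snd_swap]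
      rw [abs_sub_comm, abs_sub_comm e.1.1]
      exact h4
  have h2 := (card_le_card h1).trans (card_union_le _ _)
  have h3 : #(P.image Prod.swap) ≤ #P := card_image_le
  omega

/-- `n` is a discretisation of `f θ` at the scale `δ`. -/
def R7D (θ δ : ℝ) (n : Pt → ℤ) : Prop := ∀ p p' : Pt,
  |f θ p' - f θ p| ≤ 2000 * (((|n p' - n p| : ℤ) : ℝ) + 1) * δ ∧
    (((|n p' - n p| : ℤ) : ℝ) - 1) * δ ≤ 2000 * |f θ p' - f θ p|

theorem R7_diam {θ₀ θ₁ δ ρ : ℝ} {n₀ n₁ : Pt → ℤ} (hδ : 0 < δ) (h01 : θ₀ + 1 / 2000 ≤ θ₁)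
    (h0 : R7D θ₀ δ n₀) (h1 : R7D θ₁ δ n₁) {p p' : Pt} (a0 : ((|n₀ p' - n₀ p| : ℤ) : ℝ) ≤ ρ)
    (a1 : ((|n₁ p' - n₁ p| : ℤ) : ℝ) ≤ ρ) : |p'.1 - p.1| ≤ 8000000 * (ρ + 1) * δ := by
  have b0 : |f θ₀ p' - f θ₀ p| ≤ 2000 * (ρ + 1) * δ := (h0 p p').1.trans (by gcongr)
  have b1 : |f θ₁ p' - f θ₁ p| ≤ 2000 * (ρ + 1) * δ := (h1 p p').1.trans (by gcongr)
  have b2 := abs_sub (f θ₀ p' - f θ₀ p) (f θ₁ p' - f θ₁ p)
  rw [R7_f_diff, abs_mul, abs_of_pos (by linarith : 0 < θ₁ - θ₀)] at b2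
  have b3 : 1 / 2000 * |p'.1 - p.1| ≤ (θ₁ - θ₀) * |p'.1 - p.1| :=
    mul_le_mul_of_nonneg_right (by linarith) (abs_nonneg _)
  linarith

theorem R7_near {θ₁ δ D : ℝ} {r : ℕ} {n₁ : Pt → ℤ} (hδ : 0 < δ) (hD : 0 < D) (hr : 2 ≤ r)
    (h1 : R7D θ₁ δ n₁) {e : Ed} (he : e.1.1 < e.2.1) (hx : |e.2.1 - e.1.1| ≤ D)
    (hs : |sl e - θ₁| ≤ (r - 1) * δ / (2000 * D)) : |n₁ e.2 - n₁ e.1| ≤ (r : ℤ) := by
  have hr' : (2 : ℝ) ≤ r := by exact_mod_cast hr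
  have b1 := (h1 e.1 e.2).2
  rw [f_sub e he, abs_mul] at b1
  have b2 : |e.2.1 - e.1.1| * |sl e - θ₁| ≤ D * ((r - 1) * δ / (2000 * D)) :=
    mul_le_mul hx hs (abs_nonneg _) hD.le
  have b3 : D * ((r - 1) * δ / (2000 * D)) = (r - 1) * δ / 2000 := by field_simp
  have b4 : (((|n₁ e.2 - n₁ e.1| : ℤ) : ℝ) - 1) * δ ≤ (r - 1) * δ := by linarith
  have b5 := le_of_mul_le_mul_right b4 hδ
  have b6 : ((|n₁ e.2 - n₁ e.1| : ℤ) : ℝ) ≤ ((r : ℤ) : ℝ) := by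
    rw [Int.cast_natCast]
    linarith
  exact_mod_cast b6

theorem R7_far {θ₀ θ₁ δ R x : ℝ} {n₀ n₁ : Pt → ℤ} (hδ : 0 < δ) (h01 : θ₀ ≤ θ₁)
    (h01' : θ₁ - θ₀ ≤ 1) (h0 : R7D θ₀ δ n₀) (h1 : R7D θ₁ δ n₁) (hR : 1 ≤ R) (hx : 2 ≤ x)
    (hRx : 32000000 * R ≤ x) {p p' : Pt} (a0 : x ≤ ((|n₀ p' - n₀ p| : ℤ) : ℝ))
    (a1 : ((|n₁ p' - n₁ p| : ℤ) : ℝ) ≤ R) :
    p.1 ≠ p'.1 ∧ |f θ₁ p' - f θ₁ p| ≤ 32000000 * R / x * |p'.1 - p.1| := by
  have b1 : |f θ₁ p' - f θ₁ p| ≤ 4000 * R * δ := by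
    refine (h1 p p').1.trans ?_
    have : 2000 * (((|n₁ p' - n₁ p| : ℤ) : ℝ) + 1) ≤ 4000 * R := by linarith
    exact mul_le_mul_of_nonneg_right this hδ.le
  have b0 : x / 2 * δ ≤ 2000 * |f θ₀ p' - f θ₀ p| := by
    refine le_trans ?_ (h0 p p').2
    exact mul_le_mul_of_nonneg_right (by linarith) hδ.le
  have b2 := abs_sub_abs_le_abs_sub (f θ₀ p' - f θ₀ p) (f θ₁ p' - f θ₁ p)
  rw [R7_f_diff, abs_mul, abs_of_nonneg (by linarith : 0 ≤ θ₁ - θ₀)] at b2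
  have b3 : (θ₁ - θ₀) * |p'.1 - p.1| ≤ 1 * |p'.1 - p.1| :=
    mul_le_mul_of_nonneg_right h01' (abs_nonneg _)
  have b4 : 32000000 * R * δ ≤ x * δ := mul_le_mul_of_nonneg_right hRx hδ.le
  have b5 : x * δ / 8000 ≤ |p'.1 - p.1| := by linarith
  have hx0 : 0 < x := by linarith
  constructor
  · intro h
    rw [h, sub_self, abs_zero] at b5
    have : 0 < x * δ := mul_pos hx0 hδ
    linarith
  · refine b1.trans ?_
    calc 4000 * R * δ = 32000000 * R / x * (x * δ / 8000) := by field_simp; ring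
      _ ≤ _ := by gcongr

theorem R7_str {Z₀ Y₁ : Finset Pt} {π : Pt → ℤ × ℤ} {G : Finset (ℤ × ℤ)}
    {θ₀ θ₁ δ u v N T ca C₁ c₂ c' Yk : ℝ} {ρ r J : ℕ}
    (hδ : 0 < δ) (h01 : θ₀ + 1 / 2000 ≤ θ₁) (h0 : 0 ≤ θ₀) (h1 : θ₁ ≤ 1) (hu : 0 ≤ u)
    (hπ1 : R7D θ₁ δ fun p => (π p).1) (hπ0 : R7D θ₀ δ fun p => (π p).2)
    (hY : Y₁ ⊆ Z₀) (hN : 0 < N) (hT : 0 < T) (hYk : 0 < Yk) (hca : 0 < ca) (hC₁ : 0 < C₁)
    (hc₂ : 0 < c₂) (hc' : 0 < c') (hJ : 1 ≤ J) (hr : 2 ≤ r) (hρ : 2 ≤ ca * ρ)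
    (k1 : c' ≤ ca / (2 * C₁)) (k2 : c' ≤ 1 / 64000000000)
    (k3 : c' ≤ ca / (32000000 * 64000000000)) (k4 : c' ≤ ca * c₂ ^ 2 / 2)
    (hup : ∀ g, (#(Y₁.filter fun p => π p = g) : ℝ) ≤ C₁ * N / T ^ 2)
    (hlo : ∀ g ∈ G, c₂ * N / T ^ 2 ≤ (#(Y₁.filter fun p => π p = g) : ℝ))
    (hbox : ∀ g ∈ G, ∀ g' ∈ G, |g'.1 - g.1| ≤ (ρ : ℤ) ∧ |g'.2 - g.2| ≤ (ρ : ℤ))
    (hA : ∀ g ∈ G, (#(G.filter fun g' => |g'.1 - g.1| ≤ (r : ℤ)) : ℝ) ≤ T ^ 2 / (ca * Yk))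
    (hB : ρ ≤ J * r ∨ ca * J * T ^ 4 / Yk ≤ (#((G ×ˢ G).filter fun γ =>
      |γ.2.1 - γ.1.1| ≤ (J : ℤ) * (r : ℤ) ∧ ca * ρ ≤ ((|γ.2.2 - γ.1.2| : ℤ) : ℝ)) : ℝ)) :
    Str Z₀ (Y₁.filter fun p => π p ∈ G) θ₁ u v (N / Yk) N J c' := by
  have hr' : (2 : ℝ) ≤ r := by exact_mod_cast hr
  have hJ' : (1 : ℝ) ≤ J := by exact_mod_cast hJ
  have hρ1 : (1 : ℝ) ≤ ρ := by
    have : ρ ≠ 0 := by
      rintro rfl
      simp at hρ
      linarith
    exact_mod_cast Nat.one_le_iff_ne_zero.2 this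
  set D : ℝ := 8000000 * (ρ + 1) * δ with hD
  have hD0 : 0 < D := by positivity
  have hϑ : 0 < (r - 1) * δ / (2000 * D) := div_pos (mul_pos (by linarith) hδ) (by positivity)
  have hx : ∀ p ∈ Y₁.filter fun p => π p ∈ G, ∀ p' ∈ Y₁.filter fun p => π p ∈ G,
      |p'.1 - p.1| ≤ D := by
    intro p hp p' hp'
    have hb := hbox _ (mem_filter.1 hp).2 _ (mem_filter.1 hp').2
    refine R7_diam hδ h01 hπ0 hπ1 ?_ ?_
    · exact_mod_cast hb.2
    · exact_mod_cast hb.1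
  -- lower bound for the large angular scale
  have hbig : J * r / (64000000000 * ρ * c') ≤ J * ((r - 1) * δ / (2000 * D)) / c' := by
    have e1 : J * ((r - 1) * δ / (2000 * D)) / c' =
        J * (r - 1) / (16000000000 * (ρ + 1) * c') := by
      rw [hD]
      field_simp
      ring
    rw [e1, div_le_div_iff₀ (by positivity) (by positivity)]
    have e2 : (r : ℝ) * (ρ + 1) ≤ (r - 1) * (4 * ρ) := by nlinarith
    calc (J : ℝ) * r * (16000000000 * (ρ + 1) * c') = (J * 16000000000 * c') * (r * (ρ + 1)) := by ring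
      _ ≤ (J * 16000000000 * c') * ((r - 1) * (4 * ρ)) := by gcongr
      _ = _ := by ring
  refine ⟨(r - 1) * δ / (2000 * D), hϑ, fun p => ?_, ?_⟩
  · by_cases hp : p ∈ Y₁.filter fun p => π p ∈ G
    · have hpG := (mem_filter.1 hp).2
      set S := G.filter fun g' => |g'.1 - (π p).1| ≤ (r : ℤ) with hS
      have a1 := R7_deg_le ((tm (pairs (Y₁.filter fun p => π p ∈ G)) u v).filter fun e =>
          |sl e - θ₁| ≤ (r - 1) * δ / (2000 * D)) p (Y₁.filter fun z => π z ∈ S) ?_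
      · have a2 := R7_card_pre_le Y₁ π S fun g _ => hup g
        have a3 : (#S : ℝ) * (C₁ * N / T ^ 2) ≤ T ^ 2 / (ca * Yk) * (C₁ * N / T ^ 2) :=
          mul_le_mul_of_nonneg_right (hA _ hpG) (by positivity)
        have a4 : T ^ 2 / (ca * Yk) * (C₁ * N / T ^ 2) = N / Yk / (ca / (2 * C₁)) / 2 := by
          field_simp
        have a5 : N / Yk / (ca / (2 * C₁)) ≤ N / Yk / c' := by gcongr
        have a6 : (deg ((tm (pairs (Y₁.filter fun p => π p ∈ G)) u v).filter fun e =>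
          |sl e - θ₁| ≤ (r - 1) * δ / (2000 * D)) p : ℝ) ≤ 2 * #(Y₁.filter fun z => π z ∈ S) := by
          exact_mod_cast a1
        linarith
      · intro e he
        rw [mem_filter, mem_tm, mem_pairs] at he
        obtain ⟨⟨⟨e1, e2, e3⟩, -⟩, e4⟩ := he
        have a1 := R7_near hδ hD0 hr hπ1 e3 (hx _ e1 _ e2) e4
        constructor
        · rintro rfl
          exact mem_filter.2 ⟨(mem_filter.1 e2).1, mem_filter.2 ⟨(mem_filter.1 e2).2, a1⟩⟩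
        · rintro rfl
          rw [abs_sub_comm] at a1
          exact mem_filter.2 ⟨(mem_filter.1 e1).1, mem_filter.2 ⟨(mem_filter.1 e1).2, a1⟩⟩
    · have a1 := R7_deg_le ((tm (pairs (Y₁.filter fun p => π p ∈ G)) u v).filter fun e =>
          |sl e - θ₁| ≤ (r - 1) * δ / (2000 * D)) p ∅ ?_
      · rw [card_empty, mul_zero, Nat.le_zero] at a1
        rw [a1, Nat.cast_zero]
        positivity
      · intro e he
        rw [mem_filter, mem_tm, mem_pairs] at he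
        obtain ⟨⟨⟨e1, e2, e3⟩, -⟩, e4⟩ := he
        constructor
        · rintro rfl
          exact absurd e1 hp
        · rintro rfl
          exact absurd e2 hp
  · generalize (J : ℝ) * ((r - 1) * δ / (2000 * D)) / c' = w at hbig ⊢
    by_cases hc : ca * ρ ≤ 32000000 * (J * r)
    · left
      have : 1 ≤ J * r / (64000000000 * ρ * c') := by
        rw [le_div_iff₀ (by positivity)]
        rw [le_div_iff₀ (by positivity)] at k3
        nlinarith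
      linarith
    rcases hB with hB | hB
    · left
      have hB' : (ρ : ℝ) ≤ J * r := by exact_mod_cast hB
      have : 1 ≤ J * r / (64000000000 * ρ * c') := by
        rw [le_div_iff₀ (by positivity)]
        rw [le_div_iff₀ (by positivity)] at k2
        nlinarith
      linarith
    right
    right
    set Γ := (G ×ˢ G).filter fun γ : (ℤ × ℤ) × (ℤ × ℤ) =>
      |γ.2.1 - γ.1.1| ≤ (J : ℤ) * (r : ℤ) ∧ ca * ρ ≤ ((|γ.2.2 - γ.1.2| : ℤ) : ℝ) with hΓ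
    have a1 := R7_card_pairs_ge Y₁ π Γ (a := c₂ * N / T ^ 2) (by positivity) fun γ hγ => by
      have := mem_product.1 (mem_filter.1 hγ).1
      exact ⟨hlo _ this.1, hlo _ this.2⟩
    have hw : 32000000 * (J * r) / (ca * ρ) ≤ w := by
      refine le_trans ?_ hbig
      rw [div_le_div_iff₀ (by positivity) (by positivity)]
      rw [le_div_iff₀ (by positivity)] at k3
      calc 32000000 * ((J : ℝ) * r) * (64000000000 * ρ * c')
          = (J * r * ρ) * (c' * (32000000 * 64000000000)) := by ring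
        _ ≤ (J * r * ρ) * ca := by gcongr
        _ = _ := by ring
    have a2 := R7_card_le_two Z₀ ((Y₁ ×ˢ Y₁).filter fun e => (π e.1, π e.2) ∈ Γ) θ₁ w ?_
    · have a3 : (#((Y₁ ×ˢ Y₁).filter fun e => (π e.1, π e.2) ∈ Γ) : ℝ) ≤
          2 * #((pairs Z₀).filter fun e => |sl e - θ₁| ≤ w) := by exact_mod_cast a2
      have a4 : ca * J * T ^ 4 / Yk * (c₂ * N / T ^ 2) ^ 2 ≤ #Γ * (c₂ * N / T ^ 2) ^ 2 :=
        mul_le_mul_of_nonneg_right hB (by positivity)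
      have a5 : ca * J * T ^ 4 / Yk * (c₂ * N / T ^ 2) ^ 2 =
          2 * (ca * c₂ ^ 2 / 2 * J * (N / Yk) * N) := by
        field_simp
      have a6 : c' * J * (N / Yk) * N ≤ ca * c₂ ^ 2 / 2 * J * (N / Yk) * N := by gcongr
      linarith
    · intro e he
      rw [mem_filter, mem_product, hΓ, mem_filter] at he
      obtain ⟨⟨e1, e2⟩, -, e3, e4⟩ := he
      have e5 : ((|(π e.2).1 - (π e.1).1| : ℤ) : ℝ) ≤ (J : ℝ) * r := by exact_mod_cast e3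
      have a3 := R7_far (R := (J : ℝ) * r) (x := ca * ρ) hδ (by linarith) (by linarith) hπ0 hπ1
        (by nlinarith) hρ (not_le.1 hc).le (p := e.1) (p' := e.2) e4 e5
      refine ⟨hY e1, hY e2, a3.1, a3.2.trans ?_⟩
      exact mul_le_mul_of_nonneg_right hw (abs_nonneg _)

/-- Take `T`, `Y₁`, `c₁` from `exists_level`; `T ^ 2 ≥ m / (4 C)`.  By `card_heavy_strips` each direction has at most `14 B T` strips meeting `Y₁`.  Let
`s = (θ 2 - θ 0) / (θ 1 - θ 0)`, so `f (θ 2) = s f (θ 1) + (1 - s) f (θ 0)`, `1 / 2000 ≤ |s|, |1 - s| ≤ 2000`.  Map `p` to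
`π p = (⌊s f (θ 1) p / δ⌋, ⌊(1 - s) f (θ 0) p / δ⌋)`; each coordinate takes at most `2002 · 14 B T` values on `Y₁`, the sum (it is `⌊f (θ 2) p / δ⌋` or one less)
at most `28 B T`.  A fibre of `π` in `Y₁` has at most `C₁ N / T ^ 2` points (`card_cell_le`, `A = 2000`).  Let `G` be the set of values whose fibre has at least
`c₂ N / T ^ 2` points, `c₂ = c₁ / (2 (2002 · 14 B) ^ 2)`; these fibres contain half of `Y₁`, so `#G ≥ c₁ T ^ 2 / (2 C₁)`.  Apply `add_main`; `Y''` is the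
preimage of `G''`.  On `Y''`, `|Δx| ≤ D := 2000 · 2 · 2000 (ρ + 1) δ`.  For a level `k` with `r` put `ϑ = (r - 1) δ / (2000 D)`.
First part of `Str`: `|sl e - θ 1| ≤ ϑ` gives `|Δ f (θ 1)| ≤ (r - 1) δ / 2000`, so the first coordinates of `π` differ by at most `r`.
Second part: if `J r ≥ c₃ ρ` (a small constant `c₃`) then `J ϑ / c' ≥ 1`; otherwise a pair `(g, g')` counted in `add_main` and points `p`, `p'` in the
fibres have `|Δ f (θ 1)| ≤ 2000 (J r + 1) δ`, `|Δ f (θ 0)| ≥ (c ρ - 1) δ / 2000`, `|Δx| ≥ |Δ f (θ 0)| - |Δ f (θ 1)| ≥ c ρ δ / 8000`, so the slope is within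
`C₂ J r / ρ ≤ J ϑ / c'` of `θ 1`; an element of `pairs` arises from at most two ordered pairs `(p, p')`. -/
theorem exists_str {B C c : ℝ} (hB : 1 ≤ B) (hC : 0 < C) (hc : 0 < c) : ∃ c' : ℝ, 0 < c' ∧
    ∀ J : ℕ, 1 ≤ J → ∃ s₀ : ℕ, ∀ (Y : ℝ) (Lv : ℕ), (J : ℝ) ≤ Y → ∃ m₀ : ℝ,
      ∀ (Z₀ Z Y₀ : Finset Pt) (N m δ u v : ℝ) (θ : Fin 3 → ℝ), m₀ ≤ m → 0 < m → 0 < N →
        Z ⊆ Z₀ → (#Z : ℝ) ≤ N → Y₀ ⊆ Z → c * N ≤ #Y₀ → 0 < δ → 0 ≤ θ 0 →
        θ 0 + 1 / 2000 ≤ θ 1 → θ 1 + 1 / 2000 ≤ θ 2 → θ 2 ≤ 1 → 0 ≤ u →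
        (∀ p ∈ Y₀, (amass Z δ p : ℝ) ≤ C * N / m ∧
          ∀ x, amass Z δ p * N ≤ B * (smass Z (θ x) δ p : ℝ) ^ 2) →
        ∃ Y'' ⊆ Y₀, c' * N ≤ #Y'' ∧ ∃ Bad : Finset ℕ, #Bad ≤ s₀ ∧
          ∀ k, 1 ≤ k → k ≤ Lv → k ∉ Bad → Str Z₀ Y'' (θ 1) u v (N / Y ^ k) N J c' := by
  obtain ⟨c₁, hc₁, hlev⟩ := exists_level hB hc
  obtain ⟨K₀, hK₀⟩ : ∃ K₀ : ℝ, K₀ = 4003 * (14 * B) := ⟨_, rfl⟩
  obtain ⟨C₁, hC₁⟩ : ∃ C₁ : ℝ, C₁ = (8002 * 2000 + 3) ^ 2 := ⟨_, rfl⟩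
  have hK1 : 1 ≤ K₀ := by rw [hK₀]; linarith
  have hC₁0 : 0 < C₁ := by rw [hC₁]; positivity
  obtain ⟨c₂, hc₂⟩ : ∃ c₂ : ℝ, c₂ = c₁ / (2 * K₀ ^ 2) := ⟨_, rfl⟩
  have hc₂0 : 0 < c₂ := by rw [hc₂]; positivity
  have hq : 0 < 2 * C₁ / c₁ := by positivity
  obtain ⟨ca, hca, hadd⟩ := add_main (C := K₀ + 2 * C₁ / c₁) (by linarith)
  obtain ⟨c', hc', k0, k1, k2, k3, k4⟩ : ∃ c' : ℝ, 0 < c' ∧ c' ≤ ca * c₂ ∧ c' ≤ ca / (2 * C₁) ∧
      c' ≤ 1 / 64000000000 ∧ c' ≤ ca / (32000000 * 64000000000) ∧ c' ≤ ca * c₂ ^ 2 / 2 := by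
    refine ⟨min (ca * c₂) (min (ca / (2 * C₁)) (min (1 / 64000000000)
      (min (ca / (32000000 * 64000000000)) (ca * c₂ ^ 2 / 2)))), by positivity, ?_, ?_, ?_, ?_, ?_⟩ <;>
    simp
  refine ⟨c', hc', fun J hJ => ?_⟩
  obtain ⟨s₀, hadd⟩ := hadd J
  refine ⟨s₀, fun Y Lv hY => ?_⟩
  have hJ' : (1 : ℝ) ≤ J := by exact_mod_cast hJ
  obtain ⟨T₀, hadd⟩ := hadd Y Lv hY (by linarith)
  obtain ⟨T₁, hT₁0, hT₁a, hT₁b⟩ : ∃ T₁ : ℝ, 0 ≤ T₁ ∧ T₀ ≤ T₁ ∧ 2 / ca ^ 2 ≤ T₁ :=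
    ⟨max T₀ (2 / ca ^ 2), le_trans (by positivity) (le_max_right _ _), le_max_left _ _,
      le_max_right _ _⟩
  refine ⟨4 * C * T₁ ^ 2, ?_⟩
  intro Z₀ Z Y₀ N m δ u v θ hm hm0 hN hZ hZN hY₀ hcard hδ t0 t01 t12 t2 hu hmass
  obtain ⟨T, hT1, Y₁, hY₁, hY₁c, hY₁m⟩ := hlev Z Y₀ N δ (θ 0) (θ 1) hN hZN hY₀ hcard hδ
    (by rw [abs_le]; constructor <;> linarith)
    (by rw [abs_sub_comm, abs_of_nonneg (by linarith)]; linarith)
    (fun p hp => ⟨(hmass p hp).2 0, (hmass p hp).2 1⟩)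
  have hT0 : 0 < T := by linarith
  -- `T` is large
  have hTT : T₁ ≤ T := by
    have h1 : 0 < #Y₁ := by
      have : (0 : ℝ) < #Y₁ := lt_of_lt_of_le (by positivity) hY₁c
      exact_mod_cast this
    obtain ⟨p, hp⟩ := card_pos.1 h1
    have h2 : N / (4 * T ^ 2) ≤ C * N / m := (hY₁m p hp).1.trans (hmass p (hY₁ hp)).1
    rw [div_le_div_iff₀ (by positivity) hm0] at h2
    have h3 : m ≤ 4 * C * T ^ 2 := by
      have : N * m ≤ N * (4 * C * T ^ 2) := by linarith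
      exact le_of_mul_le_mul_left this hN
    have h4 : T₁ ^ 2 ≤ T ^ 2 := le_of_mul_le_mul_left (hm.trans h3) (by positivity)
    exact (pow_le_pow_iff_left₀ hT₁0 hT0.le (by norm_num)).1 h4
  -- few strips
  have hstrip : ∀ x, (#(Y₁.image fun p => ⌊f (θ x) p / δ⌋) : ℝ) ≤ 14 * B * T := by
    intro x
    have h1 := card_heavy_strips Z Y₁ (θ x) δ (μ := N / (2 * T * B)) (by positivity) fun p hp => by
      have h2 := (hmass p (hY₁ hp)).2 x
      have h3 := (hY₁m p hp).1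
      have h4 : N / (4 * T ^ 2) * N ≤ B * (smass Z (θ x) δ p : ℝ) ^ 2 :=
        le_trans (mul_le_mul_of_nonneg_right h3 hN.le) h2
      have h5 : (N / (2 * T * B)) ^ 2 ≤ (smass Z (θ x) δ p : ℝ) ^ 2 := by
        have e1 : (N / (2 * T * B)) ^ 2 = N / (4 * T ^ 2) * N / B / B := by
          field_simp
          ring
        have h6 : N / (4 * T ^ 2) * N / B ≤ (smass Z (θ x) δ p : ℝ) ^ 2 := by
          rw [div_le_iff₀ (by linarith)]
          linarith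
        rw [e1]
        exact (div_le_self (by positivity) hB).trans h6
      exact (pow_le_pow_iff_left₀ (by positivity) (Nat.cast_nonneg _) (by norm_num)).1 h5
    refine h1.trans ?_
    calc 7 * (#Z : ℝ) / (N / (2 * T * B)) ≤ 7 * N / (N / (2 * T * B)) := by gcongr
      _ = 14 * B * T := by field_simp; ring
  -- the discretisation
  have d01 : 0 < θ 1 - θ 0 := by linarith
  obtain ⟨s, hs⟩ : ∃ s : ℝ, s = (θ 2 - θ 0) / (θ 1 - θ 0) := ⟨_, rfl⟩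
  have hs1 : 1 + 1 / 2000 ≤ s := by
    rw [hs, le_div_iff₀ d01]
    linarith
  have hs2 : s ≤ 2000 := by
    rw [hs, div_le_iff₀ d01]
    linarith
  have hsf : ∀ p, f (θ 2) p = s * f (θ 1) p + (1 - s) * f (θ 0) p := by
    intro p
    have : θ 2 = θ 0 + s * (θ 1 - θ 0) := by
      rw [hs]
      field_simp
      ring
    unfold f
    rw [this]
    ring
  have sa1 : 1 / 2000 ≤ |s| := by rw [abs_of_nonneg (by linarith)]; linarith
  have sa2 : |s| ≤ 2000 := by rw [abs_of_nonneg (by linarith)]; linarith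
  have sb1 : 1 / 2000 ≤ |1 - s| := by rw [abs_of_nonpos (by linarith)]; linarith
  have sb2 : |1 - s| ≤ 2000 := by rw [abs_of_nonpos (by linarith)]; linarith
  obtain ⟨π, hπ⟩ : ∃ π : Pt → ℤ × ℤ, ∀ p,
      π p = (⌊s * f (θ 1) p / δ⌋, ⌊(1 - s) * f (θ 0) p / δ⌋) := ⟨_, fun _ => rfl⟩
  have hπ1 : R7D (θ 1) δ fun p => (π p).1 := fun p p' => by
    simp only [hπ]
    exact R7_fl hδ sa1 sa2 _ _
  have hπ0 : R7D (θ 0) δ fun p => (π p).2 := fun p p' => by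
    simp only [hπ]
    exact R7_fl hδ sb1 sb2 _ _
  have hsame : ∀ (x : Fin 3) (p p' : Pt), ⌊f (θ x) p / δ⌋ = ⌊f (θ x) p' / δ⌋ →
      |f (θ x) p - f (θ x) p'| ≤ δ := by
    intro x p p' h
    have h1 := R7_floor (f (θ x) p / δ) (f (θ x) p' / δ)
    rw [h, sub_self, Int.cast_zero, zero_sub, abs_neg, ← sub_div, abs_div, abs_of_pos hδ,
      div_le_one hδ] at h1
    exact h1
  have hproj : ∀ (x : Fin 3) (b : Pt → ℤ),
      (∀ p p', ⌊f (θ x) p / δ⌋ = ⌊f (θ x) p' / δ⌋ → |b p - b p'| ≤ ((2001 : ℕ) : ℤ)) →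
      (#(Y₁.image b) : ℝ) ≤ K₀ * T := by
    intro x b hb
    have h1 := R7_card_image_le Y₁ (fun p => ⌊f (θ x) p / δ⌋) b 2001 fun p _ p' _ h => hb p p' h
    have h2 : (#(Y₁.image b) : ℝ) ≤ 4003 * #(Y₁.image fun p => ⌊f (θ x) p / δ⌋) := by
      exact_mod_cast h1
    have h3 := hstrip x
    rw [hK₀]
    linarith
  have hdisc : ∀ (x : Fin 3) (n : Pt → ℤ), R7D (θ x) δ n → (#(Y₁.image n) : ℝ) ≤ K₀ * T := by
    intro x n hn
    refine hproj x n fun p p' h => ?_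
    have h1 := (hn p' p).2
    have h2 := hsame x p p' h
    have h3 : (((|n p - n p'| : ℤ) : ℝ) - 1) * δ ≤ 2000 * δ := by linarith
    have h4 := le_of_mul_le_mul_right h3 hδ
    have h5 : ((|n p - n p'| : ℤ) : ℝ) ≤ (((2001 : ℕ) : ℤ) : ℝ) := by
      rw [Int.cast_natCast]
      push_cast at h4 ⊢
      linarith
    exact_mod_cast h5
  have hp1 : (#(Y₁.image fun p => (π p).1) : ℝ) ≤ K₀ * T := hdisc 1 _ hπ1
  have hp0 : (#(Y₁.image fun p => (π p).2) : ℝ) ≤ K₀ * T := hdisc 0 _ hπ0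
  have hp2 : (#(Y₁.image fun p => (π p).1 + (π p).2) : ℝ) ≤ K₀ * T := by
    refine hproj 2 _ fun p p' h => ?_
    have key : ∀ z : Pt, ⌊f (θ 2) z / δ⌋ - 1 ≤ (π z).1 + (π z).2 ∧
        (π z).1 + (π z).2 ≤ ⌊f (θ 2) z / δ⌋ := by
      intro z
      have e : f (θ 2) z / δ = s * f (θ 1) z / δ + (1 - s) * f (θ 0) z / δ := by
        rw [hsf, add_div]
      rw [e, hπ]
      exact ⟨Int.le_floor_add_floor _ _, Int.le_floor_add _ _⟩
    have h1 := key p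
    have h2 := key p'
    rw [abs_le]
    omega
  -- fibres
  have hup : ∀ g, (#(Y₁.filter fun p => π p = g) : ℝ) ≤ C₁ * N / T ^ 2 := by
    intro g
    have h1 := card_cell_le Z (Y₁.filter fun p => π p = g)
      ((filter_subset _ _).trans (hY₁.trans hY₀)) (θ₁ := θ 1) (θ₂ := θ 0) (δ := δ) (A := 2000)
      (a := N / T ^ 2) hδ (by norm_num) (by positivity) (by rw [abs_le]; constructor <;> linarith)
      (by rw [abs_of_nonneg (by linarith)]; linarith) ?_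
      fun p hp => (hY₁m p (mem_filter.1 hp).1).2
    · rw [hC₁, mul_div_assoc]
      exact h1
    · intro p hp p' hp'
      have e : π p = π p' := (mem_filter.1 hp).2.trans (mem_filter.1 hp').2.symm
      have h2 := (hπ1 p' p).1
      have h3 := (hπ0 p' p).1
      simp only [e, sub_self, abs_zero, Int.cast_zero, zero_add, mul_one] at h2 h3
      exact ⟨h2, h3⟩
  have himg : (#(Y₁.image π) : ℝ) ≤ (K₀ * T) ^ 2 := by
    have h1 : Y₁.image π ⊆ (Y₁.image fun p => (π p).1) ×ˢ (Y₁.image fun p => (π p).2) := by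
      intro g hg
      obtain ⟨p, hp, rfl⟩ := mem_image.1 hg
      exact mem_product.2 ⟨mem_image_of_mem _ hp, mem_image_of_mem _ hp⟩
    have h2 := card_le_card h1
    rw [card_product] at h2
    have h3 : (#(Y₁.image π) : ℝ) ≤
        #(Y₁.image fun p => (π p).1) * #(Y₁.image fun p => (π p).2) := by exact_mod_cast h2
    refine h3.trans ?_
    rw [sq]
    exact mul_le_mul hp1 hp0 (Nat.cast_nonneg _) (by positivity)
  have hdense := R7_dense Y₁ π (a := c₂ * N / T ^ 2) (by positivity) hY₁c himg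
    (by rw [hc₂]; apply le_of_eq; field_simp) hup
  set G := (Y₁.image π).filter fun g => c₂ * N / T ^ 2 ≤ (#(Y₁.filter fun p => π p = g) : ℝ)
    with hG
  have hGimg : ∀ (φ : ℤ × ℤ → ℤ), (#(Y₁.image fun p => φ (π p)) : ℝ) ≤ K₀ * T →
      (#(G.image φ) : ℝ) ≤ (K₀ + 2 * C₁ / c₁) * T := by
    intro φ hφ
    have h1 : G.image φ ⊆ Y₁.image fun p => φ (π p) := by
      intro y hy
      obtain ⟨g, hg, rfl⟩ := mem_image.1 hy
      obtain ⟨p, hp, rfl⟩ := mem_image.1 (mem_filter.1 hg).1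
      exact mem_image_of_mem _ hp
    have h2 : (#(G.image φ) : ℝ) ≤ #(Y₁.image fun p => φ (π p)) := by
      exact_mod_cast card_le_card h1
    have h3 : 0 < 2 * C₁ / c₁ * T := by positivity
    linarith
  have hGc : T ^ 2 / (K₀ + 2 * C₁ / c₁) ≤ #G := by
    have h1 : T ^ 2 / (K₀ + 2 * C₁ / c₁) ≤ T ^ 2 / (2 * C₁ / c₁) := by
      gcongr
      linarith
    refine h1.trans ?_
    have h2 : T ^ 2 / (2 * C₁ / c₁) * (C₁ * N / T ^ 2) = c₁ * N / 2 := by field_simp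
    rw [← h2] at hdense
    exact le_of_mul_le_mul_right hdense (by positivity)
  obtain ⟨G'', hG'', ρ, Bad, a1, a2, a3, a4, a5⟩ := hadd T G (hT₁a.trans hTT) hT0 hGc
    (hGimg Prod.fst hp1) (hGimg Prod.snd hp0) (hGimg (fun g => g.1 + g.2) hp2)
  have hlo : ∀ g ∈ G'', c₂ * N / T ^ 2 ≤ (#(Y₁.filter fun p => π p = g) : ℝ) :=
    fun g hg => (mem_filter.1 (hG'' hg)).2
  have hρ : 2 ≤ ca * ρ := by
    have h1 : 2 / ca ^ 2 ≤ T := hT₁b.trans hTT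
    rw [div_le_iff₀ (by positivity)] at h1
    have h2 : ca * (ca * T) ≤ ca * ρ := mul_le_mul_of_nonneg_left a2 hca.le
    linarith
  refine ⟨Y₁.filter fun p => π p ∈ G'', (filter_subset _ _).trans hY₁, ?_, Bad, a3, ?_⟩
  · have h1 := R7_card_pre_ge Y₁ π G'' hlo
    have h2 : ca * T ^ 2 * (c₂ * N / T ^ 2) ≤ #G'' * (c₂ * N / T ^ 2) :=
      mul_le_mul_of_nonneg_right a1 (by positivity)
    have h3 : ca * T ^ 2 * (c₂ * N / T ^ 2) = ca * c₂ * N := by field_simp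
    have h4 : c' * N ≤ ca * c₂ * N := by gcongr
    linarith
  · intro k hk1 hk2 hk3
    obtain ⟨r, hr, b1, b2⟩ := a5 k hk1 hk2 hk3
    exact R7_str hδ t01 t0 (by linarith) hu hπ1 hπ0 (hY₁.trans (hY₀.trans hZ)) hN hT0
      (pow_pos (by linarith) k) hca hC₁0 hc₂0 hc' hJ hr hρ k1 k2 k3 k4 hup hlo a4 b1 b2

end Crest.Agent.R51
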