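import Crest.Agent.R51.RegT
import Crest.Agent.R51.Sys2

/-! Regularisation, first part: typical pieces. -/

namespace Crest.Agent.R51

open Finset
open scoped Classical

namespace Glob

variable (G : Glob)

/-- The possibly active points of the piece `z` in the finest window `w`. -/
noncomputable def Om (g z w : ℕ) : Finset Pt :=
  if w < G.q ^ 4 ∧ G.Ca g G.q w then (G.loc z).Z ∩ G.Rs g G.q w else ∅

/-- The calm windows of scale `m` in which the piece `z` has an edge. -/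
noncomputable def Kz (g m z : ℕ) : Finset ℕ :=
  (Finset.range (m ^ 4)).filter fun k => G.Ca g m k ∧ ((G.loc z).W (G.loc z).E m k).Nonempty

private theorem rega_markov (T : Finset ℕ) (s a : ℕ → ℝ) {t S : ℝ} (ht : 0 < t)
    (h : ∀ z ∈ T, s z * t ≤ a z) (hS : ∑ z ∈ T, a z ≤ S) : ∑ z ∈ T, s z ≤ S / t := by
  rw [le_div_iff₀ ht, sum_mul]
  exact (sum_le_sum h).trans hS

private theorem rega_mem_Z {z : ℕ} {p : Pt} : p ∈ (G.loc z).Z ↔ p ∈ G.P ∧ G.pc p = z := mem_filter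

private theorem rega_sum_inter (T : Finset ℕ) (R : Finset Pt) :
    ∑ z ∈ T, (#((G.loc z).Z ∩ R) : ℝ) ≤ #R := by
  rw [← Nat.cast_sum, Nat.cast_le, ← card_biUnion]
  · exact card_le_card (biUnion_subset.2 fun _ _ => inter_subset_right)
  · intro z _ z' _ hne
    rw [Function.onFun, disjoint_left]
    intro p hp hp'
    exact hne ((G.rega_mem_Z.1 (mem_inter.1 hp).1).2.symm.trans
      (G.rega_mem_Z.1 (mem_inter.1 hp').1).2)

private theorem rega_sum_Z (T : Finset ℕ) : ∑ z ∈ T, (#(G.loc z).Z : ℝ) ≤ G.i * G.κ ^ 3 := by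
  refine le_trans (le_of_eq (sum_congr rfl fun z _ => ?_)) ((G.rega_sum_inter T G.P).trans G.cardP)
  rw [inter_eq_left.2 (show (G.loc z).Z ⊆ G.P from (G.loc z).ZP)]

private theorem rega_sum_Om (hb : G.Big 3) {g : ℕ} (hg : 1 ≤ g) (T : Finset ℕ) :
    ∑ z ∈ T, ∑ w ∈ Finset.range (G.q ^ 4), (#(G.Om g z w) : ℝ) ≤
      20 * g ^ 3 * (G.i * G.κ ^ 3) * G.q := by
  have hq := (G.loc 0).q_posR
  have hκ := (G.loc_big hb 0).κ_pos (by norm_num)
  change (0 : ℝ) < G.q at hq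
  change 0 < G.κ at hκ
  rw [sum_comm]
  calc _ ≤ ∑ w ∈ Finset.range (G.q ^ 4), 20 * (g : ℝ) ^ 3 * (G.i * G.κ ^ 3) / G.q ^ 3 := by
        refine sum_le_sum fun w _ => ?_
        unfold Om
        split_ifs with h
        · exact (G.rega_sum_inter T _).trans (G.card_Rs hb hg dvd_rfl h.2)
        · simp only [card_empty, Nat.cast_zero, sum_const_zero]
          positivity
    _ = _ := by
        rw [sum_const, card_range, nsmul_eq_mul]
        push_cast
        field_simp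

private theorem rega_sum_Kz (hb : G.Big 3) {g m : ℕ} (hg : 1 ≤ g) (hgm : g ≤ G.gm) (hm : m ∣ G.q)
    (hmm : m ≤ G.mm) (T : Finset ℕ) :
    ∑ z ∈ T, (#(G.loc z).Z : ℝ) * #(G.Kz g m z) ≤ 20 * g ^ 3 * (G.i * G.κ ^ 3) * m := by
  have hm0 : (0 : ℝ) < m := by exact_mod_cast Nat.pos_of_dvd_of_pos hm G.q_pos
  have hκ := (G.loc_big hb 0).κ_pos (by norm_num)
  change 0 < G.κ at hκ
  calc _ ≤ ∑ z ∈ T, ∑ k ∈ (Finset.range (m ^ 4)).filter (G.Ca g m),
          (#((G.loc z).Z ∩ G.Rs g m k) : ℝ) := by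
        refine sum_le_sum fun z _ => ?_
        rw [mul_comm, ← nsmul_eq_mul, ← sum_const]
        refine le_trans (le_of_eq (sum_congr rfl fun k hk => ?_))
          (sum_le_sum_of_subset_of_nonneg (s := G.Kz g m z) (fun k hk => ?_)
            fun _ _ _ => Nat.cast_nonneg _)
        · obtain ⟨h1, h2, e, he⟩ := mem_filter.1 hk
          obtain ⟨h3, h4⟩ := mem_tm.1 he
          have h5 := G.rega_mem_Z.1 ((G.loc z).inZ e h3).1
          have h6 := (G.mem_Rs hb hg hm h2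
            (mem_tm.2 ⟨G.E_sub (G.Ein_sub (G.mem_at'.1 h3).1), h4⟩)).1
          rw [inter_eq_left.2 fun p hp => ?_]
          obtain ⟨h7, h8⟩ := G.rega_mem_Z.1 hp
          exact G.compat g hgm m hmm k (mem_range.1 h1) _ h5.1 p h7 (h5.2.trans h8.symm) h6
        · exact mem_filter.2 ⟨(mem_filter.1 hk).1, (mem_filter.1 hk).2.1⟩
    _ ≤ ∑ k ∈ (Finset.range (m ^ 4)).filter (G.Ca g m),
          20 * (g : ℝ) ^ 3 * (G.i * G.κ ^ 3) / m ^ 3 := by
        rw [sum_comm]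
        exact sum_le_sum fun k hk =>
          (G.rega_sum_inter T _).trans (G.card_Rs hb hg hm (mem_filter.1 hk).2)
    _ ≤ ∑ k ∈ Finset.range (m ^ 4), 20 * (g : ℝ) ^ 3 * (G.i * G.κ ^ 3) / m ^ 3 :=
        sum_le_sum_of_subset_of_nonneg (filter_subset _ _) fun _ _ _ => by positivity
    _ = _ := by
        rw [sum_const, card_range, nsmul_eq_mul]
        push_cast
        field_simp

/-- Typical pieces carry almost all edges.
Proof: take `γ₁` from `small_pieces (ε / 2)` and `γ₂` from `small_set (ε / 2)`, `C ≥ max (1 / γ₁) (20 g ^ 3)` with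
`(300 + 40 g ^ 3) / C ≤ γ₂`.  Consider the pieces `z ∈ P.image pc`.  `Zs` consists of those with
`γ₁ N < #Z` (at most `q ^ 2 / γ₁` pieces as `∑ #Z ≤ #P`), `nr ≤ C U`, `∑ w < q ^ 4, #(Om z w) ≤ C N q` and `#(Kz z) ≤ C m`.
* At most `300 q ^ 2 / C` pieces have `nr > C U` (`sum_nr_le`, `rnr`), they contain at most `300 n / C` points
  (`n = i κ ^ 3 = N q ^ 2`).
* `∑ z, ∑ w, #(Om z w) ≤ q ^ 4 · 20 g ^ 3 n / q ^ 3` (`card_Rs`), so at most `20 g ^ 3 q ^ 2 / C` pieces violate the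
  third condition.
* If `k ∈ Kz z` then `Z ⊆ Rs g m k` (`mem_Rs`, `G.compat`), so `∑ z, #Z · #(Kz z) ≤ ∑ k calm, #(Rs k) ≤ 20 g ^ 3 n m`, and
  the pieces with `#(Kz z) > C m` contain at most `20 g ^ 3 n / C` points.
The edges of `Ein` in the large atypical pieces are in `inc band Y` for the union `Y` of these pieces.
`card_le` of `Base` is `card_Rs` at the scale `q`. -/
theorem exists_typical {ε : ℝ} (hε : 0 < ε) {g : ℕ} (hg : 1 ≤ g) : ∃ C : ℝ, 1 ≤ C ∧ ∀ G : Glob,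
    g ≤ G.gm → G.Big 3 → ∀ m, m ∣ G.q → m ≤ G.mm → ∃ Zs : Finset ℕ, (#Zs : ℝ) ≤ C * G.q ^ 2 ∧
      (#(G.Ein.filter fun e => G.pc e.1 ∉ Zs) : ℝ) ≤ ε * G.M₀ ∧
      ∀ z ∈ Zs, (G.loc z).Base (G.Om g z) C ∧ (#(G.Kz g m z) : ℝ) ≤ C * m := by
  obtain ⟨γ₁, hγ₁, H₁⟩ := small_pieces (half_pos hε)
  obtain ⟨γ₂, hγ₂, H₂⟩ := small_set (half_pos hε)
  have hg' : (1 : ℝ) ≤ (g : ℝ) ^ 3 := one_le_pow₀ (by exact_mod_cast hg)
  obtain ⟨C, hC1, hC2, hC3⟩ : ∃ C : ℝ, 1 / γ₁ ≤ C ∧ 20 * (g : ℝ) ^ 3 ≤ C ∧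
      (300 + 40 * (g : ℝ) ^ 3) / γ₂ ≤ C :=
    ⟨max (1 / γ₁) (max _ _), le_max_left _ _, (le_max_left _ _).trans (le_max_right _ _),
      (le_max_right _ _).trans (le_max_right _ _)⟩
  have hC : 0 < C := by linarith
  refine ⟨C, by linarith, fun G hgm hb m hm hmm => ?_⟩
  have hq := (G.loc 0).q_posR
  have hκ := (G.loc_big hb 0).κ_pos (by norm_num)
  have hi := (G.loc 0).i_posR
  change (0 : ℝ) < G.q at hq
  change 0 < G.κ at hκ
  change (1 : ℝ) ≤ G.i at hi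
  have hm0 : (0 : ℝ) < m := by exact_mod_cast Nat.pos_of_dvd_of_pos hm G.q_pos
  have hN : ∀ z, (G.loc z).N = G.i * G.κ ^ 3 / G.q ^ 2 := fun _ => rfl
  have hU : ∀ z, (G.loc z).U = G.i ^ 2 * G.κ ^ 3 / G.q := fun _ => rfl
  set A := G.P.image G.pc with hA
  set B₁ := A.filter fun z => (#(G.loc z).Z : ℝ) ≤ γ₁ * (G.loc z).N with hB₁
  set B₂ := A.filter fun z => C * (G.loc z).U < nr (G.at' G.Ein z) G.rid with hB₂
  set B₃ := A.filter fun z =>
    C * (G.loc z).N * G.q < ∑ w ∈ Finset.range (G.q ^ 4), (#(G.Om g z w) : ℝ) with hB₃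
  set B₄ := A.filter fun z => C * m < #(G.Kz g m z) with hB₄
  refine ⟨A.filter fun z => z ∉ B₁ ∧ z ∉ B₂ ∧ z ∉ B₃ ∧ z ∉ B₄, ?_, ?_, fun z hz => ?_⟩
  · have := rega_markov (A.filter fun z => z ∉ B₁ ∧ z ∉ B₂ ∧ z ∉ B₃ ∧ z ∉ B₄) (fun _ => 1)
      (fun z => (#(G.loc z).Z : ℝ)) (t := γ₁ * (G.i * G.κ ^ 3 / G.q ^ 2)) (by positivity)
      (fun z hz => by
        obtain ⟨h1, h2, -⟩ := mem_filter.1 hz
        rw [one_mul]
        exact le_of_not_ge fun h3 => h2 (mem_filter.2 ⟨h1, h3⟩)) (G.rega_sum_Z _)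
    rw [sum_const, nsmul_eq_mul, mul_one] at this
    refine this.trans (le_trans (le_of_eq ?_) (mul_le_mul_of_nonneg_right hC1 (by positivity)))
    field_simp
  · have k2 := rega_markov B₂ (fun z => (#(G.loc z).Z : ℝ)) (fun z => nr (G.at' G.Ein z) G.rid)
      (t := C * G.i * G.q) (S := 300 * (G.i ^ 2 * G.κ ^ 3) * G.q) (by positivity) (fun z hz => by
        refine le_trans ?_ (mem_filter.1 hz).2.le
        refine (mul_le_mul_of_nonneg_right (G.loc z).cardZ' (by positivity)).trans_eq ?_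
        rw [hN, hU]
        field_simp) (le_trans (by exact_mod_cast G.sum_nr_le B₂) G.rnr)
    have k3 := rega_markov B₃ (fun z => (#(G.loc z).Z : ℝ)) _ (t := C * G.q) (by positivity)
      (fun z hz => le_trans ((mul_le_mul_of_nonneg_right (G.loc z).cardZ'
        (by positivity)).trans_eq (by ring)) (mem_filter.1 hz).2.le) (G.rega_sum_Om hb hg B₃)
    have k4 := rega_markov B₄ (fun z => (#(G.loc z).Z : ℝ)) _ (t := C * m) (by positivity)
      (fun z hz => mul_le_mul_of_nonneg_left (mem_filter.1 hz).2.le (Nat.cast_nonneg _))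
      (G.rega_sum_Kz hb hg hgm hm hmm B₄)
    have hbi : ∀ T : Finset ℕ, (#(T.biUnion fun z => (G.loc z).Z) : ℝ) ≤
        ∑ z ∈ T, (#(G.loc z).Z : ℝ) := fun T => by exact_mod_cast card_biUnion_le
    set Y := (B₂.biUnion fun z => (G.loc z).Z) ∪ (B₃.biUnion fun z => (G.loc z).Z) ∪
      (B₄.biUnion fun z => (G.loc z).Z) with hY
    have hYc : (#Y : ℝ) ≤ γ₂ * (G.i * G.κ ^ 3) := by
      have h1 : (#Y : ℝ) ≤ #(B₂.biUnion fun z => (G.loc z).Z) +
          #(B₃.biUnion fun z => (G.loc z).Z) + #(B₄.biUnion fun z => (G.loc z).Z) := by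
        exact_mod_cast (card_union_le _ _).trans (Nat.add_le_add_right (card_union_le _ _) _)
      have h2 : 300 * ((G.i : ℝ) ^ 2 * G.κ ^ 3) * G.q / (C * G.i * G.q) +
          20 * g ^ 3 * (G.i * G.κ ^ 3) * G.q / (C * G.q) +
          20 * g ^ 3 * (G.i * G.κ ^ 3) * m / (C * m) =
          (300 + 40 * (g : ℝ) ^ 3) / C * (G.i * G.κ ^ 3) := by
        field_simp
        ring
      have h3 : (300 + 40 * (g : ℝ) ^ 3) / C ≤ γ₂ := by
        rw [div_le_iff₀ hγ₂] at hC3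
        rw [div_le_iff₀ hC]
        linarith
      have h4 := mul_le_mul_of_nonneg_right h3 (by positivity : 0 ≤ G.i * G.κ ^ 3)
      linarith [hbi B₂, hbi B₃, hbi B₄]
    have l1 := H₁ G hb B₁ fun z hz => (mem_filter.1 hz).2
    have l2 := H₂ G hb Y hYc
    have l3 : #(G.Ein.filter fun e => G.pc e.1 ∉
        A.filter fun z => z ∉ B₁ ∧ z ∉ B₂ ∧ z ∉ B₃ ∧ z ∉ B₄) ≤
        ∑ z ∈ B₁, #(G.at' G.Ein z) + #(inc (band G.P G.j G.i) Y) := by
      refine le_trans (card_le_card fun e he => ?_)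
        ((card_union_le _ _).trans (Nat.add_le_add_right card_biUnion_le _))
      obtain ⟨h1, h2⟩ := mem_filter.1 he
      have h3 := (mem_pairs.1 (G.sysIn.sub h1)).1
      have h4 : e.1 ∈ (G.loc (G.pc e.1)).Z := G.rega_mem_Z.2 ⟨h3, rfl⟩
      by_cases h5 : G.pc e.1 ∈ B₁
      · exact mem_union_left _ (mem_biUnion.2 ⟨_, h5, G.mem_at'.2 ⟨h1, rfl⟩⟩)
      · refine mem_union_right _ (mem_inc.2 ⟨G.E_sub (G.Ein_sub h1), Or.inl ?_⟩)
        by_contra h6
        simp only [hY, mem_union, mem_biUnion, not_or, not_exists, not_and] at h6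
        exact h2 (mem_filter.2 ⟨mem_image_of_mem _ h3, h5, fun h => h6.1.1 _ h h4,
          fun h => h6.1.2 _ h h4, fun h => h6.2 _ h h4⟩)
    have l4 := (Nat.cast_le (α := ℝ)).2 l3
    push_cast at l4
    linarith
  · obtain ⟨h0, -, h2, h3, h4⟩ := mem_filter.1 hz
    refine ⟨⟨fun w => ?_, le_of_not_gt fun h => h2 (mem_filter.2 ⟨h0, h⟩), fun w => ?_,
      le_of_not_gt fun h => h3 (mem_filter.2 ⟨h0, h⟩)⟩,
      le_of_not_gt fun h => h4 (mem_filter.2 ⟨h0, h⟩)⟩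
    · unfold Om
      split_ifs
      · exact inter_subset_left
      · exact empty_subset _
    · change _ ≤ C * (G.i * G.κ ^ 3 / G.q ^ 2) / G.q
      unfold Om
      split_ifs with h
      · calc (#((G.loc z).Z ∩ G.Rs g G.q w) : ℝ) ≤ #(G.Rs g G.q w) :=
              Nat.cast_le.2 (card_le_card inter_subset_right)
          _ ≤ 20 * g ^ 3 * (G.i * G.κ ^ 3) / G.q ^ 3 := G.card_Rs hb hg dvd_rfl h.2
          _ ≤ C * (G.i * G.κ ^ 3) / G.q ^ 3 := by gcongr
          _ = _ := by field_simp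
      · rw [card_empty, Nat.cast_zero]
        positivity

end Glob

end Crest.Agent.R51
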