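import Crest.Agent.R51.RegA

/-! Regularisation, first part: typical pieces. -/

namespace Crest.Agent.R51

open Finset
open scoped Classical

namespace Glob

variable (G : Glob)

theorem RegA2_markov {α : Type} (S : Finset α) (φ : α → ℝ) (t : ℝ) (hφ : ∀ x ∈ S, 0 ≤ φ x) :
    (#(S.filter fun x => t < φ x) : ℝ) * t ≤ ∑ x ∈ S, φ x := by
  calc (#(S.filter fun x => t < φ x) : ℝ) * t = ∑ _x ∈ S.filter fun x => t < φ x, t := by
        rw [sum_const, nsmul_eq_mul]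
    _ ≤ ∑ x ∈ S.filter fun x => t < φ x, φ x :=
        sum_le_sum fun x hx => (mem_filter.1 hx).2.le
    _ ≤ ∑ x ∈ S, φ x :=
        sum_le_sum_of_subset_of_nonneg (filter_subset _ _) fun x hx _ => hφ x hx

theorem RegA2_deg {C₀ C : ℝ} (hC₀ : G.C₀ ≤ C₀) (hb : G.Big 3) {m k : ℕ} (hm : m ∣ G.q)
    (hk : k < m ^ 4) :
    (#(G.P.filter fun p => C * (G.i * G.κ) / m < (deg (G.Wd m k) p : ℝ)) : ℝ) * C ≤
      2 * |C₀| * (G.i * G.κ ^ 3) / m ^ 3 := by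
  have hκ : 0 < G.κ := (G.loc_big hb 0).κ_pos (by norm_num)
  have hi : (0 : ℝ) < G.i := by exact_mod_cast G.i_pos
  have hm0 : (0 : ℝ) < m := by exact_mod_cast Nat.pos_of_dvd_of_pos hm G.q_pos
  have h1 := RegA2_markov G.P (fun p => (deg (G.Wd m k) p : ℝ)) (C * (G.i * G.κ) / m)
    fun _ _ => Nat.cast_nonneg _
  have h2 : ∑ p ∈ G.P, (deg (G.Wd m k) p : ℝ) ≤ 2 * #(G.Wd m k) := by
    have h3 := sum_deg_le (G.Wd m k) G.P
    have h4 := card_le_card (inc_subset (G.Wd m k) G.P)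
    have h5 : ∑ p ∈ G.P, deg (G.Wd m k) p ≤ 2 * #(G.Wd m k) := by omega
    exact_mod_cast h5
  have h3 := G.card_Wd hm hk
  have hM : 0 ≤ G.M₀ := by unfold M₀; positivity
  have h4 : G.C₀ * G.M₀ / m ^ 4 ≤ |C₀| * G.M₀ / m ^ 4 := by
    gcongr
    exact hC₀.trans (le_abs_self _)
  have h5 : (#(G.P.filter fun p => C * (G.i * G.κ) / m < (deg (G.Wd m k) p : ℝ)) : ℝ) *
      (C * (G.i * G.κ) / m) ≤ 2 * (|C₀| * G.M₀ / m ^ 4) := by linarith
  refine le_of_mul_le_mul_right ?_ (by positivity : 0 < G.i * G.κ / m)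
  calc _ = (#(G.P.filter fun p => C * (G.i * G.κ) / m < (deg (G.Wd m k) p : ℝ)) : ℝ) *
      (C * (G.i * G.κ) / m) := by ring
    _ ≤ 2 * (|C₀| * G.M₀ / m ^ 4) := h5
    _ = _ := by unfold M₀; field_simp

theorem RegA2_act {C : ℝ} (hb : G.Big 3) {g : ℕ} (hg : 1 ≤ g) {m : ℕ} (hm : m ∣ G.q) (k : ℕ) :
    (#(G.P.filter fun p => C * G.q / m < (#((Finset.range ((G.q / m) ^ 4)).filter fun r =>
        G.Ca g G.q (k * (G.q / m) ^ 4 + r) ∧
          p ∈ G.Rs g G.q (k * (G.q / m) ^ 4 + r)) : ℝ)) : ℝ) * C ≤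
      20 * g ^ 3 * (G.i * G.κ ^ 3) / m ^ 3 := by
  have hκ : 0 < G.κ := (G.loc_big hb 0).κ_pos (by norm_num)
  have hi : (0 : ℝ) < G.i := by exact_mod_cast G.i_pos
  have hq : (0 : ℝ) < G.q := by exact_mod_cast G.q_pos
  have hm0 : (0 : ℝ) < m := by exact_mod_cast Nat.pos_of_dvd_of_pos hm G.q_pos
  have h1 := RegA2_markov G.P (fun p => (#((Finset.range ((G.q / m) ^ 4)).filter fun r =>
        G.Ca g G.q (k * (G.q / m) ^ 4 + r) ∧
          p ∈ G.Rs g G.q (k * (G.q / m) ^ 4 + r)) : ℝ)) (C * G.q / m)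
    fun _ _ => Nat.cast_nonneg _
  have h2 : ∑ p ∈ G.P, #((Finset.range ((G.q / m) ^ 4)).filter fun r =>
        G.Ca g G.q (k * (G.q / m) ^ 4 + r) ∧ p ∈ G.Rs g G.q (k * (G.q / m) ^ 4 + r)) =
      ∑ r ∈ Finset.range ((G.q / m) ^ 4), #(G.P.filter fun p =>
        G.Ca g G.q (k * (G.q / m) ^ 4 + r) ∧ p ∈ G.Rs g G.q (k * (G.q / m) ^ 4 + r)) := by
    simp only [card_filter]
    exact sum_comm
  have h3 : ∀ w, (#(G.P.filter fun p => G.Ca g G.q w ∧ p ∈ G.Rs g G.q w) : ℝ) ≤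
      20 * g ^ 3 * (G.i * G.κ ^ 3) / G.q ^ 3 := by
    intro w
    by_cases hc : G.Ca g G.q w
    · refine le_trans ?_ (G.card_Rs hb hg dvd_rfl hc)
      exact Nat.cast_le.2 (card_le_card fun p hp => (mem_filter.1 hp).2.2)
    · rw [filter_false_of_mem fun p _ hp => hc hp.1, card_empty, Nat.cast_zero]
      positivity
  have h4 : ∑ p ∈ G.P, (#((Finset.range ((G.q / m) ^ 4)).filter fun r =>
        G.Ca g G.q (k * (G.q / m) ^ 4 + r) ∧ p ∈ G.Rs g G.q (k * (G.q / m) ^ 4 + r)) : ℝ) ≤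
      (G.q / m) ^ 4 * (20 * g ^ 3 * (G.i * G.κ ^ 3) / G.q ^ 3) := by
    rw [← Nat.cast_sum, h2, Nat.cast_sum]
    refine (sum_le_sum fun r _ => h3 _).trans ?_
    rw [sum_const, card_range, nsmul_eq_mul, Nat.cast_pow, Nat.cast_div hm hm0.ne']
  have h5 := h1.trans h4
  refine le_of_mul_le_mul_right ?_ (by positivity : 0 < (G.q : ℝ) / m)
  rw [mul_assoc, ← mul_div_assoc]
  refine h5.trans (le_of_eq ?_)
  field_simp

/-- Points with a large degree or a large activity in their window meet few edges.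
Proof: `small_sets` with `Y k` the set of heavy points of `P`, `k` calm.  By `sum_deg_le` and `card_Wd` at most
`2 C₀ n / (C m ^ 3)` points have degree `> C i κ / m` in the window `k`.  For the activity,
`∑ p, ∑ k, #{r | …} ≤ ∑ w < q ^ 4 calm, #(Rs q w) ≤ 20 g ^ 3 n q` (the map `(k, r) ↦ k (q / m) ^ 4 + r` is injective with
values below `q ^ 4`), so there are at most `20 g ^ 3 n m / C` heavy pairs `(k, p)`. -/
theorem heavy_points (C₀ : ℝ) {ε : ℝ} (hε : 0 < ε) {g : ℕ} (hg : 1 ≤ g) : ∃ C : ℝ, 1 ≤ C ∧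
    ∀ G : Glob, G.C₀ ≤ C₀ → G.Big 3 → ∀ m, m ∣ G.q →
      ∑ k ∈ (Finset.range (m ^ 4)).filter (fun k => G.Ca g m k),
        (#((G.Wd m k).filter fun e => ∃ p, Inc p e ∧
          (C * (G.i * G.κ) / m < (deg (G.Wd m k) p : ℝ) ∨
            C * G.q / m < (#((Finset.range ((G.q / m) ^ 4)).filter fun r =>
              G.Ca g G.q (k * (G.q / m) ^ 4 + r) ∧
                p ∈ G.Rs g G.q (k * (G.q / m) ^ 4 + r)) : ℝ))) : ℝ) ≤ ε * G.M₀ := by
  obtain ⟨γ, hγ, H⟩ := small_sets hε hg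
  refine ⟨max 1 ((2 * |C₀| + 20 * g ^ 3) / γ), le_max_left _ _, fun G hC₀ hb m hm => ?_⟩
  have hC2 : (2 * |C₀| + 20 * g ^ 3) / γ ≤ max 1 ((2 * |C₀| + 20 * g ^ 3) / γ) := le_max_right _ _
  have hC1 : 1 ≤ max 1 ((2 * |C₀| + 20 * g ^ 3) / γ) := le_max_left _ _
  generalize max 1 ((2 * |C₀| + 20 * g ^ 3) / γ) = C at hC1 hC2 ⊢
  rw [div_le_iff₀ hγ] at hC2
  have hκ : 0 < G.κ := (G.loc_big hb 0).κ_pos (by norm_num)
  have hi : (0 : ℝ) < G.i := by exact_mod_cast G.i_pos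
  have hm0 : (0 : ℝ) < m := by exact_mod_cast Nat.pos_of_dvd_of_pos hm G.q_pos
  obtain ⟨Y, hY⟩ : ∃ Y : ℕ → Finset Pt, Y = fun k =>
      (G.P.filter fun p => C * (G.i * G.κ) / m < (deg (G.Wd m k) p : ℝ)) ∪
      (G.P.filter fun p => C * G.q / m < (#((Finset.range ((G.q / m) ^ 4)).filter fun r =>
        G.Ca g G.q (k * (G.q / m) ^ 4 + r) ∧
          p ∈ G.Rs g G.q (k * (G.q / m) ^ 4 + r)) : ℝ)) := ⟨_, rfl⟩
  have hYk : ∀ k < m ^ 4, (#(Y k) : ℝ) ≤ γ * (G.i * G.κ ^ 3) / m ^ 3 := by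
    intro k hk
    have h1 := G.RegA2_deg (C := C) hC₀ hb hm hk
    have h2 := G.RegA2_act (C := C) hb hg hm k
    have h3 : (#(Y k) : ℝ) ≤
        (#(G.P.filter fun p => C * (G.i * G.κ) / m < (deg (G.Wd m k) p : ℝ)) : ℝ) +
        (#(G.P.filter fun p => C * G.q / m < (#((Finset.range ((G.q / m) ^ 4)).filter fun r =>
        G.Ca g G.q (k * (G.q / m) ^ 4 + r) ∧
          p ∈ G.Rs g G.q (k * (G.q / m) ^ 4 + r)) : ℝ)) : ℝ) := by
      rw [hY]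
      exact_mod_cast card_union_le _ _
    refine le_of_mul_le_mul_right ?_ (by linarith : 0 < C)
    calc (#(Y k) : ℝ) * C ≤ _ := mul_le_mul_of_nonneg_right h3 (by linarith)
      _ ≤ 2 * |C₀| * (G.i * G.κ ^ 3) / m ^ 3 + 20 * g ^ 3 * (G.i * G.κ ^ 3) / m ^ 3 := by
          rw [add_mul]; exact add_le_add h1 h2
      _ = (2 * |C₀| + 20 * g ^ 3) * ((G.i * G.κ ^ 3) / m ^ 3) := by ring
      _ ≤ (C * γ) * ((G.i * G.κ ^ 3) / m ^ 3) := by gcongr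
      _ = _ := by ring
  refine le_trans (sum_le_sum fun k _ => ?_)
    (H G hb m hm ((Finset.range (m ^ 4)).filter fun k => G.Ca g m k) Y
      (fun k hk => ⟨mem_range.1 (mem_filter.1 hk).1, (mem_filter.1 hk).2⟩) ?_)
  · refine Nat.cast_le.2 (card_le_card fun e he => ?_)
    obtain ⟨he, p, hp, hh⟩ := mem_filter.1 he
    have hP := mem_pairs.1 (band_subset _ _ _ (tm_subset _ _ _ he))
    have hpP : p ∈ G.P := by
      rcases hp with h | h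
      · exact h ▸ hP.1
      · exact h ▸ hP.2.1
    have hpY : p ∈ Y k := by
      rw [hY]
      exact mem_union.2 (hh.imp (fun h => mem_filter.2 ⟨hpP, h⟩) fun h => mem_filter.2 ⟨hpP, h⟩)
    refine mem_inc.2 ⟨he, ?_⟩
    rcases hp with h | h
    · exact Or.inl (h ▸ hpY)
    · exact Or.inr (h ▸ hpY)
  · calc ∑ k ∈ (Finset.range (m ^ 4)).filter fun k => G.Ca g m k, (#(Y k) : ℝ)
        ≤ ∑ k ∈ Finset.range (m ^ 4), (#(Y k) : ℝ) :=
          sum_le_sum_of_subset_of_nonneg (filter_subset _ _) fun _ _ _ => Nat.cast_nonneg _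
      _ ≤ ∑ _k ∈ Finset.range (m ^ 4), γ * (G.i * G.κ ^ 3) / m ^ 3 :=
          sum_le_sum fun k hk => hYk k (mem_range.1 hk)
      _ = γ * (G.i * G.κ ^ 3) * m := by
          rw [sum_const, card_range, nsmul_eq_mul, Nat.cast_pow]
          field_simp

theorem RegA2_runs {C C' : ℝ} (hC : 1 ≤ C) (hb : G.Big 3) {g m z : ℕ} (hm : m ∣ G.q)
    (h1 : (nr (G.loc z).E G.rid : ℝ) ≤ C * (G.loc z).U) (h2 : (#(G.Kz g m z) : ℝ) ≤ C * m) :
    (#((G.Kz g m z).filter fun k =>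
      C' * (G.loc z).U / m < (nr ((G.loc z).W (G.loc z).E m k) G.rid : ℝ)) : ℝ) * C' ≤
        2 * C * m := by
  have hU := (G.loc_big hb z).U_pos (by norm_num)
  have hN := (G.loc_big hb z).N_pos (by norm_num)
  have hm0 : (0 : ℝ) < m := by exact_mod_cast Nat.pos_of_dvd_of_pos hm G.q_pos
  have hmq : (m : ℝ) ≤ (G.loc z).q := by exact_mod_cast Nat.le_of_dvd G.q_pos hm
  have h3 := RegA2_markov (G.Kz g m z)
    (fun k => (nr ((G.loc z).W (G.loc z).E m k) G.rid : ℝ)) (C' * (G.loc z).U / m)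
    fun _ _ => Nat.cast_nonneg _
  have h4 := (G.loc z).sys.sum_nr_win ((G.loc z).lo m) ((G.loc z).hi m) (G.Kz g m z)
    (fun _ => (G.loc z).Z) (fun _ _ _ _ h => (G.loc z).hi_le_lo m h)
    fun _ _ e he => ((G.loc z).inZ e (tm_subset _ _ _ he)).1
  rw [sum_const, smul_eq_mul] at h4
  have h5 : ∑ k ∈ G.Kz g m z, (nr ((G.loc z).W (G.loc z).E m k) G.rid : ℝ) ≤
      nr (G.loc z).E G.rid + (G.loc z).i * (#(G.Kz g m z) * #(G.loc z).Z) := by
    exact_mod_cast h4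
  have h6 : ((G.loc z).i : ℝ) * (#(G.Kz g m z) * #(G.loc z).Z) ≤ C * (G.loc z).U := by
    have := (G.loc z).cardZ'
    calc ((G.loc z).i : ℝ) * (#(G.Kz g m z) * #(G.loc z).Z)
        ≤ (G.loc z).i * (C * (G.loc z).q * (G.loc z).N) := by
          gcongr
          exact h2.trans (by gcongr)
      _ = C * ((G.loc z).i * (G.loc z).N * (G.loc z).q) := by ring
      _ = C * (G.loc z).U := by rw [Loc.i_mul_N]
  refine le_of_mul_le_mul_right ?_ (by positivity : 0 < (G.loc z).U / m)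
  rw [mul_assoc, ← mul_div_assoc]
  refine (h3.trans (by linarith : _ ≤ 2 * C * (G.loc z).U)).trans (le_of_eq ?_)
  field_simp

/-- Windows in which a typical piece has many runs carry few edges.
Proof: for `z ∈ Zs`, `Sys.sum_nr_win` gives `∑ k ∈ Kz z, nr (W k) ≤ C U + i N C m ≤ 2 C U` (`i N q = U`, `m ≤ q`), so at
most `2 C m / C'` windows `k ∈ Kz z` are heavy.  Let `Y k` be the union of the pieces `z ∈ Zs` for which `k` is
heavy; `∑ k, #(Y k) ≤ N · C q ^ 2 · 2 C m / C'`; apply `small_sets` (the sets `W (loc z).E m k` for different `z`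
are disjoint subsets of `inc (Wd m k) (Y k)`). -/
theorem heavy_runs {ε C : ℝ} (hε : 0 < ε) (hC : 1 ≤ C) {g : ℕ} (hg : 1 ≤ g) : ∃ C' : ℝ, 1 ≤ C' ∧
    ∀ G : Glob, G.Big 3 → ∀ m, m ∣ G.q → ∀ Zs : Finset ℕ, (#Zs : ℝ) ≤ C * G.q ^ 2 →
      (∀ z ∈ Zs, (nr (G.loc z).E G.rid : ℝ) ≤ C * (G.loc z).U ∧ (#(G.Kz g m z) : ℝ) ≤ C * m) →
      ∑ z ∈ Zs, ∑ k ∈ (G.Kz g m z).filter (fun k =>
        C' * (G.loc z).U / m < (nr ((G.loc z).W (G.loc z).E m k) G.rid : ℝ)),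
          (#((G.loc z).W (G.loc z).E m k) : ℝ) ≤ ε * G.M₀ := by
  obtain ⟨γ, hγ, H⟩ := small_sets hε hg
  refine ⟨max 1 (2 * C ^ 2 / γ), le_max_left _ _, fun G hb m hm Zs hZs hz => ?_⟩
  have hC2 : 2 * C ^ 2 / γ ≤ max 1 (2 * C ^ 2 / γ) := le_max_right _ _
  have hC1 : 1 ≤ max 1 (2 * C ^ 2 / γ) := le_max_left _ _
  generalize max 1 (2 * C ^ 2 / γ) = C' at hC1 hC2 ⊢
  rw [div_le_iff₀ hγ] at hC2
  have hκ : 0 < G.κ := (G.loc_big hb 0).κ_pos (by norm_num)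
  have hi : (0 : ℝ) < G.i := by exact_mod_cast G.i_pos
  have hq : (0 : ℝ) < G.q := by exact_mod_cast G.q_pos
  have hm0 : (0 : ℝ) < m := by exact_mod_cast Nat.pos_of_dvd_of_pos hm G.q_pos
  obtain ⟨Hv, hHv⟩ : ∃ Hv : ℕ → Finset ℕ, ∀ z, Hv z = (G.Kz g m z).filter (fun k =>
      C' * (G.loc z).U / m < (nr ((G.loc z).W (G.loc z).E m k) G.rid : ℝ)) := ⟨_, fun _ => rfl⟩
  simp only [← hHv]
  obtain ⟨Ks, hKs⟩ : ∃ Ks, Ks = (Finset.range (m ^ 4)).filter fun k => G.Ca g m k := ⟨_, rfl⟩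
  have hsub : ∀ z, Hv z ⊆ Ks := by
    intro z k hk
    rw [hHv] at hk
    have := mem_filter.1 (mem_filter.1 hk).1
    rw [hKs]
    exact mem_filter.2 ⟨this.1, this.2.1⟩
  have hcomm : ∀ φ : ℕ → ℕ → ℝ, ∑ z ∈ Zs, ∑ k ∈ Hv z, φ z k =
      ∑ k ∈ Ks, ∑ z ∈ Zs.filter fun z => k ∈ Hv z, φ z k := fun φ =>
    sum_comm' fun z k => by
      rw [mem_filter]
      exact ⟨fun h => ⟨h, hsub z h.2⟩, fun h => h.1⟩
  rw [hcomm]
  refine le_trans (sum_le_sum fun k _ => ?_)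
    (H G hb m hm Ks (fun k => (Zs.filter fun z => k ∈ Hv z).biUnion fun z => (G.loc z).Z)
      (fun k hk => ?_) ?_)
  · have h1 := G.sum_at'_le (inc (G.Wd m k)
      ((Zs.filter fun z => k ∈ Hv z).biUnion fun z => (G.loc z).Z)) (Zs.filter fun z => k ∈ Hv z)
    rw [← Nat.cast_sum]
    refine Nat.cast_le.2 (le_trans (sum_le_sum fun z hz' => card_le_card fun e he => ?_) h1)
    have he' := (G.loc z).mem_W.1 he
    have he2 := G.mem_at'.1 he'.1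
    refine G.mem_at'.2 ⟨mem_inc.2 ⟨mem_tm.2 ⟨G.E_sub (G.Ein_sub he2.1), he'.2⟩, Or.inl ?_⟩, he2.2⟩
    exact mem_biUnion.2 ⟨z, hz', ((G.loc z).inZ e he'.1).1⟩
  · rw [hKs] at hk
    exact ⟨mem_range.1 (mem_filter.1 hk).1, (mem_filter.1 hk).2⟩
  · have h1 : ∀ z ∈ Zs, ∑ _k ∈ Hv z, (#(G.loc z).Z : ℝ) ≤
        2 * C * m / C' * (G.i * G.κ ^ 3 / G.q ^ 2) := by
      intro z hz'
      have h2 := G.RegA2_runs (C' := C') hC hb hm (hz z hz').1 (hz z hz').2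
      rw [← hHv, ← le_div_iff₀ (by linarith)] at h2
      rw [sum_const, nsmul_eq_mul]
      exact mul_le_mul h2 (G.loc z).cardZ (Nat.cast_nonneg _) ((Nat.cast_nonneg _).trans h2)
    calc ∑ k ∈ Ks, (#((Zs.filter fun z => k ∈ Hv z).biUnion fun z => (G.loc z).Z) : ℝ)
        ≤ ∑ k ∈ Ks, ∑ z ∈ Zs.filter fun z => k ∈ Hv z, (#(G.loc z).Z : ℝ) :=
          sum_le_sum fun k _ => by exact_mod_cast card_biUnion_le
      _ = ∑ z ∈ Zs, ∑ _k ∈ Hv z, (#(G.loc z).Z : ℝ) := (hcomm fun z _ => (#(G.loc z).Z : ℝ)).symm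
      _ ≤ ∑ _z ∈ Zs, 2 * C * m / C' * (G.i * G.κ ^ 3 / G.q ^ 2) := sum_le_sum h1
      _ = #Zs * (2 * C * m / C' * (G.i * G.κ ^ 3 / G.q ^ 2)) := by rw [sum_const, nsmul_eq_mul]
      _ ≤ C * G.q ^ 2 * (2 * C * m / C' * (G.i * G.κ ^ 3 / G.q ^ 2)) := by gcongr
      _ = 2 * C ^ 2 * ((G.i * G.κ ^ 3) * m / C') := by field_simp
      _ ≤ C' * γ * ((G.i * G.κ ^ 3) * m / C') := by gcongr
      _ = γ * (G.i * G.κ ^ 3) * m := by field_simp

end Glob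

end Crest.Agent.R51
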