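import Crest.Agent.R51.Dey
import Crest.Agent.R51.GlobLoc

/-! Tools for the regularisation: small sets of points have few edges. -/

namespace Crest.Agent.R51

open Finset
open scoped Classical

namespace Glob

variable (G : Glob)

/-- The start of the window number `k` of scale `m`. -/
def lo (m k : ℕ) : ℝ := G.b (k * (G.q / m) ^ 4)

/-- The edges of the band in the window number `k` of scale `m`. -/
noncomputable def Wd (m k : ℕ) : Finset Ed := tm (band G.P G.j G.i) (G.lo m k) (G.lo m (k + 1))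

/-- The window number `k` of scale `m` is calm. -/
def Ca (g m k : ℕ) : Prop := Calm G.P G.j G.i (sw g G.i m G.κ) (G.lo m k) (G.lo m (k + 1))

/-- The set of possibly active points of the window number `k` of scale `m`. -/
noncomputable def Rs (g m k : ℕ) : Finset Pt :=
  Rset G.P G.j G.i (sw g G.i m G.κ) (G.lo m k) (G.lo m (k + 1))

theorem loc_lo (z m k : ℕ) : (G.loc z).lo m k = G.lo m k := rfl

theorem loc_hi (z m k : ℕ) : (G.loc z).hi m k = G.lo m (k + 1) := rfl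

theorem RegT_lo_mono (m : ℕ) : Monotone (G.lo m) := (G.loc 0).lo_mono m

theorem RegT_m_pos {m : ℕ} (hm : m ∣ G.q) : 1 ≤ m := Nat.pos_of_dvd_of_pos hm G.q_pos

theorem RegT_κ_pos (hb : G.Big 3) : 0 < G.κ := (G.loc_big hb 0).κ_pos (by norm_num)

theorem RegT_three (hb : G.Big 3) {m : ℕ} (hm : m ∣ G.q) : 3 * (m : ℝ) ≤ G.κ := by
  have h1 : (m : ℝ) ≤ G.q := by exact_mod_cast Nat.le_of_dvd G.q_pos hm
  have h2 := hb.2
  push_cast at h2
  linarith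

theorem RegT_CM : 0 ≤ G.C₀ * G.M₀ := by
  have hq : (0 : ℝ) < G.q := by exact_mod_cast G.q_pos
  have h := (Nat.cast_nonneg _).trans (G.fine 0 (pow_pos G.q_pos 4))
  rwa [le_div_iff₀ (by positivity), zero_mul] at h

theorem RegT_choice {ε A B : ℝ} (hε : 0 < ε) (hA : 0 < A) (hB : 0 < B) :
    ∃ l γ : ℝ, 0 < l ∧ 0 < γ ∧ 200 * (A * l + B * γ / l ^ 2) ≤ ε := by
  refine ⟨ε / (400 * A), ε / (400 * B) * (ε / (400 * A)) ^ 2, by positivity, by positivity,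
    le_of_eq ?_⟩
  field_simp
  ring

/-- A window of scale `m` consists of `(q / m) ^ 4` finest windows (`card_tm_eq_sum`, `G.fine`). -/
theorem card_Wd {m k : ℕ} (hm : m ∣ G.q) (hk : k < m ^ 4) :
    (#(G.Wd m k) : ℝ) ≤ G.C₀ * G.M₀ / m ^ 4 := by
  obtain ⟨t, ht⟩ := hm
  have hq := G.q_pos
  have hm0 : 0 < m := G.RegT_m_pos ⟨t, ht⟩
  have ht0 : 0 < t := Nat.pos_of_ne_zero fun h => by simp [h] at ht; omega
  have hd : G.q / m = t := by rw [ht, Nat.mul_div_cancel_left t hm0]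
  have h1 := card_tm_eq_sum (band G.P G.j G.i) G.mono
    (show k * t ^ 4 ≤ (k + 1) * t ^ 4 from Nat.mul_le_mul_right _ (Nat.le_succ k))
  have h2 : ∀ w ∈ Finset.Ico (k * t ^ 4) ((k + 1) * t ^ 4),
      (#(tm (band G.P G.j G.i) (G.b w) (G.b (w + 1))) : ℝ) ≤ G.C₀ * G.M₀ / G.q ^ 4 := by
    intro w hw
    refine G.fine w ((mem_Ico.1 hw).2.trans_le ?_)
    rw [ht, mul_pow]
    exact Nat.mul_le_mul_right _ hk
  have h3 := sum_le_card_nsmul _ _ _ h2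
  rw [Nat.card_Ico, add_mul, one_mul, Nat.add_sub_cancel_left, nsmul_eq_mul] at h3
  unfold Wd lo
  rw [hd, h1, Nat.cast_sum, add_mul, one_mul]
  refine h3.trans (le_of_eq ?_)
  have hm' : (0 : ℝ) < m := by exact_mod_cast hm0
  have ht' : (0 : ℝ) < t := by exact_mod_cast ht0
  rw [ht]
  push_cast
  field_simp

/-- `card_Rset`, `sw_bounds`. -/
theorem card_Rs (hb : G.Big 3) {g m k : ℕ} (hg : 1 ≤ g) (hm : m ∣ G.q) (hc : G.Ca g m k) :
    (#(G.Rs g m k) : ℝ) ≤ 20 * g ^ 3 * (G.i * G.κ ^ 3) / m ^ 3 := by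
  obtain ⟨h1, h2, -, h4⟩ := sw_bounds hg G.i_pos (G.RegT_m_pos hm) (G.RegT_three hb hm)
  have h5 : (#(G.Rs g m k) : ℝ) ≤ 10 * (sw g G.i m G.κ : ℝ) := by
    exact_mod_cast G.gp.card_Rset (G.RegT_lo_mono m (Nat.le_succ k)) h1 h2 hc
  calc (#(G.Rs g m k) : ℝ) ≤ 10 * (2 * ((g : ℝ) ^ 3 * (G.i * G.κ ^ 3) / m ^ 3)) := by linarith
    _ = _ := by ring

/-- `mem_Rset`, `sw_bounds`. -/
theorem mem_Rs (hb : G.Big 3) {g m k : ℕ} (hg : 1 ≤ g) (hm : m ∣ G.q) (hc : G.Ca g m k) {e : Ed}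
    (he : e ∈ G.Wd m k) : e.1 ∈ G.Rs g m k ∧ e.2 ∈ G.Rs g m k := by
  obtain ⟨-, h2, -, -⟩ := sw_bounds hg G.i_pos (G.RegT_m_pos hm) (G.RegT_three hb hm)
  exact G.gp.mem_Rset h2 hc he

/-- Windows that are not calm carry few edges (`card_not_calm`, `card_Wd`). -/
theorem sum_not_calm (hb : G.Big 3) {g m : ℕ} (hg : 1 ≤ g) (hm : m ∣ G.q) :
    ∑ k ∈ (Finset.range (m ^ 4)).filter (fun k => ¬ G.Ca g m k), (#(G.Wd m k) : ℝ) ≤
      2000000 * G.C₀ / g ^ 4 * G.M₀ := by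
  have h1 := G.gp.card_not_calm G.j hg G.i_pos (G.RegT_m_pos hm) (G.RegT_three hb hm) G.cardP
    (G.RegT_lo_mono m) (Finset.range (m ^ 4))
  have h2 := sum_le_card_nsmul ((Finset.range (m ^ 4)).filter fun k => ¬ G.Ca g m k)
    (fun k => (#(G.Wd m k) : ℝ)) _ fun k hk => G.card_Wd hm (mem_range.1 (mem_filter.1 hk).1)
  rw [nsmul_eq_mul] at h2
  have hm' : (0 : ℝ) < m := by exact_mod_cast G.RegT_m_pos hm
  have hg' : (0 : ℝ) < g := by exact_mod_cast hg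
  refine h2.trans ((mul_le_mul_of_nonneg_right h1
    (div_nonneg G.RegT_CM (by positivity))).trans (le_of_eq ?_))
  field_simp

/-- A small set of points meets few edges: `Sys.card_inc_le` for the whole band (`csys`, `cnr`,
`exists_tm_eq`) with `Ω = P`, `lam = lam₀ κ`: at most `200 (2 lam₀ + γ / lam₀ ^ 2) M₀`. -/
theorem small_set {ε : ℝ} (hε : 0 < ε) : ∃ γ : ℝ, 0 < γ ∧ ∀ G : Glob, G.Big 3 →
    ∀ Y : Finset Pt, (#Y : ℝ) ≤ γ * (G.i * G.κ ^ 3) →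
      (#(inc (band G.P G.j G.i) Y) : ℝ) ≤ ε * G.M₀ := by
  obtain ⟨l, γ, hl, hγ, h⟩ := RegT_choice hε (A := 2) (B := 1) (by norm_num) (by norm_num)
  refine ⟨γ, hγ, fun G hb Y hY => ?_⟩
  have hκ := G.RegT_κ_pos hb
  have hi : (0 : ℝ) < G.i := by exact_mod_cast G.i_pos
  obtain ⟨a, b, -, hab⟩ := exists_tm_eq (band G.P G.j G.i)
  have hΩ : ∀ e ∈ band G.P G.j G.i, e.1 ∈ G.P ∧ e.2 ∈ G.P := fun e he =>
    ⟨(mem_pairs.1 (band_subset _ _ _ he)).1, (mem_pairs.1 (band_subset _ _ _ he)).2.1⟩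
  have h1 := G.cnr a b G.P (by rw [hab]; exact fun e he => (hΩ e he).1)
  rw [hab] at h1
  have h1' : (nr (band G.P G.j G.i) G.cid : ℝ) ≤ G.i * (G.i * G.κ ^ 3) := by
    have : (nr (band G.P G.j G.i) G.cid : ℝ) ≤ G.i * #G.P := by exact_mod_cast h1
    exact this.trans (mul_le_mul_of_nonneg_left G.cardP hi.le)
  have h2 := G.csys.card_inc_le G.i_pos G.P hΩ Y (lam := l * G.κ) (by positivity)
  have hP := G.cardP
  calc (#(inc (band G.P G.j G.i) Y) : ℝ) ≤ _ := h2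
    _ ≤ 200 * (l * G.κ * (G.i * (G.i * G.κ ^ 3) + G.i * (G.i * G.κ ^ 3)) +
        γ * (G.i * G.κ ^ 3) * (G.i * G.κ ^ 3) / (l * G.κ) ^ 2) := by gcongr
    _ = 200 * (2 * l + 1 * γ / l ^ 2) * G.M₀ := by
        unfold M₀
        field_simp
        ring
    _ ≤ ε * G.M₀ := mul_le_mul_of_nonneg_right h (by unfold M₀; positivity)

/-- Small sets of points in calm windows meet few edges: `Sys.card_inc_le` in the window `k` with
`Ω = Rs g m k` (so `i #Ω + nr ≤ 40 g ^ 3 i ^ 2 κ ^ 3 / m ^ 3` by `cnr`), `lam = lam₀ κ / m`; the sum over at most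
`m ^ 4` windows is at most `200 (40 g ^ 3 lam₀ + 20 g ^ 3 γ / lam₀ ^ 2) M₀`. -/
theorem small_sets {ε : ℝ} (hε : 0 < ε) {g : ℕ} (hg : 1 ≤ g) : ∃ γ : ℝ, 0 < γ ∧ ∀ G : Glob,
    G.Big 3 → ∀ m, m ∣ G.q → ∀ (Ks : Finset ℕ) (Y : ℕ → Finset Pt),
      (∀ k ∈ Ks, k < m ^ 4 ∧ G.Ca g m k) → ∑ k ∈ Ks, (#(Y k) : ℝ) ≤ γ * (G.i * G.κ ^ 3) * m →
      ∑ k ∈ Ks, (#(inc (G.Wd m k) (Y k)) : ℝ) ≤ ε * G.M₀ := by
  have hg' : (0 : ℝ) < g := by exact_mod_cast hg
  obtain ⟨l, γ, hl, hγ, h⟩ := RegT_choice hε (A := 40 * g ^ 3) (B := 20 * g ^ 3) (by positivity)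
    (by positivity)
  refine ⟨γ, hγ, fun G hb m hm Ks Y hK hY => ?_⟩
  have hκ := G.RegT_κ_pos hb
  have hi : (0 : ℝ) < G.i := by exact_mod_cast G.i_pos
  have hm' : (0 : ℝ) < m := by exact_mod_cast G.RegT_m_pos hm
  set R : ℝ := 20 * g ^ 3 * (G.i * G.κ ^ 3) / m ^ 3 with hR
  set lam : ℝ := l * G.κ / m with hlam
  have hlam0 : 0 < lam := by positivity
  have hR0 : 0 < R := by positivity
  have h1 : ∀ k ∈ Ks, (#(inc (G.Wd m k) (Y k)) : ℝ) ≤
      200 * (lam * (G.i * R + G.i * R)) + 200 * R / lam ^ 2 * #(Y k) := by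
    intro k hk
    have hΩ := fun e he => G.mem_Rs hb hg hm (hK k hk).2 (e := e) he
    have h2 := (G.csys.tm (G.lo m k) (G.lo m (k + 1))).card_inc_le G.i_pos (G.Rs g m k) hΩ (Y k)
      hlam0
    have h3 := G.card_Rs hb hg hm (hK k hk).2
    have h4 : (nr (G.Wd m k) G.cid : ℝ) ≤ G.i * R := by
      have : (nr (G.Wd m k) G.cid : ℝ) ≤ G.i * #(G.Rs g m k) := by
        exact_mod_cast G.cnr _ _ _ fun e he => (hΩ e he).1
      exact this.trans (mul_le_mul_of_nonneg_left h3 hi.le)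
    calc (#(inc (G.Wd m k) (Y k)) : ℝ) ≤
        200 * (lam * (G.i * #(G.Rs g m k) + nr (G.Wd m k) G.cid) +
          #(Y k) * #(G.Rs g m k) / lam ^ 2) := h2
      _ ≤ 200 * (lam * (G.i * R + G.i * R) + #(Y k) * R / lam ^ 2) := by gcongr
      _ = _ := by ring
  have hKs : (#Ks : ℝ) ≤ m ^ 4 := by
    have : #Ks ≤ #(Finset.range (m ^ 4)) := card_le_card fun k hk => mem_range.2 (hK k hk).1
    rw [card_range] at this
    exact_mod_cast this
  refine (sum_le_sum h1).trans ?_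
  rw [sum_add_distrib, sum_const, nsmul_eq_mul, ← mul_sum]
  calc #Ks * (200 * (lam * (G.i * R + G.i * R))) + 200 * R / lam ^ 2 * ∑ k ∈ Ks, (#(Y k) : ℝ) ≤
      m ^ 4 * (200 * (lam * (G.i * R + G.i * R))) +
        200 * R / lam ^ 2 * (γ * (G.i * G.κ ^ 3) * m) := by gcongr
    _ = 200 * (40 * g ^ 3 * l + 20 * g ^ 3 * γ / l ^ 2) * G.M₀ := by
        rw [hR, hlam]
        unfold M₀
        field_simp
        ring
    _ ≤ ε * G.M₀ := mul_le_mul_of_nonneg_right h (by unfold M₀; positivity)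

/-- Small pieces contain few edges: `Sys.card_le` for `(G.loc z).sys` with `Ω = (G.loc z).Z`,
`lam = lam₀ κ / q`; `∑ #Z ≤ #P`, `∑ nr ≤ 300 i ^ 2 κ ^ 3 q` (`sum_nr_le`, `rnr`), `∑ #Z ^ 2 ≤ γ N #P`: in total
`200 (301 lam₀ + γ / lam₀ ^ 2) M₀`. -/
theorem small_pieces {ε : ℝ} (hε : 0 < ε) : ∃ γ : ℝ, 0 < γ ∧ ∀ G : Glob, G.Big 3 →
    ∀ Zs : Finset ℕ, (∀ z ∈ Zs, (#(G.loc z).Z : ℝ) ≤ γ * (G.loc z).N) →
      ∑ z ∈ Zs, (#(G.at' G.Ein z) : ℝ) ≤ ε * G.M₀ := by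
  obtain ⟨l, γ, hl, hγ, h⟩ := RegT_choice hε (A := 301) (B := 1) (by norm_num) (by norm_num)
  refine ⟨γ, hγ, fun G hb Zs hZ => ?_⟩
  have hκ := G.RegT_κ_pos hb
  have hi : (0 : ℝ) < G.i := by exact_mod_cast G.i_pos
  have hq : (1 : ℝ) ≤ G.q := by exact_mod_cast G.q_pos
  set N : ℝ := G.i * G.κ ^ 3 / G.q ^ 2 with hN
  set lam : ℝ := l * G.κ / G.q with hlam
  have hlam0 : 0 < lam := by positivity
  have hN0 : 0 < N := by positivity
  have h1 : ∀ z ∈ Zs, (#(G.at' G.Ein z) : ℝ) ≤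
      (200 * lam * G.i + 200 * (γ * N) / lam ^ 2) * #(G.loc z).Z +
        200 * lam * nr (G.at' G.Ein z) G.rid := by
    intro z hz
    have h2 := (G.loc z).sys.card_le G.i_pos (G.loc z).Z (G.loc z).inZ hlam0
    have h3 : (#(G.loc z).Z : ℝ) ≤ γ * N := hZ z hz
    calc (#(G.at' G.Ein z) : ℝ) ≤ 200 * (lam * (G.i * #(G.loc z).Z + nr (G.at' G.Ein z) G.rid) +
          #(G.loc z).Z * #(G.loc z).Z / lam ^ 2) := h2
      _ ≤ 200 * (lam * (G.i * #(G.loc z).Z + nr (G.at' G.Ein z) G.rid) +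
          γ * N * #(G.loc z).Z / lam ^ 2) := by gcongr
      _ = _ := by ring
  have h2 : ∑ z ∈ Zs, (#(G.loc z).Z : ℝ) ≤ G.i * G.κ ^ 3 := by
    refine le_trans ?_ G.cardP
    have : ∑ z ∈ Zs, #(G.loc z).Z ≤ #G.P := by
      rw [← card_biUnion]
      · exact card_le_card (biUnion_subset.2 fun z _ => (G.loc z).ZP)
      · intro z _ z' _ hne
        rw [Function.onFun, disjoint_left]
        intro p hp hp'
        exact hne ((mem_filter.1 hp).2.symm.trans (mem_filter.1 hp').2)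
    exact_mod_cast this
  have h3 : ∑ z ∈ Zs, (nr (G.at' G.Ein z) G.rid : ℝ) ≤ 300 * (G.i ^ 2 * G.κ ^ 3) * G.q := by
    refine le_trans ?_ G.rnr
    exact_mod_cast G.sum_nr_le Zs
  refine (sum_le_sum h1).trans ?_
  rw [sum_add_distrib, ← mul_sum, ← mul_sum]
  have h4 : lam * G.i ≤ lam * G.i * G.q := le_mul_of_one_le_right (by positivity) hq
  calc (200 * lam * G.i + 200 * (γ * N) / lam ^ 2) * ∑ z ∈ Zs, (#(G.loc z).Z : ℝ) +
        200 * lam * ∑ z ∈ Zs, (nr (G.at' G.Ein z) G.rid : ℝ) ≤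
      (200 * (lam * G.i * G.q) + 200 * (γ * N) / lam ^ 2) * (G.i * G.κ ^ 3) +
        200 * lam * (300 * (G.i ^ 2 * G.κ ^ 3) * G.q) :=
          add_le_add (mul_le_mul (by linarith only [h4]) h2
            (sum_nonneg fun _ _ => Nat.cast_nonneg _) (by positivity))
            (mul_le_mul_of_nonneg_left h3 (by positivity))
    _ = 200 * (301 * l + 1 * γ / l ^ 2) * G.M₀ := by
        rw [hN, hlam]
        unfold M₀
        field_simp
        ring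
    _ ≤ ε * G.M₀ := mul_le_mul_of_nonneg_right h (by unfold M₀; positivity)

end Glob

end Crest.Agent.R51
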