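import Crest.Agent.R51.Basic

/-! Three separated windows. -/

namespace Crest.Agent.R51

open Finset
open scoped Classical

theorem Sep0_split (Ks : Finset ℕ) : ∀ r ≤ #Ks, ∃ t, #(Ks.filter fun x => x < t) = r := by
  induction Ks using Finset.induction_on_max with
  | empty => intro r hr; exact ⟨0, by simpa using (Nat.le_zero.1 hr).symm⟩
  | insert a s ha ih =>
    intro r hr
    have has : a ∉ s := fun h => lt_irrefl _ (ha a h)
    rw [card_insert_of_notMem has] at hr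
    rcases Nat.lt_or_ge #s r with h | h
    · refine ⟨a + 1, ?_⟩
      rw [filter_true_of_mem, card_insert_of_notMem has]
      · omega
      · intro x hx
        rcases mem_insert.1 hx with rfl | hx
        · omega
        · have := ha x hx
          omega
    · obtain ⟨t, ht⟩ := ih r h
      refine ⟨min t a, ?_⟩
      rw [← ht]
      congr 1
      ext x
      simp only [mem_filter, mem_insert, lt_min_iff]
      constructor
      · rintro ⟨rfl | hx, h1, h2⟩
        · exact absurd h2 (lt_irrefl _)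
        · exact ⟨hx, h1⟩
      · rintro ⟨hx, h1⟩
        exact ⟨Or.inr hx, h1, ha x hx⟩

/-- A set without close pairs has many logarithmically long windows. -/
theorem Sep0_far (lo hi : ℕ → ℝ) (h1 : ∀ k, lo k ≤ hi k) (h2 : ∀ k k', k < k' → hi k ≤ lo k')
    (K : Finset ℕ) (hK : ∀ x ∈ K, ∀ y ∈ K, x < y → 201 * (lo y - hi x) < hi y - lo x) :
    ∃ θ : ℝ, ∃ K' ⊆ K, #K ≤ 2 * #K' + 3 ∧ ∀ k ∈ K', LL θ (lo k) (hi k) := by
  rcases K.eq_empty_or_nonempty with rfl | hne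
  · exact ⟨0, ∅, Subset.refl _, by simp, by simp⟩
  obtain ⟨k₀, hk₀, hmin⟩ := exists_min_image K (fun k => hi k - lo k) hne
  set U := K.filter fun y => ∃ z ∈ K, k₀ < z ∧ z < y with hU
  set D := K.filter fun x => ∃ z ∈ K, x < z ∧ z < k₀ with hD
  set U₀ := K.filter fun y => k₀ < y ∧ ¬ ∃ z ∈ K, k₀ < z ∧ z < y with hU₀
  set D₀ := K.filter fun x => x < k₀ ∧ ¬ ∃ z ∈ K, x < z ∧ z < k₀ with hD₀
  have c1 : #U₀ ≤ 1 := by
    rw [card_le_one]
    intro a ha b hb
    obtain ⟨ha1, ha2, ha3⟩ := mem_filter.1 ha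
    obtain ⟨hb1, hb2, hb3⟩ := mem_filter.1 hb
    rcases lt_trichotomy a b with h | h | h
    · exact absurd ⟨a, ha1, ha2, h⟩ hb3
    · exact h
    · exact absurd ⟨b, hb1, hb2, h⟩ ha3
  have c2 : #D₀ ≤ 1 := by
    rw [card_le_one]
    intro a ha b hb
    obtain ⟨ha1, ha2, ha3⟩ := mem_filter.1 ha
    obtain ⟨hb1, hb2, hb3⟩ := mem_filter.1 hb
    rcases lt_trichotomy a b with h | h | h
    · exact absurd ⟨b, hb1, h, hb2⟩ ha3
    · exact h
    · exact absurd ⟨a, ha1, h, ha2⟩ hb3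
  have hsub : K ⊆ insert k₀ ((U ∪ U₀) ∪ (D ∪ D₀)) := by
    intro x hx
    simp only [hU, hD, hU₀, hD₀, mem_insert, mem_union, mem_filter]
    rcases lt_trichotomy x k₀ with h | h | h
    · by_cases h' : ∃ z ∈ K, x < z ∧ z < k₀
      · exact Or.inr (Or.inr (Or.inl ⟨hx, h'⟩))
      · exact Or.inr (Or.inr (Or.inr ⟨hx, h, h'⟩))
    · exact Or.inl h
    · by_cases h' : ∃ z ∈ K, k₀ < z ∧ z < x
      · exact Or.inr (Or.inl (Or.inl ⟨hx, h'⟩))
      · exact Or.inr (Or.inl (Or.inr ⟨hx, h, h'⟩))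
  have c3 : #K ≤ #U + #D + 3 := by
    have a1 := card_le_card hsub
    have a2 := card_insert_le k₀ ((U ∪ U₀) ∪ (D ∪ D₀))
    have a3 := card_union_le (U ∪ U₀) (D ∪ D₀)
    have a4 := card_union_le U U₀
    have a5 := card_union_le D D₀
    omega
  rcases le_total #U #D with h | h
  · refine ⟨hi k₀, D, filter_subset _ _, by omega, fun x hx => Or.inr ?_⟩
    obtain ⟨hx1, z, hz, hxz, hzk⟩ := mem_filter.1 hx
    have b1 := hK x hx1 k₀ hk₀ (hxz.trans hzk)
    have b2 := hmin z hz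
    have b3 := h2 x z hxz
    have b4 := h2 z k₀ hzk
    have b5 := h1 k₀
    constructor <;> linarith
  · refine ⟨lo k₀, U, filter_subset _ _, by omega, fun y hy => Or.inl ?_⟩
    obtain ⟨hy1, z, hz, hkz, hzy⟩ := mem_filter.1 hy
    have b1 := hK k₀ hk₀ y hy1 (hkz.trans hzy)
    have b2 := hmin z hz
    have b3 := h2 k₀ z hkz
    have b4 := h2 z y hzy
    have b5 := h1 k₀
    constructor <;> linarith

/-- Either three windows are separated, or many windows are logarithmically long.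
Proof: split `Ks` into a lower half `F` and an upper half `S`.  Call `x < y` *close* if `hi y - lo x ≤ 201 (lo y - hi x)`.
If `F` contains a close pair `(a, b)` and `S` a close pair `(c, d)` then `SepT a b d` (if `hi b - lo a ≤ hi d - lo c`) or
`SepT a c d` (otherwise).  So one half `K` (at least `(#Ks - 1) / 2` elements) has no close pair.  Let `k₀ ∈ K` be a
shortest window of `K`.  If `y ∈ K`, `y > k₀`, and some element of `K` lies between, then `lo y - hi k₀ ≥ hi k₀ - lo k₀` and so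
`LL (lo k₀) (lo y) (hi y)`; similarly `LL (hi k₀) (lo x) (hi x)` for `x < k₀` not adjacent.  Take the larger family. -/
theorem sep_or_ll (lo hi : ℕ → ℝ) (h1 : ∀ k, lo k ≤ hi k) (h2 : ∀ k k', k < k' → hi k ≤ lo k')
    (Ks : Finset ℕ) :
    (∃ a ∈ Ks, ∃ b ∈ Ks, ∃ c ∈ Ks, a < b ∧ b < c ∧ SepT lo hi a b c) ∨
      ∃ θ : ℝ, ∃ K ⊆ Ks, (#Ks : ℝ) / 4 - 2 ≤ #K ∧ ∀ k ∈ K, LL θ (lo k) (hi k) := by
  obtain ⟨t, ht⟩ := Sep0_split Ks (#Ks / 2) (Nat.div_le_self _ _)
  have hc := card_filter_add_card_filter_not (s := Ks) (fun x => x < t)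
  have fin : ∀ K ⊆ Ks, #Ks / 2 ≤ #K →
      (∀ x ∈ K, ∀ y ∈ K, x < y → 201 * (lo y - hi x) < hi y - lo x) →
      ∃ θ : ℝ, ∃ K ⊆ Ks, (#Ks : ℝ) / 4 - 2 ≤ #K ∧ ∀ k ∈ K, LL θ (lo k) (hi k) := by
    intro K hK hcK h
    obtain ⟨θ, K', hK', h3, h4⟩ := Sep0_far lo hi h1 h2 K h
    refine ⟨θ, K', hK'.trans hK, ?_, h4⟩
    have h5 : #Ks ≤ 4 * #K' + 8 := by omega
    have h6 : (#Ks : ℝ) ≤ 4 * #K' + 8 := by exact_mod_cast h5
    linarith
  by_cases hF : ∀ x ∈ Ks.filter fun x => x < t, ∀ y ∈ Ks.filter fun x => x < t, x < y →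
      201 * (lo y - hi x) < hi y - lo x
  · exact Or.inr (fin _ (filter_subset _ _) ht.ge hF)
  by_cases hS : ∀ x ∈ Ks.filter fun x => ¬ x < t, ∀ y ∈ Ks.filter fun x => ¬ x < t, x < y →
      201 * (lo y - hi x) < hi y - lo x
  · exact Or.inr (fin _ (filter_subset _ _) (by omega) hS)
  left
  push Not at hF hS
  obtain ⟨a, ha, b, hb, hab, h3⟩ := hF
  obtain ⟨c, hc', d, hd, hcd, h4⟩ := hS
  obtain ⟨ha1, -⟩ := mem_filter.1 ha
  obtain ⟨hb1, hb2⟩ := mem_filter.1 hb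
  obtain ⟨hc1, hc2⟩ := mem_filter.1 hc'
  obtain ⟨hd1, -⟩ := mem_filter.1 hd
  have hbc : b < c := by omega
  have b1 := h2 b c hbc
  have b2 := h1 b
  have b3 := h1 c
  rcases le_total (hi b - lo a) (hi d - lo c) with h | h
  · exact ⟨a, ha1, b, hb1, d, hd1, hab, hbc.trans hcd, Or.inl ⟨h3, by linarith⟩⟩
  · exact ⟨a, ha1, c, hc1, d, hd1, hab.trans hbc, hcd, Or.inr ⟨h4, by linarith⟩⟩

namespace Loc

end Loc

end Crest.Agent.R51
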