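import Crest.Agent.R51.GLoc
import Crest.Agent.R51.Sep0

/-! Three separated windows. -/

namespace Crest.Agent.R51

open Finset
open scoped Classical

theorem sep_pigeon {α β : Type*} [DecidableEq β] (G : Finset α) (B : Finset β) (hB : B.Nonempty)
    (f : α → β) (hf : ∀ g ∈ G, f g ∈ B) : ∃ b, #G ≤ #(G.filter fun g => f g = b) * #B := by
  obtain ⟨b, -, hb⟩ := exists_max_image B (fun b => #(G.filter fun g => f g = b)) hB
  exact ⟨b, card_le_mul_card_image_of_maps_to hf _ hb⟩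

namespace Loc

/-- Many points are rich in many substantial windows. -/
theorem sep_many {C c : ℝ} (hC : 1 ≤ C) (hc : 0 < c) (L : Loc) {Ω : ℕ → Finset Pt} {E₀ : Finset Ed}
    {m : ℕ} (hb : L.Big 1) (hm : m ∣ L.q) (hreg : L.Reg Ω C m E₀) (hE : c * L.M ≤ #E₀) :
    c / (4 * C ^ 2) * L.N ≤ #(L.Z.filter fun p => c * m / (4 * C) ≤
      (#((Finset.range (m ^ 4)).filter fun k => c / (4 * C) * L.M / m ≤ (#(L.W E₀ m k) : ℝ) ∧
        c / (8 * C) * L.d / m ≤ (deg (L.W E₀ m k) p : ℝ)) : ℝ)) := by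
  have hC0 : 0 < C := by linarith
  have hN := hb.N_pos le_rfl
  have hd := hb.d_pos le_rfl
  have hM := hb.M_pos le_rfl
  have hm0 : 0 < m := Nat.pos_of_dvd_of_pos hm L.q_pos
  have hmR : (0 : ℝ) < m := by exact_mod_cast hm0
  have h1 := hreg.card_sdiff_sel hb hC0.le hm (c := c / (4 * C)) (by positivity)
  obtain ⟨E₁, hE₁, h2, hrich⟩ := hreg.exists_rich hb hC0.le hm (c := c / (8 * C)) (by positivity)
  set E' := L.sel E₀ m fun k => c / (4 * C) * L.M / m ≤ (#(L.W E₀ m k) : ℝ) with hE'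
  set Ks : Pt → Finset ℕ := fun p => (Finset.range (m ^ 4)).filter fun k =>
    c / (4 * C) * L.M / m ≤ (#(L.W E₀ m k) : ℝ) ∧
      c / (8 * C) * L.d / m ≤ (deg (L.W E₀ m k) p : ℝ) with hKs
  have hsub : E₀ ⊆ ((E₀ \ E') ∪ (E₀ \ E₁)) ∪
      L.Z.biUnion fun p => (Ks p).biUnion fun k => (L.W E₀ m k).filter (Inc p) := by
    intro e he
    by_cases a1 : e ∈ E'
    · by_cases a2 : e ∈ E₁
      · refine mem_union_right _ (mem_biUnion.2 ⟨e.1, (L.inZ e (hreg.sub he)).1, ?_⟩)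
        obtain ⟨-, k, hk, hk'⟩ := L.mem_sel.1 a1
        have hw : e ∈ L.W E₀ m k := L.mem_W.2 ⟨he, hk'⟩
        refine mem_biUnion.2 ⟨k, mem_filter.2 ⟨mem_range.2 (L.lt_of_mem_W hm hreg.sub hw), hk, ?_⟩,
          mem_filter.2 ⟨hw, Or.inl rfl⟩⟩
        exact hrich k e (L.mem_W.2 ⟨a2, hk'⟩) e.1 (Or.inl rfl)
      · exact mem_union_left _ (mem_union_right _ (mem_sdiff.2 ⟨he, a2⟩))
    · exact mem_union_left _ (mem_union_left _ (mem_sdiff.2 ⟨he, a1⟩))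
  have h3 : #E₀ ≤ #(E₀ \ E') + #(E₀ \ E₁) + ∑ p ∈ L.Z, ∑ k ∈ Ks p, deg (L.W E₀ m k) p := by
    refine (card_le_card hsub).trans ((card_union_le _ _).trans (add_le_add (card_union_le _ _) ?_))
    exact card_biUnion_le.trans (sum_le_sum fun p _ => card_biUnion_le)
  have h3' : (#E₀ : ℝ) ≤ #(E₀ \ E') + #(E₀ \ E₁) +
      ∑ p ∈ L.Z, ∑ k ∈ Ks p, (deg (L.W E₀ m k) p : ℝ) := by exact_mod_cast h3
  have hK : ∀ p, (#(Ks p) : ℝ) ≤ C * m := by
    intro p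
    refine hreg.card_le_of_nonempty hm _ fun k hk => ?_
    rw [← card_pos]
    have : (0 : ℝ) < #(L.W E₀ m k) := lt_of_lt_of_le (by positivity) (mem_filter.1 hk).2.1
    exact_mod_cast this
  set G := L.Z.filter fun p => c * m / (4 * C) ≤ (#(Ks p) : ℝ) with hG
  have h4 : ∑ p ∈ L.Z, (#(Ks p) : ℝ) ≤ #G * (C * m) + L.N * (c * m / (4 * C)) := by
    rw [← sum_filter_add_sum_filter_not L.Z (fun p => c * m / (4 * C) ≤ (#(Ks p) : ℝ))]
    refine add_le_add ?_ ?_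
    · calc _ ≤ ∑ p ∈ G, C * m := sum_le_sum fun p _ => hK p
        _ = _ := by simp
    · calc _ ≤ ∑ p ∈ L.Z.filter (fun p => ¬ c * m / (4 * C) ≤ (#(Ks p) : ℝ)), c * m / (4 * C) :=
            sum_le_sum fun p hp => (not_le.1 (mem_filter.1 hp).2).le
        _ = #(L.Z.filter fun p => ¬ c * m / (4 * C) ≤ (#(Ks p) : ℝ)) * (c * m / (4 * C)) := by simp
        _ ≤ _ := by
          gcongr
          exact le_trans (Nat.cast_le.2 (card_filter_le _ _)) L.cardZ'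
  have h5 : ∑ p ∈ L.Z, ∑ k ∈ Ks p, (deg (L.W E₀ m k) p : ℝ)
      ≤ (∑ p ∈ L.Z, (#(Ks p) : ℝ)) * (C * L.d / m) := by
    rw [sum_mul]
    refine sum_le_sum fun p _ => ?_
    calc _ ≤ ∑ k ∈ Ks p, C * L.d / m := sum_le_sum fun k _ => hreg.deg_W_le hb hC0.le k p
      _ = _ := by simp
  have h6 : (#G * (C * m) + L.N * (c * m / (4 * C))) * (C * L.d / m)
      = #G * C ^ 2 * L.d + c * L.M / 4 := by
    rw [← L.N_mul_d]; field_simp
  have h7 : ∑ p ∈ L.Z, ∑ k ∈ Ks p, (deg (L.W E₀ m k) p : ℝ) ≤ #G * C ^ 2 * L.d + c * L.M / 4 := by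
    rw [← h6]
    exact h5.trans (by gcongr)
  have e1 : C * (c / (4 * C)) * L.M = c * L.M / 4 := by field_simp
  have e2 : C * (c / (8 * C)) * L.M = c * L.M / 8 := by field_simp
  rw [e1] at h1
  rw [e2] at h2
  have h8 : c * (L.N * L.d) / 4 ≤ #G * C ^ 2 * L.d := by
    rw [L.N_mul_d]
    have : 0 < c * L.M := by positivity
    linarith
  rw [div_mul_eq_mul_div, div_le_iff₀ (by positivity)]
  refine le_of_mul_le_mul_right ?_ hd
  nlinarith

/-- Many points are rich in three separated windows.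
Proof: let `m = m₁ ≥ max mG (64 C / c)` with `mG` from `gloc_count C (c / (4 C)) (c / (64 C))`.  Let `Ks p` be the set of windows `k` with
`#(W E₀ m k) ≥ c M / (4 C m)` and `deg (W E₀ m k) p ≥ c d / (8 C m)`.  By `card_sdiff_sel` and `exists_rich` at least `c M / 2` edges lie
in such a window for their left end, so `∑ p ∈ Z, #(Ks p) · C d / m ≥ c M / 2`; as `#(Ks p) ≤ C m`, at least `c N / (4 C ^ 2)` points
have `#(Ks p) ≥ c m / (4 C)`.  For such a point `sep_or_ll` gives a separated triple in `Ks p`, since the other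
alternative has `#K ≥ c m / (16 C) - 2 > c m / (64 C)`.  Pigeonhole over the at most `m ^ 12` triples. -/
theorem step1 {C c : ℝ} (hC : 1 ≤ C) (hc : 0 < c) : ∃ (m₁ Q : ℕ) (c' : ℝ), 1 ≤ m₁ ∧ 1 ≤ Q ∧
    0 < c' ∧ ∀ (L : Loc) (Ω : ℕ → Finset Pt) (E₀ : Finset Ed), L.Big Q → m₁ ∣ L.q → L.Base Ω C →
      L.Reg Ω C m₁ E₀ → c * L.M ≤ #E₀ →
      ∃ t : Fin 3 → ℕ, t 0 < t 1 ∧ t 1 < t 2 ∧ SepT (L.lo m₁) (L.hi m₁) (t 0) (t 1) (t 2) ∧
        ∃ Z₁ ⊆ L.Z, c' * L.N ≤ #Z₁ ∧ ∀ p ∈ Z₁, ∀ x, c' * L.d ≤ (deg (L.W E₀ m₁ (t x)) p : ℝ) := by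
  have hC0 : 0 < C := by linarith
  obtain ⟨mG, Q, hmG, hQ, hg⟩ := gloc_count hC (c := c / (4 * C)) (ε := c / (64 * C))
    (by positivity) (by positivity)
  obtain ⟨m₀, hm₀⟩ := exists_nat_ge (64 * C / c)
  set m := max mG m₀ with hmd
  have hm1 : 1 ≤ m := hmG.trans (le_max_left _ _)
  have hmR : (0 : ℝ) < m := by exact_mod_cast hm1
  have hm2 : 64 * C ≤ c * m := by
    have : (m₀ : ℝ) ≤ m := by exact_mod_cast le_max_right mG m₀
    have h2 := hm₀.trans this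
    rw [div_le_iff₀ hc] at h2
    linarith
  refine ⟨m, Q, min (c / (8 * C) / m) (c / (4 * C ^ 2) / (m ^ 4 * (m ^ 4 * m ^ 4))), hm1, hQ,
    by positivity, ?_⟩
  intro L Ω E₀ hbQ hm hbase hreg hE
  have hb : L.Big 1 := hbQ.mono hQ
  have hN := hb.N_pos le_rfl
  have hd := hb.d_pos le_rfl
  have hG := sep_many hC hc L hb hm hreg hE
  set Ks : Pt → Finset ℕ := fun p => (Finset.range (m ^ 4)).filter fun k =>
    c / (4 * C) * L.M / m ≤ (#(L.W E₀ m k) : ℝ) ∧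
      c / (8 * C) * L.d / m ≤ (deg (L.W E₀ m k) p : ℝ) with hKs
  set G := L.Z.filter fun p => c * m / (4 * C) ≤ (#(Ks p) : ℝ) with hGd
  have hex : ∀ p ∈ G, ∃ t : ℕ × ℕ × ℕ, t.1 ∈ Ks p ∧ t.2.1 ∈ Ks p ∧ t.2.2 ∈ Ks p ∧ t.1 < t.2.1 ∧
      t.2.1 < t.2.2 ∧ SepT (L.lo m) (L.hi m) t.1 t.2.1 t.2.2 := by
    intro p hp
    rcases sep_or_ll (L.lo m) (L.hi m) (L.lo_le_hi m) (fun _ _ h => L.hi_le_lo m h) (Ks p) with
      ⟨a, ha, b, hb', c', hc', h1, h2, h3⟩ | ⟨θ, K, hK, h1, h2⟩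
    · exact ⟨(a, b, c'), ha, hb', hc', h1, h2, h3⟩
    · exfalso
      have h3 := hg L Ω m E₀ θ K hbQ (le_max_left _ _) hm hbase hreg
        fun k hk => ⟨(mem_filter.1 (hK hk)).2.1, h2 k hk⟩
      have h4 := (mem_filter.1 hp).2
      have e1 : c / (64 * C) * m = c * m / (4 * C) / 16 := by field_simp; norm_num
      have h5 : 16 ≤ c * m / (4 * C) := by rw [le_div_iff₀ (by positivity)]; linarith
      rw [e1] at h3
      linarith
  choose! T hT1 hT2 hT3 hT4 hT5 hT6 using hex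
  have hrne : (Finset.range (m ^ 4)).Nonempty := ⟨0, mem_range.2 (by positivity)⟩
  obtain ⟨t, ht⟩ := sep_pigeon G (Finset.range (m ^ 4) ×ˢ Finset.range (m ^ 4) ×ˢ Finset.range (m ^ 4))
    (hrne.product (hrne.product hrne)) T fun p hp => mem_product.2 ⟨(mem_filter.1 (hT1 p hp)).1,
      mem_product.2 ⟨(mem_filter.1 (hT2 p hp)).1, (mem_filter.1 (hT3 p hp)).1⟩⟩
  set Z₁ := G.filter fun p => T p = t with hZ₁
  have hZ₁c : c / (4 * C ^ 2) / (m ^ 4 * (m ^ 4 * m ^ 4)) * L.N ≤ #Z₁ := by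
    rw [card_product, card_product, card_range] at ht
    have : (#G : ℝ) ≤ #Z₁ * (m ^ 4 * (m ^ 4 * m ^ 4)) := by exact_mod_cast ht
    rw [div_mul_eq_mul_div, div_le_iff₀ (by positivity)]
    exact hG.trans this
  obtain ⟨p₀, hp₀⟩ : Z₁.Nonempty := by
    rw [← card_pos]
    have : (0 : ℝ) < #Z₁ := lt_of_lt_of_le (by positivity) hZ₁c
    exact_mod_cast this
  obtain ⟨hp₁, hp₂⟩ := mem_filter.1 hp₀
  refine ⟨![t.1, t.2.1, t.2.2], ?_, ?_, ?_, Z₁, (filter_subset _ _).trans (filter_subset _ _), ?_, ?_⟩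
  · simpa [hp₂] using hT4 p₀ hp₁
  · simpa [hp₂] using hT5 p₀ hp₁
  · simpa [hp₂] using hT6 p₀ hp₁
  · refine le_trans ?_ hZ₁c
    gcongr
    exact min_le_right _ _
  · intro p hp x
    obtain ⟨hp1, hp2⟩ := mem_filter.1 hp
    have key : ∀ k ∈ Ks p, min (c / (8 * C) / m) (c / (4 * C ^ 2) / (m ^ 4 * (m ^ 4 * m ^ 4))) * L.d
        ≤ (deg (L.W E₀ m k) p : ℝ) := by
      intro k hk
      refine le_trans ?_ (mem_filter.1 hk).2.2
      calc _ ≤ c / (8 * C) / m * L.d := by gcongr; exact min_le_left _ _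
        _ = _ := by ring
    have a1 := hT1 p hp1
    have a2 := hT2 p hp1
    have a3 := hT3 p hp1
    rw [hp2] at a1 a2 a3
    fin_cases x
    · exact key _ a1
    · exact key _ a2
    · exact key _ a3

end Loc

end Crest.Agent.R51
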