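import Crest.Agent.R51.Basic

/-! Long windows carry few edges. -/

namespace Crest.Agent.R51

open Finset
open scoped Classical

theorem share0_aux {B : ℕ → ℝ} (hB : Monotone B) (u k : ℕ) {Λ x : ℝ} (hΛ : 0 ≤ Λ) (hx : 0 ≤ x)
    (h : 100 * Λ < (#((Finset.range u).filter fun r =>
      x ≤ Λ * (B (k * u + r + 1) - B (k * u + r))) : ℝ)) : 100 * x ≤ B ((k + 1) * u) - B (k * u) := by
  set S := (Finset.range u).filter fun r => x ≤ Λ * (B (k * u + r + 1) - B (k * u + r)) with hS
  have h1 : ∑ r ∈ Finset.range u, (B (k * u + r + 1) - B (k * u + r)) =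
      B ((k + 1) * u) - B (k * u) := by
    rw [add_mul, one_mul]
    exact Finset.sum_range_sub (fun r => B (k * u + r)) u
  have h2 : ∑ r ∈ S, (B (k * u + r + 1) - B (k * u + r)) ≤ B ((k + 1) * u) - B (k * u) := by
    rw [← h1]
    exact sum_le_sum_of_subset_of_nonneg (filter_subset _ _) fun r _ _ =>
      sub_nonneg.2 (hB (Nat.le_succ _))
  have h3 : ∑ r ∈ S, x ≤ ∑ r ∈ S, Λ * (B (k * u + r + 1) - B (k * u + r)) :=
    sum_le_sum fun r hr => (mem_filter.1 hr).2
  rw [sum_const, nsmul_eq_mul, ← mul_sum] at h3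
  have h4 : #S * x ≤ Λ * (B ((k + 1) * u) - B (k * u)) := h3.trans (by gcongr)
  have h5 : 0 ≤ B ((k + 1) * u) - B (k * u) := sub_nonneg.2 (hB (Nat.mul_le_mul_right _ (by omega)))
  rcases hΛ.eq_or_lt with h0 | h0
  · rw [← h0] at h h4
    have : x ≤ 0 := by nlinarith
    linarith
  · have h6 : Λ * (100 * x) ≤ Λ * (B ((k + 1) * u) - B (k * u)) := by nlinarith
    exact le_of_mul_le_mul_left h6 h0

/-- A parent with many long windows is logarithmically long with respect to the start or the end of its block.  If more than `200 Λ` of the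
windows `k⁺ u + r`, `r < u`, are `Long`, then more than `100 Λ` are long in the same sense; their lengths add up to at most the length of the
parent (telescoping sum). -/
theorem ll_of_many_long {B : ℕ → ℝ} (hB : Monotone B) {u v : ℕ} (hu : 1 ≤ u) (hv : 1 ≤ v) {Λ : ℝ}
    (hΛ : 0 ≤ Λ) (k : ℕ)
    (h : 200 * Λ < (#((Finset.range u).filter fun r => Long B u v Λ (k * u + r)) : ℝ)) :
    LL (B (k / v * v * u)) (B (k * u)) (B ((k + 1) * u)) ∨
      LL (B ((k / v + 1) * v * u)) (B (k * u)) (B ((k + 1) * u)) := by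
  have a1 : B (k / v * v * u) ≤ B (k * u) := hB (Nat.mul_le_mul_right _ (Nat.div_mul_le_self _ _))
  have a2 : B ((k + 1) * u) ≤ B ((k / v + 1) * v * u) := by
    apply hB
    apply Nat.mul_le_mul_right
    have := Nat.lt_div_mul_add (a := k) (show 0 < v by omega)
    rw [add_mul, one_mul]
    omega
  set S₁ := (Finset.range u).filter fun r =>
    B (k * u) - B (k / v * v * u) ≤ Λ * (B (k * u + r + 1) - B (k * u + r)) with hS₁
  set S₂ := (Finset.range u).filter fun r =>
    B ((k / v + 1) * v * u) - B ((k + 1) * u) ≤ Λ * (B (k * u + r + 1) - B (k * u + r)) with hS₂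
  have hsub : ((Finset.range u).filter fun r => Long B u v Λ (k * u + r)) ⊆ S₁ ∪ S₂ := by
    intro r hr
    rw [mem_filter] at hr
    have h1 : (k * u + r) / u = k := by
      rw [mul_comm, Nat.mul_add_div (by omega), Nat.div_eq_of_lt (mem_range.1 hr.1), add_zero]
    have h2 : (k * u + r) / (u * v) = k / v := by rw [← Nat.div_div_eq_div_mul, h1]
    have h3 := hr.2
    unfold Long at h3
    rw [h1, h2, mul_comm u v, ← mul_assoc, ← mul_assoc] at h3
    rw [mem_union, hS₁, hS₂, mem_filter, mem_filter]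
    exact h3.imp (fun x => ⟨hr.1, x⟩) fun x => ⟨hr.1, x⟩
  have hc : (#((Finset.range u).filter fun r => Long B u v Λ (k * u + r)) : ℝ) ≤ #S₁ + #S₂ := by
    exact_mod_cast (card_le_card hsub).trans (card_union_le _ _)
  by_cases h1 : 100 * Λ < (#S₁ : ℝ)
  · have := share0_aux hB u k hΛ (sub_nonneg.2 a1) h1
    exact Or.inl (Or.inl ⟨a1, by linarith⟩)
  · have := share0_aux hB u k hΛ (sub_nonneg.2 a2) (show 100 * Λ < (#S₂ : ℝ) by linarith)
    exact Or.inr (Or.inr ⟨a2, by linarith⟩)

end Crest.Agent.R51
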