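import Crest.Agent.R51.PropG
import Crest.Agent.R51.Share0

/-! Long windows carry few edges. -/

namespace Crest.Agent.R51

open Finset
open scoped Classical

theorem Share_sum_mul (F : ℕ → ℝ) (a b : ℕ) :
    ∑ k ∈ Finset.range (a * b), F k = ∑ p ∈ Finset.range a, ∑ r ∈ Finset.range b, F (p * b + r) := by
  induction a with
  | zero => simp
  | succ a ih => rw [add_mul, one_mul, sum_range_add, ih, sum_range_succ]

theorem Share_block (E : Finset Ed) {B : ℕ → ℝ} (hB : Monotone B) (p u : ℕ) :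
    (#(tm E (B (p * u)) (B ((p + 1) * u))) : ℝ) =
      ∑ r ∈ Finset.range u, (#(tm E (B (p * u + r)) (B (p * u + r + 1))) : ℝ) := by
  rw [card_tm_eq_sum E hB (show p * u ≤ (p + 1) * u by nlinarith), sum_Ico_eq_sum_range,
    show (p + 1) * u - p * u = u by rw [add_mul, one_mul, Nat.add_sub_cancel_left]]
  push_cast
  rfl

theorem Share_block_le (E : Finset Ed) {B : ℕ → ℝ} (hB : Monotone B) {a u : ℕ} {w : ℝ}
    (h : ∀ k < a * u, (#(tm E (B k) (B (k + 1))) : ℝ) ≤ w) {p : ℕ} (hp : p < a) :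
    (#(tm E (B (p * u)) (B ((p + 1) * u))) : ℝ) ≤ u * w := by
  rw [Share_block E hB]
  calc ∑ r ∈ Finset.range u, (#(tm E (B (p * u + r)) (B (p * u + r + 1))) : ℝ)
      ≤ ∑ _r ∈ Finset.range u, w := sum_le_sum fun r hr => h _ (by
        have h1 := mem_range.1 hr
        have h2 : (p + 1) * u ≤ a * u := Nat.mul_le_mul_right _ hp
        rw [add_mul, one_mul] at h2
        omega)
    _ = u * w := by simp

/-- The long windows of one parent. -/
theorem Share_parent (E : Finset Ed) {B : ℕ → ℝ} (hB : Monotone B) {a u v : ℕ} (hu : 1 ≤ u)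
    (hv : 1 ≤ v) {Λ w : ℝ} (hΛ : 0 ≤ Λ) (hw : 0 ≤ w)
    (h : ∀ k < a * u, (#(tm E (B k) (B (k + 1))) : ℝ) ≤ w) {p : ℕ} (hp : p < a) :
    ∑ r ∈ Finset.range u, (if Long B u v Λ (p * u + r) then
        (#(tm E (B (p * u + r)) (B (p * u + r + 1))) : ℝ) else 0) ≤
      200 * Λ * w + if LL (B (p / v * v * u)) (B (p * u)) (B ((p + 1) * u)) ∨
        LL (B ((p / v + 1) * v * u)) (B (p * u)) (B ((p + 1) * u)) then
        (#(tm E (B (p * u)) (B ((p + 1) * u))) : ℝ) else 0 := by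
  have h0 : 0 ≤ 200 * Λ * w := by positivity
  by_cases hl : 200 * Λ < (#((Finset.range u).filter fun r => Long B u v Λ (p * u + r)) : ℝ)
  · rw [if_pos (ll_of_many_long hB hu hv hΛ p hl), Share_block E hB]
    have : ∑ r ∈ Finset.range u, (if Long B u v Λ (p * u + r) then
        (#(tm E (B (p * u + r)) (B (p * u + r + 1))) : ℝ) else 0) ≤
        ∑ r ∈ Finset.range u, (#(tm E (B (p * u + r)) (B (p * u + r + 1))) : ℝ) :=
      sum_le_sum fun r _ => by
        split_ifs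
        · exact le_rfl
        · exact Nat.cast_nonneg _
    linarith
  · rw [← sum_filter]
    have h1 : ∑ r ∈ (Finset.range u).filter fun r => Long B u v Λ (p * u + r),
        (#(tm E (B (p * u + r)) (B (p * u + r + 1))) : ℝ) ≤
        #((Finset.range u).filter fun r => Long B u v Λ (p * u + r)) * w := by
      rw [← nsmul_eq_mul]
      refine sum_le_card_nsmul _ _ _ fun r hr => h _ ?_
      have h1 := mem_range.1 (mem_filter.1 hr).1
      have h2 : (p + 1) * u ≤ a * u := Nat.mul_le_mul_right _ hp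
      rw [add_mul, one_mul] at h2
      omega
    have h2 := mul_le_mul_of_nonneg_right (not_lt.1 hl) hw
    have h3 : (0 : ℝ) ≤ if LL (B (p / v * v * u)) (B (p * u)) (B ((p + 1) * u)) ∨
        LL (B ((p / v + 1) * v * u)) (B (p * u)) (B ((p + 1) * u)) then
        (#(tm E (B (p * u)) (B ((p + 1) * u))) : ℝ) else 0 := by
      split_ifs
      · exact Nat.cast_nonneg _
      · exact le_rfl
    linarith

/-- One calm block; `B'` is the grid of the parents. -/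
theorem Share_calm {ε κ₁ : ℝ} {mR : ℕ}
    (hG : ∀ (P : Finset Pt) (j : ℤ) (i : ℕ) (κ : ℝ) (B : ℕ → ℝ) (Ks : Finset ℕ) (θ : ℝ), GP P →
      1 ≤ i → κ₁ ≤ κ → (#P : ℝ) ≤ i * κ ^ 3 → Monotone B →
      (∀ k < mR ^ 4, (#(tm (band P j i) (B k) (B (k + 1))) : ℝ) ≤
        1000 * (i ^ 2 * κ ^ 4) / mR ^ 4) →
      (∀ k ∈ Ks, k < mR ^ 4 ∧ LL θ (B k) (B (k + 1))) →
      ∑ k ∈ Ks, (#(tm (band P j i) (B k) (B (k + 1))) : ℝ) ≤ ε * (i ^ 2 * κ ^ 4))
    {P : Finset Pt} {j : ℤ} {i s : ℕ} {κ' : ℝ} {B' : ℕ → ℝ} (hP : GP P) (hi : 1 ≤ i)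
    (his : i ≤ s) (hs : 10 ≤ s) (hκ : κ₁ ≤ κ') (hs' : 10 * (s : ℝ) ≤ i * κ' ^ 3)
    (hB : Monotone B') (hc : Calm P j i s (B' 0) (B' (mR ^ 4)))
    (hw : ∀ k < mR ^ 4, (#(tm (band P j i) (B' k) (B' (k + 1))) : ℝ) ≤
      1000 * (i ^ 2 * κ' ^ 4) / mR ^ 4) (θ : ℝ) :
    ∑ k ∈ Finset.range (mR ^ 4), (if LL θ (B' k) (B' (k + 1)) then
      (#(tm (band P j i) (B' k) (B' (k + 1))) : ℝ) else 0) ≤ ε * (i ^ 2 * κ' ^ 4) := by
  obtain ⟨j', hj'⟩ := hP.band_Rset hs hc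
  have hR := hP.card_Rset (hB (Nat.zero_le _)) his hs hc
  have heq : ∀ k < mR ^ 4, tm (band P j i) (B' k) (B' (k + 1)) =
      tm (band (Rset P j i s (B' 0) (B' (mR ^ 4))) j' i) (B' k) (B' (k + 1)) := by
    intro k hk
    rw [← tm_tm (band P j i) (hB (Nat.zero_le k)) (hB (show k + 1 ≤ mR ^ 4 from hk)), hj',
      tm_tm _ (hB (Nat.zero_le k)) (hB (show k + 1 ≤ mR ^ 4 from hk))]
  rw [← sum_filter]
  have h1 := hG (Rset P j i s (B' 0) (B' (mR ^ 4))) j' i κ' B'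
    ((Finset.range (mR ^ 4)).filter fun k => LL θ (B' k) (B' (k + 1))) θ
    (hP.mono (filter_subset _ _)) hi hκ
    (le_trans (by exact_mod_cast hR) hs') hB (fun k hk => by rw [← heq k hk]; exact hw k hk)
    fun k hk => ⟨mem_range.1 (mem_filter.1 hk).1, (mem_filter.1 hk).2⟩
  refine le_trans (le_of_eq (sum_congr rfl fun k hk => ?_)) h1
  rw [heq k (mem_range.1 (mem_filter.1 hk).1)]

/-- Choose `g ≥ 1` with `2000000 · 1000 / g ^ 4 ≤ c / 5`, and `mR` from `propG (c / (5 · 81 g ^ 4))`.  Let `u = B₂ ^ 4`, `v = mR ^ 4`, `M₀ = i ^ 2 κ ^ 4`.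
* Parents with at most `200 Λ` long windows: at most `(mB mR) ^ 4 · 200 Λ · 1000 M₀ / (mB mR B₂) ^ 4 ≤ c M₀ / 5` edges in long windows.
* Blocks `(B (K v u), B ((K + 1) v u)]`, `K < mB ^ 4`, have at most `1000 M₀ / mB ^ 4` edges (`card_tm_eq_sum`); those that are not calm for `s = sw g i mB κ`
  carry at most `c M₀ / 5` edges (`card_not_calm`).
* In a calm block the band is a band of `R = Rset …` (`band_Rset`, `tm_tm`), `#R ≤ 10 s ≤ i κ' ^ 3` for `κ' = 3 g κ / mB` (`card_Rset`, `sw_bounds`).  Apply `propG`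
  twice (start and end of the block) to `R`, the grid `k ↦ B ((K v + k) u)` and the parents given by `ll_of_many_long`: at most
  `2 c M₀ / (5 mB ^ 4)` edges. -/
theorem share {c : ℝ} (hc : 0 < c) : ∃ mR : ℕ, 1 ≤ mR ∧ ∀ (B₂ : ℕ) (Λ : ℝ), 1 ≤ B₂ → 0 ≤ Λ →
    1000000 * Λ ≤ c * B₂ ^ 4 → ∀ mB : ℕ, 1 ≤ mB → ∃ κ₀ : ℝ,
      ∀ (P : Finset Pt) (j : ℤ) (i : ℕ) (κ : ℝ) (B : ℕ → ℝ), GP P → 1 ≤ i → κ₀ ≤ κ →
        (#P : ℝ) ≤ i * κ ^ 3 → Monotone B →
        (∀ k < (mB * mR * B₂) ^ 4, (#(tm (band P j i) (B k) (B (k + 1))) : ℝ) ≤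
          1000 * (i ^ 2 * κ ^ 4) / (mB * mR * B₂ : ℕ) ^ 4) →
        ∑ k ∈ (Finset.range ((mB * mR * B₂) ^ 4)).filter (Long B (B₂ ^ 4) (mR ^ 4) Λ),
          (#(tm (band P j i) (B k) (B (k + 1))) : ℝ) ≤ c * (i ^ 2 * κ ^ 4) := by
  obtain ⟨g, hg1, hg⟩ : ∃ g : ℕ, 1 ≤ g ∧ 2000000 * 1000 / (g : ℝ) ^ 4 ≤ c / 5 := by
    refine ⟨⌈10000000000 / c⌉₊ + 1, by omega, ?_⟩
    have h1 := Nat.le_ceil (10000000000 / c)
    obtain ⟨g, hg⟩ : ∃ g : ℝ, g = ((⌈10000000000 / c⌉₊ + 1 : ℕ) : ℝ) := ⟨_, rfl⟩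
    rw [← hg]
    have h2 : 10000000000 / c ≤ g := by rw [hg]; push_cast; linarith
    have h3 : 1 ≤ g := by rw [hg]; exact_mod_cast Nat.le_add_left 1 _
    have h4 : g ≤ g ^ 4 := le_self_pow₀ h3 (by norm_num)
    rw [div_le_iff₀ hc] at h2
    rw [div_le_div_iff₀ (by positivity) (by norm_num)]
    nlinarith
  have hgR : (1 : ℝ) ≤ g := by exact_mod_cast hg1
  obtain ⟨mR, hmR, hG⟩ := propG (ε := c / (5 * 81 * (g : ℝ) ^ 4)) (by positivity)
  obtain ⟨κ₁, hG⟩ := hG mR le_rfl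
  refine ⟨mR, hmR, fun B₂ Λ hB₂ hΛ hΛc mB hmB => ⟨max (3 * (mB : ℝ)) (mB * κ₁), ?_⟩⟩
  intro P j i κ B hP hi hκ hn hB hw
  have hκ3 : 3 * (mB : ℝ) ≤ κ := (le_max_left _ _).trans hκ
  have hκ1 : mB * κ₁ ≤ κ := (le_max_right _ _).trans hκ
  have hmBR : (1 : ℝ) ≤ mB := by exact_mod_cast hmB
  have hmRR : (1 : ℝ) ≤ mR := by exact_mod_cast hmR
  have hB₂R : (1 : ℝ) ≤ B₂ := by exact_mod_cast hB₂
  have hiR : (1 : ℝ) ≤ i := by exact_mod_cast hi
  have hκ0 : 0 < κ := by linarith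
  obtain ⟨M, hM⟩ : ∃ M : ℝ, M = i ^ 2 * κ ^ 4 := ⟨_, rfl⟩
  have hM0 : 0 < M := by rw [hM]; positivity
  rw [← hM] at hw ⊢
  obtain ⟨u, hu⟩ : ∃ u, u = B₂ ^ 4 := ⟨_, rfl⟩
  obtain ⟨v, hv⟩ : ∃ v, v = mR ^ 4 := ⟨_, rfl⟩
  have hu1 : 1 ≤ u := hu ▸ Nat.one_le_pow _ _ hB₂
  have hv1 : 1 ≤ v := hv ▸ Nat.one_le_pow _ _ hmR
  have huR : (u : ℝ) = (B₂ : ℝ) ^ 4 := by rw [hu]; push_cast; rfl
  have hvR : (v : ℝ) = (mR : ℝ) ^ 4 := by rw [hv]; push_cast; rfl
  have hn4 : (mB * mR * B₂) ^ 4 = mB ^ 4 * v * u := by rw [hu, hv]; ring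
  obtain ⟨w, hw0⟩ : ∃ w : ℝ, w = 1000 * M / (mB * mR * B₂ : ℕ) ^ 4 := ⟨_, rfl⟩
  have hwpos : 0 ≤ w := by rw [hw0]; positivity
  rw [← hw0, hn4] at hw
  rw [← hu, ← hv, hn4, sum_filter, Share_sum_mul]
  -- the parents
  have hpar : ∀ p < mB ^ 4 * v, (#(tm (band P j i) (B (p * u)) (B ((p + 1) * u))) : ℝ) ≤ u * w :=
    fun p hp => Share_block_le _ hB hw hp
  have hB' : Monotone fun k => B (k * u) := fun _ _ h => hB (Nat.mul_le_mul_right _ h)
  have hB'' : Monotone fun k => B (k * v * u) := fun _ _ h =>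
    hB (Nat.mul_le_mul_right _ (Nat.mul_le_mul_right _ h))
  refine le_trans (sum_le_sum fun p hp =>
    Share_parent (band P j i) hB hu1 hv1 hΛ hwpos hw (mem_range.1 hp)) ?_
  rw [sum_add_distrib, sum_const, card_range, nsmul_eq_mul, Share_sum_mul]
  have h1 : ((mB ^ 4 * v : ℕ) : ℝ) * (200 * Λ * w) ≤ c / 5 * M := by
    have : ((mB ^ 4 * v : ℕ) : ℝ) * (200 * Λ * w) = 1000000 * Λ / B₂ ^ 4 * (M / 5) := by
      rw [hw0]
      push_cast
      rw [hvR]
      field_simp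
      ring
    rw [this]
    have h2 : 1000000 * Λ / B₂ ^ 4 ≤ c := by rw [div_le_iff₀ (by positivity)]; exact hΛc
    calc 1000000 * Λ / B₂ ^ 4 * (M / 5) ≤ c * (M / 5) := by gcongr
      _ = c / 5 * M := by ring
  obtain ⟨s1, s2, -, s4⟩ := sw_bounds hg1 hi hmB hκ3
  have hnc := hP.card_not_calm j hg1 hi hmB hκ3 hn hB'' (Finset.range (mB ^ 4))
  obtain ⟨s, hs⟩ : ∃ s, s = sw g i mB κ := ⟨_, rfl⟩
  rw [← hs] at s1 s2 s4 hnc
  -- one block
  have hblock : ∀ K ∈ Finset.range (mB ^ 4), ∑ t ∈ Finset.range v,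
      (if LL (B ((K * v + t) / v * v * u)) (B ((K * v + t) * u)) (B ((K * v + t + 1) * u)) ∨
        LL (B (((K * v + t) / v + 1) * v * u)) (B ((K * v + t) * u)) (B ((K * v + t + 1) * u)) then
        (#(tm (band P j i) (B ((K * v + t) * u)) (B ((K * v + t + 1) * u))) : ℝ) else 0) ≤
      2 * c / 5 * M / mB ^ 4 +
        if ¬ Calm P j i s (B (K * v * u)) (B ((K + 1) * v * u)) then 1000 * M / mB ^ 4 else 0 := by
    intro K hK
    have hK' := mem_range.1 hK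
    have hlt : ∀ t < v, K * v + t < mB ^ 4 * v := fun t ht => by
      have h2 : (K + 1) * v ≤ mB ^ 4 * v := Nat.mul_le_mul_right _ hK'
      rw [add_mul, one_mul] at h2
      omega
    have h0 : 0 ≤ 2 * c / 5 * M / mB ^ 4 := by positivity
    by_cases hcalm : Calm P j i s (B (K * v * u)) (B ((K + 1) * v * u))
    · rw [if_neg (not_not.2 hcalm), add_zero]
      have hκ' : κ₁ ≤ 3 * g * κ / mB := by
        rw [le_div_iff₀ (by positivity)]
        nlinarith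
      have hs' : 10 * (s : ℝ) ≤ i * (3 * g * κ / mB) ^ 3 := by
        have e : (i : ℝ) * (3 * g * κ / mB) ^ 3 = 27 * ((g : ℝ) ^ 3 * (i * κ ^ 3) / mB ^ 3) := by
          field_simp
          ring
        have : 0 ≤ (g : ℝ) ^ 3 * (i * κ ^ 3) / mB ^ 3 := by positivity
        rw [e]
        linarith
      have hBK : Monotone fun k => B ((K * v + k) * u) := fun _ _ h =>
        hB (Nat.mul_le_mul_right _ (Nat.add_le_add_left h _))
      have key := fun θ => Share_calm hG (j := j) (B' := fun k => B ((K * v + k) * u)) hP hi s1 s2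
        hκ' hs' hBK (by
          simp only [add_zero]
          rw [← hv, show K * v + v = (K + 1) * v by ring]
          exact hcalm) (fun k hk => by
          refine (hpar _ (hlt k (hv ▸ hk))).trans ?_
          have e1 : (u : ℝ) * w = 1000 * M / (mB ^ 4 * mR ^ 4) := by
            rw [hw0, huR]
            push_cast
            field_simp
          have e2 : 1000 * ((i : ℝ) ^ 2 * (3 * g * κ / mB) ^ 4) / mR ^ 4 =
              81 * (g : ℝ) ^ 4 * (1000 * M / (mB ^ 4 * mR ^ 4)) := by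
            rw [hM]
            field_simp
            ring
          rw [e1, e2]
          have h3 : (1 : ℝ) ≤ (g : ℝ) ^ 4 := one_le_pow₀ hgR
          have h4 : 0 ≤ 1000 * M / ((mB : ℝ) ^ 4 * mR ^ 4) := by positivity
          nlinarith) θ
      have e3 : c / (5 * 81 * (g : ℝ) ^ 4) * ((i : ℝ) ^ 2 * (3 * g * κ / mB) ^ 4) =
          c / 5 * M / mB ^ 4 := by
        rw [hM]
        field_simp
        ring
      rw [e3, ← hv] at key
      have k1 := key (B (K * v * u))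
      have k2 := key (B ((K + 1) * v * u))
      have e4 : 2 * c / 5 * M / mB ^ 4 = c / 5 * M / mB ^ 4 + c / 5 * M / mB ^ 4 := by ring
      rw [e4]
      refine le_trans ?_ (add_le_add k1 k2)
      rw [← sum_add_distrib]
      refine sum_le_sum fun t ht => ?_
      have hdiv : (K * v + t) / v = K := by
        rw [mul_comm, Nat.mul_add_div (by omega), Nat.div_eq_of_lt (mem_range.1 ht), add_zero]
      rw [hdiv]
      simp only [← add_assoc]
      have hnn : (0 : ℝ) ≤ #(tm (band P j i) (B ((K * v + t) * u)) (B ((K * v + t + 1) * u))) :=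
        Nat.cast_nonneg _
      split_ifs <;> first | linarith | tauto
    · rw [if_pos hcalm]
      have h2 : ∑ t ∈ Finset.range v,
          (if LL (B ((K * v + t) / v * v * u)) (B ((K * v + t) * u)) (B ((K * v + t + 1) * u)) ∨
            LL (B (((K * v + t) / v + 1) * v * u)) (B ((K * v + t) * u))
              (B ((K * v + t + 1) * u)) then
          (#(tm (band P j i) (B ((K * v + t) * u)) (B ((K * v + t + 1) * u))) : ℝ) else 0) ≤
          ∑ _t ∈ Finset.range v, (u : ℝ) * w := sum_le_sum fun t ht => by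
        split_ifs
        · exact hpar _ (hlt t (mem_range.1 ht))
        · positivity
      have e : ∑ _t ∈ Finset.range v, (u : ℝ) * w = 1000 * M / mB ^ 4 := by
        rw [sum_const, card_range, nsmul_eq_mul, hw0, huR, hvR]
        push_cast
        field_simp
      linarith
  have h2 := sum_le_sum hblock
  rw [sum_add_distrib, sum_const, card_range, nsmul_eq_mul, ← sum_filter, sum_const,
    nsmul_eq_mul] at h2
  have e1 : ((mB ^ 4 : ℕ) : ℝ) * (2 * c / 5 * M / mB ^ 4) = 2 * c / 5 * M := by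
    push_cast
    field_simp
  have h3 : (#((Finset.range (mB ^ 4)).filter fun K =>
      ¬ Calm P j i s (B (K * v * u)) (B ((K + 1) * v * u))) : ℝ) * (1000 * M / mB ^ 4) ≤
      c / 5 * M := by
    calc _ ≤ (2000000 * (mB : ℝ) ^ 4 / g ^ 4) * (1000 * M / mB ^ 4) := by gcongr
      _ = 2000000 * 1000 / (g : ℝ) ^ 4 * M := by field_simp
      _ ≤ c / 5 * M := by gcongr
  have h4 : 0 ≤ c / 5 * M := by positivity
  linarith

end Crest.Agent.R51
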