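import Crest.Agent.R51.RegB
import Crest.Agent.R51.LocReg

/-! Counting pieces. -/

namespace Crest.Agent.R51

open Finset
open scoped Classical

namespace Glob

variable (G : Glob)

theorem q_posR : (0 : ℝ) < G.q := by exact_mod_cast G.q_pos

theorem M₀_eq (z : ℕ) : G.M₀ = (G.loc z).M * G.q ^ 2 := by
  rw [loc_M]
  have := G.q_posR
  field_simp

theorem many_pieces {E₁ : Finset Ed} {Zs : Finset ℕ} {C c : ℝ} (hC : 1 ≤ C) (hc : 0 < c)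
    (hM : 0 < G.M₀) (hZ : (#Zs : ℝ) ≤ C * G.q ^ 2) (h1 : ∀ e ∈ E₁, G.pc e.1 ∈ Zs)
    (h2 : ∀ z ∈ Zs, (#(G.at' E₁ z) : ℝ) ≤ C ^ 2 * (G.M₀ / G.q ^ 2)) (h3 : c * G.M₀ ≤ #E₁) :
    c / (2 * C ^ 2) * G.q ^ 2 ≤
      #(Zs.filter fun z => c / (2 * C) * (G.M₀ / G.q ^ 2) ≤ (#(G.at' E₁ z) : ℝ)) := by
  have hq := G.q_posR
  set M := G.M₀ / G.q ^ 2 with hMdef
  have hMpos : 0 < M := by positivity
  have hM0 : G.M₀ = M * G.q ^ 2 := by rw [hMdef]; field_simp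
  set S := Zs.filter fun z => c / (2 * C) * M ≤ (#(G.at' E₁ z) : ℝ) with hS
  have e1 : (#E₁ : ℝ) = ∑ z ∈ Zs, (#(G.at' E₁ z) : ℝ) := by
    exact_mod_cast G.card_eq_sum_at' E₁ Zs h1
  have e2 : ∑ z ∈ Zs, (#(G.at' E₁ z) : ℝ) ≤
      ∑ z ∈ Zs, (c / (2 * C) * M + if z ∈ S then C ^ 2 * M else 0) := by
    apply sum_le_sum
    intro z hz
    have hp : 0 ≤ c / (2 * C) * M := by positivity
    split_ifs with h
    · linarith [h2 z hz]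
    · rw [hS, mem_filter, not_and] at h
      have := not_le.1 (h hz)
      linarith
  rw [sum_add_distrib, sum_const, ← sum_filter, sum_const, nsmul_eq_mul, nsmul_eq_mul] at e2
  have e3 : Zs.filter (fun z => z ∈ S) = S := by
    ext z
    simp only [hS, mem_filter]
    tauto
  rw [e3] at e2
  have e4 : (#Zs : ℝ) * (c / (2 * C) * M) ≤ c / 2 * G.M₀ := by
    calc (#Zs : ℝ) * (c / (2 * C) * M) ≤ C * G.q ^ 2 * (c / (2 * C) * M) := by gcongr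
      _ = c / 2 * G.M₀ := by rw [hM0]; field_simp
  have e5 : c / 2 * (M * G.q ^ 2) ≤ #S * (C ^ 2 * M) := by rw [← hM0]; linarith
  rw [div_mul_eq_mul_div, div_le_iff₀ (by positivity)]
  nlinarith

theorem few_lossy (F : Finset Ed) (Zs : Finset ℕ) {ε η : ℝ} (hη : 0 < η) (hM : 0 < G.M₀)
    (hF : (#F : ℝ) ≤ ε * G.M₀) :
    (#(Zs.filter fun z => η * (G.M₀ / G.q ^ 2) < (#(G.at' F z) : ℝ)) : ℝ) ≤ ε / η * G.q ^ 2 := by
  have hq := G.q_posR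
  set M := G.M₀ / G.q ^ 2 with hMdef
  have hMpos : 0 < M := by positivity
  have hM0 : G.M₀ = M * G.q ^ 2 := by rw [hMdef]; field_simp
  set S := Zs.filter fun z => η * M < (#(G.at' F z) : ℝ) with hS
  have e1 : ∑ z ∈ S, (#(G.at' F z) : ℝ) ≤ #F := by exact_mod_cast G.sum_at'_le F S
  have e2 : ∑ z ∈ S, η * M ≤ ∑ z ∈ S, (#(G.at' F z) : ℝ) :=
    sum_le_sum fun z hz => (mem_filter.1 hz).2.le
  rw [sum_const, nsmul_eq_mul] at e2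
  rw [div_mul_eq_mul_div, le_div_iff₀ hη]
  rw [hM0] at hF
  nlinarith

theorem sum_sel_le {m : ℕ} (hm : m ∣ G.q) (S : ℕ → Prop) (Zs : Finset ℕ) :
    ∑ z ∈ Zs, #((G.loc z).sel (G.loc z).E m S) ≤
      ∑ k ∈ (Finset.range (m ^ 4)).filter S, #(G.Wd m k) := by
  set F := ((Finset.range (m ^ 4)).filter S).biUnion fun k => G.Wd m k
  calc ∑ z ∈ Zs, #((G.loc z).sel (G.loc z).E m S) ≤ ∑ z ∈ Zs, #(G.at' F z) := by
        apply sum_le_sum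
        intro z _
        apply card_le_card
        intro e he
        obtain ⟨h1, k, hk, h2, h3⟩ := (G.loc z).mem_sel.1 he
        have h4 := (G.loc z).lt_of_mem_W hm Subset.rfl ((G.loc z).mem_W.2 ⟨h1, h2, h3⟩)
        have h5 := G.mem_at'.1 h1
        refine G.mem_at'.2 ⟨mem_biUnion.2 ⟨k, mem_filter.2 ⟨mem_range.2 h4, hk⟩, ?_⟩, h5.2⟩
        exact mem_tm.2 ⟨G.E_sub (G.Ein_sub h5.1), h2, h3⟩
    _ ≤ #F := G.sum_at'_le F Zs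
    _ ≤ _ := card_biUnion_le

theorem Big.mono {G : Glob} {Q Q' : ℕ} (h : G.Big Q) (hQ : Q' ≤ Q) : G.Big Q' :=
  Loc.Big.mono (L := G.loc 0) h hQ

theorem Big.M₀_pos {G : Glob} {Q : ℕ} (h : G.Big Q) (hQ : 1 ≤ Q) : 0 < G.M₀ := by
  have h1 : 0 < (G.loc 0).M := Loc.Big.M_pos (L := G.loc 0) h hQ
  have := G.q_posR
  rw [G.M₀_eq 0]
  positivity

/-- Regularity at two scales at once, for a piece that loses few edges. -/
theorem two_scales {Ω : ℕ → ℕ → Finset Pt} {C ε : ℝ} {m m' : ℕ}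
    (h : ∃ E₀ ⊆ G.Ein, (#(G.E \ E₀) : ℝ) ≤ ε * G.M₀ ∧ ∃ Zs : Finset ℕ, (#Zs : ℝ) ≤ C * G.q ^ 2 ∧
        (∀ e ∈ E₀, G.pc e.1 ∈ Zs) ∧
        ∀ z ∈ Zs, (G.loc z).Base (Ω z) C ∧ (G.loc z).Reg (Ω z) C m (G.at' E₀ z))
    (h' : ∃ E₀ ⊆ G.Ein, (#(G.E \ E₀) : ℝ) ≤ ε * G.M₀ ∧ ∃ Zs : Finset ℕ, (#Zs : ℝ) ≤ C * G.q ^ 2 ∧
        (∀ e ∈ E₀, G.pc e.1 ∈ Zs) ∧
        ∀ z ∈ Zs, (G.loc z).Base (Ω z) C ∧ (G.loc z).Reg (Ω z) C m' (G.at' E₀ z))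
    (hM : 0 < G.M₀) {η : ℝ} (hη : 0 < η) (Zs : Finset ℕ)
    (hZ : ∀ z ∈ Zs, η * (G.loc z).M < #(G.loc z).E) :
    ∃ Zs' ⊆ Zs, (#Zs : ℝ) ≤ #Zs' + 2 * ε / η * G.q ^ 2 ∧ ∀ z ∈ Zs', ∃ E₀ : Finset Ed,
      (#((G.loc z).E \ E₀) : ℝ) ≤ η * (G.loc z).M ∧ (G.loc z).Base (Ω z) C ∧
      (G.loc z).Reg (Ω z) C m E₀ ∧ (G.loc z).Reg (Ω z) C m' E₀ := by
  obtain ⟨E₁, hE₁, hl₁, Z₁, -, hp₁, hr₁⟩ := h
  obtain ⟨E₂, hE₂, hl₂, Z₂, -, hp₂, hr₂⟩ := h'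
  set F := G.E \ (E₁ ∩ E₂) with hF
  have hFc : (#F : ℝ) ≤ 2 * ε * G.M₀ := by
    have : F ⊆ (G.E \ E₁) ∪ (G.E \ E₂) := by
      intro e he
      simp only [hF, mem_sdiff, mem_inter, mem_union] at he ⊢
      tauto
    have h2 : (#F : ℝ) ≤ #(G.E \ E₁) + #(G.E \ E₂) := by
      exact_mod_cast (card_le_card this).trans (card_union_le _ _)
    linarith
  have hl := G.few_lossy F Zs hη hM hFc
  refine ⟨Zs.filter fun z => ¬ η * (G.M₀ / G.q ^ 2) < (#(G.at' F z) : ℝ), filter_subset _ _, ?_, ?_⟩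
  · have := card_filter_add_card_filter_not (s := Zs)
      (fun z => η * (G.M₀ / G.q ^ 2) < (#(G.at' F z) : ℝ))
    have h2 : (#Zs : ℝ) = #(Zs.filter fun z => η * (G.M₀ / G.q ^ 2) < (#(G.at' F z) : ℝ)) +
        #(Zs.filter fun z => ¬ η * (G.M₀ / G.q ^ 2) < (#(G.at' F z) : ℝ)) := by
      exact_mod_cast this.symm
    linarith
  · intro z hz
    rw [mem_filter, not_lt] at hz
    have hsub : (G.loc z).E \ G.at' (E₁ ∩ E₂) z ⊆ G.at' F z := by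
      intro e he
      rw [mem_sdiff, loc_E, mem_at', mem_at'] at he
      rw [mem_at', hF, mem_sdiff]
      exact ⟨⟨G.Ein_sub he.1.1, fun h => he.2 ⟨h, he.1.2⟩⟩, he.1.2⟩
    have hloss : (#((G.loc z).E \ G.at' (E₁ ∩ E₂) z) : ℝ) ≤ η * (G.loc z).M := by
      refine le_trans ?_ hz.2
      exact_mod_cast card_le_card hsub
    have hne : (G.at' (E₁ ∩ E₂) z).Nonempty := by
      rw [nonempty_iff_ne_empty]
      intro h0
      rw [h0, sdiff_empty] at hloss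
      linarith [hZ z hz.1]
    obtain ⟨e, he⟩ := hne
    rw [mem_at', mem_inter] at he
    have hz₁ : z ∈ Z₁ := he.2 ▸ hp₁ e he.1.1
    have hz₂ : z ∈ Z₂ := he.2 ▸ hp₂ e he.1.2
    exact ⟨G.at' (E₁ ∩ E₂) z, hloss, (hr₁ z hz₁).1,
      (hr₁ z hz₁).2.mono (G.at'_mono inter_subset_left z),
      (hr₂ z hz₂).2.mono (G.at'_mono inter_subset_right z)⟩

end Glob

/-- A level that is good for many pieces. -/
theorem exists_common_level (Zs : Finset ℕ) (Good : ℕ → Finset ℕ) {s₀ : ℕ}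
    (h : ∀ z ∈ Zs, Good z ⊆ Finset.Icc 1 (4 * s₀ + 4) ∧ 4 * s₀ + 4 ≤ #(Good z) + 2 * s₀) :
    ∃ l ∈ Finset.Icc 1 (4 * s₀ + 4), #Zs ≤ 2 * #(Zs.filter fun z => l ∈ Good z) := by
  by_contra hne
  push Not at hne
  have e1 : ∑ l ∈ Finset.Icc 1 (4 * s₀ + 4), #(Zs.filter fun z => l ∈ Good z) =
      ∑ z ∈ Zs, #(Good z) := by
    simp only [card_filter]
    rw [sum_comm]
    apply sum_congr rfl
    intro z hz
    rw [← card_filter, filter_mem_eq_inter, inter_eq_right.2 (h z hz).1]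
  have e2 : ∑ z ∈ Zs, (2 * s₀ + 4) ≤ ∑ z ∈ Zs, #(Good z) :=
    sum_le_sum fun z hz => by have := (h z hz).2; omega
  have e3 : ∑ l ∈ Finset.Icc 1 (4 * s₀ + 4), (2 * #(Zs.filter fun z => l ∈ Good z) + 1) ≤
      ∑ l ∈ Finset.Icc 1 (4 * s₀ + 4), #Zs := sum_le_sum fun l hl => hne l hl
  rw [sum_add_distrib, ← mul_sum, e1] at e3
  simp only [sum_const, smul_eq_mul, Nat.card_Icc] at e2 e3
  have e4 : 4 * s₀ + 4 + 1 - 1 = 4 * s₀ + 4 := by omega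
  rw [e4] at e3
  nlinarith

/-- After a small loss most points of a rich set stay rich. -/
theorem Loc.stay_rich (L : Loc) (hb : L.Big 1) {E₁ E₂ : Finset Ed} (hE₁ : E₁ ⊆ L.E) {c : ℝ}
    (hc : 0 < c) (hl : (#(L.E \ E₂) : ℝ) ≤ c ^ 2 / 8 * L.M) {m : ℕ} {t : Fin 3 → ℕ}
    {Z₁ : Finset Pt} (h1 : c * L.N ≤ #Z₁)
    (h2 : ∀ p ∈ Z₁, ∀ x, c * L.d ≤ (deg (L.W E₁ m (t x)) p : ℝ)) :
    ∃ Z₂ ⊆ Z₁, c / 2 * L.N ≤ #Z₂ ∧
      ∀ p ∈ Z₂, ∀ x, c / 2 * L.d ≤ (deg (L.W E₂ m (t x)) p : ℝ) := by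
  have h3 := L.card_lose hb (L.E \ E₂) (c := c / 2) (by positivity) hl Z₁
  refine ⟨Z₁.filter fun p => ¬ c / 2 * L.d < (deg (L.E \ E₂) p : ℝ), filter_subset _ _, ?_, ?_⟩
  · have := card_filter_add_card_filter_not (s := Z₁)
      (fun p => c / 2 * L.d < (deg (L.E \ E₂) p : ℝ))
    have h4 : (#Z₁ : ℝ) = #(Z₁.filter fun p => c / 2 * L.d < (deg (L.E \ E₂) p : ℝ)) +
        #(Z₁.filter fun p => ¬ c / 2 * L.d < (deg (L.E \ E₂) p : ℝ)) := by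
      exact_mod_cast this.symm
    have h5 : 2 * (c ^ 2 / 8) / (c / 2) = c / 2 := by field_simp; ring
    rw [h5] at h3
    linarith
  · intro p hp x
    rw [mem_filter, not_lt] at hp
    have h4 : deg (L.W E₁ m (t x)) p ≤ deg (L.W E₂ m (t x)) p + deg (L.E \ E₂) p := by
      refine le_trans (card_le_card ?_) (card_union_le _ _)
      intro e he
      rw [mem_filter, L.mem_W] at he
      rw [mem_union, mem_filter, mem_filter, L.mem_W, mem_sdiff]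
      by_cases h : e ∈ E₂
      · exact Or.inl ⟨⟨h, he.1.2⟩, he.2⟩
      · exact Or.inr ⟨⟨hE₁ he.1.1, h⟩, he.2⟩
    have h5 : (deg (L.W E₁ m (t x)) p : ℝ) ≤ deg (L.W E₂ m (t x)) p + deg (L.E \ E₂) p := by
      exact_mod_cast h4
    linarith [h2 p hp.1 x, hp.2]

end Crest.Agent.R51
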