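import Crest.Agent.R51.ThmA
import Crest.Agent.R51.ChartEx
import Crest.Agent.R51.ChartTr

/-! The structure theorem in the original chart. -/

namespace Crest.Agent.R51

open Finset
open scoped Classical

/-- At most `2 s₀` levels are bad for more than half of the windows. -/
theorem thmA2_good (KA : Finset ℕ) (Bad : ℕ → Finset ℕ) (s₀ Lv : ℕ) (h : ∀ k ∈ KA, #(Bad k) ≤ s₀) :
    Lv ≤ #((Finset.Icc 1 Lv).filter fun l => #KA ≤ 2 * #(KA.filter fun k => l ∉ Bad k)) +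
      2 * s₀ := by
  set NG := (Finset.Icc 1 Lv).filter fun l => ¬ #KA ≤ 2 * #(KA.filter fun k => l ∉ Bad k) with hNG
  have h1 := card_filter_add_card_filter_not (s := Finset.Icc 1 Lv)
    (fun l => #KA ≤ 2 * #(KA.filter fun k => l ∉ Bad k))
  rw [← hNG, Nat.card_Icc] at h1
  have h2 : ∀ l ∈ NG, #KA + 1 ≤ 2 * #(KA.filter fun k => l ∈ Bad k) := by
    intro l hl
    have h3 := (mem_filter.1 hl).2
    have h4 := card_filter_add_card_filter_not (s := KA) (fun k => l ∈ Bad k)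
    omega
  have h3 : ∑ l ∈ NG, #(KA.filter fun k => l ∈ Bad k) ≤ #KA * s₀ := by
    simp only [card_filter]
    rw [sum_comm]
    calc ∑ k ∈ KA, ∑ l ∈ NG, (if l ∈ Bad k then 1 else 0) ≤ ∑ k ∈ KA, s₀ := by
          apply sum_le_sum
          intro k hk
          rw [← card_filter]
          exact (card_le_card fun l hl => (mem_filter.1 hl).2).trans (h k hk)
      _ = #KA * s₀ := by rw [sum_const, smul_eq_mul]
  have h4 : ∑ l ∈ NG, (#KA + 1) ≤ ∑ l ∈ NG, 2 * #(KA.filter fun k => l ∈ Bad k) := sum_le_sum h2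
  rw [sum_const, smul_eq_mul, ← mul_sum] at h4
  have h5 : #NG ≤ 2 * s₀ := by
    by_contra h6
    have h7 : (2 * s₀ + 1) * (#KA + 1) ≤ #NG * (#KA + 1) := Nat.mul_le_mul_right _ (by omega)
    nlinarith
  omega

/-- A window of a finer scale is inside or outside a window of a coarser scale. -/
theorem Loc.thmA2_alt (L : Loc) {m₁ m : ℕ} (h : m₁ ∣ m) (hm : m ∣ L.q) (t k : ℕ) :
    (L.lo m₁ t ≤ L.lo m k ∧ L.hi m k ≤ L.hi m₁ t) ∨ L.hi m k ≤ L.lo m₁ t ∨ L.hi m₁ t ≤ L.lo m k := by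
  have hp := L.parent h hm k
  rcases lt_trichotomy (k / (m / m₁) ^ 4) t with h1 | h1 | h1
  · exact Or.inr (Or.inl (hp.2.trans (L.hi_le_lo m₁ h1)))
  · rw [← h1]
    exact Or.inl hp
  · exact Or.inr (Or.inr ((L.hi_le_lo m₁ h1).trans hp.1))

namespace Loc

/-- `exists_map` for `lo x = L.lo m₁ (t x)`, `hi x = L.hi m₁ (t x)` (the windows contain edges, so `lo x < hi x`), `exists_chart` with
`u = lo 0`, `v = hi 2`, `thmA` for the image (`Chart.base`, `Chart.reg`; a window of scale `m` is inside or outside the window `t x` of scale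
`m₁` by `parent`, `hi_le_lo`, and this is preserved by the monotone map `s ↦ τ (max u (min s v))`; the degrees by `W_eq` at the scale `m₁`
and `deg_image`), and `Chart.aw`.  A level is good if it is in `Bad k` for at most half of the `k ∈ KA`; at most `2 s₀` levels are not
good.  The constant is `c' / 4`. -/
theorem thmA' {C c : ℝ} (hC : 1 ≤ C) (hc : 0 < c) : ∃ (mG : ℕ) (c' : ℝ), 1 ≤ mG ∧ 0 < c' ∧
    ∀ J : ℕ, 1 ≤ J → ∃ s₀ : ℕ, ∀ (Y : ℝ) (Lv : ℕ), (J : ℝ) ≤ Y → ∃ m₀ : ℕ, ∀ m, m₀ ≤ m → mG ∣ m →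
      ∃ Q : ℕ, 1 ≤ Q ∧ ∀ (L : Loc) (Ω : ℕ → Finset Pt) (E₀ : Finset Ed) (m₁ : ℕ) (t : Fin 3 → ℕ)
        (Z₁ : Finset Pt), L.Big Q → m₁ ∣ m → m ∣ L.q → L.Base Ω C → L.Reg Ω C mG E₀ →
        L.Reg Ω C m E₀ → t 0 < t 1 → t 1 < t 2 → SepT (L.lo m₁) (L.hi m₁) (t 0) (t 1) (t 2) →
        Z₁ ⊆ L.Z → c * L.N ≤ #Z₁ → (∀ p ∈ Z₁, ∀ x, c * L.d ≤ (deg (L.W E₀ m₁ (t x)) p : ℝ)) →
        ∃ Good ⊆ Finset.Icc 1 Lv, Lv ≤ #Good + 2 * s₀ ∧ ∀ l ∈ Good, ∃ KA : Finset ℕ,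
          c' * m ≤ #KA ∧
          ∀ k ∈ KA, L.AW E₀ m (L.lo m₁ (t 1)) (L.hi m₁ (t 1)) c' J (L.N / Y ^ l) k := by
  obtain ⟨mG, c', hmG, hc', H⟩ := thmA hC hc
  refine ⟨mG, c' / 4, hmG, by positivity, fun J hJ => ?_⟩
  obtain ⟨s₀, H⟩ := H J hJ
  refine ⟨s₀, fun Y Lv hY => ?_⟩
  obtain ⟨m₀, H⟩ := H Y Lv hY
  refine ⟨m₀, fun m hm hmGm => ?_⟩
  obtain ⟨Q, hQ, H⟩ := H m hm hmGm
  refine ⟨Q, hQ, fun L Ω E₀ m₁ t Z₁ hb hm₁ hmq hB hRG hR h01 h12 hsep hZ hZc hZd => ?_⟩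
  have hb1 : L.Big 1 := hb.mono hQ
  have hN := hb1.N_pos le_rfl
  have hd := hb1.d_pos le_rfl
  have hm1 : 1 ≤ m := Nat.pos_of_dvd_of_pos hmq L.q_pos
  obtain ⟨p₀, hp₀⟩ : Z₁.Nonempty := by
    rw [← card_pos]
    have : (0 : ℝ) < #Z₁ := lt_of_lt_of_le (by positivity) hZc
    exact_mod_cast this
  have hlt : ∀ x, L.lo m₁ (t x) < L.hi m₁ (t x) := by
    intro x
    have h1 : (0 : ℝ) < deg (L.W E₀ m₁ (t x)) p₀ := lt_of_lt_of_le (by positivity) (hZd p₀ hp₀ x)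
    have h2 : 0 < deg (L.W E₀ m₁ (t x)) p₀ := by exact_mod_cast h1
    obtain ⟨e, he⟩ := card_pos.1 h2
    have := L.mem_W.1 (mem_filter.1 he).1
    linarith [this.2.1, this.2.2]
  have g01 := L.hi_le_lo m₁ h01
  have g12 := L.hi_le_lo m₁ h12
  obtain ⟨T, τ, ν, hT, hG, hτ, h1, h2, hcl, hν, hlip⟩ := exists_map L.gp
    (fun x => L.lo m₁ (t x)) (fun x => L.hi m₁ (t x)) hlt g01 g12 hsep
  set u := L.lo m₁ (t 0) with hu
  set v := L.hi m₁ (t 2) with hv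
  have hul : ∀ x, u ≤ L.lo m₁ (t x) := by
    intro x
    have h0 := hlt 0
    have h1' := hlt 1
    fin_cases x
    · exact le_rfl
    · exact le_trans h0.le g01
    · exact le_trans (le_trans (le_trans h0.le g01) h1'.le) g12
  have hhv : ∀ x, L.hi m₁ (t x) ≤ v := by
    intro x
    have h2' := hlt 2
    have h1' := hlt 1
    fin_cases x
    · exact le_trans (le_trans (le_trans g01 h1'.le) g12) h2'.le
    · exact le_trans g12 h2'.le
    · exact le_rfl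
  have huv : u ≤ v := (hlt 0).le.trans (hhv 0)
  obtain ⟨L', ch⟩ := L.exists_chart huv hT hG hτ h1 h2
  have hcl_lo : ∀ x, max u (min (L.lo m₁ (t x)) v) = L.lo m₁ (t x) := fun x => by
    rw [min_eq_left ((hlt x).le.trans (hhv x)), max_eq_right (hul x)]
  have hcl_hi : ∀ x, max u (min (L.hi m₁ (t x)) v) = L.hi m₁ (t x) := fun x => by
    rw [min_eq_left (hhv x), max_eq_right ((hul x).trans (hlt x).le)]
  have hmono : ∀ s s', s ≤ s' → τ (max u (min s v)) ≤ τ (max u (min s' v)) := fun s s' h =>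
    hτ.monotoneOn ⟨le_max_left _ _, max_le huv (min_le_right _ _)⟩
      ⟨le_max_left _ _, max_le huv (min_le_right _ _)⟩ (max_le_max le_rfl (min_le_min h le_rfl))
  have hE₀ : E₀ ⊆ pairs L.Z := hR.sub.trans L.E_sub
  obtain ⟨KA, hKA, hKA'⟩ := H L' (fun w => (Ω w).image T) ((tm E₀ u v).image (Prod.map T T))
    (fun x => τ (L.lo m₁ (t x))) (fun x => τ (L.hi m₁ (t x))) (Z₁.image T) (ch.big hb)
    (by rw [ch.q_eq]; exact hmq) (ch.base hB) (ch.reg hRG) (ch.reg hR) hcl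
    (fun x k => by
      rw [ch.lo_eq, ch.hi_eq]
      rw [← hcl_lo x, ← hcl_hi x]
      rcases L.thmA2_alt hm₁ hmq (t x) k with h | h | h
      · exact Or.inl ⟨hmono _ _ h.1, hmono _ _ h.2⟩
      · exact Or.inr (Or.inl (hmono _ _ h))
      · exact Or.inr (Or.inr (hmono _ _ h)))
    (by rw [ch.Z_eq]; exact image_subset_image hZ)
    (by rw [ch.N_eq, card_image_of_injective _ ch.inj]; exact hZc)
    (fun p' hp' x => by
      obtain ⟨p, hp, rfl⟩ := mem_image.1 hp'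
      have e1 : tm ((tm E₀ u v).image (Prod.map T T)) (τ (L.lo m₁ (t x))) (τ (L.hi m₁ (t x))) =
          L'.W ((tm E₀ u v).image (Prod.map T T)) m₁ (t x) := by
        rw [Loc.W, ch.lo_eq, ch.hi_eq, hcl_lo, hcl_hi]
      have e2 : L.W (tm E₀ u v) m₁ (t x) = L.W E₀ m₁ (t x) := tm_tm _ (hul x) (hhv x)
      rw [e1, ch.W_eq hE₀, ch.deg_image, e2, ch.d_eq]
      exact hZd p hp x)
  choose! Bad hBad hBad' using hKA'
  refine ⟨(Finset.Icc 1 Lv).filter fun l => #KA ≤ 2 * #(KA.filter fun k => l ∉ Bad k),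
    filter_subset _ _, thmA2_good KA Bad s₀ Lv hBad, fun l hl => ?_⟩
  rw [mem_filter, mem_Icc] at hl
  refine ⟨KA.filter fun k => l ∉ Bad k, ?_, fun k hk => ?_⟩
  · have h3 : (#KA : ℝ) ≤ 2 * #(KA.filter fun k => l ∉ Bad k) := by exact_mod_cast hl.2
    have h4 : 0 ≤ c' * m := by positivity
    linarith
  · rw [mem_filter] at hk
    have h3 := hBad' k hk.1 l hl.1.1 hl.1.2 hk.2
    rw [ch.N_eq] at h3
    have hJ1 : (1 : ℝ) ≤ J := by exact_mod_cast hJ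
    have hY0 : 0 < Y := by linarith
    exact ch.aw hb1 (hul 1) (hlt 1).le (hhv 1) hν hlip hR.sub hm1 (L.thmA2_alt hm₁ hmq (t 1) k) hc'
      (by linarith) (by positivity) h3

end Loc

end Crest.Agent.R51
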