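import Crest.Agent.R51.Basic

/-! Linear growth forces long windows. -/

namespace Crest.Agent.R51

open Finset
open scoped Classical

namespace Loc

/-- A window `k'` of scale `m' = mB mR B₂` that is longer than the angular scale `ϑ` is `Long`.  Here `θ ∈ [lo m' k', hi m' k']`, the block
`K = k' / (B₂ ^ 4 mR ^ 4)` of scale `mB` lies in `[u, v]`, `k⁺ = k' / B₂ ^ 4` is the parent of scale `mB mR` (`lo_scale`, `parent`, `Nat.div_div_eq_div_mul`).  Let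
`Θ = J ϑ / c ≤ (J / c) · length`.  If `θ - Θ ≤ u` or `θ - Θ ≤ lo (k⁺ - R)` the first alternative of `Long` holds (`lo (k⁺ - R) ≤` start of the block as
`mR ^ 4 ≤ R`), if `v ≤ θ + Θ` or `hi (k⁺ + R) ≤ θ + Θ` the second one.  Otherwise the pairs with `|sl e - θ| ≤ Θ` lie in the windows
`k⁺ - R, …, k⁺ + R` (`card_tm_eq_sum`), so there are at most `(2 R + 1) X N ^ 2 / (mB mR)` of them. -/
theorem long_of (L : Loc) {mB mR B₂ R k' : ℕ} (hq : mB * mR * B₂ ∣ L.q) (hR : mR ^ 4 ≤ R)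
    {θ u v ϑ J c X n : ℝ} (hc : 0 < c) (hJ : 0 ≤ J) (hϑ : 0 ≤ ϑ)
    (h1 : L.lo (mB * mR * B₂) k' ≤ θ) (h2 : θ ≤ L.hi (mB * mR * B₂) k')
    (hu : u ≤ L.lo mB (k' / (B₂ ^ 4 * mR ^ 4))) (hv : L.hi mB (k' / (B₂ ^ 4 * mR ^ 4)) ≤ v)
    (hlen : ϑ ≤ L.hi (mB * mR * B₂) k' - L.lo (mB * mR * B₂) k')
    (hX : ∀ k, k' / B₂ ^ 4 ≤ k + R → k ≤ k' / B₂ ^ 4 + R →
      (#(L.W (pairs L.Z) (mB * mR) k) : ℝ) ≤ X * L.N ^ 2 / (mB * mR : ℕ))
    (hn : (2 * R + 1) * (X * L.N ^ 2 / (mB * mR : ℕ)) < n)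
    (h : θ - J * ϑ / c ≤ u ∨ v ≤ θ + J * ϑ / c ∨
      n ≤ #((pairs L.Z).filter fun e => |sl e - θ| ≤ J * ϑ / c)) :
    Long (L.lo (mB * mR * B₂)) (B₂ ^ 4) (mR ^ 4) (J / c) k' := by
  have hpos : 0 < mB * mR * B₂ := Nat.pos_of_dvd_of_pos hq L.q_pos
  have hpos' : 0 < mB * mR := Nat.pos_of_mul_pos_right hpos
  have hmB : 0 < mB := Nat.pos_of_mul_pos_right hpos'
  have hmR : 0 < mR := Nat.pos_of_mul_pos_left hpos'
  have hq' : mB * mR ∣ L.q := (Dvd.intro _ rfl).trans hq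
  have e1 : ∀ k, L.lo (mB * mR) k = L.lo (mB * mR * B₂) (k * B₂ ^ 4) := by
    intro k
    rw [L.lo_scale (Dvd.intro _ rfl) hq, Nat.mul_div_cancel_left _ hpos']
  have e2 : ∀ k, L.lo mB k = L.lo (mB * mR) (k * mR ^ 4) := by
    intro k
    rw [L.lo_scale (Dvd.intro _ rfl) hq', Nat.mul_div_cancel_left _ hmB]
  have e3 : ∀ k, L.lo (mB * mR * B₂) (k * (B₂ ^ 4 * mR ^ 4)) = L.lo mB k := by
    intro k
    rw [e2, e1]
    congr 1
    ring
  have hpar := L.parent (Dvd.intro _ rfl) hq k'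
  rw [Nat.mul_div_cancel_left _ hpos', L.hi_eq (mB * mR)] at hpar
  have hΘ : J * ϑ / c ≤ J / c * (L.lo (mB * mR * B₂) (k' + 1) - L.lo (mB * mR * B₂) k') := by
    rw [mul_div_right_comm]
    exact mul_le_mul_of_nonneg_left hlen (by positivity)
  unfold Long
  rw [e3, e3, ← e1, ← e1]
  by_contra hcon
  rw [not_or, not_le, not_le] at hcon
  obtain ⟨hc1, hc2⟩ := hcon
  rw [hi_eq] at hv
  have h3 : L.lo mB (k' / (B₂ ^ 4 * mR ^ 4)) < θ - J * ϑ / c := by linarith [hpar.1]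
  have h4 : θ + J * ϑ / c < L.lo mB (k' / (B₂ ^ 4 * mR ^ 4) + 1) := by linarith [hpar.2]
  rcases h with h | h | h
  · linarith
  · linarith
  rw [e2, ← Nat.div_div_eq_div_mul] at h3 h4
  generalize k' / B₂ ^ 4 = k at *
  have hv4 : 0 < mR ^ 4 := pow_pos hmR 4
  have h5 := Nat.div_mul_le_self k (mR ^ 4)
  have h6 := Nat.lt_div_mul_add (a := k) hv4
  have h7 : L.lo (mB * mR) (k - R) ≤ L.lo (mB * mR) (k / mR ^ 4 * mR ^ 4) :=
    L.lo_mono _ (by omega)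
  have h8 : L.lo (mB * mR) ((k / mR ^ 4 + 1) * mR ^ 4) ≤ L.lo (mB * mR) (k + R + 1) :=
    L.lo_mono _ (by rw [add_mul, one_mul]; omega)
  have h9 : ((pairs L.Z).filter fun e => |sl e - θ| ≤ J * ϑ / c) ⊆
      tm (pairs L.Z) (L.lo (mB * mR) (k - R)) (L.lo (mB * mR) (k + R + 1)) := by
    intro e he
    obtain ⟨he1, he2⟩ := mem_filter.1 he
    rw [abs_le] at he2
    exact mem_tm.2 ⟨he1, by linarith [he2.1], by linarith [he2.2]⟩
  have h10 := card_le_card h9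
  rw [card_tm_eq_sum _ (L.lo_mono _) (by omega)] at h10
  have h11 : (#((pairs L.Z).filter fun e => |sl e - θ| ≤ J * ϑ / c) : ℝ) ≤
      ∑ k₁ ∈ Finset.Ico (k - R) (k + R + 1), (#(L.W (pairs L.Z) (mB * mR) k₁) : ℝ) := by
    exact_mod_cast h10
  have h12 := sum_le_card_nsmul (Finset.Ico (k - R) (k + R + 1))
    (fun k₁ => (#(L.W (pairs L.Z) (mB * mR) k₁) : ℝ)) _ fun k₁ hk₁ =>
      hX k₁ (by have := (mem_Ico.1 hk₁).1; omega) (by have := (mem_Ico.1 hk₁).2; omega)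
  rw [nsmul_eq_mul] at h12
  have h13 : 0 ≤ X * L.N ^ 2 / (mB * mR : ℕ) :=
    (Nat.cast_nonneg _).trans (hX k (by omega) (by omega))
  have h14 : (#(Finset.Ico (k - R) (k + R + 1)) : ℝ) ≤ 2 * R + 1 := by
    have : #(Finset.Ico (k - R) (k + R + 1)) ≤ 2 * R + 1 := by rw [Nat.card_Ico]; omega
    exact_mod_cast this
  have h15 := mul_le_mul_of_nonneg_right h14 h13
  linarith

end Loc

end Crest.Agent.R51
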