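import Crest.Agent.R51.HLem
import Crest.Agent.R51.ThmB0

/-! Linear growth forces long windows. -/

namespace Crest.Agent.R51

open Finset
open scoped Classical

namespace Loc

/-- Two windows with a common time are nested. -/
theorem thmB_nest (L : Loc) {m m' t k' : ℕ} (h : m ∣ m') (h' : m' ∣ L.q) {x : ℝ}
    (h1 : L.lo m' k' < x) (h2 : x ≤ L.hi m' k') (h3 : L.lo m t < x) (h4 : x ≤ L.hi m t) :
    L.lo m t ≤ L.lo m' k' ∧ L.hi m' k' ≤ L.hi m t := by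
  have hp := L.parent h h' k'
  rw [L.win_unique h3 h4 (hp.1.trans_lt h1) (h2.trans hp.2)]
  exact hp

theorem thmB_sum_le (L : Loc) (T : Finset Ed) (m : ℕ) (Ks : Finset ℕ) (G : ℕ → Finset Ed)
    (h : ∀ k ∈ Ks, G k ⊆ L.W T m k) : ∑ k ∈ Ks, (#(G k) : ℝ) ≤ #T := by
  have := (sum_le_sum fun k hk => card_le_card (h k hk)).trans (L.sum_card_W_le T m Ks)
  exact_mod_cast this

theorem thmB_inc_ge (E : Finset Ed) (Y : Finset Pt) {a : ℝ} (h : ∀ p ∈ Y, a ≤ (deg E p : ℝ)) :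
    #Y * a ≤ 2 * (#(inc E Y) : ℝ) := by
  have h1 := card_nsmul_le_sum Y (fun p => (deg E p : ℝ)) a h
  have h2 : ∑ p ∈ Y, (deg E p : ℝ) ≤ 2 * (#(inc E Y) : ℝ) := by exact_mod_cast sum_deg_le E Y
  rw [nsmul_eq_mul] at h1
  exact h1.trans h2

theorem thmB_inc_le (E : Finset Ed) (Y : Finset Pt) {a : ℝ} (h : ∀ p ∈ Y, (deg E p : ℝ) ≤ a) :
    (#(inc E Y) : ℝ) ≤ #Y * a := by
  have h1 := sum_le_card_nsmul Y (fun p => (deg E p : ℝ)) a h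
  have h2 : (#(inc E Y) : ℝ) ≤ ∑ p ∈ Y, (deg E p : ℝ) := by
    exact_mod_cast card_inc_le_sum_deg E Y
  rw [nsmul_eq_mul] at h1
  exact h2.trans h1

/-- The surviving windows carry many edges. -/
theorem thmB_surv (L : Loc) {c : ℝ} (hc : 0 < c) (hM : 0 < L.M) {mf : ℕ} (hmf : 0 < mf)
    {KA : Finset ℕ} (hKA : c * mf ≤ #KA) {F : ℕ → Finset Ed} {E₄ : Finset Ed}
    (hF : ∀ k ∈ KA, F k ⊆ L.W L.E mf k) (hF' : ∀ k ∈ KA, c ^ 2 * L.M / (2 * mf) ≤ #(F k))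
    (hE : (#(L.E \ E₄) : ℝ) ≤ c ^ 3 / 8 * L.M) :
    c ^ 3 / 8 * L.M ≤ ∑ k ∈ KA.filter fun k => c ^ 2 * L.M / (4 * mf) ≤ (#(F k ∩ E₄) : ℝ),
      (#(F k ∩ E₄) : ℝ) := by
  have hmfR : (0 : ℝ) < mf := by exact_mod_cast hmf
  obtain ⟨a, ha⟩ : ∃ a : ℝ, a = c ^ 2 * L.M / (4 * mf) := ⟨_, rfl⟩
  have ha0 : 0 < a := by rw [ha]; positivity
  have ha2 : c ^ 2 * L.M / (2 * mf) = 2 * a := by rw [ha]; field_simp; ring
  have ha3 : c ^ 3 / 8 * L.M = c * mf / 2 * a := by rw [ha]; field_simp; ring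
  rw [← ha]
  rw [ha2] at hF'
  rw [ha3] at hE ⊢
  have h1 : ∑ k ∈ KA.filter (fun k => ¬ a ≤ (#(F k ∩ E₄) : ℝ)), (#(F k \ E₄) : ℝ) ≤
      #(L.E \ E₄) := by
    refine L.thmB_sum_le _ mf _ _ fun k hk e he => ?_
    have h2 := L.mem_W.1 (hF k (mem_filter.1 hk).1 (mem_sdiff.1 he).1)
    exact L.mem_W.2 ⟨mem_sdiff.2 ⟨h2.1, (mem_sdiff.1 he).2⟩, h2.2⟩
  have h2 := card_nsmul_le_sum (KA.filter (fun k => ¬ a ≤ (#(F k ∩ E₄) : ℝ)))
    (fun k => (#(F k \ E₄) : ℝ)) a fun k hk => by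
      rw [mem_filter] at hk
      have h3 : (#(F k \ E₄) : ℝ) + #(F k ∩ E₄) = #(F k) := by
        exact_mod_cast card_sdiff_add_card_inter (F k) E₄
      linarith [hF' k hk.1, not_le.1 hk.2]
  have h3 := card_nsmul_le_sum (KA.filter (fun k => a ≤ (#(F k ∩ E₄) : ℝ)))
    (fun k => (#(F k ∩ E₄) : ℝ)) a fun k hk => (mem_filter.1 hk).2
  rw [nsmul_eq_mul] at h2 h3
  have h4 : (#(KA.filter (fun k => a ≤ (#(F k ∩ E₄) : ℝ))) : ℝ) +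
      #(KA.filter (fun k => ¬ a ≤ (#(F k ∩ E₄) : ℝ))) = #KA := by
    exact_mod_cast card_filter_add_card_filter_not _
  have h5 := le_of_mul_le_mul_right ((h2.trans h1).trans hE) ha0
  refine le_trans (mul_le_mul_of_nonneg_right ?_ ha0.le) h3
  linarith

/-- The parents of the short windows are few. -/
theorem thmB_short (L : Loc) (hb : L.Big 1) {Ω₂ : ℕ → Finset Pt} {E₁ E₂ E₃ E₄ : Finset Ed}
    {m₁ m' mf t : ℕ} {c cr C₂ ε s : ℝ} (hc : 0 < c) (hcr : 0 < cr) (hC₂ : 1 ≤ C₂) (hs : 0 ≤ s)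
    (h1 : m₁ ∣ m') (h2 : m' ∣ mf) (h3 : mf ∣ L.q) (hE₂ : L.Reg Ω₂ C₂ mf E₂) (hE₃ : E₃ ⊆ L.E)
    (h13 : E₁ ⊆ E₃) (h41 : E₄ ⊆ E₁) (hrich : L.Rich cr m' E₃ E₁)
    (hsp : ∀ Y : ℕ → Finset Pt, (∀ k, Y k ⊆ L.Z) →
      (∀ k, (L.W E₃ m' k).Nonempty → ∀ p, (deg (L.W (pairs (Y k)) m' k) p : ℝ) ≤ s) →
      ∑ k ∈ Finset.range (m' ^ 4), (#(inc (L.W E₃ m' k) (Y k)) : ℝ) ≤ ε * L.M)
    (Sh : Finset ℕ) (Y : ℕ → Finset Pt) (ϑ : ℕ → ℝ)
    (hu : ∀ k ∈ Sh, L.lo m₁ t ≤ L.lo mf k) (hv : ∀ k ∈ Sh, L.hi mf k ≤ L.hi m₁ t)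
    (hY : ∀ k ∈ Sh, Y k ⊆ L.Z)
    (hF : ∀ k ∈ Sh, c ^ 2 * L.M / (4 * mf) ≤ (#(inc (L.W E₂ mf k) (Y k) ∩ E₄) : ℝ))
    (hstr : ∀ k ∈ Sh, ∀ p, (deg ((tm (pairs (Y k)) (L.lo m₁ t) (L.hi m₁ t)).filter
      fun e => |sl e - L.lo mf k| ≤ ϑ k) p : ℝ) ≤ s)
    (hlen : ∀ k ∈ Sh, L.hi m' (k / (mf / m') ^ 4) - L.lo m' (k / (mf / m') ^ 4) ≤ ϑ k) :
    (#(Sh.image fun k => k / (mf / m') ^ 4) : ℝ) * (c ^ 2 * cr / (8 * C₂ * m')) ≤ ε := by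
  have hmf : 0 < mf := Nat.pos_of_dvd_of_pos h3 L.q_pos
  have hm' : 0 < m' := Nat.pos_of_dvd_of_pos h2 hmf
  have hmfR : (0 : ℝ) < mf := by exact_mod_cast hmf
  have hm'R : (0 : ℝ) < m' := by exact_mod_cast hm'
  have hM := hb.M_pos le_rfl
  have hN := hb.N_pos le_rfl
  have hd := hb.d_pos le_rfl
  have hq' : m' ∣ L.q := h2.trans h3
  obtain ⟨S, hS⟩ : ∃ S, S = Sh.image fun k => k / (mf / m') ^ 4 := ⟨_, rfl⟩
  rw [← hS]
  have hg : ∀ k', ∃ k, k' ∈ S → k ∈ Sh ∧ k / (mf / m') ^ 4 = k' := by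
    intro k'
    by_cases hk : k' ∈ S
    · rw [hS, mem_image] at hk
      obtain ⟨k, hk1, hk2⟩ := hk
      exact ⟨k, fun _ => ⟨hk1, hk2⟩⟩
    · exact ⟨0, fun h => absurd h hk⟩
  choose g hg using hg
  obtain ⟨Y₄, hY₄⟩ : ∃ Y₄ : ℕ → Finset Pt, ∀ k', Y₄ k' = if k' ∈ S then (Y (g k')).filter
    (fun p => ∃ e ∈ inc (L.W E₂ mf (g k')) (Y (g k')) ∩ E₄, Inc p e) else ∅ := ⟨_, fun _ => rfl⟩
  have hW : ∀ k' ∈ S, ∀ e ∈ inc (L.W E₂ mf (g k')) (Y (g k')) ∩ E₄,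
      e ∈ L.W E₁ m' k' ∧ L.lo mf (g k') < sl e ∧ sl e ≤ L.hi mf (g k') := by
    intro k' hk' e he
    rw [mem_inter] at he
    have a1 := L.mem_W.1 (inc_subset _ _ he.1)
    have a2 : e ∈ L.W E₁ mf (g k') := L.mem_W.2 ⟨h41 he.2, a1.2⟩
    have a3 := L.W_sub_parent h2 h3 E₁ _ a2
    rw [(hg k' hk').2] at a3
    exact ⟨a3, a1.2⟩
  have hne : ∀ k' ∈ S, (inc (L.W E₂ mf (g k')) (Y (g k')) ∩ E₄).Nonempty := by
    intro k' hk'
    have a1 := lt_of_lt_of_le (by positivity) (hF _ (hg k' hk').1)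
    exact card_pos.1 (by exact_mod_cast a1)
  have hsub : S ⊆ Finset.range (m' ^ 4) := by
    intro k' hk'
    obtain ⟨e, he⟩ := hne k' hk'
    exact mem_range.2 (L.lt_of_mem_W hq' (h13.trans hE₃) (hW k' hk' e he).1)
  have hlow : ∀ k' ∈ S, c ^ 2 * cr / (8 * C₂ * m') * L.M ≤ #(inc (L.W E₃ m' k') (Y₄ k')) := by
    intro k' hk'
    have a1 : inc (L.W E₂ mf (g k')) (Y (g k')) ∩ E₄ ⊆ inc (L.W E₂ mf (g k')) (Y₄ k') := by
      intro e he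
      have a2 := mem_inc.1 (mem_inter.1 he).1
      rw [mem_inc, hY₄, if_pos hk', mem_filter, mem_filter]
      exact ⟨a2.1, a2.2.imp (fun h => ⟨h, e, he, Or.inl rfl⟩) fun h => ⟨h, e, he, Or.inr rfl⟩⟩
    have a2 : (#(inc (L.W E₂ mf (g k')) (Y (g k')) ∩ E₄) : ℝ) ≤
        #(inc (L.W E₂ mf (g k')) (Y₄ k')) := by exact_mod_cast card_le_card a1
    have a3 := ((hF _ (hg k' hk').1).trans a2).trans (thmB_inc_le _ _ fun p _ =>
      hE₂.deg_W_le hb (by linarith) (g k') p)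
    have a4 : c ^ 2 * L.N / (4 * C₂) ≤ #(Y₄ k') := by
      refine le_of_mul_le_mul_right (le_trans (le_of_eq ?_) a3)
        (show 0 < C₂ * L.d / mf by positivity)
      rw [← L.N_mul_d]; field_simp
    have a5 := thmB_inc_ge (L.W E₃ m' k') (Y₄ k') (a := cr * L.d / m') fun p hp => by
      rw [hY₄, if_pos hk', mem_filter] at hp
      obtain ⟨e, he, hpe⟩ := hp.2
      exact hrich k' e (hW k' hk' e he).1 p hpe
    have a6 : c ^ 2 * L.N / (4 * C₂) * (cr * L.d / m') ≤ #(Y₄ k') * (cr * L.d / m') :=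
      mul_le_mul_of_nonneg_right a4 (by positivity)
    have a7 : c ^ 2 * L.N / (4 * C₂) * (cr * L.d / m') =
        2 * (c ^ 2 * cr / (8 * C₂ * m') * L.M) := by
      rw [← L.N_mul_d]; field_simp; ring
    linarith
  have hup := hsp Y₄ (fun k' => by
    rw [hY₄]
    split_ifs with hk'
    · exact (filter_subset _ _).trans (hY _ (hg k' hk').1)
    · exact empty_subset _) fun k' _ p => by
      by_cases hk' : k' ∈ S
      · refine le_trans ?_ (hstr _ (hg k' hk').1 p)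
        refine Nat.cast_le.2 (deg_mono (fun e he => ?_) p)
        obtain ⟨e₀, he₀⟩ := hne k' hk'
        obtain ⟨b1, b2, b3⟩ := hW k' hk' e₀ he₀
        rw [mem_W] at b1 he
        have b4 := L.thmB_nest h1 hq' b1.2.1 b1.2.2 ((hu _ (hg k' hk').1).trans_lt b2)
          (b3.trans (hv _ (hg k' hk').1))
        have b5 := L.parent h2 h3 (g k')
        have b6 := hlen _ (hg k' hk').1
        have b7 := L.lo_le_hi mf (g k')
        rw [(hg k' hk').2] at b5 b6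
        rw [mem_filter, mem_tm, abs_le]
        refine ⟨⟨pairs_mono ?_ he.1, by linarith [he.2.1], by linarith [he.2.2]⟩,
          by linarith [he.2.1], by linarith [he.2.2]⟩
        rw [hY₄, if_pos hk']
        exact filter_subset _ _
      · rw [hY₄, if_neg hk']
        have : deg (L.W (pairs ∅) m' k') p = 0 := by simp [deg, W, tm, pairs]
        rw [this, Nat.cast_zero]
        exact hs
  have h5 := card_nsmul_le_sum S _ _ hlow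
  rw [nsmul_eq_mul, ← mul_assoc] at h5
  refine le_of_mul_le_mul_right ((h5.trans ?_).trans hup) hM
  exact sum_le_sum_of_subset_of_nonneg hsub fun _ _ _ => Nat.cast_nonneg _

/-- `η = c ^ 3 / 24`, `cB = c ^ 3 / 16`.  Let `m' = mB mR B₂`, `c_r = η / C`, `X = (2 R + 1) C / η`; `E₄` is the intersection of the sets given by `exists_rich` (scale
`m'`, `c_r`) and `exists_xreg` (scale `mB mR`), `#(E \ E₄) ≤ 3 η M`.  For `k ∈ KA` let `Y k`, `ϑ k` be given by `AW`, `F k = inc (W E₂ mf k) (Y k)`, `#(F k) ≥ c ^ 2 M / (2 mf)`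
(`sum_deg_le`); these sets are disjoint.  `k` *survives* if `#(F k ∩ E₄) ≥ c ^ 2 M / (4 mf)`; at least `c mf / 2` windows survive, with at least `c ^ 3 M / 8` edges
of `E₄` in total.  Let `S` be the set of windows `k'` of scale `m'` that are the parent of a surviving `k` with length of `k'` at most `ϑ k`; choose such
`k` and let `Y₄ k'` be the set of points of `Y k` that are ends of edges of `F k ∩ E₄`; `#(Y₄ k') ≥ c ^ 2 N / (4 C₂)` by `deg_W_le` for `E₂`, and these points have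
degree `≥ c_r d / m'` in `W E₃ m' k'`.  `sparse C ε` applies (first part of `Str`: the window `k'` lies in the window `t` of scale `m₁`, because both contain an
edge of `F k`; `A ≥ 1 / (c η_s)`), so `#S · c ^ 2 c_r M / (8 C₂ m') ≤ ε M`, and the windows of `S` carry at most `#S · C M / m' ≤ c ^ 3 M / 16` edges of `E₃` for
`ε = c ^ 5 c_r / (128 C C₂)`.  The parents of the other surviving windows are `Long` by `long_of` with `n = c J σ N`. -/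
theorem thmB {c : ℝ} (hc : 0 < c) : ∃ η cB : ℝ, 0 < η ∧ 0 < cB ∧ ∀ C C₂ : ℝ, 1 ≤ C → 1 ≤ C₂ →
    ∃ A : ℕ, 1 ≤ A ∧ ∀ R : ℕ, ∃ X : ℝ, 0 < X ∧ ∃ Q : ℕ, 1 ≤ Q ∧
      ∀ (L : Loc) (Ω Ω₂ : ℕ → Finset Pt) (E₂ E₃ : Finset Ed) (m₁ mB mR B₂ mf t : ℕ) (J : ℝ)
        (KA : Finset ℕ), L.Big Q → m₁ ∣ mB → mB * mR * B₂ ∣ mf → mf ∣ L.q → mR ^ 4 ≤ R →
        (2 * R + 1) * X * A * B₂ < c * J → L.Base Ω C → L.Reg Ω C (mB * mR * B₂) E₃ →
        L.Reg Ω C (mB * mR) E₃ → (#(L.E \ E₃) : ℝ) ≤ η * L.M → L.Reg Ω₂ C₂ mf E₂ →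
        c * mf ≤ #KA →
        (∀ k ∈ KA, L.AW E₂ mf (L.lo m₁ t) (L.hi m₁ t) c J (L.N / (A * (mB * mR * B₂ : ℕ))) k) →
        cB * L.M ≤ #(L.sel L.E (mB * mR * B₂)
          (Long (L.lo (mB * mR * B₂)) (B₂ ^ 4) (mR ^ 4) (J / c))) := by
  refine ⟨c ^ 3 / 24, c ^ 3 / 16, by positivity, by positivity, fun C C₂ hC hC₂ => ?_⟩
  have hC0 : 0 < C := by linarith
  have hC₂0 : 0 < C₂ := by linarith
  obtain ⟨cr, hcr⟩ : ∃ cr : ℝ, cr = c ^ 3 / 24 / C := ⟨_, rfl⟩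
  have hcr0 : 0 < cr := by rw [hcr]; positivity
  obtain ⟨ηs, hηs, Q, hQ, hsp⟩ := sparse (ε := c ^ 5 * cr / (128 * C * C₂)) hC (by positivity)
  refine ⟨⌈1 / (c * ηs)⌉₊ + 1, Nat.le_add_left _ _, fun R => ?_⟩
  generalize hAe : ⌈1 / (c * ηs)⌉₊ + 1 = A
  have hA : 1 / (c * ηs) ≤ A := by
    rw [← hAe]; push_cast; linarith [Nat.le_ceil (1 / (c * ηs))]
  have hA0 : (0 : ℝ) < A := lt_of_lt_of_le (by positivity) hA
  obtain ⟨X, hX⟩ : ∃ X : ℝ, X = (2 * R + 1) * C / (c ^ 3 / 24) := ⟨_, rfl⟩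
  have hX0 : 0 < X := by rw [hX]; positivity
  refine ⟨X, hX0, Q, hQ, ?_⟩
  intro L Ω Ω₂ E₂ E₃ m₁ mB mR B₂ mf t J KA hbig h1 h2 h3 hR hJ hbase hreg hreg' hE hE₂ hKA hAW
  have hb : L.Big 1 := hbig.mono hQ
  have hM := hb.M_pos le_rfl
  have hN := hb.N_pos le_rfl
  have hd := hb.d_pos le_rfl
  have hq' : mB * mR * B₂ ∣ L.q := h2.trans h3
  have hmf : 0 < mf := Nat.pos_of_dvd_of_pos h3 L.q_pos
  have hm' : 0 < mB * mR * B₂ := Nat.pos_of_dvd_of_pos h2 hmf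
  have hB₂ : 0 < B₂ := Nat.pos_of_mul_pos_left hm'
  have hmBR : 0 < mB * mR := Nat.pos_of_mul_pos_right hm'
  have hmB : 0 < mB := Nat.pos_of_mul_pos_right hmBR
  have hmfR : (0 : ℝ) < mf := by exact_mod_cast hmf
  have hm'R : (0 : ℝ) < (mB * mR * B₂ : ℕ) := by exact_mod_cast hm'
  have hB₂R : (0 : ℝ) < B₂ := by exact_mod_cast hB₂
  have hmBRR : (0 : ℝ) < (mB * mR : ℕ) := by exact_mod_cast hmBR
  have hd1 : mB * mR ∣ mB * mR * B₂ := Dvd.intro _ rfl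
  have hd2 : mB ∣ mB * mR * B₂ := (Dvd.intro _ rfl : mB ∣ mB * mR).trans hd1
  have hJ0 : 0 ≤ J := by
    have : 0 < c * J := lt_of_le_of_lt (by positivity) hJ
    exact (pos_of_mul_pos_right this hc.le).le
  obtain ⟨E₁, h13, hE₁, hrich⟩ := hreg.exists_rich hb hC0.le hq' hcr0.le
  obtain ⟨E₁', h13', hE₁', hxreg⟩ := hreg'.exists_xreg hb hC0.le (hd1.trans hq') R hX0
  have hE₄ : (#(L.E \ (E₁ ∩ E₁')) : ℝ) ≤ c ^ 3 / 8 * L.M := by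
    have a1 : L.E \ (E₁ ∩ E₁') ⊆ (L.E \ E₃) ∪ ((E₃ \ E₁) ∪ (E₃ \ E₁')) := by
      intro e he
      simp only [mem_sdiff, mem_inter, mem_union] at he ⊢
      tauto
    have a2 : (#(L.E \ (E₁ ∩ E₁')) : ℝ) ≤ #(L.E \ E₃) + (#(E₃ \ E₁) + #(E₃ \ E₁')) := by
      exact_mod_cast (card_le_card a1).trans ((card_union_le _ _).trans
        (Nat.add_le_add_left (card_union_le _ _) _))
    have a3 : C * cr = c ^ 3 / 24 := by rw [hcr]; field_simp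
    have a4 : (2 * R + 1) * C / X = c ^ 3 / 24 := by rw [hX]; field_simp
    rw [a3] at hE₁
    rw [a4] at hE₁'
    linarith
  have hAW' : ∀ k, ∃ (Y : Finset Pt) (ϑ : ℝ), k ∈ KA → Y ⊆ L.Z ∧ c * L.N ≤ (#Y : ℝ) ∧
      (∀ p ∈ Y, c * L.d / mf ≤ (deg (L.W E₂ mf k) p : ℝ)) ∧ 0 < ϑ ∧
      (∀ p, (deg ((tm (pairs Y) (L.lo m₁ t) (L.hi m₁ t)).filter
        fun e => |sl e - L.lo mf k| ≤ ϑ) p : ℝ) ≤ L.N / (A * (mB * mR * B₂ : ℕ)) / c) ∧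
      (L.lo mf k - J * ϑ / c ≤ L.lo m₁ t ∨ L.hi m₁ t ≤ L.lo mf k + J * ϑ / c ∨
        c * J * (L.N / (A * (mB * mR * B₂ : ℕ))) * L.N ≤
          #((pairs L.Z).filter fun e => |sl e - L.lo mf k| ≤ J * ϑ / c)) := by
    intro k
    by_cases hk : k ∈ KA
    · obtain ⟨-, -, Y, a1, a2, a3, ϑ, a4, a5, a6⟩ := hAW k hk
      exact ⟨Y, ϑ, fun _ => ⟨a1, a2, a3, a4, a5, a6⟩⟩
    · exact ⟨∅, 0, fun h => absurd h hk⟩
  choose Y ϑ hY using hAW'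
  have hsurv := L.thmB_surv hc hM hmf hKA (F := fun k => inc (L.W E₂ mf k) (Y k)) (E₄ := E₁ ∩ E₁')
    (fun k _ => (inc_subset _ _).trans (L.W_mono hE₂.sub _ _)) (fun k hk => by
      obtain ⟨-, a2, a3, -⟩ := hY k hk
      have a4 := thmB_inc_ge _ _ a3
      have a5 : c * L.N * (c * L.d / mf) ≤ #(Y k) * (c * L.d / mf) :=
        mul_le_mul_of_nonneg_right a2 (by positivity)
      have a6 : c * L.N * (c * L.d / mf) = 2 * (c ^ 2 * L.M / (2 * mf)) := by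
        rw [← L.N_mul_d]; field_simp
      linarith) hE₄
  obtain ⟨Sv, hSv⟩ : ∃ Sv, Sv = KA.filter fun k => c ^ 2 * L.M / (4 * mf) ≤
    (#(inc (L.W E₂ mf k) (Y k) ∩ (E₁ ∩ E₁')) : ℝ) := ⟨_, rfl⟩
  rw [← hSv] at hsurv
  have hSv' : ∀ k ∈ Sv, k ∈ KA ∧ c ^ 2 * L.M / (4 * mf) ≤
      (#(inc (L.W E₂ mf k) (Y k) ∩ (E₁ ∩ E₁')) : ℝ) := fun k hk => by
    rw [hSv] at hk; exact mem_filter.1 hk
  rw [← sum_filter_add_sum_filter_not Sv fun k =>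
    L.hi (mB * mR * B₂) (k / (mf / (mB * mR * B₂)) ^ 4) -
      L.lo (mB * mR * B₂) (k / (mf / (mB * mR * B₂)) ^ 4) ≤ ϑ k] at hsurv
  obtain ⟨Sh, hSh⟩ : ∃ Sh, Sh = Sv.filter fun k =>
    L.hi (mB * mR * B₂) (k / (mf / (mB * mR * B₂)) ^ 4) -
      L.lo (mB * mR * B₂) (k / (mf / (mB * mR * B₂)) ^ 4) ≤ ϑ k := ⟨_, rfl⟩
  rw [← hSh] at hsurv
  have hSh' : ∀ k ∈ Sh, k ∈ Sv ∧ L.hi (mB * mR * B₂) (k / (mf / (mB * mR * B₂)) ^ 4) -
      L.lo (mB * mR * B₂) (k / (mf / (mB * mR * B₂)) ^ 4) ≤ ϑ k := fun k hk => by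
    rw [hSh] at hk; exact mem_filter.1 hk
  have hs : L.N / (A * (mB * mR * B₂ : ℕ)) / c ≤ ηs * L.N / (mB * mR * B₂ : ℕ) := by
    rw [div_le_iff₀ (by positivity)] at hA
    rw [div_div, div_le_div_iff₀ (by positivity) hm'R]
    have : 0 ≤ L.N * (mB * mR * B₂ : ℕ) := by positivity
    nlinarith
  have hshort := L.thmB_short hb hc hcr0 hC₂ (s := ηs * L.N / (mB * mR * B₂ : ℕ)) (by positivity)
    (h1.trans hd2) h2 h3 hE₂ hreg.sub h13 (inter_subset_left : E₁ ∩ E₁' ⊆ E₁) hrich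
    (fun Y => hsp L Ω _ E₃ Y hbig hq' hbase hreg) Sh Y ϑ
    (fun k hk => (hAW k (hSv' k (hSh' k hk).1).1).1)
    (fun k hk => (hAW k (hSv' k (hSh' k hk).1).1).2.1)
    (fun k hk => (hY k (hSv' k (hSh' k hk).1).1).1) (fun k hk => (hSv' k (hSh' k hk).1).2)
    (fun k hk p => ((hY k (hSv' k (hSh' k hk).1).1).2.2.2.2.1 p).trans hs)
    (fun k hk => (hSh' k hk).2)
  have hpar : ∀ k, ∀ e ∈ inc (L.W E₂ mf k) (Y k) ∩ (E₁ ∩ E₁'),
      (L.lo mf k < sl e ∧ sl e ≤ L.hi mf k) ∧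
      L.lo (mB * mR * B₂) (k / (mf / (mB * mR * B₂)) ^ 4) < sl e ∧
        sl e ≤ L.hi (mB * mR * B₂) (k / (mf / (mB * mR * B₂)) ^ 4) := by
    intro k e he
    have a1 := inc_subset _ _ (mem_inter.1 he).1
    exact ⟨(L.mem_W.1 a1).2, (L.mem_W.1 (L.W_sub_parent h2 h3 _ _ a1)).2⟩
  have hsum1 : ∑ k ∈ Sh, (#(inc (L.W E₂ mf k) (Y k) ∩ (E₁ ∩ E₁')) : ℝ) ≤ c ^ 3 / 16 * L.M := by
    obtain ⟨S, hS⟩ : ∃ S, S = Sh.image fun k => k / (mf / (mB * mR * B₂)) ^ 4 := ⟨_, rfl⟩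
    rw [← hS] at hshort
    have a1 := L.thmB_sum_le (L.sel E₃ (mB * mR * B₂) fun k => k ∈ S) mf Sh
      (fun k => inc (L.W E₂ mf k) (Y k) ∩ (E₁ ∩ E₁')) fun k hk e he =>
        L.mem_W.2 ⟨L.mem_sel.2 ⟨h13 (mem_inter.1 (mem_inter.1 he).2).1, _,
          by rw [hS]; exact mem_image_of_mem _ hk, (hpar k e he).2⟩, (hpar k e he).1⟩
    rw [L.card_sel_eq, Nat.cast_sum] at a1
    have a2 := sum_le_card_nsmul S _ _ fun k _ => hreg.card_W_le hb hC0.le k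
    rw [nsmul_eq_mul] at a2
    refine (a1.trans a2).trans ?_
    have a3 : (#S : ℝ) ≤ c ^ 3 * (mB * mR * B₂ : ℕ) / (16 * C) := by
      refine le_of_mul_le_mul_right (hshort.trans (le_of_eq ?_))
        (show 0 < c ^ 2 * cr / (8 * C₂ * (mB * mR * B₂ : ℕ)) by positivity)
      field_simp; ring
    calc _ ≤ c ^ 3 * (mB * mR * B₂ : ℕ) / (16 * C) * (C * L.M / (mB * mR * B₂ : ℕ)) := by gcongr
      _ = _ := by field_simp
  refine le_trans (by linarith) (L.thmB_sum_le _ mf (Sv.filter fun k => ¬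
    L.hi (mB * mR * B₂) (k / (mf / (mB * mR * B₂)) ^ 4) -
      L.lo (mB * mR * B₂) (k / (mf / (mB * mR * B₂)) ^ 4) ≤ ϑ k)
    (fun k => inc (L.W E₂ mf k) (Y k) ∩ (E₁ ∩ E₁')) fun k hk e he => ?_)
  obtain ⟨⟨b1, b2⟩, b3, b4⟩ := hpar k e he
  have heE := mem_inter.1 (mem_inter.1 he).2
  refine L.mem_W.2 ⟨L.mem_sel.2 ⟨hreg.sub (h13 heE.1), _, ?_, b3, b4⟩, b1, b2⟩
  rw [mem_filter] at hk
  have hkA := (hSv' k hk.1).1
  obtain ⟨-, -, -, a4, -, a6⟩ := hY k hkA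
  have hp := L.parent h2 h3 k
  generalize k / (mf / (mB * mR * B₂)) ^ 4 = k' at hk hp b3 b4 ⊢
  have hp1 := L.parent hd1 hq' k'
  have hp2 := L.parent hd2 hq' k'
  rw [Nat.mul_div_cancel_left _ hmBR] at hp1
  rw [show mB * mR * B₂ / mB = B₂ * mR by
    rw [mul_assoc, Nat.mul_div_cancel_left _ hmB, mul_comm], mul_pow] at hp2
  have hp3 := L.thmB_nest h1 (hd2.trans hq') (hp2.1.trans_lt b3) (b4.trans hp2.2)
    ((hAW k hkA).1.trans_lt b1) (b2.trans (hAW k hkA).2.1)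
  refine L.long_of hq' hR hc hJ0 a4.le hp.1 ((L.lo_le_hi mf k).trans hp.2) hp3.1 hp3.2
    (not_le.1 hk.2).le (hxreg _ ⟨e, L.mem_W.2 ⟨heE.2, hp1.1.trans_lt b3, b4.trans hp1.2⟩⟩) ?_ a6
  have a7 : (2 * R + 1) * (X * L.N ^ 2 / (mB * mR : ℕ)) =
      (2 * R + 1) * X * A * B₂ * (L.N / (A * (mB * mR * B₂ : ℕ)) * L.N) := by
    rw [Nat.cast_mul (mB * mR)]; field_simp
  rw [a7, mul_assoc (c * J)]
  exact mul_lt_mul_of_pos_right hJ (by positivity)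

end Loc

end Crest.Agent.R51
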