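import Crest.Agent.R51.Sep
import Crest.Agent.R51.ThmA2
import Crest.Agent.R51.ThmB
import Crest.Agent.R51.Share
import Crest.Agent.R51.SmallX

/-! The band is much smaller than Dey's bound. -/

namespace Crest.Agent.R51

open Finset
open scoped Classical

/-- The choice of the ratio `B₂` of the scales and of `J`. -/
theorem small_params {K c c' : ℝ} (hK : 0 < K) (hc : 0 < c) (hc' : 0 < c') :
    ∃ B₂ J : ℕ, 1 ≤ B₂ ∧ 1 ≤ J ∧ K * B₂ < c' * J ∧ 1000000 * ((J : ℝ) / c') ≤ c * B₂ ^ 4 := by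
  set n : ℕ := ⌈K / c'⌉₊ + 1 with hn
  have hn1 : K / c' < n := by
    rw [hn]
    push_cast
    linarith [Nat.le_ceil (K / c')]
  have hnpos : (0 : ℝ) < n := lt_trans (by positivity) hn1
  set B₂ : ℕ := ⌈1000000 * (n : ℝ) / (c' * c)⌉₊ + 1 with hB
  have hB1 : 1000000 * (n : ℝ) / (c' * c) ≤ B₂ := by
    rw [hB]
    push_cast
    linarith [Nat.le_ceil (1000000 * (n : ℝ) / (c' * c))]
  have hB2 : (1 : ℝ) ≤ B₂ := by exact_mod_cast (show 1 ≤ B₂ by omega)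
  refine ⟨B₂, n * B₂, by omega, Nat.mul_pos (by omega) (by omega), ?_, ?_⟩
  · push_cast
    rw [div_lt_iff₀ hc'] at hn1
    nlinarith
  · push_cast
    rw [div_le_iff₀ (by positivity)] at hB1
    rw [← mul_div_assoc, div_le_iff₀ hc']
    have h3 : (B₂ : ℝ) ^ 2 ≤ (B₂ : ℝ) ^ 4 := pow_le_pow_right₀ hB2 (by norm_num)
    have h4 : 1000000 * ((n : ℝ) * B₂) ≤ (B₂ : ℝ) ^ 2 * (c' * c) := by nlinarith
    calc 1000000 * ((n : ℝ) * B₂) ≤ (B₂ : ℝ) ^ 2 * (c' * c) := h4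
      _ ≤ (B₂ : ℝ) ^ 4 * (c' * c) := by gcongr
      _ = c * B₂ ^ 4 * c' := by ring

/-- A time grid for a band. -/
theorem GP.exists_fine {P : Finset Pt} (hP : GP P) (j : ℤ) {i q : ℕ} (hi : 1 ≤ i) (hq : 1 ≤ q)
    {κ : ℝ} (hκ : (q : ℝ) ≤ κ) (hn : (#P : ℝ) ≤ i * κ ^ 3) : ∃ b : ℕ → ℝ, Monotone b ∧
      tm (band P j i) (b 0) (b (q ^ 4)) = band P j i ∧
      ∀ w, (#(tm (band P j i) (b w) (b (w + 1))) : ℝ) ≤ 1000 * (i ^ 2 * κ ^ 4) / q ^ 4 := by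
  have hq' : (1 : ℝ) ≤ q := by exact_mod_cast hq
  have hi' : (1 : ℝ) ≤ i := by exact_mod_cast hi
  obtain ⟨a, b, hab, he⟩ := exists_tm_eq (band P j i)
  obtain ⟨c, hc, h0, h1, h2⟩ := exists_split (E := band P j i)
    (fun e he e' he' => hP.slinj e (band_subset _ _ _ he) e' (band_subset _ _ _ he')) hab
    (S := q ^ 4) (Nat.one_le_pow _ _ hq)
  refine ⟨c, hc, by rw [h0, h1 _ le_rfl, he], fun w => (h2 w).trans ?_⟩
  rw [he]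
  have h3 := hP.dey j hi (lt_of_lt_of_le (by linarith) hκ) hn
  have h4 : (q : ℝ) ^ 4 ≤ κ ^ 4 := by gcongr
  have h5 : κ ^ 4 ≤ i ^ 2 * κ ^ 4 := by
    have : (1 : ℝ) ≤ (i : ℝ) ^ 2 := one_le_pow₀ hi'
    have : 0 ≤ κ ^ 4 := by positivity
    nlinarith
  push_cast
  rw [div_add_one (by positivity)]
  gcongr
  nlinarith [pow_pos (show (0 : ℝ) < q by linarith) 4]

set_option maxHeartbeats 2000000 in
theorem small_band {c : ℝ} (hc : 0 < c) : ∃ κ₀ : ℝ, ∀ (P : Finset Pt) (j : ℤ) (i : ℕ) (κ : ℝ),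
    GP P → 1 ≤ i → κ₀ ≤ κ → (#P : ℝ) ≤ i * κ ^ 3 →
    (#(band P j i) : ℝ) ≤ c * (i ^ 2 * κ ^ 4) := by
  -- the constants
  obtain ⟨g₁, C₁, Q₁, hC₁, R₁⟩ := Glob.reg 1000 (ε := c / 2) (by positivity)
  set ca : ℝ := c / 2 / (2 * C₁) with hca
  set cp : ℝ := c / 2 / (2 * C₁ ^ 2) with hcp
  have hca0 : 0 < ca := by positivity
  have hcp0 : 0 < cp := by positivity
  obtain ⟨m₁, Q₂, c₁, hm₁, hQ₂, hc₁, S₁⟩ := Loc.step1 hC₁ hca0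
  set η₂ : ℝ := min (c₁ ^ 2 / 8) (ca / 2) with hη₂
  have hη₂0 : 0 < η₂ := lt_min (by positivity) (by positivity)
  obtain ⟨g₂, C₂, Q₃, hC₂, R₂⟩ := Glob.reg 1000 (ε := η₂ * cp / 4) (by positivity)
  obtain ⟨mG, c', hmG, hc', TA⟩ := Loc.thmA' hC₂ (c := c₁ / 2) (by positivity)
  obtain ⟨η, cB, hη, hcB, TB⟩ := Loc.thmB hc'
  set η₃ : ℝ := min η (ca / 2) with hη₃
  have hη₃0 : 0 < η₃ := lt_min hη (by positivity)
  obtain ⟨g₃, C₃, Q₄, hC₃, R₃⟩ := Glob.reg 1000 (ε := η₃ * cp / 16) (by positivity)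
  obtain ⟨A, hA, TB⟩ := TB C₃ C₂ hC₃ hC₂
  obtain ⟨mR, hmR, SH⟩ := share (c := cp * cB / 16) (by positivity)
  obtain ⟨X, hX, Q₅, hQ₅, TB⟩ := TB (mR ^ 4)
  have hA' : (0 : ℝ) < A := by exact_mod_cast hA
  obtain ⟨B₂, J, hB₂, hJ, hJ1, hJ2⟩ := small_params
    (K := (2 * ((mR ^ 4 : ℕ) : ℝ) + 1) * X * A) (c := cp * cB / 16) (by positivity)
    (by positivity) hc'
  obtain ⟨s₀, TA⟩ := TA J hJ
  set Y : ℕ := A * (m₁ * J * mR * B₂) with hY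
  have hY0 : 0 < Y := by positivity
  have hJY : J ≤ Y := Nat.le_of_dvd hY0 ⟨A * m₁ * mR * B₂, by rw [hY]; ring⟩
  set Lv : ℕ := 4 * s₀ + 4 with hLv
  obtain ⟨m₀, TA⟩ := TA (Y : ℝ) Lv (by exact_mod_cast hJY)
  set mf : ℕ := Y ^ Lv * mG * (m₀ + 1) with hmf
  have hmf0 : 0 < mf := by positivity
  obtain ⟨Q₆, hQ₆, TA⟩ := TA mf
    (le_trans (Nat.le_succ _) (Nat.le_of_dvd hmf0 (Dvd.intro_left _ rfl)))
    (Dvd.dvd.mul_right (Dvd.intro_left _ rfl) _)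
  have SH' := SH B₂ ((J : ℝ) / c') hB₂ (by positivity) hJ2
  have SH'' : ∀ l : ℕ, 1 ≤ Y ^ (l - 1) * (m₁ * J) := fun l => Nat.mul_pos (by positivity) (by positivity)
  choose κs hκs using fun l : ℕ => SH' (Y ^ (l - 1) * (m₁ * J)) (SH'' l)
  obtain ⟨Q₇, EG⟩ := exists_glob 1000 (g₁ + g₂ + g₃) mf
  set Q : ℕ := Q₁ + Q₂ + Q₃ + Q₄ + Q₅ + Q₆ + Q₇ + 3 with hQ
  set q : ℕ := mf * Q with hq
  have hq0 : 0 < q := by positivity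
  have hQq : Q ≤ q := Nat.le_mul_of_pos_left _ hmf0
  refine ⟨(Q : ℝ) * q + ∑ l ∈ Finset.Icc 1 Lv, |κs l|, fun P j i κ hP hi hκ hn => ?_⟩
  have hsum : 0 ≤ ∑ l ∈ Finset.Icc 1 Lv, |κs l| := sum_nonneg fun _ _ => abs_nonneg _
  have hκQ : (Q : ℝ) * q ≤ κ := by linarith
  have hQ1 : (1 : ℝ) ≤ Q := by exact_mod_cast (show 1 ≤ Q by omega)
  have hq1 : (0 : ℝ) < q := by exact_mod_cast hq0
  have hκq : (q : ℝ) ≤ κ := by nlinarith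
  by_contra hcon
  rw [not_le] at hcon
  obtain ⟨b, hb, hbE, hbf⟩ := hP.exists_fine j hi hq0 hκq hn
  obtain ⟨G, rfl, rfl, rfl, hGq, rfl, rfl, hGC, hGg, hGm⟩ := EG P j i q κ b hP hi hq0 hn hb
    (fun w _ => hbf w) (le_trans (by omega) hQq)
    (le_trans (mul_le_mul_of_nonneg_right (by exact_mod_cast (show Q₇ ≤ Q by omega)) hq1.le) hκQ)
  have hbig : G.Big Q := ⟨by rw [hGq]; exact hQq, by rw [hGq]; exact hκQ⟩
  have hM : 0 < G.M₀ := hbig.M₀_pos (by omega)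
  have hGE : G.E = band G.P G.j G.i := by rw [Glob.E, hGq]; exact hbE
  have hmfq : mf ∣ G.q := by rw [hGq]; exact Dvd.intro _ rfl
  have hdv : ∀ m, m ∣ mf → m ∣ G.q ∧ m ≤ G.mm := fun m h =>
    ⟨h.trans hmfq, by rw [hGm]; exact Nat.le_of_dvd hmf0 h⟩
  have hYmf : Y ^ Lv ∣ mf := Dvd.dvd.mul_right (Dvd.intro _ rfl) _
  have hm₁mf : m₁ ∣ mf := by
    refine Dvd.dvd.trans ⟨A * J * mR * B₂, by rw [hY]; ring⟩
      ((dvd_pow_self Y (show Lv ≠ 0 by omega)).trans hYmf)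
  have hmGmf : mG ∣ mf := Dvd.dvd.mul_right (Dvd.intro_left _ rfl) _
  have hq2 : (0 : ℝ) < (G.q : ℝ) ^ 2 := pow_pos G.q_posR 2
  have hlb : ∀ z, ∀ Q', Q' ≤ Q → (G.loc z).Big Q' := fun z Q' h => (G.loc_big hbig z).mono h
  -- first stage
  obtain ⟨Ω₁, R₁⟩ := R₁ G hGC.le (by omega) (hbig.mono (by omega))
  obtain ⟨E₁, hE₁, hl₁, Zs₁, hZ₁, hp₁, hr₁⟩ := R₁ m₁ (hdv _ hm₁mf).1 (hdv _ hm₁mf).2
  have hE₁c : c / 2 * G.M₀ ≤ #E₁ := by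
    have h1 : (#G.E : ℝ) ≤ #(G.E \ E₁) + #E₁ := by exact_mod_cast card_le_card_sdiff_add_card
    have h2 : c * G.M₀ < #G.E := by rw [hGE]; exact hcon
    linarith
  have hZa := G.many_pieces hC₁ (half_pos hc) hM hZ₁ hp₁ (fun z hz =>
    (hr₁ z hz).2.card_le (hlb z 1 (by omega)) (by linarith) (hdv _ hm₁mf).1) hE₁c
  set Za := Zs₁.filter fun z => c / 2 / (2 * C₁) * (G.M₀ / G.q ^ 2) ≤ (#(G.at' E₁ z) : ℝ) with hZadef
  have hZa1 : ∀ z ∈ Za, ca * (G.loc z).M ≤ #(G.at' E₁ z) := fun z hz => (mem_filter.1 hz).2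
  have hZa2 : ∀ z ∈ Za, ∀ η' : ℝ, η' ≤ ca / 2 → η' * (G.loc z).M < #(G.loc z).E := by
    intro z hz η' h
    have h1 : (#(G.at' E₁ z) : ℝ) ≤ #(G.loc z).E := by
      exact_mod_cast card_le_card (G.at'_mono hE₁ z)
    have h2 := (hlb z 1 (by omega)).M_pos le_rfl
    have h3 : η' * (G.loc z).M ≤ ca / 2 * (G.loc z).M := mul_le_mul_of_nonneg_right h h2.le
    have h4 : 0 < ca * (G.loc z).M := mul_pos hca0 h2
    linarith [hZa1 z hz]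
  -- second stage
  obtain ⟨Ω₂, R₂⟩ := R₂ G hGC.le (by omega) (hbig.mono (by omega))
  obtain ⟨Zb, hZb, hZbc, hZb2⟩ := G.two_scales (R₂ mG (hdv _ hmGmf).1 (hdv _ hmGmf).2)
    (R₂ mf (hdv _ dvd_rfl).1 (hdv _ dvd_rfl).2) hM hη₂0 Za
    fun z hz => hZa2 z hz _ (min_le_right _ _)
  have hZb3 : cp / 2 * G.q ^ 2 ≤ #Zb := by
    have : 2 * (η₂ * cp / 4) / η₂ = cp / 2 := by field_simp; ring
    rw [this] at hZbc
    linarith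
  have hstr : ∀ z, z ∈ Zb → ∃ Good : Finset ℕ, (Good ⊆ Finset.Icc 1 Lv ∧ Lv ≤ #Good + 2 * s₀) ∧
      ∀ l ∈ Good, ∃ (E₂ : Finset Ed) (t : ℕ) (KA : Finset ℕ), (G.loc z).Reg (Ω₂ z) C₂ mf E₂ ∧
        c' * mf ≤ #KA ∧ ∀ k ∈ KA, (G.loc z).AW E₂ mf ((G.loc z).lo m₁ t) ((G.loc z).hi m₁ t) c' J
          ((G.loc z).N / (Y : ℝ) ^ l) k := by
    intro z hz
    have hza := hZb hz
    have hz₁ := (mem_filter.1 hza).1
    obtain ⟨t, ht1, ht2, ht3, Z₁, hZ₁s, hZ₁c, hZ₁d⟩ := S₁ (G.loc z) (Ω₁ z) (G.at' E₁ z)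
      (hlb z _ (by omega)) (hdv _ hm₁mf).1 (hr₁ z hz₁).1 (hr₁ z hz₁).2 (hZa1 z hza)
    obtain ⟨E₂, hl₂, hb₂, hrG, hrf⟩ := hZb2 z hz
    have hMz := (hlb z 1 (by omega)).M_pos le_rfl
    obtain ⟨Z₂, hZ₂s, hZ₂c, hZ₂d⟩ := (G.loc z).stay_rich (hlb z 1 (by omega)) (hr₁ z hz₁).2.sub hc₁
      (E₂ := E₂) (hl₂.trans (mul_le_mul_of_nonneg_right (min_le_left _ _) hMz.le)) hZ₁c hZ₁d
    obtain ⟨Good, hG1, hG2, hG3⟩ := TA (G.loc z) (Ω₂ z) E₂ m₁ t Z₂ (hlb z _ (by omega)) hm₁mf hmfq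
      hb₂ hrG hrf ht1 ht2 ht3 (hZ₂s.trans hZ₁s) hZ₂c hZ₂d
    refine ⟨Good, ⟨hG1, hG2⟩, fun l hl => ?_⟩
    obtain ⟨KA, hK1, hK2⟩ := hG3 l hl
    exact ⟨E₂, t 1, KA, hrf, hK1, hK2⟩
  choose! Good hGood hGood' using hstr
  obtain ⟨l, hl, hlc⟩ := exists_common_level Zb Good hGood
  set Zc := Zb.filter fun z => l ∈ Good z with hZc
  have hZc3 : cp / 4 * G.q ^ 2 ≤ #Zc := by
    have : (#Zb : ℝ) ≤ 2 * #Zc := by exact_mod_cast hlc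
    linarith
  -- third stage
  rw [mem_Icc] at hl
  set mB : ℕ := Y ^ (l - 1) * (m₁ * J) with hmB
  have hYl : Y ^ l = A * (mB * mR * B₂) := by
    obtain ⟨l', rfl⟩ : ∃ l', l = l' + 1 := ⟨l - 1, by omega⟩
    rw [hmB, Nat.add_sub_cancel, pow_succ]
    conv_lhs => rw [show Y ^ l' * Y = Y ^ l' * (A * (m₁ * J * mR * B₂)) by rw [← hY]]
    ring
  have hm'mf : mB * mR * B₂ ∣ mf :=
    (Dvd.intro_left _ hYl.symm).trans ((pow_dvd_pow Y hl.2).trans hYmf)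
  have hmpmf : mB * mR ∣ mf := (Dvd.intro _ rfl).trans hm'mf
  obtain ⟨Ω₃, R₃⟩ := R₃ G hGC.le (by omega) (hbig.mono (by omega))
  obtain ⟨Zd, hZd, hZdc, hZd2⟩ := G.two_scales (R₃ _ (hdv _ hm'mf).1 (hdv _ hm'mf).2)
    (R₃ _ (hdv _ hmpmf).1 (hdv _ hmpmf).2) hM hη₃0 Zc
    fun z hz => hZa2 z (hZb (mem_filter.1 hz).1) _ (min_le_right _ _)
  have hZd3 : cp / 8 * G.q ^ 2 ≤ #Zd := by
    have : 2 * (η₃ * cp / 16) / η₃ = cp / 8 := by field_simp; ring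
    rw [this] at hZdc
    linarith
  have hlong : ∀ z ∈ Zd, cB * (G.M₀ / G.q ^ 2) ≤ (#((G.loc z).sel (G.loc z).E (mB * mR * B₂)
      (Long (G.lo (mB * mR * B₂)) (B₂ ^ 4) (mR ^ 4) (J / c'))) : ℝ) := by
    intro z hz
    have hzc := mem_filter.1 (hZd hz)
    obtain ⟨E₂, t, KA, hrf, hK1, hK2⟩ := hGood' z hzc.1 l hzc.2
    obtain ⟨E₃, hl₃, hb₃, hr', hrp⟩ := hZd2 z hz
    have hMz := (hlb z 1 (by omega)).M_pos le_rfl
    refine TB (G.loc z) (Ω₃ z) (Ω₂ z) E₂ E₃ m₁ mB mR B₂ mf t J KA (hlb z _ (by omega))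
      (Dvd.dvd.mul_left (Dvd.intro _ rfl) _) hm'mf hmfq le_rfl hJ1 hb₃ hr' hrp
      (hl₃.trans (mul_le_mul_of_nonneg_right (min_le_left _ _) hMz.le)) hrf hK1 ?_
    have : ((Y : ℝ)) ^ l = A * (mB * mR * B₂ : ℕ) := by exact_mod_cast hYl
    rw [← this]
    exact hK2
  have h1 : ∑ z ∈ Zd, cB * (G.M₀ / G.q ^ 2) ≤ _ := sum_le_sum hlong
  have h2 := G.sum_sel_le (hdv _ hm'mf).1
    (Long (G.lo (mB * mR * B₂)) (B₂ ^ 4) (mR ^ 4) (J / c')) Zd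
  have hκl : κs l ≤ G.κ := by
    have h3 : |κs l| ≤ ∑ l ∈ Finset.Icc 1 Lv, |κs l| :=
      single_le_sum (f := fun l => |κs l|) (fun _ _ => abs_nonneg _) (mem_Icc.2 hl)
    have h4 : (0 : ℝ) ≤ (Q : ℝ) * q := by positivity
    linarith [le_abs_self (κs l)]
  have h3 := hκs l G.P G.j G.i G.κ (G.lo (mB * mR * B₂)) hP hi hκl hn
    ((G.loc 0).lo_mono (mB * mR * B₂)) fun k hk => by
      have := G.card_Wd (hdv _ hm'mf).1 hk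
      rw [hGC] at this
      exact this
  have h4 : ∑ z ∈ Zd, (#((G.loc z).sel (G.loc z).E (mB * mR * B₂)
      (Long (G.lo (mB * mR * B₂)) (B₂ ^ 4) (mR ^ 4) (J / c'))) : ℝ) ≤ cp * cB / 16 * G.M₀ := by
    refine le_trans ?_ h3
    exact_mod_cast h2
  rw [sum_const, nsmul_eq_mul] at h1
  have h5 : cp / 8 * G.q ^ 2 * (cB * (G.M₀ / G.q ^ 2)) ≤ #Zd * (cB * (G.M₀ / G.q ^ 2)) := by
    gcongr
  have h6 : cp / 8 * G.q ^ 2 * (cB * (G.M₀ / G.q ^ 2)) = cp * cB / 8 * G.M₀ := by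
    have := G.q_posR
    field_simp
  have h7 : 0 < cp * cB * G.M₀ := by positivity
  linarith

end Crest.Agent.R51
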