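import Crest.Agent.R51.Small

/-! From a small constant to a smaller exponent. -/

namespace Crest.Agent.R51

open Finset
open scoped Classical

theorem submul_num {γ κ a s t : ℝ} (h1 : 1 ≤ γ) (h2 : γ ≤ 4 / 3) (hκ : 0 < κ)
    (hκγ : κ ^ (4 - 3 * γ) ≤ 2) (ha : 0 < a) (hs : a * κ ^ 3 / 20 ≤ s) (ht0 : 0 ≤ t)
    (ht : t ≤ 5 * s) : t ^ (2 - γ) / s ^ 2 * (a ^ 2 * κ ^ 4) ≤ 550 * a ^ (2 - γ) := by
  have hs0 : 0 < s := lt_of_lt_of_le (by positivity) hs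
  have a1 : t ^ (2 - γ) ≤ 5 * (s ^ 2 / s ^ γ) := by
    refine (Real.rpow_le_rpow ht0 ht (by linarith)).trans ?_
    rw [Real.mul_rpow (by norm_num) hs0.le, Real.rpow_sub hs0, Real.rpow_two]
    refine mul_le_mul_of_nonneg_right ?_ (by positivity)
    calc (5 : ℝ) ^ (2 - γ) ≤ 5 ^ (1 : ℝ) := Real.rpow_le_rpow_of_exponent_le (by norm_num) (by linarith)
      _ = 5 := Real.rpow_one _
  have a2 : (20 : ℝ) ^ γ ≤ 55 := by
    refine (Real.rpow_le_rpow_of_exponent_le (by norm_num) h2).trans ?_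
    refine le_of_pow_le_pow_left₀ (n := 3) (by norm_num) (by norm_num) ?_
    rw [← Real.rpow_natCast, ← Real.rpow_mul (by norm_num)]
    norm_num
  have a3 : a ^ γ * κ ^ (3 * γ) / 55 ≤ s ^ γ := by
    refine le_trans ?_ (Real.rpow_le_rpow (by positivity) hs (by linarith))
    rw [Real.div_rpow (by positivity) (by norm_num), Real.mul_rpow ha.le (by positivity),
      ← Real.rpow_natCast κ 3, ← Real.rpow_mul hκ.le]
    exact div_le_div_of_nonneg_left (by positivity) (by positivity) a2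
  have a4 : a ^ 2 = a ^ γ * a ^ (2 - γ) := by
    rw [← Real.rpow_add ha, ← Real.rpow_two]; congr 1; ring
  have a5 : κ ^ 4 = κ ^ (3 * γ) * κ ^ (4 - 3 * γ) := by
    rw [← Real.rpow_add hκ, ← Real.rpow_natCast]; congr 1; push_cast; ring
  have p1 : 0 < s ^ γ := by positivity
  have p2 : 0 < a ^ (2 - γ) := by positivity
  have p3 : 0 < a ^ γ * κ ^ (3 * γ) := by positivity
  have p4 : 0 < κ ^ (4 - 3 * γ) := by positivity
  have a6 : t ^ (2 - γ) / s ^ 2 ≤ 5 / s ^ γ := by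
    rw [div_le_iff₀ (by positivity)]
    refine a1.trans (le_of_eq ?_)
    ring
  have a7 : 5 / s ^ γ ≤ 275 / (a ^ γ * κ ^ (3 * γ)) := by
    rw [div_le_div_iff₀ p1 p3]; linarith
  calc t ^ (2 - γ) / s ^ 2 * (a ^ 2 * κ ^ 4)
      ≤ 275 / (a ^ γ * κ ^ (3 * γ)) * (a ^ 2 * κ ^ 4) :=
        mul_le_mul_of_nonneg_right (a6.trans a7) (by positivity)
    _ = 275 * κ ^ (4 - 3 * γ) * a ^ (2 - γ) := by
        rw [a4, a5]; field_simp
    _ ≤ 275 * 2 * a ^ (2 - γ) := by gcongr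
    _ = _ := by norm_num

theorem submul_triv (P : Finset Pt) (j : ℤ) (i : ℕ) : (#(band P j i) : ℝ) ≤ (#P : ℝ) ^ 2 := by
  exact_mod_cast (card_le_card (band_subset P j i)).trans (card_pairs_le P)

/-- Let `c = 1 / 220000`, `κ = max κ₀ 10` with `κ₀` from `small_band`, `γ ∈ [1, 4 / 3)` with `κ ^ (4 - 3 γ) ≤ 2` (e.g. `γ = 4 / 3 - log 2 / (3 log κ)`),
`C = κ ^ 4`.  Induction on `⌈n⌉₊ - i`.  If `n ≤ κ ^ 3 i` then `#band ≤ n ^ 2 = n ^ γ n ^ (2 - γ) ≤ κ ^ 3 n ^ γ i ^ (2 - γ)`.  Otherwise let `s = ⌊i κ ^ 3 / 10⌋₊ ≥ i κ ^ 3 / 20`;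
`band_le_mul` with `τ = c i ^ 2 κ ^ 4` and the induction hypothesis for `i + 4 s ≤ 5 s ≤ n` give
`(200 C n ^ γ (5 s) ^ (2 - γ) / s ^ 2 + 2) τ ≤ 55000 c κ ^ (4 - 3 γ) C n ^ γ i ^ (2 - γ) + 2 c κ ^ 4 i ^ 2` (`5 ^ (2 - γ) ≤ 5`, `20 ^ γ ≤ 55`), and `i ^ 2 ≤ n ^ γ i ^ (2 - γ)`. -/
theorem submul : ∃ γ C : ℝ, 1 ≤ γ ∧ γ < 4 / 3 ∧ 0 < C ∧ ∀ (P : Finset Pt) (j : ℤ) (i : ℕ) (n : ℝ),
    GP P → 1 ≤ i → (i : ℝ) ≤ n → (#P : ℝ) ≤ n →
    (#(band P j i) : ℝ) ≤ C * n ^ γ * (i : ℝ) ^ (2 - γ) := by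
  obtain ⟨κ₀, hκ₀⟩ := small_band (c := 1 / 220000) (by norm_num)
  obtain ⟨κ, hκ1, hκ⟩ : ∃ κ : ℝ, κ₀ ≤ κ ∧ 10 ≤ κ := ⟨max κ₀ 10, le_max_left _ _, le_max_right _ _⟩
  have hκ0 : 0 < κ := by linarith
  have hl2 : 0 < Real.log 2 := Real.log_pos (by norm_num)
  have hl : Real.log 2 ≤ Real.log κ := Real.log_le_log (by norm_num) (by linarith)
  have hlκ : 0 < Real.log κ := by linarith
  obtain ⟨γ, h1, h2, h3⟩ : ∃ γ : ℝ, 1 ≤ γ ∧ γ < 4 / 3 ∧ κ ^ (4 - 3 * γ) ≤ 2 := by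
    refine ⟨4 / 3 - Real.log 2 / Real.log κ / 3, ?_, ?_, ?_⟩
    · have := (div_le_one hlκ).2 hl
      linarith
    · have := div_pos hl2 hlκ
      linarith
    · rw [Real.rpow_def_of_pos hκ0, show Real.log κ * (4 - 3 * (4 / 3 - Real.log 2 / Real.log κ / 3))
        = Real.log 2 by field_simp; ring, Real.exp_log (by norm_num)]
  have hκ3 : (1000 : ℝ) ≤ κ ^ 3 := le_trans (by norm_num) (pow_le_pow_left₀ (by norm_num) hκ 3)
  have base : ∀ (P : Finset Pt) (j : ℤ) (i : ℕ) (n : ℝ), 1 ≤ i → (i : ℝ) ≤ n → (#P : ℝ) ≤ n →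
      n ≤ κ ^ 3 * i → (#(band P j i) : ℝ) ≤ κ ^ 4 * n ^ γ * (i : ℝ) ^ (2 - γ) := by
    intro P j i n hi hin hP hn
    have hi' : (1 : ℝ) ≤ i := by exact_mod_cast hi
    have hn0 : 0 < n := by linarith
    have b1 : n ^ (2 - γ) ≤ κ ^ 4 * (i : ℝ) ^ (2 - γ) := by
      refine (Real.rpow_le_rpow hn0.le hn (by linarith)).trans ?_
      rw [Real.mul_rpow (by positivity) (by positivity)]
      refine mul_le_mul_of_nonneg_right ?_ (by positivity)
      calc (κ ^ 3) ^ (2 - γ) ≤ (κ ^ 3) ^ (1 : ℝ) :=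
            Real.rpow_le_rpow_of_exponent_le (by linarith) (by linarith)
        _ = κ ^ 3 := Real.rpow_one _
        _ ≤ κ ^ 4 := pow_le_pow_right₀ (by linarith) (by norm_num)
    calc (#(band P j i) : ℝ) ≤ (#P : ℝ) ^ 2 := submul_triv P j i
      _ ≤ n ^ 2 := pow_le_pow_left₀ (Nat.cast_nonneg _) hP 2
      _ = n ^ γ * n ^ (2 - γ) := by rw [← Real.rpow_add hn0, ← Real.rpow_two]; congr 1; ring
      _ ≤ n ^ γ * (κ ^ 4 * (i : ℝ) ^ (2 - γ)) := mul_le_mul_of_nonneg_left b1 (by positivity)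
      _ = _ := by ring
  have main : ∀ (t : ℕ) (P : Finset Pt) (j : ℤ) (i : ℕ) (n : ℝ), n ≤ i + t → GP P → 1 ≤ i →
      (i : ℝ) ≤ n → (#P : ℝ) ≤ n → (#(band P j i) : ℝ) ≤ κ ^ 4 * n ^ γ * (i : ℝ) ^ (2 - γ) := by
    intro t
    induction t with
    | zero =>
      intro P j i n ht _ hi hin hP
      refine base P j i n hi hin hP ?_
      have : (0 : ℝ) ≤ i := Nat.cast_nonneg _
      push_cast at ht
      nlinarith
    | succ t ih =>
      intro P j i n ht hG hi hin hP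
      by_cases hn : n ≤ κ ^ 3 * i
      · exact base P j i n hi hin hP hn
      have hi' : (1 : ℝ) ≤ i := by exact_mod_cast hi
      have hn0 : 0 < n := by linarith
      have hn' := not_le.1 hn
      have c0 : 1000 * (i : ℝ) ≤ κ ^ 3 * i := mul_le_mul_of_nonneg_right hκ3 (by linarith)
      obtain ⟨s, s1, s2⟩ : ∃ s : ℕ, (s : ℝ) ≤ i * κ ^ 3 / 10 ∧ i * κ ^ 3 / 10 < s + 1 :=
        ⟨⌊i * κ ^ 3 / 10⌋₊, Nat.floor_le (by positivity), Nat.lt_floor_add_one _⟩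
      have s3 : (i : ℝ) ≤ s := by linarith
      have s4 : (15 : ℝ) ≤ s := by linarith
      have s5 : i * κ ^ 3 / 20 ≤ s := by linarith
      have e1 := hG.band_le_mul j (i := i) (s := s) (by exact_mod_cast s3) (by exact_mod_cast s4)
        (τ := 1 / 220000 * (i ^ 2 * κ ^ 4)) fun R hR hR' j' => hκ₀ R j' i κ hR hi hκ1 (by
          have : (#R : ℝ) ≤ 10 * s := by exact_mod_cast hR'
          linarith)
      have e2 := ih P (j - 2 * s) (i + 4 * s) n (by push_cast at ht ⊢; linarith) hG (by omega)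
        (by push_cast; linarith) hP
      have e3 := submul_num (t := ((i + 4 * s : ℕ) : ℝ)) h1 h2.le hκ0 h3 (show (0 : ℝ) < i by linarith)
        s5 (Nat.cast_nonneg _) (by push_cast; linarith)
      have e4 : (i : ℝ) ^ 2 ≤ n ^ γ * (i : ℝ) ^ (2 - γ) := by
        rw [show (i : ℝ) ^ 2 = (i : ℝ) ^ γ * (i : ℝ) ^ (2 - γ) by
          rw [← Real.rpow_add (by linarith), ← Real.rpow_two]; congr 1; ring]
        exact mul_le_mul_of_nonneg_right (Real.rpow_le_rpow (by linarith) hin (by linarith))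
          (by positivity)
      have e5 : (#(band P (j - 2 * s) (i + 4 * s)) : ℝ) / s ^ 2 * (i ^ 2 * κ ^ 4) ≤
          κ ^ 4 * n ^ γ * (550 * (i : ℝ) ^ (2 - γ)) := by
        refine le_trans ?_ (mul_le_mul_of_nonneg_left e3 (by positivity))
        rw [← mul_assoc (κ ^ 4 * n ^ γ), ← mul_div_assoc]
        gcongr
      have e6 := mul_le_mul_of_nonneg_left e4 (show 0 ≤ κ ^ 4 by positivity)
      have e7 : 0 ≤ κ ^ 4 * (n ^ γ * (i : ℝ) ^ (2 - γ)) := by positivity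
      refine e1.trans ?_
      rw [mul_div_assoc]
      linarith
  exact ⟨γ, κ ^ 4, h1, h2, by positivity, fun P j i n hG hi hin hP =>
    main ⌈n⌉₊ P j i n (by linarith [Nat.le_ceil n, (Nat.cast_nonneg i : (0 : ℝ) ≤ i)]) hG hi hin hP⟩

/-- Let `s = 15 (j + 1)`, `n = #P`.  If `n < s` use `submul` directly (`n ^ γ = n · n ^ (γ - 1) ≤ n s ^ (γ - 1)`).  Otherwise `band_le_mul` with
`τ = C (10 s) ^ γ` and `card_low` (the wide band has levels below `3 s`): at most `(600 n / s + 2) C (10 s) ^ γ`.  `ε₀ = 4 / 3 - γ`. -/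
theorem kband : ∃ ε₀ C : ℝ, 0 < ε₀ ∧ ε₀ ≤ 1 / 3 ∧ 0 < C ∧ ∀ (P : Finset Pt) (j : ℕ), GP P →
    (#(band P j 1) : ℝ) ≤ C * #P * ((j : ℝ) + 1) ^ ((1 : ℝ) / 3 - ε₀) := by
  obtain ⟨γ, C, h1, h2, hC, h⟩ := submul
  refine ⟨4 / 3 - γ, 903000 * C, by linarith, by linarith, by positivity, fun P j hG => ?_⟩
  rw [show (1 : ℝ) / 3 - (4 / 3 - γ) = γ - 1 by ring]
  have hj : (0 : ℝ) < j + 1 := by positivity
  have hX : 0 < ((j : ℝ) + 1) ^ (γ - 1) := by positivity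
  have a1 : (15 * ((j : ℝ) + 1)) ^ (γ - 1) ≤ 15 * ((j : ℝ) + 1) ^ (γ - 1) := by
    rw [Real.mul_rpow (by norm_num) hj.le]
    refine mul_le_mul_of_nonneg_right ?_ hX.le
    calc (15 : ℝ) ^ (γ - 1) ≤ 15 ^ (1 : ℝ) :=
          Real.rpow_le_rpow_of_exponent_le (by norm_num) (by linarith)
      _ = 15 := Real.rpow_one _
  have a2 : ∀ x : ℝ, 0 < x → x ^ γ = x * x ^ (γ - 1) := fun x hx => by
    rw [Real.rpow_sub_one hx.ne']; field_simp
  rcases Nat.eq_zero_or_pos #P with h0 | h0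
  · have := submul_triv P j 1
    rw [h0] at this ⊢
    simpa using this
  have hn : (1 : ℝ) ≤ #P := by exact_mod_cast h0
  have hCn : 0 ≤ C * #P * ((j : ℝ) + 1) ^ (γ - 1) := by positivity
  rcases le_total (#P : ℝ) (15 * ((j : ℝ) + 1)) with hs | hs
  · have e1 := h P j 1 #P hG le_rfl (by simpa using hn) le_rfl
    rw [Nat.cast_one, Real.one_rpow, mul_one, a2 _ (by linarith)] at e1
    have e2 := (Real.rpow_le_rpow (by linarith) hs (by linarith)).trans a1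
    have e3 := mul_le_mul_of_nonneg_left e2 (show 0 ≤ C * #P by positivity)
    linarith
  · obtain ⟨s, hs'⟩ : ∃ s : ℕ, s = 15 * (j + 1) := ⟨_, rfl⟩
    have hsR : (s : ℝ) = 15 * ((j : ℝ) + 1) := by rw [hs']; push_cast; ring
    have hs0 : (0 : ℝ) < s := by rw [hsR]; positivity
    have e1 := hG.band_le_mul j (i := 1) (s := s) (by omega) (by omega)
      (τ := C * (10 * s : ℝ) ^ γ) fun R hR hR' j' => by
        have := h R j' 1 (10 * s) hR le_rfl (by rw [hsR]; push_cast; linarith)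
          (by exact_mod_cast hR')
        simpa using this
    have e2 : (#(band P (j - 2 * s) (1 + 4 * s)) : ℝ) ≤ #P * (3 * s) := by
      exact_mod_cast hG.card_low (j - 2 * s) (1 + 4 * s) (3 * s) (by push_cast; omega)
    have e3 : (10 * s : ℝ) ^ γ ≤ 100 * (s * (15 * ((j : ℝ) + 1) ^ (γ - 1))) := by
      rw [Real.mul_rpow (by norm_num) hs0.le, a2 _ hs0]
      refine mul_le_mul ?_ (mul_le_mul_of_nonneg_left (by rw [hsR]; exact a1) hs0.le)
        (by positivity) (by norm_num)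
      calc (10 : ℝ) ^ γ ≤ 10 ^ (2 : ℝ) :=
            Real.rpow_le_rpow_of_exponent_le (by norm_num) (by linarith)
        _ = 100 := by rw [Real.rpow_two]; norm_num
    have e4 : 200 * (#(band P (j - 2 * s) (1 + 4 * s)) : ℝ) / s ^ 2 + 2 ≤ 602 * #P / s := by
      have f1 : 200 * (#(band P (j - 2 * s) (1 + 4 * s)) : ℝ) / s ^ 2 ≤ 600 * #P / s := by
        rw [div_le_div_iff₀ (by positivity) hs0]
        have := mul_le_mul_of_nonneg_right e2 hs0.le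
        linarith
      have f2 : 1 ≤ #P / (s : ℝ) := (one_le_div hs0).2 (by rw [hsR]; exact hs)
      rw [mul_div_assoc] at f1 ⊢
      rw [mul_div_assoc 602]
      rw [mul_div_assoc 600] at f1
      linarith
    refine e1.trans ((mul_le_mul e4 (mul_le_mul_of_nonneg_left e3 hC.le) (by positivity)
      (by positivity)).trans (le_of_eq ?_))
    field_simp
    ring

end Crest.Agent.R51
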