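import Crest.Agent.R51.R1
import Crest.Agent.R51.Proper
import Crest.Agent.R51.R7
import Crest.Agent.R51.R5

/-! The structure of a piece that is active in three separated time intervals. -/

namespace Crest.Agent.R51

open Finset
open scoped Classical

namespace Loc

theorem thmA_of_W_sel (L : Loc) {E : Finset Ed} {m k : ℕ} {S : ℕ → Prop} {e : Ed}
    (he : e ∈ L.W (L.sel E m S) m k) : e ∈ L.W E m k ∧ S k := by
  rw [mem_W, mem_sel] at he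
  obtain ⟨⟨h1, k', h2, h3, h4⟩, h5, h6⟩ := he
  exact ⟨L.mem_W.2 ⟨h1, h5, h6⟩, by rw [L.win_unique h5 h6 h3 h4]; exact h2⟩

theorem thmA_amass_congr (Y : Finset Pt) (δ : ℝ) {p z : Pt}
    (h : ⌊z.1 / δ⌋ = ⌊p.1 / δ⌋ ∧ ⌊z.2 / δ⌋ = ⌊p.2 / δ⌋) : amass Y δ z = amass Y δ p := by
  unfold amass
  rw [h.1, h.2]

/-- Removal of the atoms in which `Z₃` is sparse. -/
theorem thmA_atoms (Z Z₃ : Finset Pt) (δ : ℝ) {c N : ℝ} (hc : 0 < c) (hZ : (#Z : ℝ) ≤ N)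
    (h : c * N ≤ #Z₃) : ∃ Z' ⊆ Z₃, c / 2 * N ≤ #Z' ∧
      ∀ p ∈ Z', (amass Z δ p : ℝ) ≤ 2 / c * amass Z' δ p := by
  refine ⟨Z₃.filter fun p => ¬ 2 / c * amass Z₃ δ p < amass Z δ p, filter_subset _ _, ?_, ?_⟩
  · have h1 := card_sparse_atoms Z Z₃ δ (B := 2 / c) (by positivity)
    have h2 : (#(Z₃.filter fun p => 2 / c * amass Z₃ δ p < amass Z δ p) : ℝ) +
        #(Z₃.filter fun p => ¬ 2 / c * amass Z₃ δ p < amass Z δ p) = #Z₃ := by
      exact_mod_cast card_filter_add_card_filter_not _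
    have h3 : (#Z : ℝ) / (2 / c) ≤ c / 2 * N := by
      rw [div_div_eq_mul_div, mul_comm, mul_div_right_comm]; gcongr
    linarith
  · intro p hp
    rw [mem_filter] at hp
    refine (not_lt.1 hp.2).trans (mul_le_mul_of_nonneg_left ?_ (by positivity))
    refine Nat.cast_le.2 (card_le_card fun z hz => ?_)
    rw [mem_filter] at hz
    rw [mem_filter, mem_filter, thmA_amass_congr Z₃ δ hz.2, thmA_amass_congr Z δ hz.2]
    exact ⟨⟨hz.1, hp.2⟩, hz.2⟩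

/-- A rich point that loses little has many good windows. -/
theorem thmA_good (L : Loc) (hb : L.Big 1) {Ω : ℕ → Finset Pt} {C c : ℝ} (hC : 1 ≤ C) (hc : 0 < c)
    {m : ℕ} (hm : m ∣ L.q) {E₀ Es G : Finset Ed} (hreg : L.Reg Ω C m E₀) (hs : Es ⊆ E₀)
    (hG : G ⊆ Es) (bad : ℕ → Finset Pt) {p : Pt} (h1 : c * L.d ≤ (deg G p : ℝ))
    (h2 : (deg ((Finset.range (m ^ 4)).biUnion fun k => inc (L.W Es m k) (bad k)) p : ℝ) ≤
      c / 4 * L.d) :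
    c / (2 * C) * m ≤ (#(((Finset.range (m ^ 4)).filter fun k => (L.W G m k).Nonempty).filter
      fun k => p ∉ bad k ∧ c / (4 * C) * L.d / m ≤ (deg (L.W E₀ m k) p : ℝ)) : ℝ) := by
  have hm0 : (0 : ℝ) < m := by exact_mod_cast Nat.pos_of_dvd_of_pos hm L.q_pos
  have hd := hb.d_pos le_rfl
  have hC0 : 0 < C := by linarith
  obtain ⟨Fb, hFb⟩ : ∃ Fb, Fb = (Finset.range (m ^ 4)).biUnion fun k => inc (L.W Es m k) (bad k) :=
    ⟨_, rfl⟩
  rw [← hFb] at h2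
  have hFbE : Fb ⊆ L.E := by
    rw [hFb]
    exact biUnion_subset.2 fun k _ =>
      (inc_subset _ _).trans ((L.W_subset _ _ _).trans (hs.trans hreg.sub))
  obtain ⟨K, hK⟩ : ∃ K, K = (Finset.range (m ^ 4)).filter fun k => (L.W G m k).Nonempty :=
    ⟨_, rfl⟩
  rw [← hK]
  have hKsub : K ⊆ Finset.range (m ^ 4) := by rw [hK]; exact filter_subset _ _
  have hKc : (#K : ℝ) ≤ C * m := hreg.card_le_of_nonempty hm K fun k hk => by
    rw [hK] at hk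
    exact (mem_filter.1 hk).2.mono (L.W_mono (hG.trans hs) _ _)
  have e1 : (deg G p : ℝ) = ∑ k ∈ K, (deg (L.W G m k) p : ℝ) := by
    rw [L.deg_eq_sum_W hm (hG.trans (hs.trans hreg.sub)) p, Nat.cast_sum]
    refine (sum_subset hKsub fun k hk hk' => ?_).symm
    rw [hK, mem_filter, not_and] at hk'
    rw [not_nonempty_iff_eq_empty.1 (hk' hk)]
    simp [deg]
  have e2 : ∑ k ∈ K, (deg (L.W Fb m k) p : ℝ) ≤ deg Fb p := by
    rw [L.deg_eq_sum_W hm hFbE p, Nat.cast_sum]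
    exact sum_le_sum_of_subset_of_nonneg hKsub fun _ _ _ => Nat.cast_nonneg _
  have e3 : ∀ k ∈ K, (deg (L.W G m k) p : ℝ) ≤ deg (L.W Fb m k) p + c / (4 * C) * L.d / m +
      if p ∉ bad k ∧ c / (4 * C) * L.d / m ≤ (deg (L.W E₀ m k) p : ℝ) then C * L.d / m else 0 := by
    intro k hk
    have a0 : (0 : ℝ) ≤ deg (L.W Fb m k) p := Nat.cast_nonneg _
    have a1 : 0 ≤ c / (4 * C) * L.d / m := by positivity
    have a2 : (deg (L.W G m k) p : ℝ) ≤ deg (L.W E₀ m k) p :=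
      Nat.cast_le.2 (deg_mono (L.W_mono (hG.trans hs) _ _) p)
    split_ifs with h
    · linarith [hreg.deg_W_le hb hC0.le k p]
    · by_cases hp : p ∈ bad k
      · have a3 : (deg (L.W G m k) p : ℝ) ≤ deg (L.W Fb m k) p := by
          refine Nat.cast_le.2 (card_le_card fun e he => ?_)
          rw [mem_filter] at he ⊢
          refine ⟨L.mem_W.2 ⟨?_, (L.mem_W.1 he.1).2⟩, he.2⟩
          rw [hFb, mem_biUnion]
          refine ⟨k, hKsub hk, mem_inc.2 ⟨L.W_mono hG _ _ he.1, ?_⟩⟩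
          rcases he.2 with h | h
          · exact Or.inl (h ▸ hp)
          · exact Or.inr (h ▸ hp)
        linarith
      · have a3 := not_le.1 (not_and.1 h hp)
        linarith
  have e4 := sum_le_sum e3
  rw [sum_add_distrib, sum_add_distrib, sum_const, ← sum_filter, sum_const, nsmul_eq_mul,
    nsmul_eq_mul] at e4
  have e5 : (#K : ℝ) * (c / (4 * C) * L.d / m) ≤ c / 4 * L.d := by
    calc _ ≤ C * m * (c / (4 * C) * L.d / m) := by gcongr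
      _ = _ := by field_simp
  refine le_of_mul_le_mul_right ?_ (show 0 < C * L.d / m by positivity)
  have e6 : c / (2 * C) * m * (C * L.d / m) = c / 2 * L.d := by field_simp
  linarith

/-- Let `F x = tm E₀ (α x) (β x)`, `E' = F 0 ∪ F 1 ∪ F 2`; a window of scale `m` that meets `F x` lies in `[α x, β x] ⊆ [0, 1]`.
* `exists_delta` (for `E'`) gives `δ`, `Z₂`, `c₂`; `proper C c₂` for `L.sel E' m (δ ≤ length)` gives `mG`, `Z₃`, `D`, `c₃`.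
* Remove the atoms with `B' amass Z₃ < amass Z`, `B' = 2 / c₃` (`card_sparse_atoms`): `Z₃'` has at least `c₃ N / 2` points, and
  `amass Z₃' p = amass Z₃ p` for `p ∈ Z₃'`.
* `heavy_strips C B' ε` with `ε = c₂ c₃ / 32` for `Es = L.sel E' m (length ≤ δ)` and `Z₃'` gives `B`.  Let `Fb` be the union of the sets
  `inc (W Es m k) (bad points of k)`; by `card_lose` at most `8 ε N / c₂ = c₃ N / 4` points have `deg Fb p > c₂ d / 4`; `Z₄` is the rest of `Z₃'`.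
* `K x` is the set of windows meeting `L.sel (F x) m (length ≤ δ)`; `good p k` means that `p` is not bad for `k` and
  `c₂ d / (4 C m) ≤ deg (W E₀ m k) p`.  For `p ∈ Z₄` the good windows of `K x` carry at least `c₂ d / 2` of the degree
  (`deg_eq_sum_W`), so they are at least `c₂ m / (2 C)` (`deg_W_le`).
* `exists_triples` gives `KA`; for `k ∈ KA` apply `exists_str` with `θ = (lo k₀, lo k, lo k₂)`, `Z₀ = L.Z`, `Z = Z₃'`. -/
theorem thmA {C c : ℝ} (hC : 1 ≤ C) (hc : 0 < c) : ∃ (mG : ℕ) (c' : ℝ), 1 ≤ mG ∧ 0 < c' ∧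
    ∀ J : ℕ, 1 ≤ J → ∃ s₀ : ℕ, ∀ (Y : ℝ) (Lv : ℕ), (J : ℝ) ≤ Y → ∃ m₀ : ℕ, ∀ m, m₀ ≤ m → mG ∣ m →
      ∃ Q : ℕ, 1 ≤ Q ∧ ∀ (L : Loc) (Ω : ℕ → Finset Pt) (E₀ : Finset Ed) (α β : Fin 3 → ℝ)
        (Z₁ : Finset Pt), L.Big Q → m ∣ L.q → L.Base Ω C → L.Reg Ω C mG E₀ → L.Reg Ω C m E₀ →
        Clus α β →
        (∀ x k, (α x ≤ L.lo m k ∧ L.hi m k ≤ β x) ∨ L.hi m k ≤ α x ∨ β x ≤ L.lo m k) →
        Z₁ ⊆ L.Z → c * L.N ≤ #Z₁ → (∀ p ∈ Z₁, ∀ x, c * L.d ≤ (deg (tm E₀ (α x) (β x)) p : ℝ)) →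
        ∃ KA : Finset ℕ, c' * m ≤ #KA ∧ ∀ k ∈ KA, ∃ Bad : Finset ℕ, #Bad ≤ s₀ ∧
          ∀ l, 1 ≤ l → l ≤ Lv → l ∉ Bad → L.AW E₀ m (α 1) (β 1) c' J (L.N / Y ^ l) k := by
  have hC0 : 0 < C := by linarith
  obtain ⟨c₂, m₁, hc₂, hdelta⟩ := exists_delta hC hc
  obtain ⟨mG, Q₁, c₃, hmG, hQ₁, hc₃, hproper⟩ := proper hC hc₂
  obtain ⟨B, hB, hheavy⟩ := heavy_strips (B' := 2 / c₃) (ε := c₂ * c₃ / 32) hC (by positivity)
    (by positivity)
  obtain ⟨c₅, hc₅, htrip⟩ := exists_triples (c := min (c₃ / 4) (c₂ / (2 * C))) hC0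
    (by positivity)
  obtain ⟨c₆, hc₆, hstr⟩ := exists_str (C := 10 * C ^ 2) hB (by positivity) hc₅
  refine ⟨mG, min (min c₅ c₆) (c₂ / (4 * C)), hmG, by positivity, fun J hJ => ?_⟩
  generalize hc'e : min (min c₅ c₆) (c₂ / (4 * C)) = c'
  have hc'0 : 0 < c' := by rw [← hc'e]; positivity
  have hc'5 : c' ≤ c₅ := by rw [← hc'e]; exact (min_le_left _ _).trans (min_le_left _ _)
  have hc'6 : c' ≤ c₆ := by rw [← hc'e]; exact (min_le_left _ _).trans (min_le_right _ _)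
  have hc'2 : c' ≤ c₂ / (4 * C) := by rw [← hc'e]; exact min_le_right _ _
  obtain ⟨s₀, hstr⟩ := hstr J hJ
  refine ⟨s₀, fun Y Lv hY => ?_⟩
  obtain ⟨m₂, hstr⟩ := hstr Y Lv hY
  refine ⟨max m₁ ⌈m₂⌉₊, fun m hm hGm => ?_⟩
  obtain ⟨Q₂, hQ₂, hheavy⟩ := hheavy m
  refine ⟨max Q₁ Q₂, hQ₁.trans (le_max_left _ _), ?_⟩
  intro L Ω E₀ α β Z₁ hbig hmq hbase hregG hreg hclus hwin hZ₁ hcZ₁ hdeg
  have hb : L.Big 1 := hbig.mono (hQ₁.trans (le_max_left _ _))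
  have hM := hb.M_pos le_rfl
  have hN := hb.N_pos le_rfl
  have hd := hb.d_pos le_rfl
  have hm0 : (0 : ℝ) < m := by exact_mod_cast Nat.pos_of_dvd_of_pos hmq L.q_pos
  have hm₂ : m₂ ≤ m := (Nat.le_ceil _).trans (by exact_mod_cast (le_max_right _ _).trans hm)
  have hY0 : 0 < Y := lt_of_lt_of_le (by exact_mod_cast hJ) hY
  have h01 := hclus.le 0
  have h11 := hclus.le 1
  have h21 := hclus.le 2
  have hα0 : ∀ x, 0 ≤ α x := by
    intro x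
    fin_cases x <;> simp only [Fin.zero_eta, Fin.mk_one, Fin.reduceFinMk] <;>
      linarith [hclus.zero, hclus.g01, hclus.g12]
  have hβ1 : ∀ x, β x ≤ 1 := by
    intro x
    fin_cases x <;> simp only [Fin.zero_eta, Fin.mk_one, Fin.reduceFinMk] <;>
      linarith [hclus.one, hclus.g01, hclus.g12]
  obtain ⟨F, hF⟩ : ∃ F : Fin 3 → Finset Ed, ∀ x, F x = tm E₀ (α x) (β x) := ⟨_, fun _ => rfl⟩
  have hFin : ∀ x k, ∀ e ∈ L.W (F x) m k, α x ≤ L.lo m k ∧ L.hi m k ≤ β x := by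
    intro x k e he
    rw [mem_W, hF, mem_tm] at he
    rcases hwin x k with h | h | h
    · exact h
    · linarith [he.1.2.1, he.2.2]
    · linarith [he.1.2.2, he.2.1]
  obtain ⟨E', hE'⟩ : ∃ E' : Finset Ed, E' = Finset.univ.biUnion F := ⟨_, rfl⟩
  have hFE' : ∀ x, F x ⊆ E' := fun x => by rw [hE']; exact subset_biUnion_of_mem F (mem_univ x)
  have hE'0 : E' ⊆ E₀ := by
    rw [hE']; exact biUnion_subset.2 fun x _ => by rw [hF]; exact tm_subset _ _ _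
  have hE'in : ∀ k, ∀ e ∈ L.W E' m k, 0 ≤ L.lo m k ∧ L.hi m k ≤ 1 := by
    intro k e he
    rw [mem_W, hE', mem_biUnion] at he
    obtain ⟨⟨x, -, hx⟩, h2⟩ := he
    have := hFin x k e (L.mem_W.2 ⟨hx, h2⟩)
    exact ⟨(hα0 x).trans this.1, this.2.trans (hβ1 x)⟩
  obtain ⟨δ, hδ, Z₂, hZ₂, hcZ₂, hrich⟩ := hdelta L Ω m E' F Z₁ hb ((le_max_left _ _).trans hm) hmq
    (hreg.mono hE'0) hFE' hcZ₁ fun p hp x => by rw [hF]; exact hdeg p hp x
  obtain ⟨Z₃, hZ₃, D, hD, hcZ₃, hwid, hlight⟩ := hproper L Ω m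
    (L.sel E' m fun k => δ ≤ L.hi m k - L.lo m k) δ Z₂ (hbig.mono (le_max_left _ _)) hGm hmq hbase
    (hregG.mono ((L.sel_subset _ _ _).trans hE'0)) (hreg.mono ((L.sel_subset _ _ _).trans hE'0)) hδ
    (fun k ⟨e, he⟩ => ⟨(hE'in k e (L.thmA_of_W_sel he).1).1, (hE'in k e (L.thmA_of_W_sel he).1).2,
      (L.thmA_of_W_sel he).2⟩) (hZ₂.trans hZ₁) hcZ₂ fun p hp => (hrich p hp).2
  obtain ⟨Z', hZ', hcZ', hdense⟩ := thmA_atoms L.Z Z₃ (δ * D) hc₃ L.cardZ' hcZ₃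
  have hZ'Z : Z' ⊆ L.Z := hZ'.trans (hZ₃.trans (hZ₂.trans hZ₁))
  obtain ⟨Es, hEs⟩ : ∃ Es, Es = L.sel E' m fun k => L.hi m k - L.lo m k ≤ δ := ⟨_, rfl⟩
  have hEs0 : Es ⊆ E₀ := by rw [hEs]; exact (L.sel_subset _ _ _).trans hE'0
  have hh := hheavy L Ω Es δ D Z' (hbig.mono (le_max_right _ _)) hmq hbase (hreg.mono hEs0) hδ hD
    (fun k ⟨e, he⟩ => by
      rw [hEs] at he
      exact ⟨(hE'in k e (L.thmA_of_W_sel he).1).1, (hE'in k e (L.thmA_of_W_sel he).1).2,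
        (L.thmA_of_W_sel he).2⟩) hZ'Z (fun p hp p' hp' => hwid p (hZ' hp) p' (hZ' hp')) hdense
  obtain ⟨bad, hbad⟩ : ∃ bad : ℕ → Finset Pt, ∀ k, bad k = Z'.filter fun p =>
    B * (smass Z' (L.lo m k) (δ * D) p : ℝ) ^ 2 < amass Z' (δ * D) p * L.N := ⟨_, fun _ => rfl⟩
  simp only [← hbad] at hh
  obtain ⟨Fb, hFb⟩ : ∃ Fb, Fb = (Finset.range (m ^ 4)).biUnion fun k => inc (L.W Es m k) (bad k) :=
    ⟨_, rfl⟩
  have hcFb : (#Fb : ℝ) ≤ c₂ * c₃ / 32 * L.M := by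
    refine le_trans ?_ hh
    rw [hFb]
    exact_mod_cast card_biUnion_le
  have hlose := L.card_lose hb Fb (c := c₂ / 4) (by positivity) hcFb Z'
  obtain ⟨Z₄, hZ₄⟩ : ∃ Z₄, Z₄ = Z'.filter fun p => ¬ c₂ / 4 * L.d < (deg Fb p : ℝ) := ⟨_, rfl⟩
  have hZ₄' : Z₄ ⊆ Z' := by rw [hZ₄]; exact filter_subset _ _
  have hcZ₄ : c₃ / 4 * L.N ≤ #Z₄ := by
    have a1 : (#(Z'.filter fun p => c₂ / 4 * L.d < (deg Fb p : ℝ)) : ℝ) + #Z₄ = #Z' := by
      rw [hZ₄]; exact_mod_cast card_filter_add_card_filter_not _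
    have a2 : 2 * (c₂ * c₃ / 32) / (c₂ / 4) = c₃ / 4 := by field_simp; ring
    rw [a2] at hlose
    linarith
  obtain ⟨G, hG⟩ : ∃ G : Fin 3 → Finset Ed, ∀ x,
    G x = L.sel (F x) m fun k => L.hi m k - L.lo m k ≤ δ := ⟨_, fun _ => rfl⟩
  have hGs : ∀ x, G x ⊆ Es := by
    intro x e he
    rw [hG, mem_sel] at he
    rw [hEs, mem_sel]
    exact ⟨hFE' x he.1, he.2⟩
  obtain ⟨K, hK⟩ : ∃ K : Fin 3 → Finset ℕ, ∀ x,
    K x = (Finset.range (m ^ 4)).filter fun k => (L.W (G x) m k).Nonempty := ⟨_, fun _ => rfl⟩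
  have hKin : ∀ x, ∀ k ∈ K x, α x ≤ L.lo m k ∧ L.hi m k ≤ β x := by
    intro x k hk
    rw [hK, mem_filter, hG] at hk
    obtain ⟨e, he⟩ := hk.2
    exact hFin x k e (L.thmA_of_W_sel he).1
  obtain ⟨good, hgood⟩ : ∃ good : Pt → ℕ → Prop, ∀ p k, good p k ↔
    p ∉ bad k ∧ c₂ / (4 * C) * L.d / m ≤ (deg (L.W E₀ m k) p : ℝ) := ⟨_, fun _ _ => Iff.rfl⟩
  obtain ⟨KA, hKA, hcKA, hKA'⟩ := htrip Z₄ L.N m K good hN hm0
    ((Nat.cast_le.2 (card_le_card (hZ₄'.trans hZ'Z))).trans L.cardZ')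
    (le_trans (by gcongr; exact min_le_left _ _) hcZ₄)
    (fun x => hreg.card_le_of_nonempty hmq _ fun k hk => by
      rw [hK] at hk
      exact (mem_filter.1 hk).2.mono (L.W_mono ((hGs x).trans hEs0) _ _))
    (fun p hp x => by
      have a1 := (hrich p (hZ₃ (hZ' (hZ₄' hp)))).1 x
      rw [← hG] at a1
      rw [hZ₄, mem_filter, hFb] at hp
      have a2 := L.thmA_good hb hC hc₂ hmq hreg hEs0 (hGs x) bad a1 (not_lt.1 hp.2)
      rw [← hK] at a2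
      refine le_trans (by gcongr; exact min_le_right _ _) (a2.trans (le_of_eq ?_))
      rw [filter_congr fun k _ => hgood p k])
  refine ⟨KA, le_trans (by gcongr) hcKA, fun k hk => ?_⟩
  obtain ⟨k₀, hk₀, k₂, hk₂, hY₀⟩ := hKA' k hk
  have b0 := hKin 0 k₀ hk₀
  have b1 := hKin 1 k (hKA hk)
  have b2 := hKin 2 k₂ hk₂
  obtain ⟨Y'', hY'', hcY'', Bad, hBad, hS⟩ := hstr L.Z Z' _ L.N m (δ * D) (α 1) (β 1)
    ![L.lo m k₀, L.lo m k, L.lo m k₂] hm₂ hm0 hN hZ'Z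
    ((Nat.cast_le.2 (card_le_card hZ'Z)).trans L.cardZ') ((filter_subset _ _).trans hZ₄') hY₀
    (by positivity) ((hα0 0).trans b0.1)
    (by
      change L.lo m k₀ + 1 / 2000 ≤ L.lo m k
      linarith [L.lo_le_hi m k₀, hclus.g01])
    (by
      change L.lo m k + 1 / 2000 ≤ L.lo m k₂
      linarith [L.lo_le_hi m k, hclus.g12])
    ((L.lo_le_hi m k₂).trans (b2.2.trans hclus.one)) (hα0 1) (fun p hp => by
      rw [mem_filter] at hp
      have hp' := hZ₄' hp.1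
      have a1 : ∀ j, p ∉ bad j → amass Z' (δ * D) p * L.N ≤
          B * (smass Z' (L.lo m j) (δ * D) p : ℝ) ^ 2 := by
        intro j hj
        rw [hbad, mem_filter, not_and] at hj
        exact not_lt.1 (hj hp')
      refine ⟨le_trans (Nat.cast_le.2 (card_le_card (filter_subset_filter _ hZ'))) (hlight p),
        fun x => ?_⟩
      fin_cases x
      · exact a1 _ ((hgood _ _).1 hp.2.1).1
      · exact a1 _ ((hgood _ _).1 hp.2.2.1).1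
      · exact a1 _ ((hgood _ _).1 hp.2.2.2).1)
  refine ⟨Bad, hBad, fun l hl1 hl2 hl3 => ⟨b1.1, b1.2, Y'',
    hY''.trans ((filter_subset _ _).trans (hZ₄'.trans hZ'Z)), le_trans (by gcongr) hcY'',
    fun p hp => le_trans (by gcongr) ((hgood _ _).1 (mem_filter.1 (hY'' hp)).2.2.1).2,
    (hS l hl1 hl2 hl3).mono hc'0 hc'6 (by positivity) hN.le (Nat.cast_nonneg _)⟩⟩

end Loc

end Crest.Agent.R51
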